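import Crest.Agent.R51.Tools
import Crest.Agent.R51.Stmts

/-!
# Row 51: points are active in few windows
-/

set_option autoImplicit false

noncomputable section

namespace Crest.Agent.R51

open Finset Classical

namespace AlphaAux

/-- the pieces of `D` in the hulls of the windows are disjoint -/
lemma sum_D_le {σ : ℤ → ℝ} {I : Finset ℤ} {cl : ℤ → ℕ} {lo hi : ℕ → ℝ} (hH : Hull σ I cl lo hi)
    (hM : Mono σ I cl) (D : Finset ℝ) :
    ∑ a ∈ I.image cl, #(D.filter fun x => lo a ≤ x ∧ x ≤ hi a) ≤ #D := by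
  rw [← card_biUnion]
  · refine card_le_card fun x hx => ?_
    obtain ⟨a, _, ha⟩ := mem_biUnion.mp hx
    exact (mem_filter.mp ha).1
  · intro a ha b hb hab
    rw [Function.onFun, disjoint_left]
    intro x hx hy
    obtain ⟨_, h1, h2⟩ := mem_filter.mp hx
    obtain ⟨_, h3, h4⟩ := mem_filter.mp hy
    rcases lt_or_gt_of_ne hab with c | c
    · linarith [hH.lt hM ha hb c]
    · linarith [hH.lt hM hb ha c]

/-- few points with small `nu` are active in a given window -/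
lemma card_window {P : Finset Pt} {v : ℤ → Pt} {I : Finset ℤ} {D : Finset ℝ} {win : ℤ → ℕ}
    {ν : ℝ} {lo hi : ℕ → ℝ} (hS : Sys P v I) (hH : Hull (sl v) I win lo hi) (hν : 0 < ν)
    (hD : ∀ i ∈ I, ∀ j ∈ I, sl v i ≤ sl v j →
      |(rk P (sl v i) (v (i + 1)) : ℝ) - rk P (sl v j) (v (j + 1))| ≤
        #(D.filter fun x => sl v i ≤ x ∧ x ≤ sl v j))
    {w : ℕ} (hw : w ∈ I.image win) :
    (#(P.filter fun p => (∃ i ∈ I, v i = p ∧ win i = w) ∧
        (nu P (lo w) (hi w) p : ℝ) ≤ ν) : ℝ) ≤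
      2 * #(D.filter fun x => lo w ≤ x ∧ x ≤ hi w) + (2 * ν + 1) := by
  obtain ⟨i₁, hi₁, rfl⟩ := mem_image.mp hw
  obtain ⟨i₀, hi₀, e₀, e₁⟩ := hH.lo_mem i₁ hi₁
  set t : ℝ := ((#(D.filter fun x => lo (win i₁) ≤ x ∧ x ≤ hi (win i₁)) : ℕ) : ℝ) with ht
  have ht0 : 0 ≤ t := Nat.cast_nonneg _
  set c : ℝ := (rk P (sl v i₀) (v (i₀ + 1)) : ℝ) + 1 with hc
  refine le_trans (Nat.cast_le.mpr (card_le_card fun p hp => ?_))
    ((hS.gp.card_rk_Icc (lo (win i₁)) (a := c - t - ν) (b := c + t + ν) (by linarith)).trans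
      (le_of_eq (by ring)))
  obtain ⟨hpP, ⟨i, hiI, rfl, hwi⟩, hnu⟩ := mem_filter.mp hp
  have a1 : lo (win i₁) ≤ sl v i := hwi ▸ hH.lo_le i hiI
  have a2 : sl v i ≤ hi (win i₁) := hwi ▸ hH.le_hi i hiI
  have b1 := hS.gp.abs_rk_sub_le_nu (θ := lo (win i₁)) (θ' := sl v i) hpP le_rfl
    (a1.trans a2) a1 a2
  have b2 : rk P (sl v i) (v i) = rk P (sl v i) (v (i + 1)) + 1 :=
    hS.gp.rk_left hpP (hS.memR i hiI) (hS.lt i hiI)
  have b2' : (rk P (sl v i) (v i) : ℝ) = rk P (sl v i) (v (i + 1)) + 1 := by exact_mod_cast b2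
  have b3 := hD i₀ hi₀ i hiI (e₁ ▸ a1)
  have b4 : (#(D.filter fun x => sl v i₀ ≤ x ∧ x ≤ sl v i) : ℝ) ≤ t := by
    refine Nat.cast_le.mpr (card_le_card fun x hx => ?_)
    obtain ⟨x1, x2, x3⟩ := mem_filter.mp hx
    exact mem_filter.mpr ⟨x1, e₁ ▸ x2, x3.trans a2⟩
  rw [abs_le] at b1 b3
  exact mem_filter.mpr ⟨hpP, by linarith [b1.1, b3.2], by linarith [b1.2, b3.1]⟩

end AlphaAux

open AlphaAux in
theorem alpha : AlphaStmt := by
  intro P v I D win r ν hS hM hr hr0 hν hD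
  obtain ⟨lo, hi, hH⟩ := exists_hull (sl v) I win
  have h1 : ∀ p ∈ P, (#((I.filter fun i => v i = p).image win) : ℝ) ≤
      #((I.image win).filter fun w => (∃ i ∈ I, v i = p ∧ win i = w) ∧
        (nu P (lo w) (hi w) p : ℝ) ≤ ν) + #P / ν := by
    intro p _
    refine le_trans ?_ (add_le_add le_rfl (hH.card_nu_gt hM P p hν))
    rw [← Nat.cast_add]
    refine Nat.cast_le.mpr (le_trans (card_le_card fun w hw => ?_) (card_union_le _ _))
    obtain ⟨i, hi', rfl⟩ := mem_image.mp hw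
    obtain ⟨hiI, hv⟩ := mem_filter.mp hi'
    rw [mem_union, mem_filter, mem_filter]
    by_cases c : (nu P (lo (win i)) (hi (win i)) p : ℝ) ≤ ν
    · exact Or.inl ⟨mem_image_of_mem _ hiI, ⟨i, hiI, hv, rfl⟩, c⟩
    · exact Or.inr ⟨mem_image_of_mem _ hiI, not_le.mp c⟩
  have h2 : ∑ p ∈ P, (#((I.image win).filter fun w => (∃ i ∈ I, v i = p ∧ win i = w) ∧
        (nu P (lo w) (hi w) p : ℝ) ≤ ν) : ℝ) =
      ∑ w ∈ I.image win, (#(P.filter fun p => (∃ i ∈ I, v i = p ∧ win i = w) ∧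
        (nu P (lo w) (hi w) p : ℝ) ≤ ν) : ℝ) := by
    simp only [card_filter, Nat.cast_sum]
    exact sum_comm
  have h3 : ∑ w ∈ I.image win, (#(P.filter fun p => (∃ i ∈ I, v i = p ∧ win i = w) ∧
        (nu P (lo w) (hi w) p : ℝ) ≤ ν) : ℝ) ≤
      ∑ w ∈ I.image win, (2 * (#(D.filter fun x => lo w ≤ x ∧ x ≤ hi w) : ℝ) + (2 * ν + 1)) :=
    sum_le_sum fun w hw => card_window hS hH hν hD hw
  have h4 : ∑ w ∈ I.image win, (#(D.filter fun x => lo w ≤ x ∧ x ≤ hi w) : ℝ) ≤ #D := by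
    exact_mod_cast sum_D_le hH hM D
  have h5 := card_image_le_of_bdd hr0 hr
  rw [sum_add_distrib, ← mul_sum, sum_const, nsmul_eq_mul] at h3
  have h6 : (#(I.image win) : ℝ) * (2 * ν + 1) ≤ (r + 1) * (2 * ν + 1) :=
    mul_le_mul_of_nonneg_right h5 (by linarith)
  refine (sum_le_sum h1).trans ?_
  rw [sum_add_distrib, h2, sum_const, nsmul_eq_mul]
  have h7 : (#P : ℝ) * (#P / ν) = (#P : ℝ) ^ 2 / ν := by ring
  linarith

end Crest.Agent.R51
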