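import Crest.Agent.R51.Stmts

/-!
# Row 51: the analytic theorem (choice of scales, covering numbers, power bookkeeping)
-/

set_option autoImplicit false

noncomputable section

namespace Crest.Agent.R51

open Finset Classical

theorem Analytic_mG2_mono {C : Finset ℕ} {gam κ : ℕ → ℝ} (hg : ∀ c, 0 ≤ gam c) (c : ℕ)
    {w w' : ℝ} (h : w ≤ w') : mG2 C gam κ c w ≤ mG2 C gam κ c w' := by
  unfold mG2
  refine sum_le_sum_of_subset_of_nonneg (fun x hx => ?_) fun i _ _ => hg i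
  rw [mem_filter] at hx ⊢
  exact ⟨hx.1, hx.2.trans h⟩

theorem Analytic_mP2_mono (P : Finset Pt) (F : Pt → ℝ) (p : Pt) {w w' : ℝ} (h : w ≤ w') :
    mP2 P F p w ≤ mP2 P F p w' := by
  unfold mP2
  refine Nat.cast_le.2 (card_le_card fun x hx => ?_)
  rw [mem_filter] at hx ⊢
  exact ⟨hx.1, hx.2.trans h⟩

theorem Analytic_mP2_nonneg (P : Finset Pt) (F : Pt → ℝ) (p : Pt) (w : ℝ) : 0 ≤ mP2 P F p w :=
  Nat.cast_nonneg _

theorem Analytic_abs_div {a b t δ : ℝ} (ht : 0 < t) : |a / t - b / t| ≤ δ ↔ |a - b| ≤ δ * t := by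
  rw [← sub_div, abs_div, abs_of_pos ht, div_le_iff₀ ht]

/-- covering lemma -/
theorem Analytic_cover {P Ω : Finset Pt} (F F' : Pt → ℝ) {t δ m s : ℝ} (ht : 0 < t) (hδ : 0 < δ)
    (hF : ∀ p, F' p = F p / t) (hP : (#P : ℝ) ≤ s) (h : ∀ q ∈ Ω, m ≤ mP2 P F q (δ * t)) :
    (#(Ω.image fun p => ⌊F' p / δ⌋) : ℝ) * m ≤ 3 * s := by
  set T := Ω.image fun p => ⌊F' p / δ⌋ with hT
  have h1 : ∀ z ∈ T, m ≤ (#(P.filter fun p => |⌊F' p / δ⌋ - z| ≤ 1) : ℝ) := by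
    intro z hz
    obtain ⟨q, hq, rfl⟩ := mem_image.1 hz
    refine (h q hq).trans (Nat.cast_le.2 (card_le_card fun p hp => ?_))
    rw [mem_filter] at hp ⊢
    refine ⟨hp.1, ?_⟩
    have h2 : |F' p - F' q| ≤ δ := by rw [hF, hF, Analytic_abs_div ht]; exact hp.2
    have h3 : |F' p / δ - F' q / δ| ≤ 1 := by rw [Analytic_abs_div hδ, one_mul]; exact h2
    rw [abs_le] at h3 ⊢
    have a1 : ⌊F' p / δ⌋ ≤ ⌊F' q / δ + 1⌋ := Int.floor_le_floor (by linarith [h3.2])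
    have a2 : ⌊F' q / δ⌋ ≤ ⌊F' p / δ + 1⌋ := Int.floor_le_floor (by linarith [h3.1])
    rw [Int.floor_add_one] at a1 a2
    constructor <;> omega
  have h2 : ∑ z ∈ T, #(P.filter fun p => |⌊F' p / δ⌋ - z| ≤ 1) ≤ 3 * #P := by
    have e : ∑ z ∈ T, #(P.filter fun p => |⌊F' p / δ⌋ - z| ≤ 1) =
        ∑ p ∈ P, #(T.filter fun z => |⌊F' p / δ⌋ - z| ≤ 1) := by
      simp only [card_filter]
      exact sum_comm
    rw [e, mul_comm, ← smul_eq_mul]
    refine sum_le_card_nsmul _ _ _ fun p _ => ?_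
    have : (T.filter fun z => |⌊F' p / δ⌋ - z| ≤ 1) ⊆ Icc (⌊F' p / δ⌋ - 1) (⌊F' p / δ⌋ + 1) := by
      intro z hz
      rw [mem_filter, abs_le] at hz
      rw [mem_Icc]
      constructor <;> omega
    refine (card_le_card this).trans ?_
    rw [Int.card_Icc]
    omega
  have h3 : (#T : ℝ) * m ≤ ∑ z ∈ T, (#(P.filter fun p => |⌊F' p / δ⌋ - z| ≤ 1) : ℝ) := by
    rw [← nsmul_eq_mul]
    exact card_nsmul_le_sum _ _ _ h1
  have h4 : (∑ z ∈ T, (#(P.filter fun p => |⌊F' p / δ⌋ - z| ≤ 1) : ℝ)) ≤ 3 * #P := by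
    exact_mod_cast h2
  linarith

/-- choice of a scale -/
theorem Analytic_scale {f : ℝ → ℝ} {K t : ℝ} (hdbl : ∀ r, 0 ≤ r → f (8 * r) ≤ K * f r)
    (h1 : t < f 1) (hs : ∃ k : ℕ, f (1 / 8 ^ k) ≤ t) :
    ∃ r : ℝ, 0 < r ∧ r ≤ 1 ∧ t ≤ K * f r ∧ f r ≤ t := by
  have hk := Nat.find_spec hs
  have h0 : Nat.find hs ≠ 0 := by
    intro h
    rw [h] at hk
    simp only [pow_zero, div_one] at hk
    linarith
  obtain ⟨j, hj⟩ := Nat.exists_eq_succ_of_ne_zero h0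
  have hmin := Nat.find_min hs (m := j) (by omega)
  rw [hj] at hk
  refine ⟨1 / 8 ^ (j + 1), by positivity, ?_, ?_, hk⟩
  · rw [div_le_one (by positivity)]
    exact one_le_pow₀ (by norm_num)
  · have := hdbl (1 / 8 ^ (j + 1)) (by positivity)
    rw [show (8 : ℝ) * (1 / 8 ^ (j + 1)) = 1 / 8 ^ j by field_simp; ring] at this
    linarith [not_le.1 hmin]

theorem Analytic_small {C : Finset ℕ} {gam κ : ℕ → ℝ} {n Δ : ℝ} {e : ℕ} (he : e ∈ C)
    (hg : ∀ c, 0 ≤ gam c) (hn : gam e ≤ n) (hinj : ∀ c ∈ C, ∀ c' ∈ C, κ c = κ c' → c = c') :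
    ∃ k : ℕ, mG2 C gam κ e (1 / 8 ^ k * Δ) ≤ n := by
  have h0 : Filter.Tendsto (fun k : ℕ => (1 : ℝ) / 8 ^ k * Δ) Filter.atTop (nhds 0) := by
    have := (tendsto_pow_atTop_nhds_zero_of_lt_one (r := (1 / 8 : ℝ)) (by norm_num)
      (by norm_num)).mul_const Δ
    simpa [one_div, inv_pow] using this
  have h1 : ∀ᶠ k : ℕ in Filter.atTop, ∀ c ∈ C.erase e, (1 : ℝ) / 8 ^ k * Δ < |κ c - κ e| := by
    rw [Filter.eventually_all_finset]
    intro c hc
    have : 0 < |κ c - κ e| := by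
      rw [abs_pos, sub_ne_zero]
      intro h
      exact (mem_erase.1 hc).1 (hinj c (mem_erase.1 hc).2 e he h)
    exact h0.eventually (gt_mem_nhds this)
  obtain ⟨k, hk⟩ := h1.exists
  refine ⟨k, ?_⟩
  unfold mG2
  refine le_trans (sum_le_sum_of_subset_of_nonneg (t := {e}) (fun c hc => ?_) fun i _ _ => hg i) ?_
  · rw [mem_filter] at hc
    rw [mem_singleton]
    by_contra hne
    exact absurd hc.2 (not_le.2 (hk c (mem_erase.2 ⟨hne, hc.1⟩)))
  · rwa [sum_singleton]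

theorem Analytic_le_of_max {a b n K : ℝ} (h : a ≤ K * max b n) (hn : K * n < a) : a ≤ K * b := by
  rcases le_total b n with h1 | h1
  · rw [max_eq_right h1] at h; linarith
  · rwa [max_eq_left h1] at h

theorem Analytic_mono {K n s : ℝ} {P Ω : Finset Pt} {Y : Pt → ℝ} {C : Finset ℕ}
    {gam κ : ℕ → ℝ} {Gd : Pt → ℕ → Prop} {e₀ e₁ : ℕ} {ρ₀ : ℝ} {f : ℝ → ℝ}
    (hF : Prof K n s P Y C gam κ Gd Ω e₀ e₁ ρ₀ f) (hg : ∀ c, 0 ≤ gam c) (hΔ : κ e₀ < κ e₁)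
    {r r' : ℝ} (h : r ≤ r') : f r ≤ f r' := by
  rw [hF.eq, hF.eq]
  exact max_le_max (Analytic_mG2_mono hg _
    (mul_le_mul_of_nonneg_right h (sub_nonneg.2 hΔ.le))) le_rfl

/-- the discretised data at the scale `δ` -/
theorem Analytic_disc {A : ℕ} {U s K n δ : ℝ} {P Ω : Finset Pt} {X Y : Pt → ℝ} {C : Finset ℕ}
    {gam κ : ℕ → ℝ} {Gd : Pt → ℕ → Prop} {e₀ e₁ : ℕ} {ρ₀ : ℝ} {f : ℝ → ℝ}
    (hB : AnBase A U s P Y C gam κ Gd) (hT : AnTwo n U s P X Y C gam κ Gd)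
    (hA : Anch U s P Y C gam κ Gd Ω e₀ e₁ ρ₀) (hF : Prof K n s P Y C gam κ Gd Ω e₀ e₁ ρ₀ f)
    (hK : K = U ^ 500) (hn : 0 < n) (hδ : 0 < δ) (hδ4 : δ ≤ 1 / 4) (hlo : K ^ 2 * n < f δ)
    (hhi : K ^ 3 * f δ ≤ 1) :
    Disc (K ^ 10) (K ^ 3 / f δ) δ s Ω (fun p => xc X Y (κ e₀) p / ((κ e₁ - κ e₀) * ρ₀))
      (fun p => Y p / ρ₀) (C.filter fun c => κ e₀ ≤ κ c ∧ κ c ≤ κ e₁ ∧ ∃ q ∈ Ω, Gd q c) gam
      (fun c => (κ c - κ e₀) / (κ e₁ - κ e₀)) Gd := by
  have hU := hB.two_le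
  have hU1 : 1 ≤ U := by linarith
  have hU0 : 0 < U := by linarith
  have hs := hB.s_pos
  have hpw : ∀ j : ℕ, j ≤ 500 → U ^ j ≤ K := fun j hj => hK ▸ pow_le_pow_right₀ hU1 hj
  have hU2 : 4 ≤ U ^ 2 := by nlinarith
  have hK4 : 4 ≤ K := hU2.trans (hpw 2 (by norm_num))
  have hK1 : 1 ≤ K := by linarith
  have hK0 : 0 < K := by linarith
  have hK10 : K ≤ K ^ 10 := le_self_pow₀ hK1 (by norm_num)
  have hΔ : 0 < κ e₁ - κ e₀ := sub_pos.2 hA.lt
  have hρ := hA.pos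
  have hKn : K * n < f δ := by
    have : K * n ≤ K ^ 2 * n := mul_le_mul_of_nonneg_right (le_self_pow₀ hK1 (by norm_num)) hn.le
    linarith
  have hnf : n < f δ := by nlinarith
  have hf0 : 0 < f δ := by linarith
  have hΩ : (#Ω : ℝ) ≤ s := (Nat.cast_le.2 (card_le_card hA.sub)).trans hB.cardP
  -- lower bounds for the masses
  have hMY : ∀ q ∈ Ω, f δ / K * s ≤ mP2 P Y q (δ * ρ₀) := by
    intro q hq
    have h1 := Analytic_le_of_max (hF.loY q hq δ hδ.le) hKn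
    rw [← le_div_iff₀ hs, div_le_iff₀ hK0]
    linarith
  have hMc : ∀ q ∈ Ω, ∀ c, Gd q c → κ e₀ ≤ κ c → κ c ≤ κ e₁ →
      f δ / K ^ 2 * s ≤ mP2 P (xc X Y (κ c)) q (δ * ((κ e₁ - κ e₀) * ρ₀)) := by
    intro q hq c hc h0 h1
    have a1 := Analytic_le_of_max (hF.loG q hq c hc h0 h1 δ hδ.le) hKn
    have a2 := hT.h1 q c hc (δ * (κ e₁ - κ e₀)) ρ₀ (by positivity) hρ.le
    have a3 : 1 / U ^ 130 ≤ mP2 P Y q ρ₀ / s :=
      (hA.lowY q hq).trans (div_le_div_of_nonneg_right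
        (Analytic_mP2_mono P Y q (by linarith)) hs.le)
    rw [mul_assoc δ] at a2
    set g := mG2 C gam κ c (δ * (κ e₁ - κ e₀))
    set M := max (mP2 P (xc X Y (κ c)) q (δ * ((κ e₁ - κ e₀) * ρ₀)) / s) n with hM
    have hM0 : 0 ≤ M := hn.le.trans (le_max_right _ _)
    have hg0 : 0 ≤ g := by
      by_contra hneg
      have : K * g < 0 := mul_neg_of_pos_of_neg hK0 (not_le.1 hneg)
      linarith
    have a4 : g ≤ K * M := by
      have b1 : g * (1 / U ^ 130) ≤ 4 * U ^ 5 * M := (mul_le_mul_of_nonneg_left a3 hg0).trans a2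
      rw [mul_one_div, div_le_iff₀ (by positivity)] at b1
      have b2 : 4 * U ^ 5 * U ^ 130 ≤ K := by
        refine le_trans ?_ (hpw 137 (by norm_num))
        have : U ^ 137 = U ^ 2 * U ^ 5 * U ^ 130 := by ring
        rw [this]
        gcongr
      calc g ≤ 4 * U ^ 5 * M * U ^ 130 := b1
        _ = 4 * U ^ 5 * U ^ 130 * M := by ring
        _ ≤ K * M := mul_le_mul_of_nonneg_right b2 hM0
    have a5 : f δ ≤ K ^ 2 * M := by
      calc f δ ≤ K * g := a1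
        _ ≤ K * (K * M) := mul_le_mul_of_nonneg_left a4 hK0.le
        _ = K ^ 2 * M := by ring
    have a6 := Analytic_le_of_max a5 hlo
    rw [← le_div_iff₀ hs, div_le_iff₀ (by positivity)]
    linarith
  have hcov : ∀ N : ℝ, 0 ≤ N → N * (f δ / K ^ 2 * s) ≤ 3 * s → N ≤ K ^ 3 / f δ := by
    intro N hN h
    rw [← mul_assoc] at h
    have h1 := le_of_mul_le_mul_right h hs
    rw [← mul_div_assoc, div_le_iff₀ (by positivity)] at h1
    rw [le_div_iff₀ hf0]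
    have : 3 * K ^ 2 ≤ K ^ 3 := by
      rw [show K ^ 3 = K * K ^ 2 by ring]
      exact mul_le_mul_of_nonneg_right (by linarith) (by positivity)
    linarith
  refine ⟨by linarith, by positivity, hδ, hs, hΩ, ?_, hB.nonneg, ?_, ?_, ?_, ?_, ?_, ?_, ?_, ?_, ?_⟩
  · exact (div_le_div_of_nonneg_left hs.le (by positivity)
      ((hpw 130 (by norm_num)).trans hK10)).trans hA.big
  · refine le_trans (sum_le_sum_of_subset_of_nonneg (filter_subset _ _) fun i _ _ => hB.nonneg i) ?_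
    have := hpw 1 (by norm_num)
    rw [pow_one] at this
    linarith [hB.total]
  · intro c hc
    exact div_nonneg (sub_nonneg.2 (mem_filter.1 hc).2.1) hΔ.le
  · intro c hc
    rw [div_le_one hΔ]
    linarith [(mem_filter.1 hc).2.2.1]
  · intro p hp
    refine (one_div_le_one_div_of_le (by positivity)
      ((hpw 40 (by norm_num)).trans hK10)).trans ((hA.wt p hp).trans ?_)
    refine sum_le_sum_of_subset_of_nonneg (fun c hc => ?_) fun i _ _ => hB.nonneg i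
    simp only [mem_filter] at hc ⊢
    exact ⟨⟨hc.1, hc.2.1, hc.2.2.1, p, hp, hc.2.2.2⟩, hc.2.2.2⟩
  · refine hcov _ (Nat.cast_nonneg _) ?_
    refine Analytic_cover Y (fun p => Y p / ρ₀) hρ hδ (fun _ => rfl) hB.cardP fun q hq => ?_
    refine le_trans ?_ (hMY q hq)
    refine mul_le_mul_of_nonneg_right ?_ hs.le
    exact div_le_div_of_nonneg_left hf0.le hK0 (le_self_pow₀ hK1 (by norm_num))
  · refine hcov _ (Nat.cast_nonneg _) ?_
    exact Analytic_cover (xc X Y (κ e₀)) (fun p => xc X Y (κ e₀) p / ((κ e₁ - κ e₀) * ρ₀))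
      (by positivity) hδ (fun _ => rfl) hB.cardP
      fun q hq => hMc q hq e₀ (hA.g0 q hq) le_rfl hA.lt.le
  · refine hcov _ (Nat.cast_nonneg _) ?_
    refine Analytic_cover (xc X Y (κ e₁))
      (fun p => xc X Y (κ e₀) p / ((κ e₁ - κ e₀) * ρ₀) + Y p / ρ₀)
      (t := (κ e₁ - κ e₀) * ρ₀) (by positivity) hδ (fun p => ?_) hB.cardP
      fun q hq => hMc q hq e₁ (hA.g1 q hq) hA.lt.le le_rfl
    unfold xc
    field_simp
    ring
  · intro c hc
    rw [mem_filter] at hc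
    refine hcov _ (Nat.cast_nonneg _) ?_
    refine Analytic_cover (xc X Y (κ c))
      (xc (fun p => xc X Y (κ e₀) p / ((κ e₁ - κ e₀) * ρ₀)) (fun p => Y p / ρ₀)
        ((κ c - κ e₀) / (κ e₁ - κ e₀)))
      (t := (κ e₁ - κ e₀) * ρ₀) (by positivity) hδ (fun p => ?_) hB.cardP
      fun q hq => hMc q (mem_filter.1 hq).1 c (mem_filter.1 hq).2 hc.2.1 hc.2.2.1
    unfold xc
    field_simp
    ring
  · intro p hp
    have hg := hA.g0 p hp
    have hUK : U ≤ K := by simpa using hpw 1 (by norm_num)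
    have b1 : mP2 P Y p (δ * ρ₀) / s ≤ K * f δ := hF.upY p hp δ hδ.le
    have b2 : f (2 * δ) ≤ K * f δ :=
      (Analytic_mono hF hB.nonneg hA.lt (by linarith)).trans (hF.dbl δ hδ.le)
    have b3 : mP2 P Y p (2 * δ * ρ₀) / s ≤ K ^ 2 * f δ := by
      calc _ ≤ K * f (2 * δ) := hF.upY p hp (2 * δ) (by positivity)
        _ ≤ K * (K * f δ) := mul_le_mul_of_nonneg_left b2 hK0.le
        _ = K ^ 2 * f δ := by ring
    have hG := hA.halfG p hp e₀ hg le_rfl hA.lt.le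
    have hY : mP2 P Y p (2 * δ * ρ₀) / s < 1 / U ^ 2 :=
      lt_of_le_of_lt (div_le_div_of_nonneg_right
        (Analytic_mP2_mono P Y p (by nlinarith)) hs.le) (hA.halfY p hp)
    have b4 := hT.h2 p e₀ hg ((κ e₁ - κ e₀) / 2) (2 * δ * ρ₀) (by positivity) (by positivity) hG hY
    rw [show (κ e₁ - κ e₀) / 2 * (2 * δ * ρ₀) = δ * ((κ e₁ - κ e₀) * ρ₀) by ring] at b4
    have hKf : f δ ≤ K * f δ := le_mul_of_one_le_left hf0.le hK1
    have hK2f : K * f δ ≤ K ^ 2 * f δ :=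
      mul_le_mul_of_nonneg_right (le_self_pow₀ hK1 (by norm_num)) hf0.le
    have hK3f : K ^ 2 * f δ ≤ K ^ 3 * f δ :=
      mul_le_mul_of_nonneg_right (pow_le_pow_right₀ hK1 (by norm_num)) hf0.le
    have b5 : max (mG2 C gam κ e₀ ((κ e₁ - κ e₀) / 2)) n ≤ 1 := by
      refine max_le (hG.le.trans ?_) (by linarith)
      rw [div_le_one (by positivity)]
      linarith
    have b6 : max (mP2 P Y p (2 * δ * ρ₀) / s) n ≤ K ^ 2 * f δ := max_le b3 (by linarith)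
    have b7 : mP2 P (xc X Y (κ e₀)) p (δ * ((κ e₁ - κ e₀) * ρ₀)) / s ≤
        2 * U ^ 5 * (K ^ 2 * f δ) := by
      refine b4.trans ?_
      refine mul_le_mul ?_ b6 (hn.le.trans (le_max_right _ _)) (by positivity)
      exact mul_le_of_le_one_right (by positivity) b5
    have c1 : 2 * U ^ 5 * U ≤ K := by
      refine le_trans ?_ (hpw 7 (by norm_num))
      rw [show U ^ 7 = U * U ^ 5 * U by ring]
      gcongr
    have c2 : 2 * U ^ 5 * U ^ 3 ≤ K := by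
      refine le_trans ?_ (hpw 9 (by norm_num))
      rw [show U ^ 9 = U * U ^ 5 * U ^ 3 by ring]
      gcongr
    have c3 : 1 ≤ 2 * U ^ 5 := by
      have := one_le_pow₀ (n := 5) hU1
      linarith
    have b8 : 2 * U ^ 5 * (K ^ 2 * f δ) ≤ 1 / U := by
      rw [le_div_iff₀ hU0]
      calc 2 * U ^ 5 * (K ^ 2 * f δ) * U = 2 * U ^ 5 * U * (K ^ 2 * f δ) := by ring
        _ ≤ K * (K ^ 2 * f δ) := mul_le_mul_of_nonneg_right c1 (by positivity)
        _ = K ^ 3 * f δ := by ring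
        _ ≤ 1 := hhi
    have b9 : K ^ 2 * f δ ≤ 2 * U ^ 5 * (K ^ 2 * f δ) := le_mul_of_one_le_left (by positivity) c3
    have d1 := hT.box p e₀ hg (δ * ρ₀) (δ * ((κ e₁ - κ e₀) * ρ₀)) (by linarith) (by linarith)
    have d2 : mB P Y (xc X Y (κ e₀)) p (δ * ρ₀) (δ * ((κ e₁ - κ e₀) * ρ₀)) / s ≤
        K ^ 4 * f δ ^ 2 := by
      refine d1.trans ?_
      calc _ ≤ U ^ 3 * (K * f δ) * (2 * U ^ 5 * (K ^ 2 * f δ)) := by
            refine mul_le_mul (mul_le_mul_of_nonneg_left (max_le b1 (by linarith))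
              (by positivity)) (max_le b7 (by linarith)) (hn.le.trans (le_max_right _ _))
              (by positivity)
        _ = 2 * U ^ 5 * U ^ 3 * (K ^ 3 * f δ ^ 2) := by ring
        _ ≤ K * (K ^ 3 * f δ ^ 2) := mul_le_mul_of_nonneg_right c2 (by positivity)
        _ = K ^ 4 * f δ ^ 2 := by ring
    have d3 : mB Ω (fun p => xc X Y (κ e₀) p / ((κ e₁ - κ e₀) * ρ₀)) (fun p => Y p / ρ₀) p δ δ ≤
        mB P Y (xc X Y (κ e₀)) p (δ * ρ₀) (δ * ((κ e₁ - κ e₀) * ρ₀)) := by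
      unfold mB
      refine Nat.cast_le.2 (card_le_card fun q hq => ?_)
      rw [mem_filter] at hq ⊢
      exact ⟨hA.sub hq.1, (Analytic_abs_div hρ).1 hq.2.2,
        (Analytic_abs_div (by positivity)).1 hq.2.1⟩
    rw [div_le_iff₀ hs] at d2
    refine d3.trans (d2.trans (le_of_eq ?_))
    field_simp

theorem Analytic_pow {f : ℝ → ℝ} {K θ : ℝ} (hK : 0 ≤ K) (hθ : 0 ≤ θ) (hf : ∀ r, 0 ≤ f r)
    (sm : ∀ r r', 0 ≤ r → 0 ≤ r' → f r * f r' ≤ K * f (r * r')) (j : ℕ) :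
    f θ ^ (j + 1) ≤ K ^ j * f (θ ^ (j + 1)) := by
  induction j with
  | zero => simp
  | succ j ih =>
    calc f θ ^ (j + 1 + 1) = f θ ^ (j + 1) * f θ := by ring
      _ ≤ K ^ j * f (θ ^ (j + 1)) * f θ := mul_le_mul_of_nonneg_right ih (hf _)
      _ = K ^ j * (f (θ ^ (j + 1)) * f θ) := by ring
      _ ≤ K ^ j * (K * f (θ ^ (j + 1) * θ)) :=
          mul_le_mul_of_nonneg_left (sm _ _ (by positivity) hθ) (by positivity)
      _ = K ^ (j + 1) * f (θ ^ (j + 1 + 1)) := by rw [← pow_succ θ]; ring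

theorem analytic (hb : BalStmt) (ha : AnchorStmt) (hp : ProfileStmt) (hj : ProjStmt) :
    ∃ C₁, AnStmt C₁ := by
  obtain ⟨C₃, hj⟩ := hj
  refine ⟨500 * (20 * C₃ + 16), ?_⟩
  intro A a₀ b₀ h1 h2 h3 U s P X Y C gam κ Gd hB hL hdim
  have hT := hb A U s P X Y C gam κ Gd (by omega) hB hL
  obtain ⟨Ω, e₀, e₁, ρ₀, hA⟩ := ha A U s P X Y C gam κ Gd (by omega) hB hT
  obtain ⟨f, hF⟩ : ∃ f, Prof (U ^ 500) (1 / U ^ A) s P Y C gam κ Gd Ω e₀ e₁ ρ₀ f :=
    ⟨_, hp A U s P X Y C gam κ Gd Ω e₀ e₁ ρ₀ hB hT hA⟩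
  obtain ⟨K, hK⟩ : ∃ K, K = U ^ 500 := ⟨_, rfl⟩
  obtain ⟨L, hL'⟩ : ∃ L, L = K ^ C₃ := ⟨_, rfl⟩
  obtain ⟨u, hu⟩ : ∃ u, u = U ^ a₀ := ⟨_, rfl⟩
  obtain ⟨n, hn⟩ : ∃ n, n = 1 / U ^ A := ⟨_, rfl⟩
  rw [← hK, ← hn] at hF
  rw [← hn] at hT
  have hU := hB.two_le
  have hU1 : 1 ≤ U := by linarith
  have hU1' : 1 < U := by linarith
  have hU0 : 0 < U := by linarith
  have hs := hB.s_pos
  have hK1' : 1 < K := hK ▸ one_lt_pow₀ hU1' (by norm_num)
  have hK1 : 1 ≤ K := hK1'.le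
  have hK0 : 0 < K := by linarith
  have hL1 : 1 ≤ L := hL' ▸ one_le_pow₀ hK1
  have hL0 : 0 < L := by linarith
  have hu1 : 1 ≤ u := hu ▸ one_le_pow₀ hU1
  have hu0 : 0 < u := by linarith
  have hn0 : 0 < n := by rw [hn]; positivity
  have hC₁ : U ^ (500 * (20 * C₃ + 16)) = L ^ 20 * K ^ 16 := by
    rw [hL', hK, ← pow_mul, ← pow_mul, ← pow_mul, ← pow_add]
    congr 1
    ring
  have hC₂ : U ^ (8 * a₀ + 500 * (20 * C₃ + 16)) = u ^ 8 * (L ^ 20 * K ^ 16) := by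
    rw [pow_add, hC₁, hu, ← pow_mul, mul_comm a₀]
  have hnT : n * (u ^ 8 * (L ^ 20 * K ^ 16)) ≤ 1 := by
    rw [hn, ← hC₂, one_div_mul_eq_div, div_le_one (by positivity)]
    exact pow_le_pow_right₀ hU1 h3
  have hTu : L ^ 20 * K ^ 16 ≤ u := by
    rw [← hC₁, hu]
    exact pow_le_pow_right₀ hU1 h1
  have hKL : (K ^ 10) ^ C₃ = L ^ 10 := by rw [hL', ← pow_mul, ← pow_mul, mul_comm]
  have hΔ : 0 < κ e₁ - κ e₀ := sub_pos.2 hA.lt
  have hρ := hA.pos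
  have hmono : ∀ {r r' : ℝ}, r ≤ r' → f r ≤ f r' := Analytic_mono hF hB.nonneg hA.lt
  have hfn : ∀ r, n ≤ f r := fun r => by rw [hF.eq]; exact le_max_right _ _
  have hf0 : ∀ r, 0 < f r := fun r => hn0.trans_le (hfn r)
  obtain ⟨q, hq⟩ : Ω.Nonempty := by
    rw [← card_pos]
    have : (0 : ℝ) < #Ω := lt_of_lt_of_le (by positivity) hA.big
    exact_mod_cast this
  have hGq := hA.g0 q hq
  have hγ1 : 1 / U ^ 40 ≤ mG2 C gam κ e₀ (κ e₁ - κ e₀) := by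
    refine (hA.wt q hq).trans ?_
    unfold mG2
    refine sum_le_sum_of_subset_of_nonneg (fun c hc => ?_) fun i _ _ => hB.nonneg i
    rw [mem_filter] at hc ⊢
    refine ⟨hc.1, ?_⟩
    rw [abs_of_nonneg (sub_nonneg.2 hc.2.1)]
    linarith [hc.2.2.1]
  have hf1 : 1 / K < f 1 := by
    rw [hF.eq, one_mul]
    refine lt_of_lt_of_le ?_ (hγ1.trans (le_max_left _ _))
    rw [hK]
    exact one_div_lt_one_div_of_lt (by positivity) (pow_lt_pow_right₀ hU1' (by norm_num))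
  have hsmall : ∃ k : ℕ, f (1 / 8 ^ k) ≤ n := by
    obtain ⟨k, hk⟩ := Analytic_small (Δ := κ e₁ - κ e₀) (n := n) (hB.memC q e₀ hGq) hB.nonneg
      (hn ▸ hB.atom e₀) hB.inj
    exact ⟨k, by rw [hF.eq]; exact max_le hk le_rfl⟩
  have hscale : ∀ T : ℝ, K ≤ T → T ≤ L ^ 20 * K ^ 16 →
      ∃ r : ℝ, 0 < r ∧ r ≤ 1 ∧ 1 ≤ T * K * f r ∧ T * f r ≤ 1 := by
    intro T hT1 hT2
    have hT0 : 0 < T := by linarith
    have hnT' : n ≤ 1 / T := by
      rw [le_div_iff₀ hT0]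
      refine le_trans (mul_le_mul_of_nonneg_left (hT2.trans ?_) hn0.le) hnT
      exact le_mul_of_one_le_left (by positivity) (one_le_pow₀ hu1)
    obtain ⟨k, hk⟩ := hsmall
    obtain ⟨r, r0, r1, r2, r3⟩ := Analytic_scale (t := 1 / T) hF.dbl
      ((one_div_le_one_div_of_le hK0 hT1).trans_lt hf1) ⟨k, hk.trans hnT'⟩
    rw [div_le_iff₀ hT0] at r2
    rw [le_div_iff₀ hT0] at r3
    exact ⟨r, r0, r1, by linarith, by linarith⟩
  have hL10 : 1 ≤ L ^ 10 := one_le_pow₀ hL1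
  have hL20 : L ^ 10 ≤ L ^ 20 := pow_le_pow_right₀ hL1 (by norm_num)
  obtain ⟨r₀, r0, r1, r2, r3⟩ := hscale (L ^ 10 * K) (le_mul_of_one_le_left hK0.le hL10)
    (mul_le_mul hL20 (le_self_pow₀ hK1 (by norm_num)) hK0.le (by positivity))
  obtain ⟨θ₀, t0, t1, t2, t3⟩ := hscale (L ^ 20 * K ^ 15)
    ((le_self_pow₀ hK1 (by norm_num)).trans (le_mul_of_one_le_left (by positivity)
      (hL10.trans hL20)))
    (mul_le_mul_of_nonneg_left (pow_le_pow_right₀ hK1 (by norm_num)) (by positivity))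
  -- the dimension hypothesis
  have hdim' : 1 ≤ u * f (1 / U ^ b₀) := by
    obtain ⟨w, ε, w0, hε, w1, w2⟩ := hdim q e₀ hGq
    have hle : ∀ j : ℕ, j < 500 * (20 * C₃ + 16) →
        1 / U ^ (500 * (20 * C₃ + 16)) < 1 / U ^ j := fun j hj =>
      one_div_lt_one_div_of_lt (by positivity) (pow_lt_pow_right₀ hU1' hj)
    have a1 := hT.balG q e₀ hGq ε w hε w0 (w1.trans_lt (hle 2 (by omega)))
    have a2 : max (mG C gam κ e₀ ε w) n < 1 / U ^ 52 := by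
      refine max_lt (w1.trans_lt (hle 52 (by omega))) ?_
      rw [hn]
      exact one_div_lt_one_div_of_lt (by positivity) (pow_lt_pow_right₀ hU1' (by omega))
    have a3 : mG2 C gam κ e₀ w < 1 / U ^ 40 := by
      refine a1.trans_lt ((mul_lt_mul_of_pos_left a2 (by positivity)).trans_le ?_)
      rw [mul_one_div, div_le_div_iff₀ (by positivity) (by positivity), one_mul,
        show U ^ 52 = U * U ^ 11 * U ^ 40 by ring]
      gcongr
    have a4 : w ≤ κ e₁ - κ e₀ := by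
      by_contra hneg
      have := Analytic_mG2_mono (C := C) (κ := κ) hB.nonneg e₀ (not_le.1 hneg).le
      linarith
    have a5 : 1 / u ≤ f (1 / U ^ b₀) := by
      rw [hF.eq, hu]
      refine w2.trans ((Analytic_mG2_mono hB.nonneg e₀ ?_).trans (le_max_left _ _))
      rw [one_div_mul_eq_div]
      exact div_le_div_of_nonneg_right a4 (by positivity)
    rw [div_le_iff₀ hu0] at a5
    linarith
  obtain ⟨θ, hθ⟩ : ∃ θ, θ = min θ₀ (1 / U ^ b₀) := ⟨_, rfl⟩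
  have θ0 : 0 < θ := by rw [hθ]; exact lt_min t0 (by positivity)
  have θb : θ ≤ 1 / U ^ b₀ := hθ ▸ min_le_right _ _
  have θ10 : θ ≤ 1 / 10 := by
    refine θb.trans (one_div_le_one_div_of_le (by norm_num) ?_)
    calc (10 : ℝ) ≤ 2 ^ 4 := by norm_num
      _ ≤ U ^ 4 := by gcongr
      _ ≤ U ^ b₀ := pow_le_pow_right₀ hU1 (by omega)
  have θ6 : θ ^ 6 * (u ^ 8 * (L ^ 20 * K ^ 16)) ≤ 1 := by
    rw [← hC₂]
    calc θ ^ 6 * U ^ (8 * a₀ + 500 * (20 * C₃ + 16)) ≤ (1 / U ^ b₀) ^ 6 * U ^ (6 * b₀) :=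
          mul_le_mul (pow_le_pow_left₀ θ0.le θb 6) (pow_le_pow_right₀ hU1 h2) (by positivity)
            (by positivity)
      _ = 1 := by rw [mul_comm 6 b₀, pow_mul]; field_simp
  have θlo : 1 ≤ u * f θ := by
    rcases min_choice θ₀ (1 / U ^ b₀) with h | h
    · rw [hθ, h]
      refine t2.trans (mul_le_mul_of_nonneg_right ?_ (hf0 _).le)
      rw [mul_assoc, ← pow_succ]
      exact hTu
    · rw [hθ, h]
      exact hdim'
  have θhi : L ^ 20 * K ^ 15 * f θ ≤ 1 :=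
    (mul_le_mul_of_nonneg_left (hmono (hθ ▸ min_le_left _ _)) (by positivity)).trans t3
  obtain ⟨δ, hδ⟩ : ∃ δ, δ = r₀ * θ ^ 8 / 512 := ⟨_, rfl⟩
  have δ0 : 0 < δ := by rw [hδ]; positivity
  have θ8 : θ ^ 8 ≤ θ := pow_le_of_le_one θ0.le (by linarith) (by norm_num)
  have rθ : r₀ * θ ^ 8 ≤ θ := (mul_le_of_le_one_left (by positivity) r1).trans θ8
  have δθ : δ ≤ θ := by rw [hδ]; linarith
  have hdbl2 : ∀ r, 0 ≤ r → f (64 * r) ≤ K ^ 2 * f r := fun r hr => by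
    calc f (64 * r) = f (8 * (8 * r)) := by congr 1; ring
      _ ≤ K * f (8 * r) := hF.dbl _ (by positivity)
      _ ≤ K * (K * f r) := mul_le_mul_of_nonneg_left (hF.dbl r hr) hK0.le
      _ = K ^ 2 * f r := by ring
  have h512 : f (512 * δ) ≤ K ^ 3 * f δ := by
    calc f (512 * δ) = f (8 * (64 * δ)) := by congr 1; ring
      _ ≤ K * f (64 * δ) := hF.dbl _ (by positivity)
      _ ≤ K * (K ^ 2 * f δ) := mul_le_mul_of_nonneg_left (hdbl2 δ δ0.le) hK0.le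
      _ = K ^ 3 * f δ := by ring
  have s1 : f (θ ^ 8) ≤ L ^ 10 * K ^ 6 * f δ := by
    have e : r₀ * θ ^ 8 = 512 * δ := by rw [hδ]; ring
    have a1 := hF.sm r₀ (θ ^ 8) r0.le (by positivity)
    rw [e] at a1
    calc f (θ ^ 8) ≤ L ^ 10 * K * K * f r₀ * f (θ ^ 8) := le_mul_of_one_le_left (hf0 _).le r2
      _ = L ^ 10 * K ^ 2 * (f r₀ * f (θ ^ 8)) := by ring
      _ ≤ L ^ 10 * K ^ 2 * (K * (K ^ 3 * f δ)) :=
          mul_le_mul_of_nonneg_left (a1.trans (mul_le_mul_of_nonneg_left h512 hK0.le))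
            (by positivity)
      _ = L ^ 10 * K ^ 6 * f δ := by ring
  have s2 : 1 ≤ u ^ 8 * (L ^ 10 * K ^ 13) * f δ := by
    have a1 := Analytic_pow hK0.le θ0.le (fun r => (hf0 r).le) hF.sm 7
    calc (1 : ℝ) ≤ (u * f θ) ^ 8 := one_le_pow₀ θlo
      _ = u ^ 8 * f θ ^ (7 + 1) := by ring
      _ ≤ u ^ 8 * (K ^ 7 * (L ^ 10 * K ^ 6 * f δ)) :=
          mul_le_mul_of_nonneg_left (a1.trans (mul_le_mul_of_nonneg_left s1 (by positivity)))
            (by positivity)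
      _ = u ^ 8 * (L ^ 10 * K ^ 13) * f δ := by ring
  have s3 : ∀ x : ℝ, x * (u ^ 8 * (L ^ 20 * K ^ 16)) ≤ 1 → x * (L ^ 10 * K ^ 3) ≤ f δ := by
    intro x hx
    refine le_of_mul_le_mul_left (a := u ^ 8 * (L ^ 10 * K ^ 13)) ?_ (by positivity)
    calc _ = x * (u ^ 8 * (L ^ 20 * K ^ 16)) := by ring
      _ ≤ _ := hx.trans s2
  have hlo : K ^ 2 * n < f δ := by
    refine lt_of_lt_of_le ?_ (s3 n hnT)
    rw [mul_comm]
    refine mul_lt_mul_of_pos_left ?_ hn0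
    exact (pow_lt_pow_right₀ hK1' (by norm_num)).trans_le
      (le_mul_of_one_le_left (by positivity) hL10)
  have hhi : K ^ 3 * f δ ≤ 1 := by
    refine le_trans (mul_le_mul ?_ (hmono δθ) (hf0 _).le (by positivity)) θhi
    exact (pow_le_pow_right₀ hK1 (by norm_num)).trans
      (le_mul_of_one_le_left (by positivity) (hL10.trans hL20))
  have hD := Analytic_disc hB hT hA hF hK hn0 δ0 (by linarith) hlo hhi
  have hfδ := hf0 δ
  have eD : 1 / ((K ^ 10) ^ C₃ * (K ^ 3 / f δ)) = f δ / (L ^ 10 * K ^ 3) := by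
    rw [hKL]; field_simp
  refine hj _ _ δ s θ r₀ Ω _ _ _ gam _ Gd (fun r => K * f r) (fun r => K * f r) hD ?_ ?_ ?_ θ0 θ10
    r0 r1 (by rw [hδ]; have : 0 < r₀ * θ ^ 8 := by positivity
              linarith) ?_ ?_ ?_ ?_ ?_
  · intro p hp p' hp'
    rw [Analytic_abs_div hρ, one_mul]
    exact hA.diam p hp p' hp'
  · intro p hp r hr
    have a1 := hF.upY p hp r hr
    rw [div_le_iff₀ hs, mul_comm _ s] at a1
    refine le_trans ?_ a1
    unfold mP2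
    refine Nat.cast_le.2 (card_le_card fun x hx => ?_)
    rw [mem_filter] at hx ⊢
    exact ⟨hA.sub hx.1, (Analytic_abs_div hρ).1 hx.2⟩
  · intro c hc r hr
    obtain ⟨-, c0, c1, p, hp, hG⟩ := mem_filter.1 hc
    refine le_trans ?_ (hF.upG p hp c hG c0 c1 r hr)
    unfold mG2
    refine sum_le_sum_of_subset_of_nonneg (fun x hx => ?_) fun i _ _ => hB.nonneg i
    rw [mem_filter] at hx ⊢
    refine ⟨(mem_filter.1 hx.1).1, ?_⟩
    have := (Analytic_abs_div hΔ).1 hx.2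
    rwa [sub_sub_sub_cancel_right] at this
  · calc K * f (200 * δ) ≤ K * (K ^ 3 * f δ) :=
          mul_le_mul_of_nonneg_left ((hmono (by linarith)).trans h512) hK0.le
      _ = K ^ 4 * f δ := by ring
      _ ≤ K ^ 7 * f δ := mul_le_mul_of_nonneg_right (pow_le_pow_right₀ hK1 (by norm_num)) hfδ.le
      _ = K ^ 10 / (K ^ 3 / f δ) := by field_simp
  · rw [hKL, le_div_iff₀ (by positivity)]
    linarith
  · rw [hKL, le_div_iff₀ (by positivity)]
    refine le_trans ?_ θhi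
    rw [show K * f θ * L ^ 10 = L ^ 10 * K * f θ by ring]
    exact mul_le_mul_of_nonneg_right
      (mul_le_mul hL20 (le_self_pow₀ hK1 (by norm_num)) hK0.le (by positivity)) (hf0 _).le
  · intro w w0 w1
    have hw : 0 < w := θ0.trans_le w0
    rw [eD, le_div_iff₀ (by positivity)]
    have a1 := hF.sm (6 * w) (2 * θ ^ 8 / w) (by positivity) (by positivity)
    rw [show 6 * w * (2 * θ ^ 8 / w) = 12 * θ ^ 8 by field_simp; norm_num] at a1
    have a2 : f (12 * θ ^ 8) ≤ K ^ 2 * (L ^ 10 * K ^ 6 * f δ) := by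
      have : 0 < θ ^ 8 := by positivity
      exact (hmono (by linarith)).trans ((hdbl2 _ this.le).trans
        (mul_le_mul_of_nonneg_left s1 (by positivity)))
    have hfθ := hf0 θ
    calc K * f (6 * w) * (K * f θ * (K * f (2 * θ ^ 8 / w))) * (L ^ 10 * K ^ 3)
        = L ^ 10 * K ^ 6 * f θ * (f (6 * w) * f (2 * θ ^ 8 / w)) := by ring
      _ ≤ L ^ 10 * K ^ 6 * f θ * (K * (K ^ 2 * (L ^ 10 * K ^ 6 * f δ))) :=
          mul_le_mul_of_nonneg_left (a1.trans (mul_le_mul_of_nonneg_left a2 hK0.le))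
            (by positivity)
      _ = L ^ 20 * K ^ 15 * f θ * f δ := by ring
      _ ≤ f δ := mul_le_of_le_one_left hfδ.le θhi
  · rw [eD, le_div_iff₀ (by positivity)]
    exact s3 _ θ6

end Crest.Agent.R51
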