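import Crest.Agent.R51.Stmts

/-!
# Row 51: anchoring (`AnchorStmt`)
-/

set_option autoImplicit false

noncomputable section

namespace Crest.Agent.R51

open Finset Classical

section generic
variable {ι : Type}

theorem anc_avg (T : Finset ι) (w f : ι → ℝ) {L B : ℝ} (hw : ∀ i, 0 ≤ w i) (hf : ∀ i, 0 ≤ f i)
    (hB : ∑ i ∈ T, w i ≤ B) (hL : 0 < L) (h : L ≤ ∑ i ∈ T, w i * f i) :
    ∃ i ∈ T, L ≤ B * f i := by
  have hne : T.Nonempty := by
    rcases T.eq_empty_or_nonempty with rfl | h'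
    · rw [sum_empty] at h
      linarith
    · exact h'
  obtain ⟨i, hi, hm⟩ := T.exists_max_image f hne
  refine ⟨i, hi, h.trans ?_⟩
  calc ∑ j ∈ T, w j * f j ≤ ∑ j ∈ T, w j * f i :=
        sum_le_sum fun j hj => mul_le_mul_of_nonneg_left (hm j hj) (hw j)
    _ = (∑ j ∈ T, w j) * f i := (sum_mul _ _ _).symm
    _ ≤ B * f i := mul_le_mul_of_nonneg_right hB (hf i)

/-- the weight strictly below `i` -/
def anc_cum (T : Finset ι) (w k : ι → ℝ) (i : ι) : ℝ := ∑ j ∈ T.filter (fun j => k j < k i), w j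

/-- the group of `i` -/
def anc_grp (T : Finset ι) (w k : ι → ℝ) (μ : ℝ) (i : ι) : ℕ := ⌊anc_cum T w k i / μ⌋₊

theorem anc_pigeon (T : Finset ι) {w : ι → ℝ} (k f : ι → ℝ) {μ B L N : ℝ} (hw : ∀ i, 0 ≤ w i)
    (hf : ∀ i, 0 ≤ f i) (hμ : 0 < μ) (hB : ∑ i ∈ T, w i ≤ B) (hN : B / μ + 1 ≤ N) (hL : 0 < L)
    (h : L ≤ ∑ i ∈ T, f i) :
    ∃ g : ℕ, L ≤ N * ∑ i ∈ T.filter (fun i => anc_grp T w k μ i = g), f i := by
  have hB0 : 0 ≤ B := (sum_nonneg fun i _ => hw i).trans hB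
  have h1 : ∀ i ∈ T, anc_grp T w k μ i ∈ range (⌊B / μ⌋₊ + 1) := fun i _ =>
    mem_range.2 (Nat.lt_succ_of_le (Nat.floor_mono (div_le_div_of_nonneg_right
      ((sum_le_sum_of_subset_of_nonneg (filter_subset _ _) fun j _ _ => hw j).trans hB) hμ.le)))
  rw [← sum_fiberwise_of_maps_to h1] at h
  obtain ⟨g, -, hg⟩ := anc_avg (range (⌊B / μ⌋₊ + 1)) (fun _ => 1)
    (fun g => ∑ i ∈ T.filter (fun i => anc_grp T w k μ i = g), f i) (B := N) (fun _ => zero_le_one)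
    (fun g => sum_nonneg fun i _ => hf i) (by
      have := Nat.floor_le (div_nonneg hB0 hμ.le)
      simp only [sum_const, card_range, nsmul_eq_mul, mul_one]
      push_cast
      linarith) hL (by simpa only [one_mul] using h)
  exact ⟨g, hg⟩

theorem anc_hull (T : Finset ι) {w : ι → ℝ} (k : ι → ℝ) {μ a : ℝ} (hw : ∀ i, 0 ≤ w i) (hμ : 0 < μ)
    (ha : ∀ y, ∑ j ∈ T.filter (fun j => k j = y), w j ≤ a) {i₁ i₂ : ι}
    (hg : anc_grp T w k μ i₁ = anc_grp T w k μ i₂) (h12 : k i₁ ≤ k i₂) (S : Finset ι)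
    (hS : ∀ j ∈ S, j ∈ T ∧ k i₁ ≤ k j ∧ k j ≤ k i₂) : ∑ j ∈ S, w j ≤ μ + a := by
  have h1 : ∑ j ∈ S, w j ≤ ∑ j ∈ T.filter (fun j => k i₁ ≤ k j ∧ k j ≤ k i₂), w j :=
    sum_le_sum_of_subset_of_nonneg (fun j hj => mem_filter.2 (hS j hj)) fun j _ _ => hw j
  have h2 : ∑ j ∈ T.filter (fun j => k i₁ ≤ k j ∧ k j ≤ k i₂), w j + anc_cum T w k i₁ ≤
      anc_cum T w k i₂ + ∑ j ∈ T.filter (fun j => k j = k i₂), w j := by
    simp only [anc_cum, sum_filter, ← sum_add_distrib]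
    refine sum_le_sum fun j _ => ?_
    have := hw j
    split_ifs with a1 a2 a3 a4 <;> first | linarith | (exfalso; grind)
  have h3 : anc_cum T w k i₂ / μ < anc_grp T w k μ i₂ + 1 := Nat.lt_floor_add_one _
  have h4 : (anc_grp T w k μ i₁ : ℝ) ≤ anc_cum T w k i₁ / μ :=
    Nat.floor_le (div_nonneg (sum_nonneg fun j _ => hw j) hμ.le)
  rw [div_lt_iff₀ hμ] at h3
  rw [le_div_iff₀ hμ, hg] at h4
  linarith [ha (k i₂)]

theorem anc_low (T : Finset ι) {w : ι → ℝ} (k : ι → ℝ) {a : ℝ} (hw : ∀ i, 0 ≤ w i)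
    (ha : a ≤ ∑ i ∈ T, w i) : a ≤ ∑ i ∈ T.filter (fun i => anc_cum T w k i ≤ a), w i := by
  rcases (T.filter fun i => ¬ anc_cum T w k i ≤ a).eq_empty_or_nonempty with h | h
  · rw [filter_true_of_mem]
    · exact ha
    · intro i hi
      by_contra hc
      exact notMem_empty i (h ▸ mem_filter.2 ⟨hi, hc⟩)
  · obtain ⟨i, hi, hm⟩ := exists_min_image _ k h
    refine (not_le.1 (mem_filter.1 hi).2).le.trans
      (sum_le_sum_of_subset_of_nonneg (fun j hj => ?_) fun j _ _ => hw j)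
    obtain ⟨h1, h2⟩ := mem_filter.1 hj
    refine mem_filter.2 ⟨h1, ?_⟩
    by_contra hc
    exact (hm j (mem_filter.2 ⟨h1, hc⟩)).not_gt h2

theorem anc_mid (T : Finset ι) {w : ι → ℝ} (k : ι → ℝ) (hw : ∀ i, 0 ≤ w i) (i₀ i₁ : ι) :
    ∑ i ∈ T, w i ≤ anc_cum T w k i₀ + anc_cum T w (fun i => -k i) i₁ +
      ∑ j ∈ T.filter (fun j => k i₀ ≤ k j ∧ k j ≤ k i₁), w j := by
  simp only [anc_cum, sum_filter, ← sum_add_distrib]
  refine sum_le_sum fun j _ => ?_
  have := hw j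
  split_ifs with a1 a2 a3 a4 <;> first | linarith | (exfalso; grind)

theorem anc_popular (T : Finset ι) (f : ι → ℤ) (R : Finset ℤ) (hR : ∀ i ∈ T, f i ∈ R) {t : ℝ}
    (ht : 0 ≤ t) :
    (#T : ℝ) ≤ #(T.filter fun i => t ≤ #(T.filter fun j => f j = f i)) + #R * t := by
  have h1 := card_filter_add_card_filter_not (s := T)
    fun i => t ≤ #(T.filter fun j => f j = f i)
  have h2 := card_eq_sum_card_fiberwise (f := f)
    (s := T.filter fun i => ¬ t ≤ #(T.filter fun j => f j = f i)) (t := R)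
    fun i hi => hR i (mem_filter.1 hi).1
  have h3 : ∀ z ∈ R, (#((T.filter fun i => ¬ t ≤ #(T.filter fun j => f j = f i)).filter
      fun i => f i = z) : ℝ) ≤ t := by
    intro z _
    rcases ((T.filter fun i => ¬ t ≤ #(T.filter fun j => f j = f i)).filter
      fun i => f i = z).eq_empty_or_nonempty with h | ⟨i, hi⟩
    · rw [h, card_empty, Nat.cast_zero]
      exact ht
    · obtain ⟨h4, rfl⟩ := mem_filter.1 hi
      refine le_trans ?_ (not_le.1 (mem_filter.1 h4).2).le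
      exact_mod_cast card_le_card (filter_subset_filter _ (filter_subset _ _))
  have h4 := sum_le_card_nsmul _ _ _ h3
  rw [← Nat.cast_sum, ← h2, nsmul_eq_mul] at h4
  rw [← h1]
  push_cast
  linarith

end generic

theorem anc_side {lo hi x : ℝ} (h1 : lo ≤ x) (h2 : x ≤ hi) :
    ∃ ε, Sg ε ∧ ∀ y, 0 ≤ ε * (y - x) → ε * (y - x) ≤ (hi - lo) / 2 → lo ≤ y ∧ y ≤ hi := by
  rcases le_total (x + (hi - lo) / 2) hi with h | h
  · exact ⟨1, Or.inl rfl, fun y a b => ⟨by linarith, by linarith⟩⟩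
  · exact ⟨-1, Or.inr rfl, fun y a b => ⟨by linarith, by linarith⟩⟩

theorem anc_num {U : ℝ} (hU : 2 ≤ U) (k j : ℕ) : 2 ^ j * (1 / U ^ (k + j)) ≤ 1 / U ^ k := by
  have h0 : 0 < U := by linarith
  rw [pow_add, mul_one_div, div_le_div_iff₀ (by positivity) (by positivity), one_mul, mul_comm]
  exact mul_le_mul_of_nonneg_left (pow_le_pow_left₀ zero_le_two hU j) (by positivity)

theorem anc_anti {U : ℝ} (hU : 2 ≤ U) {i j : ℕ} (h : i ≤ j) : 1 / U ^ j ≤ 1 / U ^ i :=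
  one_div_pow_le_one_div_pow_of_le (by linarith) h

/-- the conclusion of `balG`, `balY` -/
theorem anc_half {U x y : ℝ} {A : ℕ} (hU : 2 ≤ U) (hA : 200 ≤ A) (hx : x ≤ 1 / U ^ 15)
    (h : x < 1 / U ^ 2 → y ≤ 2 * U ^ 11 * max x (1 / U ^ A)) : y < 1 / U ^ 2 := by
  have h0 : 0 < U := by linarith
  have h1 := anc_num hU 2 2
  have h2 := anc_anti hU (i := 2 + 2) (j := 15) (by omega)
  have h3 : 0 < 1 / U ^ (2 + 2) := by positivity
  have h4 := h (by linarith)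
  have h5 : max x (1 / U ^ A) ≤ 1 / U ^ 15 := max_le hx (anc_anti hU (by omega))
  have h6 := mul_le_mul_of_nonneg_left h5 (by positivity : 0 ≤ 2 * U ^ 11)
  have h7 : 2 * U ^ 11 * (1 / U ^ 15) = 2 * (1 / U ^ (2 + 2)) := by field_simp
  linarith

variable {A : ℕ} {U s : ℝ} {P : Finset Pt} {X Y : Pt → ℝ} {C : Finset ℕ} {gam κ : ℕ → ℝ}
  {Gd : Pt → ℕ → Prop}

theorem anc_atom (hb : AnBase A U s P Y C gam κ Gd) (y : ℝ) (S : Finset ℕ)
    (hS : ∀ c ∈ S, c ∈ C ∧ κ c = y) : ∑ c ∈ S, gam c ≤ 1 / U ^ A := by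
  have h0 : 0 < U := by linarith [hb.two_le]
  have h1 : #S ≤ 1 := card_le_one.2 fun a ha b hb' =>
    hb.inj a (hS a ha).1 b (hS b hb').1 ((hS a ha).2.trans (hS b hb').2.symm)
  have h2 := sum_le_card_nsmul S gam _ fun c _ => hb.atom c
  rw [nsmul_eq_mul] at h2
  exact h2.trans (mul_le_of_le_one_left (by positivity) (by exact_mod_cast h1))

/-- first step: one group of points and one group of directions -/
theorem anc_step1 (hb : AnBase A U s P Y C gam κ Gd) :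
    ∃ (g₀ h₀ : ℕ) (P₁ : Finset Pt), s * (1 / U ^ 38) ≤ #P₁ ∧ ∀ p ∈ P₁, p ∈ P ∧
      anc_grp P (fun _ => 1) Y (1 / U ^ 15 * s / 2) p = h₀ ∧
      1 / U ^ 37 ≤ ∑ c ∈ C.filter (fun c => anc_grp C gam κ (1 / U ^ 15 / 2) c = g₀ ∧ Gd p c),
        gam c := by
  have hU := hb.two_le
  have h0 : 0 < U := by linarith
  have hs := hb.s_pos
  have hp : ∀ k : ℕ, 2 * U ^ k + 1 ≤ U ^ (k + 2) := fun k => by
    have h1 : 1 ≤ U ^ k := one_le_pow₀ (by linarith)
    have h2 : 4 ≤ U ^ 2 := by nlinarith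
    rw [pow_add]
    nlinarith
  obtain ⟨h₀, h1⟩ := anc_pigeon P (w := fun _ => 1) Y
    (fun p => ∑ c ∈ C.filter (fun c => Gd p c), gam c) (μ := 1 / U ^ 15 * s / 2) (B := s)
    (N := U ^ 17) (fun _ => zero_le_one) (fun p => sum_nonneg fun c _ => hb.nonneg c)
    (by positivity) (by simpa using hb.cardP) (le_trans (le_of_eq (by field_simp)) (hp 15))
    (div_pos hs h0) hb.mass
  set P₀ := P.filter fun p => anc_grp P (fun _ => 1) Y (1 / U ^ 15 * s / 2) p = h₀ with hP₀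
  obtain ⟨g₀, h2⟩ := anc_pigeon C (w := gam) κ (fun c => ∑ p ∈ P₀, if Gd p c then gam c else 0)
    (μ := 1 / U ^ 15 / 2) (B := U) (N := U ^ 18) (L := s * (1 / U ^ 18)) hb.nonneg
    (fun c => sum_nonneg fun p _ => by split_ifs; exacts [hb.nonneg c, le_rfl]) (by positivity)
    hb.total (le_trans (le_of_eq (by field_simp)) (hp 16)) (by positivity) (by
      rw [sum_comm]
      simp only [← sum_filter]
      rw [div_le_iff₀ h0] at h1
      rw [mul_one_div, div_le_iff₀ (by positivity)]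
      linarith)
  rw [sum_comm] at h2
  simp only [← sum_filter, filter_filter] at h2
  set S : Pt → ℝ := fun p => ∑ c ∈ C.filter
    (fun c => anc_grp C gam κ (1 / U ^ 15 / 2) c = g₀ ∧ Gd p c), gam c with hS
  have hSU : ∀ p, S p ≤ U := fun p =>
    (sum_le_sum_of_subset_of_nonneg (filter_subset _ _) fun c _ _ => hb.nonneg c).trans hb.total
  refine ⟨g₀, h₀, P₀.filter fun p => 1 / U ^ 37 ≤ S p, ?_, fun p hp => ?_⟩
  · have h3 := sum_filter_add_sum_filter_not P₀ (fun p => 1 / U ^ 37 ≤ S p) S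
    have h4 := sum_le_card_nsmul (P₀.filter fun p => 1 / U ^ 37 ≤ S p) S U fun p _ => hSU p
    have h5 := sum_le_card_nsmul (P₀.filter fun p => ¬ 1 / U ^ 37 ≤ S p) S (1 / U ^ 37)
      fun p hp => (not_le.1 (mem_filter.1 hp).2).le
    have h6 : (#(P₀.filter fun p => ¬ 1 / U ^ 37 ≤ S p) : ℝ) ≤ s :=
      le_trans (by exact_mod_cast card_le_card ((filter_subset _ _).trans (filter_subset _ _)))
        hb.cardP
    rw [nsmul_eq_mul] at h4 h5
    have h7 := mul_le_mul_of_nonneg_right h6 (by positivity : 0 ≤ 1 / U ^ 37)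
    have h8 : s * (1 / U ^ 36) ≤ ∑ p ∈ P₀, S p := by
      refine le_of_mul_le_mul_left ?_ (by positivity : 0 < U ^ 18)
      refine le_trans (le_of_eq ?_) h2
      field_simp
    have h9 := mul_le_mul_of_nonneg_left (anc_num hU 36 1) hs.le
    refine le_of_mul_le_mul_right ?_ h0
    have h10 : s * (1 / U ^ 38) * U = s * (1 / U ^ 37) := by field_simp
    norm_num at h9 h10 h7 h8 h5 h4 h3 ⊢
    linarith
  · obtain ⟨h3, h4⟩ := mem_filter.1 hp
    exact ⟨(mem_filter.1 h3).1, (mem_filter.1 h3).2, h4⟩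

/-- second step: two anchor directions -/
theorem anc_step2 (hb : AnBase A U s P Y C gam κ Gd) (D : Pt → Finset ℕ) (hD : ∀ p, D p ⊆ C)
    (P₁ : Finset Pt) (h1 : s * (1 / U ^ 38) ≤ #P₁) (h2 : ∀ p ∈ P₁, 1 / U ^ 37 ≤ ∑ c ∈ D p, gam c) :
    ∃ (e₀ e₁ : ℕ) (P₂ : Finset Pt), P₂ ⊆ P₁ ∧ s * (1 / U ^ 118) ≤ #P₂ ∧ ∀ p ∈ P₂,
      e₀ ∈ D p ∧ e₁ ∈ D p ∧
        1 / U ^ 39 ≤ ∑ c ∈ (D p).filter (fun c => κ e₀ ≤ κ c ∧ κ c ≤ κ e₁), gam c := by
  have hU := hb.two_le
  have h0 : 0 < U := by linarith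
  have hs := hb.s_pos
  let Lo : Pt → Finset ℕ := fun p =>
    (D p).filter fun c => anc_cum (D p) gam κ c ≤ (∑ c ∈ D p, gam c) / 3
  let Hi : Pt → Finset ℕ := fun p =>
    (D p).filter fun c => anc_cum (D p) gam (fun c => -κ c) c ≤ (∑ c ∈ D p, gam c) / 3
  have h3 : ∀ p ∈ P₁, 1 / U ^ 39 ≤ (∑ c ∈ D p, gam c) / 3 := fun p hp => by
    have := anc_num hU 37 2
    have : 0 < 1 / U ^ (37 + 2) := by positivity
    linarith [h2 p hp]
  have h4 : ∀ p, (∑ c ∈ D p, gam c) / 3 ≤ ∑ c ∈ D p, gam c := fun p => by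
    linarith [sum_nonneg fun c (_ : c ∈ D p) => hb.nonneg c]
  have hsum : ∀ T ⊆ C, ∑ c ∈ C, (if c ∈ T then gam c else 0) = ∑ c ∈ T, gam c := fun T hT => by
    rw [← sum_filter, filter_mem_eq_inter, inter_eq_right.2 hT]
  obtain ⟨e, -, he⟩ := anc_avg (C ×ˢ C) (fun e => gam e.1 * gam e.2)
    (fun e => #(P₁.filter fun p => e.1 ∈ Lo p ∧ e.2 ∈ Hi p)) (B := U ^ 2) (L := s * (1 / U ^ 116))
    (fun e => mul_nonneg (hb.nonneg _) (hb.nonneg _)) (fun _ => Nat.cast_nonneg _) (by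
      rw [sum_product, ← sum_mul_sum, sq]
      exact mul_self_le_mul_self (sum_nonneg fun c _ => hb.nonneg c) hb.total) (by positivity) (by
      have h5 : ∀ e : ℕ × ℕ, gam e.1 * gam e.2 * #(P₁.filter fun p => e.1 ∈ Lo p ∧ e.2 ∈ Hi p) =
          ∑ p ∈ P₁, (if e.1 ∈ Lo p then gam e.1 else 0) * if e.2 ∈ Hi p then gam e.2 else 0 := by
        intro e
        rw [cast_card, sum_filter, mul_sum]
        refine sum_congr rfl fun p _ => ?_
        by_cases a : e.1 ∈ Lo p <;> by_cases b : e.2 ∈ Hi p <;> simp [a, b]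
      simp only [h5]
      rw [sum_comm]
      have h6 := card_nsmul_le_sum P₁ (fun p => ∑ e ∈ C ×ˢ C,
        (if e.1 ∈ Lo p then gam e.1 else 0) * if e.2 ∈ Hi p then gam e.2 else 0)
        (1 / U ^ 39 * (1 / U ^ 39)) fun p hp => by
          rw [sum_product]
          refine le_trans ?_ (sum_mul_sum C C (fun x => if x ∈ Lo p then gam x else 0)
            fun y => if y ∈ Hi p then gam y else 0).le
          rw [hsum _ ((filter_subset _ _).trans (hD p)),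
            hsum _ ((filter_subset _ _).trans (hD p))]
          exact mul_le_mul ((h3 p hp).trans (anc_low _ _ hb.nonneg (h4 p)))
            ((h3 p hp).trans (anc_low _ _ hb.nonneg (h4 p))) (by positivity)
            (sum_nonneg fun c _ => hb.nonneg c)
      rw [nsmul_eq_mul] at h6
      refine le_trans (le_trans (le_of_eq ?_) (mul_le_mul_of_nonneg_right h1 (by positivity))) h6
      field_simp)
  refine ⟨e.1, e.2, P₁.filter fun p => e.1 ∈ Lo p ∧ e.2 ∈ Hi p, filter_subset _ _, ?_,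
    fun p hp => ?_⟩
  · refine le_of_mul_le_mul_left (le_trans (le_of_eq ?_) he) (by positivity : 0 < U ^ 2)
    field_simp
  · obtain ⟨a, b, c⟩ := mem_filter.1 hp
    obtain ⟨b1, b2⟩ := mem_filter.1 b
    obtain ⟨c1, c2⟩ := mem_filter.1 c
    refine ⟨b1, c1, ?_⟩
    linarith [anc_mid (D p) κ hb.nonneg e.1 e.2, h3 p a]

theorem anchor : AnchorStmt := by
  intro A U s P X Y C gam κ Gd hA hb ht
  have hU := hb.two_le
  have h0 : 0 < U := by linarith
  have hs := hb.s_pos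
  obtain ⟨g₀, h₀, P₁, h1, h2⟩ := anc_step1 hb
  obtain ⟨e₀, e₁, P₂, h3, h4, h5⟩ := anc_step2 hb _ (fun p => filter_subset _ _) P₁ h1
    fun p hp => (h2 p hp).2.2
  have hP : ∀ p ∈ P₂, p ∈ P := fun p hp => (h2 p (h3 hp)).1
  have hn : 2 * (1 / U ^ A) ≤ 1 / U ^ 118 := by
    linarith [anc_num hU 118 1, anc_anti hU (i := 118 + 1) (j := A) (by omega)]
  have hn0 : 0 < 1 / U ^ A := by positivity
  have hn1 := anc_anti hU (i := 39) (j := 118) (by omega)
  have hn2 := anc_anti hU (i := 15) (j := 118) (by omega)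
  have hpos : (0 : ℝ) < #P₂ := lt_of_lt_of_le (by positivity) h4
  have hne : P₂.Nonempty := card_pos.1 (by exact_mod_cast hpos)
  obtain ⟨p₀, hp₀, hmin⟩ := exists_min_image P₂ Y hne
  obtain ⟨p₁, hp₁, hmax⟩ := exists_max_image P₂ Y hne
  have hlt : κ e₀ < κ e₁ := by
    by_contra hc
    have h6 := (h5 p₀ hp₀).2.2.trans (anc_atom hb (κ e₀) _ fun c hc' => by
      obtain ⟨a, b, d⟩ := mem_filter.1 hc'
      exact ⟨(mem_filter.1 a).1, le_antisymm (d.trans (not_lt.1 hc)) b⟩)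
    linarith
  have hρ : 0 < Y p₁ - Y p₀ := by
    by_contra hc
    have h6 : (#P₂ : ℝ) ≤ #(P.filter fun q => Y q = Y p₀) := by
      exact_mod_cast card_le_card fun q hq => mem_filter.2
        ⟨hP q hq, le_antisymm (by linarith [hmax q hq]) (hmin q hq)⟩
    have h7 := hb.ties (Y p₀)
    have h8 := mul_le_mul_of_nonneg_left hn hs.le
    have h9 := mul_pos hs hn0
    rw [div_eq_mul_one_div] at h7
    linarith
  let f : Pt → ℤ := fun q => ⌊16 * (Y q - Y p₀) / (Y p₁ - Y p₀)⌋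
  have hpop := anc_popular P₂ f (Icc 0 16) (fun q hq => mem_Icc.2
    ⟨Int.floor_nonneg.2 (div_nonneg (by linarith [hmin q hq]) hρ.le),
      Int.floor_le_iff.2 ((div_lt_iff₀ hρ).2 (by push_cast; linarith [hmax q hq]))⟩)
    (t := #P₂ / 34) (by positivity)
  have hcard : (#(Icc (0 : ℤ) 16) : ℝ) = 17 := by simp
  rw [hcard] at hpop
  refine ⟨P₂.filter fun q => (#P₂ : ℝ) / 34 ≤ #(P₂.filter fun j => f j = f q), e₀, e₁,
    Y p₁ - Y p₀, fun q hq => hP q (mem_filter.1 hq).1, ?_, hlt, hρ,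
    fun q hq => (mem_filter.1 (h5 q (mem_filter.1 hq).1).1).2.2,
    fun q hq => (mem_filter.1 (h5 q (mem_filter.1 hq).1).2.1).2.2, fun q hq => ?_,
    fun q hq q' hq' => ?_, fun q hq => ?_, fun q hq => ?_, fun q hq c hc hc0 hc1 => ?_⟩
  · have h6 := mul_le_mul_of_nonneg_left (anc_num hU 118 12) hs.le
    have h7 : 0 < s * (1 / U ^ (118 + 12)) := by positivity
    rw [div_eq_mul_one_div]
    linarith
  · refine (anc_anti hU (by omega)).trans ((h5 q (mem_filter.1 hq).1).2.2.trans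
      (sum_le_sum_of_subset_of_nonneg (fun c hc => ?_) fun c _ _ => hb.nonneg c))
    simp only [mem_filter] at hc ⊢
    exact ⟨hc.1.1, hc.2.1, hc.2.2, hc.1.2.2⟩
  · have a := (mem_filter.1 hq).1
    have b := (mem_filter.1 hq').1
    exact abs_le.2 ⟨by linarith [hmin q a, hmax q' b], by linarith [hmin q' b, hmax q a]⟩
  · have a := (mem_filter.1 hq).1
    obtain ⟨ε, hε, h6⟩ := anc_side (hmin q a) (hmax q a)
    refine anc_half hU hA ?_ (ht.balY q e₀ (mem_filter.1 (h5 q a).1).2.2 ε _ hε (by linarith))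
    have h7 := anc_hull P (w := fun _ => 1) Y (μ := 1 / U ^ 15 * s / 2) (a := s / U ^ A)
      (fun _ => zero_le_one) (by positivity) (fun y => by simpa using hb.ties y)
      ((h2 p₀ (h3 hp₀)).2.1.trans (h2 p₁ (h3 hp₁)).2.1.symm) (by linarith)
      (P.filter fun q' => 0 ≤ ε * (Y q' - Y q) ∧ ε * (Y q' - Y q) ≤ (Y p₁ - Y p₀) / 2)
      fun j hj => ⟨(mem_filter.1 hj).1, h6 _ (mem_filter.1 hj).2.1 (mem_filter.1 hj).2.2⟩
    rw [← cast_card, div_eq_mul_one_div s] at h7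
    rw [div_le_iff₀ hs]
    have h8 := mul_le_mul_of_nonneg_left (hn.trans hn2) hs.le
    unfold mP
    linarith
  · obtain ⟨a, b⟩ := mem_filter.1 hq
    have h6 : (#(P₂.filter fun j => f j = f q) : ℝ) ≤ mP2 P Y q ((Y p₁ - Y p₀) / 16) := by
      unfold mP2
      refine Nat.cast_le.2 (card_le_card fun j hj => mem_filter.2 ⟨hP j (mem_filter.1 hj).1, ?_⟩)
      have h7 := Int.abs_sub_lt_one_of_floor_eq_floor (mem_filter.1 hj).2
      rw [← sub_div, abs_div, abs_of_pos hρ, div_lt_one hρ, abs_lt] at h7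
      exact abs_le.2 ⟨by linarith [h7.1], by linarith [h7.2]⟩
    have h7 := mul_le_mul_of_nonneg_left (anc_num hU 118 12) hs.le
    have h8 : 0 < s * (1 / U ^ (118 + 12)) := by positivity
    rw [le_div_iff₀ hs]
    linarith
  · have a := (mem_filter.1 hq).1
    obtain ⟨ε, hε, h6⟩ := anc_side hc0 hc1
    refine anc_half hU hA ?_ (ht.balG q c hc ε _ hε (by linarith))
    have h7 := anc_hull C κ (μ := 1 / U ^ 15 / 2) (a := 1 / U ^ A) hb.nonneg (by positivity)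
      (fun y => anc_atom hb y _ fun c hc => mem_filter.1 hc)
      ((mem_filter.1 (h5 q a).1).2.1.trans (mem_filter.1 (h5 q a).2.1).2.1.symm) hlt.le
      (C.filter fun c' => 0 ≤ ε * (κ c' - κ c) ∧ ε * (κ c' - κ c) ≤ (κ e₁ - κ e₀) / 2)
      fun j hj => ⟨(mem_filter.1 hj).1, h6 _ (mem_filter.1 hj).2.1 (mem_filter.1 hj).2.2⟩
    unfold mG
    linarith

end Crest.Agent.R51
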