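import Crest.Agent.R51.Stmts

/-! # Row 51: the two-sided inequalities (`BalStmt`) -/

set_option autoImplicit false

noncomputable section

namespace Crest.Agent.R51

open Finset Classical

theorem bal_greatest (Q : ℕ → Prop) {A : ℕ} (hA : 1 ≤ A) (h1 : Q 1) :
    ∃ i, 1 ≤ i ∧ i ≤ A ∧ Q i ∧ (i = A ∨ ¬ Q (i + 1)) := by
  induction A, hA using Nat.le_induction with
  | base => exact ⟨1, le_rfl, le_rfl, h1, Or.inl rfl⟩
  | succ A hA ih =>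
    obtain ⟨i, hi1, hi2, hi3, hi4⟩ := ih
    by_cases h : Q (i + 1)
    · obtain rfl := hi4.resolve_right (not_not.2 h)
      exact ⟨i + 1, by omega, le_rfl, h, Or.inl rfl⟩
    · exact ⟨i, hi1, by omega, hi3, Or.inr h⟩

section Abs
variable {A : ℕ} {U : ℝ}

theorem bal_succ (hU : 2 ≤ U) (i : ℕ) : 1 / U ^ i = U * (1 / U ^ (i + 1)) := by
  have : U ≠ 0 := by linarith
  rw [pow_succ]
  field_simp

theorem bal_lo (hU : 2 ≤ U) (hA : 1 ≤ A) {a : ℝ} (h1 : 1 / U ^ A < a) (h2 : a ≤ U) :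
    ∃ i, 1 ≤ i ∧ i ≤ A ∧ 1 / U ^ i < a ∧ a ≤ U ^ 2 * (1 / U ^ i) := by
  have hU0 : 0 < U := by linarith
  by_cases h : a ≤ 1 / U ^ 1
  · obtain ⟨i, hi1, hi2, hi3, hi4⟩ := bal_greatest (fun i => a ≤ 1 / U ^ i) hA h
    have hne : i ≠ A := fun e => absurd (e ▸ hi3) (not_le.2 h1)
    refine ⟨i + 1, by omega, by omega, not_le.1 (hi4.resolve_left hne), hi3.trans ?_⟩
    rw [bal_succ hU i]
    exact mul_le_mul_of_nonneg_right (by nlinarith) (by positivity)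
  · refine ⟨1, le_rfl, hA, not_le.1 h, h2.trans (le_of_eq ?_)⟩
    field_simp

theorem bal_hi (hU : 2 ≤ U) (hA : 1 ≤ A) {a : ℝ} (h : a < 1 / U ^ 2) :
    ∃ i, 1 ≤ i ∧ i ≤ A ∧ a < 1 / U ^ i / U ∧ 1 / U ^ i ≤ U ^ 2 * max a (1 / U ^ A) := by
  have hU0 : 0 < U := by linarith
  obtain ⟨i, hi1, hi2, hi3, hi4⟩ := bal_greatest (fun i => a < 1 / U ^ (i + 1)) hA h
  refine ⟨i, hi1, hi2, by rwa [div_div, ← pow_succ], ?_⟩
  rcases hi4 with rfl | hi4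
  · exact (le_max_right a _).trans (le_mul_of_one_le_left
      (le_max_of_le_right (by positivity)) (by nlinarith))
  · rw [bal_succ hU i, bal_succ hU (i + 1), ← mul_assoc, ← sq]
    exact mul_le_mul_of_nonneg_left ((not_lt.1 hi4).trans (le_max_left _ _)) (by positivity)

theorem bal_bx (hU : 2 ≤ U) (hA : 1 ≤ A) {a : ℝ} (h : a ≤ 1 / U) :
    ∃ i, 1 ≤ i ∧ i ≤ A ∧ a ≤ 1 / U ^ i ∧ 1 / U ^ i ≤ U * max a (1 / U ^ A) := by
  have hU0 : 0 < U := by linarith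
  obtain ⟨i, hi1, hi2, hi3, hi4⟩ := bal_greatest (fun i => a ≤ 1 / U ^ i) hA (by rwa [pow_one])
  refine ⟨i, hi1, hi2, hi3, ?_⟩
  rcases hi4 with rfl | hi4
  · exact (le_max_right a _).trans (le_mul_of_one_le_left
      (le_max_of_le_right (by positivity)) (by linarith))
  · rw [bal_succ hU i]
    exact mul_le_mul_of_nonneg_left ((not_le.1 hi4).le.trans (le_max_left _ _)) hU0.le

variable {γ M N : ℝ → ℝ}

/-- normalised witnesses for one pair of signs -/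
def BalW (A : ℕ) (U : ℝ) (γ M N : ℝ → ℝ) : Prop :=
  ∀ i j : ℕ, 1 ≤ i → i ≤ A → 1 ≤ j → j ≤ A → ∃ w ρ : ℝ, 0 ≤ w ∧ 0 ≤ ρ ∧
    1 / U ^ i / U ≤ γ w ∧ γ w ≤ 1 / U ^ i ∧ 1 / U ^ j / U ≤ M ρ ∧ M ρ ≤ 1 / U ^ j ∧
    1 / U ^ i * (1 / U ^ j) / U ≤ N (w * ρ) ∧ N (w * ρ) ≤ U * (1 / U ^ i) * (1 / U ^ j)

theorem bal_H1 (hU : 2 ≤ U) (hA : 1 ≤ A) (hγ : Monotone γ) (hM : Monotone M) (hN : Monotone N)
    (hW : BalW A U γ M N) {w ρ : ℝ} (hw : 0 ≤ w) (g1 : γ w ≤ U) (m0 : 0 ≤ M ρ)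
    (m1 : M ρ ≤ U) : γ w * M ρ ≤ U ^ 5 * max (N (w * ρ)) (1 / U ^ A) := by
  have hU0 : 0 < U := by linarith
  have hn : 0 < 1 / U ^ A := by positivity
  have h5 : U * (1 / U ^ A) ≤ U ^ 5 * max (N (w * ρ)) (1 / U ^ A) :=
    mul_le_mul (le_self_pow₀ (by linarith) (by norm_num)) (le_max_right _ _) hn.le (by positivity)
  by_cases ha : γ w ≤ 1 / U ^ A
  · exact ((mul_le_mul ha m1 m0 hn.le).trans_eq (mul_comm _ _)).trans h5
  by_cases hb : M ρ ≤ 1 / U ^ A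
  · exact (mul_le_mul g1 hb m0 hU0.le).trans h5
  obtain ⟨i, i1, i2, i3, i4⟩ := bal_lo hU hA (not_le.1 ha) g1
  obtain ⟨j, j1, j2, j3, j4⟩ := bal_lo hU hA (not_le.1 hb) m1
  obtain ⟨w', ρ', -, hρ', -, h2, -, h4, h6, -⟩ := hW i j i1 i2 j1 j2
  have e1 : w' ≤ w := (hγ.reflect_lt (h2.trans_lt i3)).le
  have e2 : ρ' ≤ ρ := (hM.reflect_lt (h4.trans_lt j3)).le
  have e3 := (h6.trans (hN (mul_le_mul e1 e2 hρ' hw))).trans (le_max_left _ (1 / U ^ A))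
  refine (mul_le_mul i4 j4 m0 (by positivity)).trans
    (le_trans (le_of_eq ?_) (mul_le_mul_of_nonneg_left e3 (by positivity)))
  field_simp

theorem bal_H2 (hU : 2 ≤ U) (hA : 1 ≤ A) (hγ : Monotone γ) (hM : Monotone M) (hN : Monotone N)
    (hW : BalW A U γ M N) {w ρ : ℝ} (hρ : 0 ≤ ρ) (g1 : γ w < 1 / U ^ 2) (m1 : M ρ < 1 / U ^ 2) :
    N (w * ρ) ≤ U ^ 5 * max (γ w) (1 / U ^ A) * max (M ρ) (1 / U ^ A) := by
  have hU0 : 0 < U := by linarith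
  obtain ⟨i, i1, i2, i3, i4⟩ := bal_hi hU hA g1
  obtain ⟨j, j1, j2, j3, j4⟩ := bal_hi hU hA m1
  obtain ⟨w', ρ', hw', -, h1, -, h3, -, -, h6⟩ := hW i j i1 i2 j1 j2
  have e1 : w ≤ w' := (hγ.reflect_lt (i3.trans_le h1)).le
  have e2 : ρ ≤ ρ' := (hM.reflect_lt (j3.trans_le h3)).le
  refine ((hN (mul_le_mul e1 e2 hρ hw')).trans h6).trans ?_
  have hp : 0 ≤ max (γ w) (1 / U ^ A) := le_max_of_le_right (by positivity)
  refine (mul_le_mul (mul_le_mul_of_nonneg_left i4 hU0.le) j4 (by positivity)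
    (by positivity)).trans_eq ?_
  ring

theorem BalW.swap (hW : BalW A U γ M N) : BalW A U M γ N := fun i j i1 i2 j1 j2 => by
  obtain ⟨w, ρ, hw, hρ, h1, h2, h3, h4, h5, h6⟩ := hW j i j1 j2 i1 i2
  exact ⟨ρ, w, hρ, hw, h3, h4, h1, h2, by rwa [mul_comm ρ, mul_comm (1 / U ^ i)],
    by rwa [mul_comm ρ, mul_right_comm]⟩

theorem Sg.neg {ε : ℝ} (h : Sg ε) : Sg (-ε) := by
  rcases h with rfl | rfl
  · exact Or.inr rfl
  · exact Or.inl (neg_neg _)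

/-- balance of the second factor -/
theorem bal_side {γ M N : ℝ → ℝ → ℝ} (hU : 2 ≤ U) (hA : 3 ≤ A) (hγ : ∀ ε, Monotone (γ ε))
    (hM : ∀ ε, Monotone (M ε)) (hN : ∀ ε, Monotone (N ε))
    (hW : ∀ ε₁ ε₂, Sg ε₁ → Sg ε₂ → BalW A U (γ ε₁) (M ε₂) (N (-(ε₁ * ε₂))))
    (g1 : ∀ ε w, γ ε w ≤ U) (m0 : ∀ ε w, 0 ≤ M ε w)
    (m1 : ∀ ε w, M ε w ≤ U) {ε ρ : ℝ} (hε : Sg ε) (hρ : 0 ≤ ρ) (h : M ε ρ < 1 / U ^ 2) :
    M ε ρ + M (-ε) ρ ≤ 2 * U ^ 11 * max (M ε ρ) (1 / U ^ A) := by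
  have hU0 : 0 < U := by linarith
  have hU1 : 1 ≤ U := by linarith
  obtain ⟨t, w, ht, hw, h1, h2⟩ : ∃ t w, Sg t ∧ 0 ≤ w ∧ 1 / U ^ 3 / U ≤ γ t w ∧
      γ (-t) w ≤ 1 / U ^ 3 := by
    obtain ⟨w, -, hw, -, a1, a2, -⟩ := hW 1 1 (Or.inl rfl) (Or.inl rfl) 3 1 (by omega) hA le_rfl
      (by omega)
    obtain ⟨w', -, hw', -, b1, b2, -⟩ := hW (-1) 1 (Or.inr rfl) (Or.inl rfl) 3 1 (by omega) hA
      le_rfl (by omega)
    rcases le_total w w' with hle | hle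
    · exact ⟨1, w, Or.inl rfl, hw, a1, (hγ _ hle).trans b2⟩
    · exact ⟨-1, w', Or.inr rfl, hw', b1, by rw [neg_neg]; exact (hγ _ hle).trans a2⟩
  have k1 := bal_H1 hU (by omega) (hγ _) (hM _) (hN _) (hW t (-ε) ht hε.neg) hw (g1 _ _)
    (m0 (-ε) ρ) (m1 _ _)
  have k2 := bal_H2 hU (by omega) (hγ _) (hM _) (hN _) (hW (-t) ε ht.neg hε) hρ
    (h2.trans_lt (one_div_lt_one_div_of_lt (by positivity)
      (pow_lt_pow_right₀ (by linarith) (by norm_num)))) h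
  rw [neg_mul, ← mul_neg] at k2
  set B := max (M ε ρ) (1 / U ^ A) with hB
  have hB0 : 0 ≤ B := le_max_of_le_right (by positivity)
  have k3 : max (γ (-t) w) (1 / U ^ A) ≤ 1 / U ^ 3 :=
    max_le h2 (one_div_le_one_div_of_le (by positivity) (pow_le_pow_right₀ hU1 hA))
  have k4 : max (N (-(t * -ε)) (w * ρ)) (1 / U ^ A) ≤ U ^ 2 * B := by
    refine max_le (k2.trans ((mul_le_mul_of_nonneg_right
      (mul_le_mul_of_nonneg_left k3 (by positivity)) hB0).trans_eq ?_))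
      ((le_max_right _ _).trans (le_mul_of_one_le_left hB0 (one_le_pow₀ hU1)))
    field_simp
  have k5 := ((mul_le_mul_of_nonneg_right h1 (m0 (-ε) ρ)).trans k1).trans
    (mul_le_mul_of_nonneg_left k4 (by positivity))
  have k6 : M (-ε) ρ ≤ U ^ 11 * B := by
    have := mul_le_mul_of_nonneg_left k5 (pow_pos hU0 4).le
    refine le_trans (le_of_eq ?_) (this.trans_eq (by ring))
    field_simp
  have k7 : M ε ρ ≤ U ^ 11 * B :=
    (le_max_left _ _).trans (le_mul_of_one_le_left hB0 (one_le_pow₀ hU1))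
  linarith

end Abs

section Mass
variable {α : Type} (S : Finset α) {f : α → ℝ} (x : α → ℝ)

theorem bal_mono (hf : ∀ a, 0 ≤ f a) (ε : ℝ) :
    Monotone fun w => ∑ a ∈ S.filter (fun a => 0 ≤ ε * x a ∧ ε * x a ≤ w), f a :=
  fun _ _ h => sum_le_sum_of_subset_of_nonneg
    (monotone_filter_right _ fun _ _ ha => ⟨ha.1, ha.2.trans h⟩) fun a _ _ => hf a

theorem bal_one_le_two (hf : ∀ a, 0 ≤ f a) {ε : ℝ} (hε : Sg ε) (w : ℝ) :
    ∑ a ∈ S.filter (fun a => 0 ≤ ε * x a ∧ ε * x a ≤ w), f a ≤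
      ∑ a ∈ S.filter (fun a => |x a| ≤ w), f a := by
  refine sum_le_sum_of_subset_of_nonneg (monotone_filter_right _ fun a _ ha => ?_)
    fun a _ _ => hf a
  rcases hε with rfl | rfl <;> exact abs_le.2 ⟨by linarith [ha.1, ha.2], by linarith [ha.1, ha.2]⟩

theorem bal_two_le (hf : ∀ a, 0 ≤ f a) {ε : ℝ} (hε : Sg ε) (w : ℝ) :
    ∑ a ∈ S.filter (fun a => |x a| ≤ w), f a ≤
      ∑ a ∈ S.filter (fun a => 0 ≤ ε * x a ∧ ε * x a ≤ w), f a +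
        ∑ a ∈ S.filter (fun a => 0 ≤ -ε * x a ∧ -ε * x a ≤ w), f a := by
  simp only [sum_filter, ← sum_add_distrib]
  refine sum_le_sum fun a _ => ?_
  have h0 := hf a
  by_cases h : |x a| ≤ w
  · have h1 := abs_le.1 h
    have h2 : -w ≤ ε * x a ∧ ε * x a ≤ w := by
      rcases hε with rfl | rfl <;> constructor <;> linarith [h1.1, h1.2]
    rw [if_pos h]
    rcases le_total 0 (ε * x a) with h3 | h3
    · rw [if_pos ⟨h3, h2.2⟩]
      split_ifs <;> linarith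
    · rw [if_pos (show 0 ≤ -ε * x a ∧ -ε * x a ≤ w from ⟨by linarith, by linarith [h2.1]⟩)]
      split_ifs <;> linarith
  · rw [if_neg h]
    split_ifs <;> linarith

end Mass

theorem bal_mP_mono (P : Finset Pt) (F : Pt → ℝ) (p : Pt) {s : ℝ} (hs : 0 < s) (ε : ℝ) :
    Monotone fun ρ => mP P F p ε ρ / s := fun _ _ h => by
  have := bal_mono P (f := fun _ => 1) (fun q => F q - F p) (fun _ => zero_le_one) ε h
  simp only [sum_const, nsmul_eq_mul, mul_one] at this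
  exact div_le_div_of_nonneg_right this hs.le

theorem bal_mP_le (P : Finset Pt) (F : Pt → ℝ) (p : Pt) {s : ℝ} (hs : 0 < s) {ε : ℝ} (hε : Sg ε)
    (ρ : ℝ) : mP P F p ε ρ / s ≤ mP2 P F p ρ / s := by
  have := bal_one_le_two P (f := fun _ => 1) (fun q => F q - F p) (fun _ => zero_le_one) hε ρ
  simp only [sum_const, nsmul_eq_mul, mul_one] at this
  exact div_le_div_of_nonneg_right this hs.le

theorem bal_mP2_le (P : Finset Pt) (F : Pt → ℝ) (p : Pt) {s : ℝ} (hs : 0 < s) {ε : ℝ} (hε : Sg ε)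
    (ρ : ℝ) : mP2 P F p ρ / s ≤ mP P F p ε ρ / s + mP P F p (-ε) ρ / s := by
  have := bal_two_le P (f := fun _ => 1) (fun q => F q - F p) (fun _ => zero_le_one) hε ρ
  simp only [sum_const, nsmul_eq_mul, mul_one] at this
  rw [← add_div]
  exact div_le_div_of_nonneg_right this hs.le

theorem bal : BalStmt := by
  intro A U s P X Y C gam κ Gd hA hb hl
  have hU := hb.two_le
  have hs := hb.s_pos
  have hU0 : 0 < U := by linarith
  have hA1 : 1 ≤ A := by omega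
  have s1 : Sg 1 := Or.inl rfl
  have gm : ∀ c ε, Monotone (mG C gam κ c ε) := fun c ε =>
    bal_mono C (fun c' => κ c' - κ c) hb.nonneg ε
  have g0 : ∀ c ε w, 0 ≤ mG C gam κ c ε w := fun c ε w => sum_nonneg fun a _ => hb.nonneg a
  have g1 : ∀ c ε w, mG C gam κ c ε w ≤ U := fun c ε w =>
    (sum_le_sum_of_subset_of_nonneg (filter_subset _ _) fun a _ _ => hb.nonneg a).trans hb.total
  have g2 : ∀ c ε w, Sg ε → mG C gam κ c ε w ≤ mG2 C gam κ c w := fun c ε w hε =>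
    bal_one_le_two C (fun c' => κ c' - κ c) hb.nonneg hε w
  have g3 : ∀ c ε w, Sg ε → mG2 C gam κ c w ≤ mG C gam κ c ε w + mG C gam κ c (-ε) w :=
    fun c ε w hε => bal_two_le C (fun c' => κ c' - κ c) hb.nonneg hε w
  have m0 : ∀ p ε ρ, 0 ≤ mP P Y p ε ρ / s := fun p ε ρ => div_nonneg (Nat.cast_nonneg _) hs.le
  have m1 : ∀ p ε ρ, mP P Y p ε ρ / s ≤ U := fun p ε ρ => by
    have h1 : mP P Y p ε ρ ≤ s :=
      le_trans (Nat.cast_le.2 (card_filter_le _ _)) hb.cardP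
    exact ((div_le_one hs).2 h1).trans (by linarith)
  have hW : ∀ p c, Gd p c → ∀ ε₁ ε₂, Sg ε₁ → Sg ε₂ → BalW A U (mG C gam κ c ε₁)
      (fun ρ => mP P Y p ε₂ ρ / s) fun r => mP P (xc X Y (κ c)) p (-(ε₁ * ε₂)) r / s := by
    intro p c hg ε₁ ε₂ h1 h2 i j i1 i2 j1 j2
    obtain ⟨w, ρ, hw, hρ, a1, a2, a3, a4, a5, a6⟩ := hl.wit p c hg i j i1 i2 j1 j2 ε₁ ε₂ h1 h2
    exact ⟨w, ρ, hw, hρ, a1, a2, (le_div_iff₀ hs).2 (by rwa [div_mul_eq_mul_div]),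
      (div_le_iff₀ hs).2 a4, (le_div_iff₀ hs).2 (by rwa [div_mul_eq_mul_div]),
      (div_le_iff₀ hs).2 a6⟩
  refine ⟨fun p c hg w ρ hw hρ => ?_, fun p c hg w ρ hw hρ h1 h2 => ?_,
    fun p c hg ε w hε hw h => ?_, fun p c hg ε ρ hε hρ h => ?_, fun p c hg ρ ρ' h1 h2 => ?_⟩
  · have key : ∀ ε₁ ε₂, Sg ε₁ → Sg ε₂ → Sg (-(ε₁ * ε₂)) → mG C gam κ c ε₁ w * (mP P Y p ε₂ ρ / s) ≤
        U ^ 5 * max (mP2 P (xc X Y (κ c)) p (w * ρ) / s) (1 / U ^ A) := fun ε₁ ε₂ h1 h2 h3 =>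
      (bal_H1 hU hA1 (gm c ε₁) (bal_mP_mono P Y p hs ε₂) (bal_mP_mono P _ p hs _)
        (hW p c hg ε₁ ε₂ h1 h2) hw (g1 _ _ _) (m0 _ _ _) (m1 _ _ _)).trans
        (mul_le_mul_of_nonneg_left (max_le_max_right _ (bal_mP_le P _ p hs h3 _)) (by positivity))
    have k1 := key 1 1 s1 s1 (Or.inr (by ring))
    have k2 := key 1 (-1) s1 s1.neg (Or.inl (by ring))
    have k3 := key (-1) 1 s1.neg s1 (Or.inl (by ring))
    have k4 := key (-1) (-1) s1.neg s1.neg (Or.inr (by ring))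
    have k5 := mul_le_mul (g3 c 1 w s1) (bal_mP2_le P Y p hs s1 ρ)
      (div_nonneg (Nat.cast_nonneg _) hs.le) (add_nonneg (g0 _ _ _) (g0 _ _ _))
    linarith
  · have key : ∀ ε, Sg ε → mP P (xc X Y (κ c)) p (-(1 * ε)) (w * ρ) / s ≤
        U ^ 5 * max (mG2 C gam κ c w) (1 / U ^ A) * max (mP2 P Y p ρ / s) (1 / U ^ A) :=
      fun ε hε => (bal_H2 hU hA1 (gm c 1) (bal_mP_mono P Y p hs ε) (bal_mP_mono P _ p hs _)
        (hW p c hg 1 ε s1 hε) hρ ((g2 c 1 w s1).trans_lt h1)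
        ((bal_mP_le P Y p hs hε ρ).trans_lt h2)).trans
        (mul_le_mul (mul_le_mul_of_nonneg_left (max_le_max_right _ (g2 c 1 w s1)) (by positivity))
          (max_le_max_right _ (bal_mP_le P Y p hs hε ρ)) (le_max_of_le_right (by positivity))
          (mul_nonneg (by positivity) (le_max_of_le_right (by positivity))))
    have k1 := key 1 s1
    have k2 := key (-1) s1.neg
    rw [one_mul] at k1
    rw [one_mul, neg_neg] at k2
    linarith [bal_mP2_le P (xc X Y (κ c)) p hs s1 (w * ρ)]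
  · exact (g3 c ε w hε).trans (bal_side (γ := fun ε ρ => mP P Y p ε ρ / s) (M := mG C gam κ c)
      (N := fun σ r => mP P (xc X Y (κ c)) p σ r / s) hU hA (bal_mP_mono P Y p hs) (gm c)
      (bal_mP_mono P _ p hs) (fun ε₁ ε₂ h1 h2 => by
        rw [mul_comm]; exact (hW p c hg ε₂ ε₁ h2 h1).swap) (m1 p) (g0 c) (g1 c) hε hw h)
  · exact (bal_mP2_le P Y p hs hε ρ).trans (bal_side (γ := mG C gam κ c)
      (M := fun ε ρ => mP P Y p ε ρ / s) (N := fun σ r => mP P (xc X Y (κ c)) p σ r / s) hU hA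
      (gm c) (bal_mP_mono P Y p hs) (bal_mP_mono P _ p hs) (hW p c hg) (g1 c) (m0 p) (m1 p)
      hε hρ h)
  · obtain ⟨i, i1, i2, i3, i4⟩ := bal_bx hU hA1 h1
    obtain ⟨j, j1, j2, j3, j4⟩ := bal_bx hU hA1 h2
    have k1 := hl.box p c hg i j i1 i2 j1 j2 ρ ρ'
      (by rwa [div_le_iff₀ hs, one_div_mul_eq_div] at i3)
      (by rwa [div_le_iff₀ hs, one_div_mul_eq_div] at j3)
    have k2 : mB P Y (xc X Y (κ c)) p ρ ρ' / s ≤ U * (1 / U ^ i) * (1 / U ^ j) := by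
      rw [div_le_iff₀ hs]
      refine k1.trans_eq ?_
      field_simp
    have hp : 0 ≤ max (mP2 P Y p ρ / s) (1 / U ^ A) := le_max_of_le_right (by positivity)
    refine k2.trans ((mul_le_mul (mul_le_mul_of_nonneg_left i4 hU0.le) j4 (by positivity)
      (by positivity)).trans_eq ?_)
    ring

end Crest.Agent.R51
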