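import Crest.Agent.R51.Tools

/-!
# Row 51: the box bound
-/

set_option autoImplicit false

noncomputable section

namespace Crest.Agent.R51

open Finset Classical

/-- the `3 × 3` block of rank boxes with given central indices -/
def blk3 (P : Finset Pt) (θ₁ W₁ θ₂ W₂ : ℝ) (k₁ k₂ : ℤ) : Finset Pt :=
  P.filter fun z => |st P θ₁ W₁ z - k₁| ≤ 1 ∧ |st P θ₂ W₂ z - k₂| ≤ 1

lemma zbox_eq_blk3 (P : Finset Pt) (θ₁ W₁ θ₂ W₂ : ℝ) (p : Pt) :
    zbox P θ₁ W₁ θ₂ W₂ p = blk3 P θ₁ W₁ θ₂ W₂ (st P θ₁ W₁ p) (st P θ₂ W₂ p) := rfl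

lemma card_near_le_three (K : Finset ℤ) (m : ℤ) : #(K.filter fun k => |m - k| ≤ 1) ≤ 3 := by
  have h1 : (K.filter fun k => |m - k| ≤ 1) ⊆ Finset.Icc (m - 1) (m + 1) := fun k hk => by
    have := abs_le.mp (mem_filter.mp hk).2
    rw [Finset.mem_Icc]; omega
  have h2 := card_le_card h1
  rw [Int.card_Icc] at h2
  omega

/-- few blocks of a row are big -/
lemma GP.big_row {P : Finset Pt} (hP : GP P) (θ₁ W₁ θ₂ : ℝ) {W₂ q : ℝ} (hW : 1 ≤ W₂) (k₂ : ℤ)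
    (K : Finset ℤ) (hK : ∀ k ∈ K, q ≤ (#(blk3 P θ₁ W₁ θ₂ W₂ k k₂) : ℝ)) :
    (#K : ℝ) * q ≤ 12 * W₂ := by
  set R := P.filter fun z => |st P θ₂ W₂ z - k₂| ≤ 1 with hR
  have hRc : (#R : ℝ) ≤ 3 * W₂ + 1 := hP.card_st3 θ₂ (by linarith) k₂
  have h1 : (#K : ℝ) * q ≤ ∑ k ∈ K, (#(R.filter fun z => |st P θ₁ W₁ z - k| ≤ 1) : ℝ) := by
    rw [← nsmul_eq_mul]
    refine card_nsmul_le_sum _ _ q fun k hk => (hK k hk).trans (le_of_eq ?_)
    rw [hR, filter_filter]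
    unfold blk3
    congr 2
    ext z
    simp only [mem_filter, and_comm]
  have h2 : ∑ k ∈ K, (#(R.filter fun z => |st P θ₁ W₁ z - k| ≤ 1) : ℝ) =
      ∑ z ∈ R, (#(K.filter fun k => |st P θ₁ W₁ z - k| ≤ 1) : ℝ) := by
    simp only [card_filter, Nat.cast_sum]
    exact sum_comm
  have h3 : ∑ z ∈ R, (#(K.filter fun k => |st P θ₁ W₁ z - k| ≤ 1) : ℝ) ≤ #R * 3 := by
    rw [← nsmul_eq_mul]
    exact sum_le_card_nsmul _ _ 3 fun z _ => by exact_mod_cast card_near_le_three K _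
  linarith

variable {P : Finset Pt} {v : ℤ → Pt} {I : Finset ℤ} {cl : ℤ → ℕ} {lo hi : ℕ → ℝ}

/-- a run has few non-flat edges in one strip of another class -/
lemma Sys.card_strip_le (hS : Sys P v I) (hH : Hull (sl v) I cl lo hi) (hM : Mono (sl v) I cl)
    (hL : Link I cl) {a : ℕ} (ha : a ∈ I.image cl) {W : ℝ} (hW : 0 < W) (l : ℕ) (S : Finset ℤ)
    (hSI : S ⊆ I) (g k : ℤ) (h1 : ∀ e ∈ S, root I e = g) (h2 : ∀ e ∈ S, a ≠ cl e)
    (h3 : ∀ e ∈ S, ¬ Flat P v I (lo a) W l e) (h4 : ∀ e ∈ S, st P (lo a) W (v e) = k) :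
    #S ≤ l := by
  rcases S.eq_empty_or_nonempty with he | hne
  · rw [he]; simp
  obtain ⟨e₀, he₀, hmin⟩ := exists_min_image S id hne
  have hsub : S ⊆ Finset.Ico e₀ (e₀ + l) := fun e he => by
    rw [Finset.mem_Ico]
    refine ⟨hmin e he, ?_⟩
    by_contra hc
    have hle : e₀ + l ≤ e := not_lt.mp hc
    have hs : Seg I e₀ (e + 1) :=
      seg_of_root_eq (hSI he₀) (hSI he) ((h1 e₀ he₀).trans (h1 e he).symm)
    refine h3 e₀ he₀ ⟨e₀, Or.inl rfl, hs.mono le_rfl (by omega), ?_⟩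
    have hb := hS.rk_between hH hM ha (h2 e₀ he₀) (i := e₀) (j := e) (hs.mono le_rfl (by omega))
      (fun m a b => (hL.seg a (hs.mono le_rfl (by omega))).symm) (l := e₀) (l' := e₀ + l)
      le_rfl (by omega) hle
    exact hb.trans (dr_lt_of_st_eq hW ((h4 e₀ he₀).trans (h4 e he).symm)).le
  have := card_le_card hsub
  rw [Int.card_Ico] at this
  omega

/-- the count along one run -/
lemma Sys.card_run_le (hS : Sys P v I) (hH : Hull (sl v) I cl lo hi) (hM : Mono (sl v) I cl)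
    (hL : Link I cl) {a : ℕ} (ha : a ∈ I.image cl) {W₁ W₂ q : ℝ} (hW₁ : 0 < W₁) (hW₂ : 1 ≤ W₂)
    (hq : 0 < q) (l : ℕ) (S : Finset ℤ) (hSI : S ⊆ I) (g : ℤ) (h1 : ∀ e ∈ S, root I e = g)
    (h2 : ∀ e ∈ S, a ≠ cl e) (h3 : ∀ e ∈ S, ¬ Flat P v I (lo a) W₁ l e)
    (h4 : ∀ e ∈ S, (nu P (lo (cl e)) (hi (cl e)) (v e) : ℝ) ≤ W₂)
    (h5 : ∀ e ∈ S, q ≤ (#(zbox P (lo a) W₁ (lo (cl e)) W₂ (v e)) : ℝ)) :
    (#S : ℝ) ≤ 7 * (l * (12 * W₂ / q)) := by
  rcases S.eq_empty_or_nonempty with he | hne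
  · rw [he]; simp only [card_empty, Nat.cast_zero]; positivity
  obtain ⟨e₀, he₀, hmin⟩ := exists_min_image S id hne
  have hW₂' : 0 < W₂ := by linarith
  have hcl : ∀ e ∈ S, cl e = cl e₀ := fun e he =>
    hL.root_eq (hSI he) (hSI he₀) ((h1 e he).trans (h1 e₀ he₀).symm)
  set c := cl e₀ with hc
  set k₀ := st P (lo c) W₂ (v e₀) with hk₀
  have hT : ∀ e ∈ S, st P (lo c) W₂ (v e) ∈ Finset.Icc (k₀ - 3) (k₀ + 3) := fun e he => by
    have hle : e₀ ≤ e := hmin e he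
    have hs : Seg I e₀ (e + 1) :=
      seg_of_root_eq (hSI he₀) (hSI he) ((h1 e₀ he₀).trans (h1 e he).symm)
    have hd := hS.dr_le_nu (lo := lo c) (hi := hi c) (θ := lo c) hle (hs.mono le_rfl (by omega))
      (fun m a b => by
        have hm : m ∈ I := hs m a (by omega)
        have e1 : cl e₀ = cl m := hL.seg a (hs.mono le_rfl (by omega))
        rw [hc, e1]
        exact ⟨hH.lo_le m hm, hH.le_hi m hm⟩) le_rfl
      (hH.lo_le_hi (mem_image_of_mem cl (hSI he₀)))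
    have a1 := h4 e₀ he₀
    have a2 := h4 e he
    rw [hcl e he] at a2
    have hc3 := st_close (P := P) (θ := lo c) (p := v e₀) (q := v e) hW₂' 3 (by
      push_cast; linarith)
    have := abs_le.mp hc3
    rw [Finset.mem_Icc]
    push_cast at this
    omega
  rw [card_eq_sum_card_fiberwise (f := fun e => st P (lo c) W₂ (v e))
    (t := Finset.Icc (k₀ - 3) (k₀ + 3)) (fun e he => mem_coe.mpr (hT e (mem_coe.mp he)))]
  push_cast
  refine (sum_le_card_nsmul _ _ (l * (12 * W₂ / q)) fun k₂ _ => ?_).trans (le_of_eq ?_)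
  · set S₂ := S.filter fun e => st P (lo c) W₂ (v e) = k₂ with hS₂
    have hsub : S₂ ⊆ S := filter_subset _ _
    have b1 : #S₂ ≤ l * #(S₂.image fun e => st P (lo a) W₁ (v e)) :=
      card_le_mul_card_image S₂ l fun k _ =>
        hS.card_strip_le hH hM hL ha hW₁ l _ ((filter_subset _ _).trans (hsub.trans hSI)) g k
          (fun e he => h1 e (hsub (mem_filter.mp he).1))
          (fun e he => h2 e (hsub (mem_filter.mp he).1))
          (fun e he => h3 e (hsub (mem_filter.mp he).1))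
          (fun e he => (mem_filter.mp he).2)
    have b2 := hS.gp.big_row (lo a) W₁ (lo c) (q := q) hW₂ k₂
      (S₂.image fun e => st P (lo a) W₁ (v e)) fun k hk => by
        obtain ⟨e, he, rfl⟩ := mem_image.mp hk
        have := h5 e (hsub he)
        rw [zbox_eq_blk3, hcl e (hsub he), (mem_filter.mp he).2] at this
        exact this
    have b3 : (#(S₂.image fun e => st P (lo a) W₁ (v e)) : ℝ) ≤ 12 * W₂ / q :=
      (le_div_iff₀ hq).mpr b2
    have b4 : (#S₂ : ℝ) ≤ l * #(S₂.image fun e => st P (lo a) W₁ (v e)) := by exact_mod_cast b1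
    exact b4.trans (mul_le_mul_of_nonneg_left b3 (Nat.cast_nonneg l))
  · rw [Int.card_Icc, nsmul_eq_mul, (by omega : (k₀ + 3 + 1 - (k₀ - 3)).toNat = 7)]
    norm_num

theorem box (hf : FlatStmt) : BoxStmt := by
  intro lam d u η Z W₁ W₂ P v I G cl lo hi gam hB hu huZ hZ hlam hld hW₁ hW₂ hη₁ hη₂ hd
  have hd1 : 1 ≤ d := hlam.trans hld
  have hd0 : 0 < d := by linarith
  have hlam0 : 0 < lam := by linarith
  have hZ1 : 1 ≤ Z := by linarith
  have hZ0 : 0 < Z := by linarith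
  have hld1 : 1 ≤ lam * d := one_le_mul_of_one_le_of_one_le hlam hd1
  have hW₁1 : 1 ≤ W₁ := hld1.trans hW₁
  have hW₁0 : 0 < W₁ := by linarith
  have hW₂0 : 0 < W₂ := by linarith
  have hZZ : Z ≤ Z ^ 2 := le_self_pow₀ hZ1 (by norm_num)
  set x := Z ^ 40 * W₁ / (lam * d) with hx
  have hx1 : 1 ≤ x := by
    rw [hx, le_div_iff₀ (by positivity), one_mul]
    exact hW₁.trans (le_mul_of_one_le_left hW₁0.le (one_le_pow₀ hZ1))
  set l := ⌈x⌉₊ with hl
  have hl1 : x ≤ l := Nat.le_ceil x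
  have hl2 : (l : ℝ) ≤ 2 * x := by
    have := Nat.ceil_lt_add_one (show 0 ≤ x by linarith)
    linarith
  set q := Z ^ 50 * W₁ * W₂ / (lam ^ 2 * d) with hq
  have hq0 : 0 < q := by positivity
  -- flat cherries
  have hA := hf lam d u η (Z ^ 2) W₁ l P v I G cl lo hi gam hB hu (huZ.trans hZZ) (hZ.trans hZZ)
    hlam hld hW₁1 (by rw [← pow_mul]; exact hη₁) (by exact_mod_cast hx1.trans hl1)
    (by rw [← pow_mul, ← div_le_iff₀ (by positivity)]; exact hl1) (by rw [← pow_mul]; exact hd)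
  -- large `nu`
  have hN : (#(cher v G fun _ e => W₂ < (nu P (lo (cl e)) (hi (cl e)) (v e) : ℝ)) : ℝ) ≤
      lam ^ 2 * d ^ 3 / Z ^ 5 := by
    have a1 := hB.cher_snd hd0.le fun e => W₂ < (nu P (lo (cl e)) (hi (cl e)) (v e) : ℝ)
    have a2 := hB.card_nu_gt hd0.le hW₂0
    have a3 : η * (lam ^ 2 * d / W₂) ≤ 1 / Z ^ 6 := by
      rw [← mul_div_assoc, div_le_div_iff₀ hW₂0 (by positivity)]
      linarith
    have a4 : lam ^ 2 * d * (d * η * (lam ^ 2 * d / W₂)) ≤ lam ^ 2 * d * (d * (1 / Z ^ 6)) := by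
      rw [mul_assoc d η]
      gcongr
    calc _ ≤ u * d * (lam ^ 2 * d * (d * (1 / Z ^ 6))) :=
          a1.trans (mul_le_mul_of_nonneg_left (a2.trans a4) (by positivity))
      _ ≤ Z * d * (lam ^ 2 * d * (d * (1 / Z ^ 6))) := by gcongr
      _ = lam ^ 2 * d ^ 3 / Z ^ 5 := by field_simp
  -- the rest
  have hR : (#(cher v G fun g e => cl g ≠ cl e ∧ ¬ Flat P v I (lo (cl g)) W₁ l e ∧
      (nu P (lo (cl e)) (hi (cl e)) (v e) : ℝ) ≤ W₂ ∧
      q ≤ (#(zbox P (lo (cl g)) W₁ (lo (cl e)) W₂ (v e)) : ℝ)) : ℝ) ≤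
      168 * (lam ^ 2 * d ^ 3) / Z ^ 8 := by
    have a1 := hB.cher_class hd0.le (fun a e => a ≠ cl e ∧ ¬ Flat P v I (lo a) W₁ l e ∧
      (nu P (lo (cl e)) (hi (cl e)) (v e) : ℝ) ≤ W₂ ∧
      q ≤ (#(zbox P (lo a) W₁ (lo (cl e)) W₂ (v e)) : ℝ))
      (b := nr I * (7 * (l * (12 * W₂ / q)))) (by positivity) fun a ha => by
        refine le_trans (le_of_eq (by congr)) (card_le_nr_mul
          (S := G.filter fun e => a ≠ cl e ∧ ¬ Flat P v I (lo a) W₁ l e ∧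
            (nu P (lo (cl e)) (hi (cl e)) (v e) : ℝ) ≤ W₂ ∧
            q ≤ (#(zbox P (lo a) W₁ (lo (cl e)) W₂ (v e)) : ℝ))
          ((filter_subset _ _).trans hB.sub) fun g _ => ?_)
        refine hB.sys.card_run_le hB.hull hB.mono hB.link ha hW₁0 hW₂ hq0 l _
          ((filter_subset _ _).trans ((filter_subset _ _).trans hB.sub)) g
          (fun e he => (mem_filter.mp he).2)
          (fun e he => (mem_filter.mp (mem_filter.mp he).1).2.1)
          (fun e he => (mem_filter.mp (mem_filter.mp he).1).2.2.1)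
          (fun e he => (mem_filter.mp (mem_filter.mp he).1).2.2.2.1)
          (fun e he => (mem_filter.mp (mem_filter.mp he).1).2.2.2.2)
    have a2 := hB.runs
    calc _ ≤ u * d * (nr I * (7 * (l * (12 * W₂ / q)))) := a1
      _ ≤ Z * d * ((Z * lam * d ^ 2) * (7 * (2 * x * (12 * W₂ / q)))) := by
          gcongr
          exact a2.trans (by gcongr)
      _ = 168 * (lam ^ 2 * d ^ 3) / Z ^ 8 := by
          rw [hx, hq]; field_simp; norm_num
  have hsplit1 := cher_or (v := v) (G := G)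
    (Q := fun g e => cl g ≠ cl e ∧ q < (#(zbox P (lo (cl g)) W₁ (lo (cl e)) W₂ (v e)) : ℝ))
    (Q₁ := fun g e => cl g ≠ cl e ∧ Flat P v I (lo (cl g)) W₁ l e)
    (Q₂ := fun g e => cl g ≠ cl e ∧ ¬ Flat P v I (lo (cl g)) W₁ l e ∧
      q < (#(zbox P (lo (cl g)) W₁ (lo (cl e)) W₂ (v e)) : ℝ))
    fun g _ e _ _ hQ => by
      by_cases hF : Flat P v I (lo (cl g)) W₁ l e
      · exact Or.inl ⟨hQ.1, hF⟩
      · exact Or.inr ⟨hQ.1, hF, hQ.2⟩
  have hsplit2 := cher_or (v := v) (G := G)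
    (Q := fun g e => cl g ≠ cl e ∧ ¬ Flat P v I (lo (cl g)) W₁ l e ∧
      q < (#(zbox P (lo (cl g)) W₁ (lo (cl e)) W₂ (v e)) : ℝ))
    (Q₁ := fun _ e => W₂ < (nu P (lo (cl e)) (hi (cl e)) (v e) : ℝ))
    (Q₂ := fun g e => cl g ≠ cl e ∧ ¬ Flat P v I (lo (cl g)) W₁ l e ∧
      (nu P (lo (cl e)) (hi (cl e)) (v e) : ℝ) ≤ W₂ ∧
      q ≤ (#(zbox P (lo (cl g)) W₁ (lo (cl e)) W₂ (v e)) : ℝ))
    fun g _ e _ _ hQ => by
      by_cases hF : W₂ < (nu P (lo (cl e)) (hi (cl e)) (v e) : ℝ)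
      · exact Or.inl hF
      · exact Or.inr ⟨hQ.1, hQ.2.1, not_lt.mp hF, hQ.2.2.le⟩
  have hM0 : 0 ≤ lam ^ 2 * d ^ 3 := by positivity
  set M := lam ^ 2 * d ^ 3 with hM
  have c1 : M / Z ^ 2 ≤ M / Z / 3 := by
    rw [div_div]
    exact div_le_div_of_nonneg_left hM0 (by positivity) (by nlinarith)
  have c2 : M / Z ^ 5 ≤ M / Z ^ 2 :=
    div_le_div_of_nonneg_left hM0 (by positivity) (pow_le_pow_right₀ hZ1 (by norm_num))
  have c3 : 168 * M / Z ^ 8 ≤ M / Z ^ 2 := by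
    rw [div_le_div_iff₀ (by positivity) (by positivity)]
    have e1 : Z ≤ Z ^ 6 := le_self_pow₀ hZ1 (by norm_num)
    have e2 : 168 * Z ^ 2 ≤ Z ^ 8 := by
      rw [(by ring : Z ^ 8 = Z ^ 6 * Z ^ 2)]
      exact mul_le_mul_of_nonneg_right (by linarith) (by positivity)
    calc 168 * M * Z ^ 2 = M * (168 * Z ^ 2) := by ring
      _ ≤ M * Z ^ 8 := mul_le_mul_of_nonneg_left e2 hM0
  linarith

end Crest.Agent.R51
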