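import Crest.Agent.R51.Tools

/-!
# Row 51: the contradiction at level `B₂`
-/

set_option autoImplicit false

noncomputable section

namespace Crest.Agent.R51

open Finset Classical

section count

variable {lam d u η : ℝ} {P : Finset Pt} {v : ℤ → Pt} {I G : Finset ℤ} {cl : ℤ → ℕ}
  {lo hi gam : ℕ → ℝ}

lemma chy_all (hB : B2 lam d u η P v I G cl lo hi gam) :
    (#G : ℝ) ^ 2 ≤ #P * #(cher v G fun _ _ => True) := by
  have hm : ∀ e ∈ G, v e ∈ P := fun e he => hB.sys.memL e (hB.sub he)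
  have h1 : (#G : ℝ) = ∑ p ∈ P, (#(G.filter fun g => v g = p) : ℝ) := by
    rw [card_eq_sum_card_fiberwise (f := v) (t := P) (fun i hi => hm i (mem_coe.mp hi))]
    push_cast; rfl
  have h2 : (#(cher v G fun _ _ => True) : ℝ) =
      ∑ p ∈ P, (#(G.filter fun g => v g = p) : ℝ) ^ 2 := by
    rw [card_cher_eq, ← sum_fiberwise_of_maps_to hm]
    refine sum_congr rfl fun p _ => ?_
    rw [sq, ← nsmul_eq_mul, ← sum_const]
    refine sum_congr rfl fun e he => ?_
    rw [(mem_filter.mp he).2]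
    simp only [and_true]
  rw [h1, h2]
  exact sq_sum_le_card_mul_sum_sq

lemma chy_swap (Q : ℤ → ℤ → Prop) :
    (#(cher v G Q) : ℝ) ≤ #(cher v G fun g e => Q e g) := by
  refine Nat.cast_le.mpr (card_le_card_of_injOn Prod.swap (fun x hx => ?_)
    (Prod.swap_injective.injOn))
  rw [mem_coe, mem_cher] at hx ⊢
  exact ⟨hx.2.1, hx.1, hx.2.2.1.symm, hx.2.2.2⟩

lemma chy_lt (hB : B2 lam d u η P v I G cl lo hi gam) (hl : 0 < lam) (hd : 0 < d) (hu : 0 < u)
    (hη : η ≤ 1 / (2 * u ^ 3)) :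
    lam ^ 2 * d ^ 3 / (4 * u ^ 2) ≤ #(cher v G fun g e => cl g < cl e) := by
  have hη0 : 0 ≤ η := (hB.nonneg 0).trans (hB.atom 0)
  have h1 := chy_all hB
  have h2 : (#(cher v G fun _ _ => True) : ℝ) ≤ #(cher v G fun g e => cl g = cl e) +
      #(cher v G fun g e => cl g < cl e ∨ cl e < cl g) :=
    cher_or fun g _ e _ _ _ => by omega
  have h3 : (#(cher v G fun g e => cl g < cl e ∨ cl e < cl g) : ℝ) ≤
      #(cher v G fun g e => cl g < cl e) + #(cher v G fun g e => cl e < cl g) :=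
    cher_or fun g _ e _ _ hq => hq
  have h4 := chy_swap (v := v) (G := G) fun g e => cl e < cl g
  have h5 : (#(cher v G fun g e => cl g = cl e) : ℝ) ≤ #G * (d * η) :=
    cher_le_of_fst fun e _ => le_trans (le_of_eq (by congr)) ((hB.dom (v e) (cl e)).trans
      (mul_le_mul_of_nonneg_left (hB.atom _) hd.le))
  have h6 := hB.cardG hd.le
  have h7 := hB.big
  have h8 := hB.cardP
  have h9 : (lam ^ 2 * d ^ 2 / u) ^ 2 ≤ lam ^ 2 * d * #(cher v G fun _ _ => True) :=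
    (pow_le_pow_left₀ (by positivity) h7 2).trans (h1.trans
      (mul_le_mul_of_nonneg_right h8 (Nat.cast_nonneg _)))
  have h10 : lam ^ 2 * d ^ 3 / u ^ 2 ≤ #(cher v G fun _ _ => True) := by
    refine le_of_mul_le_mul_left (le_trans (le_of_eq ?_) h9) (by positivity : 0 < lam ^ 2 * d)
    field_simp
  have h11 : (#G : ℝ) * (d * η) ≤ lam ^ 2 * d ^ 3 / (2 * u ^ 2) := by
    refine (mul_le_mul h6 (mul_le_mul_of_nonneg_left hη hd.le) (by positivity)
      (by positivity)).trans (le_of_eq ?_)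
    field_simp
  have e1 : lam ^ 2 * d ^ 3 / u ^ 2 = 4 * (lam ^ 2 * d ^ 3 / (4 * u ^ 2)) := by field_simp
  have e2 : lam ^ 2 * d ^ 3 / (2 * u ^ 2) = 2 * (lam ^ 2 * d ^ 3 / (4 * u ^ 2)) := by
    field_simp; ring
  linarith

/-- averaging over the class of the first edge -/
lemma chy_avg (hB : B2 lam d u η P v I G cl lo hi gam) (hd : 0 < d) (Gd : ℕ → Pt → ℕ → Prop)
    (C : ℕ → Finset ℕ) (hC : ∀ a p c, Gd a p c → c ∈ C a) {b : ℝ} (hb : 0 ≤ b)
    (hbig : d ^ 2 * (u * b) < #(cher v G fun g e => Gd (cl g) (v e) (cl e))) :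
    ∃ a ∈ I.image cl, b ≤ ∑ p ∈ P, ∑ c ∈ (C a).filter (fun c => Gd a p c), gam c := by
  by_contra hcon
  push Not at hcon
  refine absurd hbig (not_lt.mpr ?_)
  refine le_trans (hB.cher_class hd.le (fun a e => Gd a (v e) (cl e)) (b := d * b)
    (by positivity) fun a ha => ?_) (le_of_eq (by ring))
  refine le_trans (le_of_eq (by congr)) ((hB.card_class_pt fun c p => Gd a p c).trans ?_)
  refine le_trans ?_ (mul_le_mul_of_nonneg_left (hcon a ha).le hd.le)
  have e1 : ∀ c ∈ I.image cl, d * gam c * (#(P.filter fun p => Gd a p c) : ℝ) =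
      d * ∑ p ∈ P, if Gd a p c then gam c else 0 := fun c _ => by
    rw [← sum_filter, sum_const, nsmul_eq_mul]; ring
  refine (le_of_eq (sum_congr rfl fun c hc => (by congr : _ = _).trans (e1 c hc))).trans ?_
  rw [← mul_sum, sum_comm]
  refine mul_le_mul_of_nonneg_left (sum_le_sum fun p _ => ?_) hd.le
  rw [← sum_filter]
  refine sum_le_sum_of_subset_of_nonneg (fun c hc => ?_) fun c _ _ => hB.nonneg c
  rw [mem_filter] at hc ⊢
  exact ⟨hC a p c hc.2, hc.2⟩

/-- weight of the classes met by a block -/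
def chyW (I : Finset ℤ) (cl blk : ℤ → ℕ) (gam : ℕ → ℝ) (β : ℕ) : ℝ :=
  ∑ c ∈ (I.filter fun i => blk i = β).image cl, gam c

lemma chy_heavy (hB : B2 lam d u η P v I G cl lo hi gam) {blk : ℤ → ℕ}
    (hs : ∀ i ∈ I, ∀ j ∈ I, cl i = cl j → blk i = blk j) {t : ℝ} (ht : 0 < t) :
    (#((I.image blk).filter fun β => 1 / t < chyW I cl blk gam β) : ℝ) ≤ u * t := by
  have h1 := card_mul_le_sum (I.image blk) (chyW I cl blk gam) (1 / t)
    (fun β _ => sum_nonneg fun c _ => hB.nonneg c) (fun β => 1 / t < chyW I cl blk gam β)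
    fun β _ hβ => hβ.le
  have h2 : ∑ β ∈ I.image blk, chyW I cl blk gam β ≤ u := by
    unfold chyW
    rw [← sum_biUnion]
    · refine le_trans (sum_le_sum_of_subset_of_nonneg (fun c hc => ?_) fun c _ _ => hB.nonneg c)
        hB.total
      obtain ⟨β, _, hc⟩ := mem_biUnion.mp hc
      exact image_subset_image (filter_subset _ _) hc
    · intro β _ β' _ hne
      rw [Function.onFun, disjoint_left]
      intro c h3 h4
      obtain ⟨i, hi, rfl⟩ := mem_image.mp h3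
      obtain ⟨j, hj, e⟩ := mem_image.mp h4
      rw [mem_filter] at hi hj
      exact hne (hi.2.symm.trans ((hs i hi.1 j hj.1 e.symm).trans hj.2))
  rw [mul_one_div, div_le_iff₀ ht] at h1
  nlinarith

/-- edges in a set of blocks -/
lemma chy_blocks {blk : ℤ → ℕ} {ρ : ℝ}
    (hs : ∀ (p : Pt) (β : ℕ), (#(G.filter fun i => v i = p ∧ blk i = β) : ℝ) ≤ ρ) (p : Pt)
    (T : Finset ℕ) : (#(G.filter fun i => v i = p ∧ blk i ∈ T) : ℝ) ≤ #T * ρ := by
  rw [card_eq_sum_card_fiberwise (f := blk) (t := T)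
    (fun i hi => (mem_filter.mp (mem_coe.mp hi)).2.2), ← nsmul_eq_mul]
  push_cast
  refine sum_le_card_nsmul _ _ ρ fun β _ => le_trans (Nat.cast_le.mpr (card_le_card fun i hi => ?_))
    (hs p β)
  simp only [mem_filter] at hi ⊢
  exact ⟨hi.1.1, hi.1.2.1, hi.2⟩

/-- edges in windows that are rarely used at their left end -/
lemma chy_rare {win : ℤ → ℕ} {K t : ℝ} (ht : 0 ≤ t)
    (hf : ∀ p : Pt, (#((G.filter fun i => v i = p).image win) : ℝ) ≤ K) (p : Pt) :
    (#(G.filter fun e => v e = p ∧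
      (#(G.filter fun i => v i = v e ∧ win i = win e) : ℝ) < t) : ℝ) ≤ K * t := by
  rw [card_eq_sum_card_fiberwise (f := win) (t := (G.filter fun i => v i = p).image win)
    (fun i hi => by
      rw [mem_coe, mem_filter] at hi
      exact mem_coe.mpr (mem_image_of_mem win (mem_filter.mpr ⟨hi.1, hi.2.1⟩)))]
  push_cast
  refine (sum_le_card_nsmul _ _ t fun w _ => ?_).trans ?_
  · rcases ((G.filter fun e => v e = p ∧
      (#(G.filter fun i => v i = v e ∧ win i = win e) : ℝ) < t).filter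
        fun e => win e = w).eq_empty_or_nonempty with he | ⟨e, he⟩
    · rw [he, card_empty, Nat.cast_zero]; exact ht
    · simp only [mem_filter] at he
      refine le_trans (Nat.cast_le.mpr (card_le_card fun i hi => ?_)) he.1.2.2.le
      simp only [mem_filter] at hi ⊢
      exact ⟨hi.1.1, hi.1.2.1.trans he.1.2.1.symm, hi.2.trans he.2.symm⟩
  · rw [nsmul_eq_mul]; exact mul_le_mul_of_nonneg_right (hf p) ht

end count

section geom

lemma chy_kap_lt {a x y : ℝ} (hx : a < x) (hy : a < y) : kap a x < kap a y ↔ x < y := by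
  unfold kap
  rw [one_div_lt_one_div_of_neg (by linarith) (by linarith)]
  constructor <;> intro _ <;> linarith

lemma chy_kap_le {a x y : ℝ} (hx : a < x) (hy : a < y) : kap a x ≤ kap a y ↔ x ≤ y := by
  rw [← not_lt, ← not_lt, chy_kap_lt hy hx]

lemma chy_xc {a θ : ℝ} (hne : a ≠ θ) (z : Pt) :
    xc Prod.fst (h a) (kap a θ) z = h θ z / (a - θ) := by
  have : a - θ ≠ 0 := sub_ne_zero.mpr hne
  unfold xc kap h
  field_simp
  ring

/-- a metric neighbourhood with few points lies in three rank strips -/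
lemma chy_near {P : Finset Pt} (hP : GP P) {p q : Pt} (hp : p ∈ P) (hq : q ∈ P) {θ t ρ W : ℝ}
    (hW : 0 < W) {F : Pt → ℝ} (hF : ∀ z, F z = h θ z * t) (h1 : mP2 P F p ρ ≤ W)
    (h2 : |F q - F p| ≤ ρ) : |st P θ W q - st P θ W p| ≤ 1 := by
  have h3 : dr P θ p q ≤ ((1 : ℕ) : ℝ) * W := by
    rw [Nat.cast_one, one_mul]
    refine le_trans ?_ h1
    have key : ∀ z, |h θ z - h θ p| ≤ |h θ q - h θ p| → |F z - F p| ≤ ρ := fun z hz => by
      refine le_trans ?_ h2
      rw [hF, hF, hF, ← sub_mul, ← sub_mul, abs_mul, abs_mul]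
      exact mul_le_mul_of_nonneg_right hz (abs_nonneg _)
    unfold mP2
    rcases le_total (h θ p) (h θ q) with c | c
    · refine le_trans (le_trans (by linarith) (hP.card_between hp hq c).1)
        (Nat.cast_le.mpr (card_le_card fun z hz => ?_))
      rw [mem_filter] at hz ⊢
      refine ⟨hz.1, key z ?_⟩
      rw [abs_of_nonneg (by linarith [hz.2.1]), abs_of_nonneg (by linarith)]
      linarith [hz.2.2]
    · rw [dr_comm]
      refine le_trans (le_trans (by linarith) (hP.card_between hq hp c).1)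
        (Nat.cast_le.mpr (card_le_card fun z hz => ?_))
      rw [mem_filter] at hz ⊢
      refine ⟨hz.1, key z ?_⟩
      rw [abs_of_nonpos (by linarith [hz.2.2]), abs_of_nonpos (by linarith)]
      linarith [hz.2.1]
  exact_mod_cast st_close hW 1 h3

lemma chy_box {P : Finset Pt} (hP : GP P) {p : Pt} (hp : p ∈ P) {a θ ρ ρ' W₁ W₂ : ℝ} (hne : a ≠ θ)
    (hW₁ : 0 < W₁) (hW₂ : 0 < W₂) (h1 : mP2 P (h a) p ρ ≤ W₁)
    (h2 : mP2 P (xc Prod.fst (h a) (kap a θ)) p ρ' ≤ W₂) :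
    mB P (h a) (xc Prod.fst (h a) (kap a θ)) p ρ ρ' ≤ #(zbox P a W₁ θ W₂ p) := by
  unfold mB zbox
  refine Nat.cast_le.mpr (card_le_card fun q hq => ?_)
  rw [mem_filter] at hq ⊢
  exact ⟨hq.1, chy_near hP hp hq.1 hW₁ (t := 1) (fun z => (mul_one _).symm) h1 hq.2.1,
    chy_near hP hp hq.1 hW₂ (fun z => (chy_xc hne z).trans (div_eq_mul_inv _ _)) h2 hq.2.2⟩

end geom

section dim

variable {lam d u η : ℝ} {P : Finset Pt} {v : ℤ → Pt} {I₀ I G : Finset ℤ} {cl win blk : ℤ → ℕ}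
  {lo hi gam : ℕ → ℝ} {r K ρ M : ℝ}

/-- the dimension hypothesis of the analytic theorem at a good cherry -/
lemma chy_dim (hB : B2 lam d u η P v I G cl lo hi gam) (hI : I ⊆ I₀)
    (hW : Win v I₀ G win blk r K ρ M) (hcw : ∀ i ∈ I, ∀ j ∈ I, cl i = cl j → win i = win j)
    (hd : 0 < d) {g e : ℤ} (hg : g ∈ G) (he : e ∈ G) (hlt : cl g < cl e) (hne : blk g ≠ blk e)
    {k : ℕ} (hk : ∀ j ∈ I₀, blk j < blk e → blk j ≠ k → ∃ z ∈ I₀, blk z = blk e ∧
      ∀ i' ∈ I₀, ∀ i'' ∈ I₀, win i' = win e → win i'' = win e →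
        M * |kap (sl v j) (sl v i') - kap (sl v j) (sl v i'')| ≤
          |kap (sl v j) (sl v z) - kap (sl v j) (sl v i')|)
    (hgk : blk g ≠ k) {x y m : ℝ} (hm : 0 < m) (hM : m ≤ M) (hx : chyW I cl blk gam (blk e) ≤ x)
    (hy : d * y ≤ #(G.filter fun i => v i = v e ∧ win i = win e)) :
    ∃ w ε : ℝ, 0 ≤ w ∧ Sg ε ∧
      mG ((I.image cl).filter fun c' => cl g < c') gam
        (fun c' => kap (lo (cl g)) (lo c')) (cl e) ε w ≤ x ∧
      y ≤ mG2 ((I.image cl).filter fun c' => cl g < c') gam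
        (fun c' => kap (lo (cl g)) (lo c')) (cl e) (w / m) := by
  have hgI := hB.sub hg
  have heI := hB.sub he
  have hcb : ∀ i ∈ I, ∀ j ∈ I, cl i = cl j → blk i = blk j := fun i a j b c =>
    hW.same i (hI a) j (hI b) (hcw i a j b c)
  obtain ⟨j, hj, hjc, hjs⟩ := hB.hull.lo_mem g hgI
  obtain ⟨i', hi', hic, his⟩ := hB.hull.lo_mem e heI
  have hbj : blk j = blk g := hcb j hj g hgI hjc
  have hbi : blk i' = blk e := hcb i' hi' e heI hic
  have hge : blk g < blk e :=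
    lt_of_le_of_ne (hW.monoB g (hI hgI) e (hI heI) (hB.mono.lt hgI heI hlt).le) hne
  obtain ⟨z, hz, hzb, hzn⟩ := hk j (hI hj) (hbj ▸ hge) (hbj ▸ hgk)
  rw [hjs] at hzn
  set a := lo (cl g) with ha
  have haz : a < sl v z := hjs ▸ hW.monoB.lt (hI hj) hz (by rw [hbj, hzb]; exact hge)
  have hlo : ∀ c' ∈ I.image cl, cl g < c' → a < lo c' := fun c' h1 h2 =>
    (hB.hull.lo_le_hi (hB.mem_image hg)).trans_lt
      (hB.hull.lt hB.mono (hB.mem_image hg) h1 h2)
  have hae := hlo (cl e) (hB.mem_image he) hlt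
  have hup : ∀ ε : ℝ, Sg ε → ε * (kap a (sl v z) - kap a (lo (cl e))) =
      |kap a (sl v z) - kap a (lo (cl e))| →
      mG ((I.image cl).filter fun c' => cl g < c') gam (fun c' => kap a (lo c')) (cl e) ε
        |kap a (sl v z) - kap a (lo (cl e))| ≤ x := by
    intro ε hε h1
    refine le_trans ?_ hx
    unfold mG chyW
    refine sum_le_sum_of_subset_of_nonneg (fun c' hc' => ?_) fun c _ _ => hB.nonneg c
    simp only [mem_filter] at hc'
    obtain ⟨⟨h2, h3⟩, h4, h5⟩ := hc'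
    have h6 := hlo c' h2 h3
    obtain ⟨i, hi, rfl⟩ := mem_image.mp h2
    obtain ⟨j', hj', hjc', hjs'⟩ := hB.hull.lo_mem i hi
    refine mem_image.mpr ⟨j', mem_filter.mpr ⟨hj', ?_⟩, hjc'⟩
    rw [← h1] at h5
    rcases hε with rfl | rfl
    · have b1 : lo (cl e) ≤ lo (cl i) := (chy_kap_le hae h6).mp (by linarith)
      have b2 : lo (cl i) ≤ sl v z := (chy_kap_le h6 haz).mp (by linarith)
      have c1 := hW.monoB i' (hI hi') j' (hI hj') (by rw [his, hjs']; exact b1)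
      have c2 := hW.monoB j' (hI hj') z hz (by rw [hjs']; exact b2)
      omega
    · have b1 : lo (cl i) ≤ lo (cl e) := (chy_kap_le h6 hae).mp (by linarith)
      have b2 : sl v z ≤ lo (cl i) := (chy_kap_le haz h6).mp (by linarith)
      have c1 := hW.monoB j' (hI hj') i' (hI hi') (by rw [his, hjs']; exact b1)
      have c2 := hW.monoB z hz j' (hI hj') (by rw [hjs']; exact b2)
      omega
  have hdn : y ≤ mG2 ((I.image cl).filter fun c' => cl g < c') gam
      (fun c' => kap a (lo c')) (cl e) (|kap a (sl v z) - kap a (lo (cl e))| / m) := by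
    refine le_of_mul_le_mul_left (hy.trans ?_) hd
    refine le_trans (Nat.cast_le.mpr (card_le_card fun i hi => ?_))
      ((hB.deg_set (v e) ((G.filter fun i => win i = win e).image cl)).trans
        (mul_le_mul_of_nonneg_left ?_ hd.le))
    · simp only [mem_filter] at hi ⊢
      exact ⟨hi.1, hi.2.1, mem_image_of_mem cl (mem_filter.mpr ⟨hi.1, hi.2.2⟩)⟩
    · unfold mG2
      refine sum_le_sum_of_subset_of_nonneg (fun c' hc' => ?_) fun c _ _ => hB.nonneg c
      obtain ⟨i, hi, rfl⟩ := mem_image.mp hc'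
      rw [mem_filter] at hi
      have hiI := hB.sub hi.1
      have b1 : blk i = blk e := hW.same i (hI hiI) e (hI heI) hi.2
      have b2 : cl g ≤ cl i := hB.mono g hgI i hiI
        (hW.monoB.lt (hI hgI) (hI hiI) (by rw [b1]; exact hge)).le
      have b3 : cl g ≠ cl i := fun c => hne ((hcb g hgI i hiI c).trans b1)
      obtain ⟨j', hj', hjc', hjs'⟩ := hB.hull.lo_mem i hiI
      have b4 := hzn i' (hI hi') j' (hI hj') (hcw i' hi' e heI hic)
        ((hcw j' hj' i hiI hjc').trans hi.2)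
      rw [his, hjs'] at b4
      simp only [mem_filter]
      refine ⟨⟨hB.mem_image hi.1, lt_of_le_of_ne b2 b3⟩, ?_⟩
      rw [le_div_iff₀ hm, abs_sub_comm, mul_comm]
      exact (mul_le_mul_of_nonneg_right hM (abs_nonneg _)).trans b4
  rcases le_total 0 (kap a (sl v z) - kap a (lo (cl e))) with c | c
  · exact ⟨_, 1, abs_nonneg _, Or.inl rfl, hup 1 (Or.inl rfl) (by rw [one_mul, abs_of_nonneg c]),
      hdn⟩
  · exact ⟨_, -1, abs_nonneg _, Or.inr rfl,
      hup (-1) (Or.inr rfl) (by rw [neg_one_mul, abs_of_nonpos c]), hdn⟩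

end dim

/-- good cherries -/
def chyGood (A a₀ C₁ : ℕ) (lam d u U : ℝ) (P : Finset Pt) (v : ℤ → Pt) (I G : Finset ℤ)
    (cl win blk k : ℤ → ℕ) (lo hi gam : ℕ → ℝ) (g e : ℤ) : Prop :=
  cl g < cl e ∧
  (∀ i j : ℕ, 1 ≤ i → i ≤ A → 1 ≤ j → j ≤ A → ∀ ε₁ ε₂ : ℝ, Sg ε₁ → Sg ε₂ →
    RW P I cl lo hi gam (lam ^ 2 * d) U (cl g) (v e) (cl e) (1 / U ^ i) (1 / U ^ j) ε₁ ε₂) ∧
  (∀ i j : ℕ, 1 ≤ i → i ≤ A → 1 ≤ j → j ≤ A →
    (#(zbox P (lo (cl g)) (lam ^ 2 * d / U ^ i) (lo (cl e)) (lam ^ 2 * d / U ^ j) (v e)) : ℝ) ≤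
      (u ^ 5) ^ 50 * (lam ^ 2 * d / U ^ i) * (lam ^ 2 * d / U ^ j) / (lam ^ 2 * d)) ∧
  blk g ≠ blk e ∧ blk g ≠ k e ∧ chyW I cl blk gam (blk e) ≤ 1 / U ^ C₁ ∧
  d * (1 / U ^ a₀) ≤ #(G.filter fun i => v i = v e ∧ win i = win e)

lemma chy_good (hw : HWcountStmt) (hb : BoxStmt) {A a₀ C₁ : ℕ} (ha₀ : 1 ≤ a₀)
    {lam d u η U r K ρ M : ℝ} {P : Finset Pt} {v : ℤ → Pt} {I₀ I G : Finset ℤ}
    {cl win blk : ℤ → ℕ} {lo hi gam : ℕ → ℝ} (hB : B2 lam d u η P v I G cl lo hi gam)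
    (hI : I ⊆ I₀) (hW : Win v I₀ G win blk r K ρ M)
    (hcw : ∀ i ∈ I, ∀ j ∈ I, cl i = cl j → win i = win j) (hu : 10000 ≤ u)
    (hA : 10 * (A : ℝ) ^ 2 ≤ u) (hU : u ^ 1000 ≤ U) (hη : η ≤ 1 / U ^ (3 * (A + 1)))
    (hl : U ^ (A + 1) ≤ lam) (hd : lam ^ 10 ≤ d) (hK : K ≤ U ^ (a₀ - 1))
    (hρ : ρ ≤ d / U ^ (C₁ + 1)) (k : ℤ → ℕ) :
    lam ^ 2 * d ^ 3 / (8 * u ^ 2) ≤
      #(cher v G (chyGood A a₀ C₁ lam d u U P v I G cl win blk k lo hi gam)) := by
  have hu1 : 1 ≤ u := by linarith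
  have hu0 : 0 < u := by linarith
  have hpow : ∀ n : ℕ, n ≤ 1000 → u ^ n ≤ U := fun n hn => (pow_le_pow_right₀ hu1 hn).trans hU
  have hU1 : 1 ≤ U := by simpa using hpow 0 (by norm_num)
  have hU0 : 0 < U := by linarith
  have hUl : ∀ n : ℕ, n ≤ A + 1 → U ^ n ≤ lam := fun n hn => (pow_le_pow_right₀ hU1 hn).trans hl
  have hl1 : 1 ≤ lam := by simpa using hUl 0 (by omega)
  have hl0 : 0 < lam := by linarith
  have hld : ∀ n : ℕ, n ≤ 10 → lam ^ n ≤ d := fun n hn => (pow_le_pow_right₀ hl1 hn).trans hd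
  have hd1 : 1 ≤ d := by simpa using hld 0 (by norm_num)
  have hd0 : 0 < d := by linarith
  have hη0 : 0 ≤ η := (hB.nonneg 0).trans (hB.atom 0)
  have hηn : ∀ n : ℕ, n ≤ 3 * (A + 1) → η ≤ 1 / U ^ n := fun n hn =>
    hη.trans (one_div_le_one_div_of_le (by positivity) (pow_le_pow_right₀ hU1 hn))
  have hZ : u ≤ u ^ 5 := by simpa using pow_le_pow_right₀ hu1 (by norm_num : 1 ≤ 5)
  have hcb : ∀ i ∈ I, ∀ j ∈ I, cl i = cl j → blk i = blk j := fun i a j b c =>
    hW.same i (hI a) j (hI b) (hcw i a j b c)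
  set X := lam ^ 2 * d ^ 3 with hX
  have hX0 : 0 < X := by positivity
  have h0 := chy_lt hB hl0 hd0 hu0 ((hηn 1 (by omega)).trans (one_div_le_one_div_of_le
    (by positivity) (by
      have := hpow 4 (by norm_num)
      have h3 : 0 < u ^ 3 := by positivity
      rw [pow_one]; nlinarith)))
  rw [← hX] at h0
  -- levels
  have hlev : ∀ i : ℕ, 1 ≤ i → i ≤ A → U / U ^ (A + 1) ≤ 1 / U ^ i ∧ 1 / U ^ i ≤ 1 / U := by
    intro i h1 h2
    refine ⟨?_, one_div_le_one_div_of_le hU0 (by simpa using pow_le_pow_right₀ hU1 h1)⟩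
    rw [div_le_div_iff₀ (by positivity) (by positivity), one_mul, ← pow_succ']
    exact pow_le_pow_right₀ hU1 (by omega)
  have hwid : ∀ i : ℕ, i ≤ A → lam * d ≤ lam ^ 2 * d / U ^ i ∧
      η * ((u ^ 5) ^ 6 * (lam ^ 2 * d)) ≤ lam ^ 2 * d / U ^ i := by
    intro i h2
    constructor
    · rw [le_div_iff₀ (by positivity)]
      have := mul_le_mul_of_nonneg_left (hUl i (by omega)) (by positivity : 0 ≤ lam * d)
      linarith
    · have b1 : η * (u ^ 5) ^ 6 ≤ 1 / U ^ (i + 1) * U :=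
        mul_le_mul (hηn _ (by omega)) (by rw [← pow_mul]; exact hpow _ (by norm_num))
          (by positivity) (by positivity)
      have b2 : 1 / U ^ (i + 1) * U = 1 / U ^ i := by rw [pow_succ]; field_simp
      rw [← mul_assoc, div_eq_mul_one_div (lam ^ 2 * d), mul_comm (lam ^ 2 * d), ← b2]
      exact mul_le_mul_of_nonneg_right b1 (by positivity)
  have hcA : (#(Icc 1 A ×ˢ Icc 1 A) : ℝ) = (A : ℝ) ^ 2 := by
    rw [card_product, Nat.card_Icc, Nat.add_sub_cancel]; push_cast; ring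
  -- bad type 1
  have b1 : (#(cher v G fun g e => cl g < cl e ∧ ¬ ∀ i j : ℕ, 1 ≤ i → i ≤ A → 1 ≤ j → j ≤ A →
      ∀ ε₁ ε₂ : ℝ, Sg ε₁ → Sg ε₂ → RW P I cl lo hi gam (lam ^ 2 * d) U (cl g) (v e) (cl e)
        (1 / U ^ i) (1 / U ^ j) ε₁ ε₂) : ℝ) ≤ 4 * (A : ℝ) ^ 2 * (X / u ^ 5) := by
    refine (cher_exists ((Icc 1 A ×ˢ Icc 1 A) ×ˢ (({1, -1} : Finset ℝ) ×ˢ ({1, -1} : Finset ℝ)))
      (Q' := fun t g e => cl g < cl e ∧ ¬ RW P I cl lo hi gam (lam ^ 2 * d) U (cl g) (v e) (cl e)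
        (1 / U ^ t.1.1) (1 / U ^ t.1.2) t.2.1 t.2.2) (b := X / u ^ 5) ?_ ?_).trans ?_
    · intro g _ e _ _ hq
      obtain ⟨q1, q2⟩ := hq
      push Not at q2
      obtain ⟨i, j, c1, c2, c3, c4, ε₁, ε₂, c5, c6, c7⟩ := q2
      refine ⟨((i, j), (ε₁, ε₂)), ?_, q1, c7⟩
      simp only [mem_product, mem_Icc, mem_insert, mem_singleton]
      exact ⟨⟨⟨c1, c2⟩, c3, c4⟩, c5, c6⟩
    · intro t ht
      simp only [mem_product, mem_Icc, mem_insert, mem_singleton] at ht
      obtain ⟨⟨⟨c1, c2⟩, c3, c4⟩, c5, c6⟩ := ht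
      exact hw lam d u η (u ^ 5) U (U ^ (A + 1)) _ _ _ _ P v I G cl lo hi gam hB hu1 hZ
        (by linarith) (by rw [← pow_mul]; exact hpow _ (by norm_num))
        (by simpa using pow_le_pow_right₀ hU1 (by omega : 1 ≤ A + 1))
        (by rw [← pow_mul, mul_comm]; exact hη) hl hd (hlev _ c1 c2).1 (hlev _ c1 c2).2
        (hlev _ c3 c4).1 (hlev _ c3 c4).2 c5 c6
    · refine mul_le_mul_of_nonneg_right ?_ (by positivity)
      rw [card_product, Nat.cast_mul, hcA, card_product]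
      have : #({1, -1} : Finset ℝ) ≤ 2 := card_le_two
      have h4 : ((#({1, -1} : Finset ℝ) * #({1, -1} : Finset ℝ) : ℕ) : ℝ) ≤ 4 := by
        exact_mod_cast Nat.mul_le_mul this this
      nlinarith [sq_nonneg (A : ℝ)]
  -- bad type 2
  have b2 : (#(cher v G fun g e => cl g < cl e ∧ ¬ ∀ i j : ℕ, 1 ≤ i → i ≤ A → 1 ≤ j → j ≤ A →
      (#(zbox P (lo (cl g)) (lam ^ 2 * d / U ^ i) (lo (cl e)) (lam ^ 2 * d / U ^ j) (v e)) : ℝ) ≤
      (u ^ 5) ^ 50 * (lam ^ 2 * d / U ^ i) * (lam ^ 2 * d / U ^ j) / (lam ^ 2 * d)) : ℝ) ≤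
      (A : ℝ) ^ 2 * (X / u ^ 5) := by
    refine (cher_exists (Icc 1 A ×ˢ Icc 1 A)
      (Q' := fun t g e => cl g ≠ cl e ∧
        (u ^ 5) ^ 50 * (lam ^ 2 * d / U ^ t.1) * (lam ^ 2 * d / U ^ t.2) / (lam ^ 2 * d) <
        (#(zbox P (lo (cl g)) (lam ^ 2 * d / U ^ t.1) (lo (cl e)) (lam ^ 2 * d / U ^ t.2)
          (v e)) : ℝ)) (b := X / u ^ 5) ?_ ?_).trans (le_of_eq (by rw [hcA]))
    · intro g _ e _ _ hq
      obtain ⟨q1, q2⟩ := hq
      push Not at q2
      obtain ⟨i, j, c1, c2, c3, c4, c7⟩ := q2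
      refine ⟨(i, j), ?_, q1.ne, c7⟩
      simp only [mem_product, mem_Icc]
      exact ⟨⟨c1, c2⟩, c3, c4⟩
    · intro t ht
      simp only [mem_product, mem_Icc] at ht
      obtain ⟨⟨_, c2⟩, _, c4⟩ := ht
      refine hb lam d u η (u ^ 5) _ _ P v I G cl lo hi gam hB hu1 hZ (by linarith) hl1
        (by simpa using hld 1 (by norm_num)) (hwid _ c2).1
        (le_trans (one_le_mul_of_one_le_of_one_le hl1 hd1) (hwid _ c4).1) (hwid _ c2).2
        (hwid _ c4).2 (le_trans ?_ (hld 5 (by norm_num)))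
      rw [← pow_mul, pow_succ lam 4]
      exact mul_le_mul_of_nonneg_left ((hpow _ (by norm_num)).trans
        (by simpa using hUl 1 (by omega))) (by positivity)
  -- bad types 3, 4
  have hρ1 : ρ ≤ d / U := hρ.trans (div_le_div_of_nonneg_left hd0.le hU0
    (by simpa using pow_le_pow_right₀ hU1 (by omega : 1 ≤ C₁ + 1)))
  have b34 : ∀ f : ℤ → ℕ, (#(cher v G fun g e => blk g = f e) : ℝ) ≤ u * (X / U) := by
    intro f
    refine (cher_le_of_fst (b := d / U) fun e _ => le_trans (le_of_eq (by congr))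
      ((hW.spread (v e) (f e)).trans hρ1)).trans ?_
    refine (mul_le_mul_of_nonneg_right (hB.cardG hd0.le) (by positivity)).trans (le_of_eq ?_)
    rw [hX]; ring
  -- bad type 5
  have b5 : (#(cher v G fun _ e => 1 / U ^ C₁ < chyW I cl blk gam (blk e)) : ℝ) ≤
      u ^ 2 * (X / U) := by
    refine (hB.cher_snd hd0.le _).trans ?_
    have hρ0 : 0 ≤ ρ := (Nat.cast_nonneg _).trans (hW.spread (0, 0) 0)
    have c1 := hB.card_le_of_pt (fun e => 1 / U ^ C₁ < chyW I cl blk gam (blk e))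
      (b := u * (d / U)) (by positivity) fun p _ => by
        refine le_trans (Nat.cast_le.mpr (card_le_card fun i hi => ?_)) ((chy_blocks hW.spread p
          ((I.image blk).filter fun β => 1 / U ^ C₁ < chyW I cl blk gam β)).trans ?_)
        · simp only [mem_filter] at hi ⊢
          exact ⟨hi.1, hi.2.1, mem_image_of_mem blk (hB.sub hi.1), hi.2.2⟩
        · refine (mul_le_mul (chy_heavy hB hcb (by positivity)) hρ hρ0 (by positivity)).trans
            (le_of_eq ?_)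
          rw [pow_succ]; field_simp
    refine (mul_le_mul_of_nonneg_left c1 (by positivity)).trans (le_of_eq ?_)
    rw [hX]; ring
  -- bad type 6
  have b6 : (#(cher v G fun _ e => (#(G.filter fun i => v i = v e ∧ win i = win e) : ℝ) <
      d * (1 / U ^ a₀)) : ℝ) ≤ u * (X / U) := by
    refine (hB.cher_snd hd0.le _).trans ?_
    have c1 := hB.card_le_of_pt (fun e => (#(G.filter fun i => v i = v e ∧ win i = win e) : ℝ) <
      d * (1 / U ^ a₀)) (b := d / U) (by positivity) fun p _ => by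
        refine le_trans (le_of_eq (by congr)) ((chy_rare (by positivity) hW.few p).trans
          ((mul_le_mul_of_nonneg_right hK (by positivity)).trans (le_of_eq ?_)))
        obtain ⟨n, rfl⟩ : ∃ n, a₀ = n + 1 := ⟨a₀ - 1, by omega⟩
        rw [Nat.add_sub_cancel, pow_succ]; field_simp
    refine (mul_le_mul_of_nonneg_left c1 (by positivity)).trans (le_of_eq ?_)
    rw [hX]; ring
  -- union bound
  have h1 : (#(cher v G fun g e => cl g < cl e) : ℝ) ≤
      #(cher v G (chyGood A a₀ C₁ lam d u U P v I G cl win blk k lo hi gam)) +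
      (4 * (A : ℝ) ^ 2 * (X / u ^ 5) + ((A : ℝ) ^ 2 * (X / u ^ 5) + (u * (X / U) + (u * (X / U) +
        (u ^ 2 * (X / U) + u * (X / U)))))) := by
    refine (cher_or (Q₂ := fun g e => _ ∨ _ ∨ _ ∨ _ ∨ _ ∨ _) ?_).trans (add_le_add le_rfl
      ((cher_or fun _ _ _ _ _ c => c).trans (add_le_add b1
      ((cher_or fun _ _ _ _ _ c => c).trans (add_le_add b2
      ((cher_or fun _ _ _ _ _ c => c).trans (add_le_add (b34 blk)
      ((cher_or fun _ _ _ _ _ c => c).trans (add_le_add (b34 k)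
      ((cher_or fun _ _ _ _ _ c => c).trans (add_le_add b5 b6)))))))))))
    intro g _ e _ _ hq
    by_contra hcon
    simp only [not_or, not_and, not_not, not_lt] at hcon
    obtain ⟨c0, c1, c2, c3, c4, c5, c6⟩ := hcon
    exact c0 ⟨hq, c1 hq, c2 hq, c3, c4, c5, c6⟩
  have e1 : (A : ℝ) ^ 2 * (X / u ^ 5) ≤ X / (8 * u ^ 2) / 10 := by
    refine (mul_le_mul_of_nonneg_right (by linarith : (A : ℝ) ^ 2 ≤ u / 10)
      (by positivity)).trans ?_
    have : u / 10 * (X / u ^ 5) = X / (u ^ 2 * u ^ 2) / 10 := by field_simp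
    rw [this]
    refine div_le_div_of_nonneg_right (div_le_div_of_nonneg_left hX0.le (by positivity)
      (mul_le_mul_of_nonneg_right (by nlinarith) (by positivity))) (by norm_num)
  have e2 : u ^ 2 * (X / U) ≤ X / (8 * u ^ 2) / 10 := by
    refine (mul_le_mul_of_nonneg_left (div_le_div_of_nonneg_left hX0.le (by positivity)
      (hpow 5 (by norm_num))) (by positivity)).trans ?_
    have : u ^ 2 * (X / u ^ 5) = X / (u / 10 * u ^ 2) / 10 := by field_simp
    rw [this]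
    refine div_le_div_of_nonneg_right (div_le_div_of_nonneg_left hX0.le (by positivity)
      (mul_le_mul_of_nonneg_right (by linarith) (by positivity))) (by norm_num)
  have e3 : u * (X / U) ≤ u ^ 2 * (X / U) :=
    mul_le_mul_of_nonneg_right (by nlinarith) (by positivity)
  have e4 : X / (4 * u ^ 2) = 2 * (X / (8 * u ^ 2)) := by field_simp; ring
  have e5 : 0 ≤ X / (8 * u ^ 2) := by positivity
  linarith

theorem cherry (hw : HWcountStmt) (hg : HWgeomStmt) (hb : BoxStmt) (C₁ : ℕ) (ha : AnStmt C₁) :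
    CherryStmt C₁ := by
  intro A a₀ b₀ hC ha₀ hb₀ hA' lam d u η U r K ρ M P v I₀ I G cl win blk lo hi gam hB hI hW hcw
    hu hA hU hη hl hd hK hρ hM
  have hk : ∀ e : ℤ, ∃ k : ℕ, e ∈ G → ∀ j ∈ I₀, blk j < blk e → blk j ≠ k →
      ∃ z ∈ I₀, blk z = blk e ∧ ∀ i' ∈ I₀, ∀ i'' ∈ I₀, win i' = win e → win i'' = win e →
        M * |kap (sl v j) (sl v i') - kap (sl v j) (sl v i'')| ≤
          |kap (sl v j) (sl v z) - kap (sl v j) (sl v i')| := fun e => by
    by_cases he : e ∈ G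
    · obtain ⟨k, hk⟩ := hW.narrow e he
      exact ⟨k, fun _ => hk⟩
    · exact ⟨0, fun c => absurd c he⟩
  choose k hk using hk
  have h0 := chy_good hw hb ha₀ hB hI hW hcw hu hA hU hη hl hd hK hρ k
  set good := chyGood A a₀ C₁ lam d u U P v I G cl win blk k lo hi gam with hgood
  have hu1 : 1 ≤ u := by linarith
  have hu0 : 0 < u := by linarith
  have hpow : ∀ n : ℕ, n ≤ 1000 → u ^ n ≤ U := fun n hn => (pow_le_pow_right₀ hu1 hn).trans hU
  have huU : u ≤ U := by simpa using hpow 1 (by norm_num)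
  have hU1 : 1 ≤ U := by linarith
  have hU0 : 0 < U := by linarith
  have hUl : ∀ n : ℕ, n ≤ A + 1 → U ^ n ≤ lam := fun n hn => (pow_le_pow_right₀ hU1 hn).trans hl
  have hl1 : 1 ≤ lam := by simpa using hUl 0 (by omega)
  have hl0 : 0 < lam := by linarith
  have hld : lam ≤ d := by simpa using (pow_le_pow_right₀ hl1 (by norm_num : 1 ≤ 10)).trans hd
  have hd0 : 0 < d := by linarith
  have hd6 : 6 ≤ d := by
    have : U ≤ lam := by simpa using hUl 1 (by omega)
    linarith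
  have hs0 : 0 < lam ^ 2 * d := by positivity
  have hbig : ∀ i j : ℕ, i ≤ A → j ≤ A → 6 ≤ 1 / U ^ i * (1 / U ^ j) * (lam ^ 2 * d) := by
    intro i j c1 c2
    have e : 1 / U ^ i * (1 / U ^ j) * (lam ^ 2 * d) = lam / U ^ i * (lam / U ^ j) * d := by ring
    have b1 : 1 ≤ lam / U ^ i := (one_le_div (by positivity)).mpr (hUl i (by omega))
    have b2 : 1 ≤ lam / U ^ j := (one_le_div (by positivity)).mpr (hUl j (by omega))
    rw [e]
    exact hd6.trans (le_mul_of_one_le_left hd0.le (one_le_mul_of_one_le_of_one_le b1 b2))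
  set Gd : ℕ → Pt → ℕ → Prop := fun a p c =>
    ∃ g ∈ G, ∃ e ∈ G, good g e ∧ cl g = a ∧ v e = p ∧ cl e = c with hGd
  have hC' : ∀ a p c, Gd a p c → c ∈ (I.image cl).filter fun c' => a < c' := by
    rintro a p c ⟨g, _, e, he, h1, rfl, rfl, rfl⟩
    exact mem_filter.mpr ⟨hB.mem_image he, h1.1⟩
  obtain ⟨a, haI, hmass⟩ := chy_avg hB hd0 Gd (fun a => (I.image cl).filter fun c' => a < c') hC'
    (b := lam ^ 2 * d / U) (by positivity) (by
      refine lt_of_lt_of_le ?_ (h0.trans (cher_mono fun g hg e he _ c =>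
        ⟨g, hg, e, he, c, rfl, rfl, rfl⟩))
      have e1 : d ^ 2 * (u * (lam ^ 2 * d / U)) = lam ^ 2 * d ^ 3 / (U / u) := by field_simp
      rw [e1]
      refine div_lt_div_of_pos_left (by positivity) (by positivity) ?_
      rw [lt_div_iff₀ hu0]
      have := hpow 4 (by norm_num)
      have h3 : 0 < u ^ 3 := by positivity
      nlinarith)
  have hlo : ∀ c' ∈ I.image cl, a < c' → lo a < lo c' := fun c' h1 h2 =>
    (hB.hull.lo_le_hi haI).trans_lt (hB.hull.lt hB.mono haI h1 h2)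
  refine ha A a₀ b₀ hC hb₀ hA' U (lam ^ 2 * d) P Prod.fst (h (lo a))
    ((I.image cl).filter fun c' => a < c') gam (fun c' => kap (lo a) (lo c')) (Gd a)
    ⟨by linarith, hs0, hB.cardP, hB.nonneg, fun c => ?_, ?_, ?_, fun y => ?_, ?_, hC' a, hmass⟩
    ⟨?_, ?_⟩ ?_
  · exact (hB.atom c).trans (hη.trans (one_div_le_one_div_of_le (by positivity)
      (pow_le_pow_right₀ hU1 (by omega))))
  · exact (sum_le_sum_of_subset_of_nonneg (filter_subset _ _) fun c _ _ => hB.nonneg c).trans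
      (hB.total.trans huU)
  · intro c hc c' hc' e
    rw [mem_filter] at hc hc'
    have b1 := hlo c hc.1 hc.2
    have b2 := hlo c' hc'.1 hc'.2
    have b3 := (chy_kap_le b1 b2).mp e.le
    have b4 := (chy_kap_le b2 b1).mp e.ge
    rcases lt_trichotomy c c' with h1 | h1 | h1
    · linarith [hB.hull.lt hB.mono hc.1 hc'.1 h1, hB.hull.lo_le_hi hc.1]
    · exact h1
    · linarith [hB.hull.lt hB.mono hc'.1 hc.1 h1, hB.hull.lo_le_hi hc'.1]
  · have b1 : (#(P.filter fun q => h (lo a) q = y) : ℝ) ≤ 2 := by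
      exact_mod_cast hB.sys.gp.card_h_eq (lo a) y
    have b2 := hbig A 0 le_rfl (by omega)
    rw [pow_zero, div_one, mul_one, mul_comm, mul_one_div] at b2
    linarith
  · rintro p c ⟨g, _, e, he, _, _, rfl, _⟩
    exact hB.sys.memL e (hB.sub he)
  · rintro p c ⟨g, hg', e, he, h1, rfl, rfl, rfl⟩ i j c1 c2 c3 c4 ε₁ ε₂ c5 c6
    refine hg (sl v) P I cl lo hi gam _ U _ _ ε₁ ε₂ _ _ _ hB.sys.gp hB.mono hB.hull hB.nonneg
      (hB.sys.memL e (hB.sub he)) haI (hB.mem_image he) h1.1 c5 c6 ?_ ?_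
      (h1.2.1 i j c1 c2 c3 c4 ε₁ ε₂ c5 c6)
    · simpa using hbig 0 j (by omega) c4
    · have b1 := hbig i j c2 c4
      rw [mul_assoc U, mul_assoc U]
      exact b1.trans (le_mul_of_one_le_left (by linarith) hU1)
  · rintro p c ⟨g, hg', e, he, h1, rfl, rfl, rfl⟩ i j c1 c2 c3 c4 ρ₁ ρ₂ c5 c6
    refine (chy_box hB.sys.gp (hB.sys.memL e (hB.sub he))
      (hlo _ (hB.mem_image he) h1.1).ne (by positivity) (by positivity) c5 c6).trans
      ((h1.2.2.1 i j c1 c2 c3 c4).trans ?_)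
    have e1 : (u ^ 5) ^ 50 * (lam ^ 2 * d / U ^ i) * (lam ^ 2 * d / U ^ j) / (lam ^ 2 * d) =
        u ^ 250 * (lam ^ 2 * d) / (U ^ i * U ^ j) := by field_simp
    rw [e1]
    exact div_le_div_of_nonneg_right (mul_le_mul_of_nonneg_right (hpow _ (by norm_num)) hs0.le)
      (by positivity)
  · rintro p c ⟨g, hg', e, he, h1, rfl, rfl, rfl⟩
    obtain ⟨q1, _, _, q4, q5, q6, q7⟩ := h1
    exact chy_dim hB hI hW hcw hd0 hg' he q1 q4 (hk e he) q5 (by positivity) hM q6 q7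

end Crest.Agent.R51
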