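import Crest.Agent.R51.Tools

/-!
# Row 51: corollaries of the incidence bound and of the partition lemma
-/

set_option autoImplicit false

noncomputable section

namespace Crest.Agent.R51

open Finset Classical

lemma cor_mul_card_image {α β : Type*} [DecidableEq β] (G : Finset α) (f : α → β) {ρ : ℝ}
    (h : ∀ i ∈ G, ρ ≤ (#(G.filter fun j => f j = f i) : ℝ)) : ρ * #(G.image f) ≤ #G := by
  rw [card_eq_sum_card_image f G, mul_comm, ← nsmul_eq_mul]
  push_cast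
  refine card_nsmul_le_sum _ _ _ fun b hb => ?_
  obtain ⟨i, hi, rfl⟩ := mem_image.1 hb
  exact h i hi

theorem heavy (hi : IStarStmt) : HeavyStmt := by
  intro P v I hS G hG A B hA hB ρ z hρ hz ha hb
  by_contra hc
  push Not at hc
  have ha0 : (0 : ℝ) ≤ #A := Nat.cast_nonneg _
  have hb0 : (0 : ℝ) ≤ #B := Nat.cast_nonneg _
  have hπ : (0 : ℝ) ≤ nr I := Nat.cast_nonneg _
  have hN : (0 : ℝ) ≤ #P := Nat.cast_nonneg _
  have hy : 0 ≤ ((nr I : ℝ) + #P) * z := by positivity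
  have hg : (0 : ℝ) < #G := by linarith
  have h1 : (#A : ℝ) * #B ≤ z ^ 2 * #G :=
    (mul_le_mul_of_nonneg_left hb ha0).trans (by nlinarith [sq_nonneg z])
  have h2 : (((nr I : ℝ) + #P) * z) ^ 2 ≤ (#G / 180) ^ 2 := pow_le_pow_left₀ hy (by linarith) 2
  have h3 := hi P v I hS G hG A B hA hB (#G / 20) (by positivity) (by
    rw [mul_assoc]
    calc (4 * (nr I : ℝ) ^ 2 + 4 * (#P : ℝ) ^ 2) * (#A * #B)
        ≤ (4 * ((nr I : ℝ) + #P) ^ 2) * (z ^ 2 * #G) :=
          mul_le_mul (by nlinarith [mul_nonneg hπ hN]) h1 (by positivity) (by positivity)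
      _ = 4 * #G * (((nr I : ℝ) + #P) * z) ^ 2 := by ring
      _ ≤ 4 * #G * (#G / 180) ^ 2 := mul_le_mul_of_nonneg_left h2 (by positivity)
      _ ≤ (#G / 20) ^ 3 := by nlinarith [pow_pos hg 3])
  nlinarith

theorem long (hi : IStarStmt) : LongStmt := by
  intro P v I hS Z l D hl hD hP
  by_contra hc
  push Not at hc
  set G := longIn v I Z l with hG
  have hz0 : (0 : ℝ) ≤ #Z := Nat.cast_nonneg _
  have hq : 0 ≤ (#Z : ℝ) ^ 2 / l ^ 2 := by positivity
  have hzD : (#Z : ℝ) ≤ #Z * D := le_mul_of_one_le_right hz0 hD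
  rw [mul_div_assoc, mul_assoc] at hc
  have hg : (0 : ℝ) < #G := by linarith
  have hT : l * #(G.image (root I)) ≤ #G := by
    refine cor_mul_card_image G (root I) fun i hi => (mem_filter.1 hi).2.2.2.trans
      (Nat.cast_le.2 (card_le_card fun j hj => ?_))
    obtain ⟨h1, h2, h3, h4⟩ := mem_filter.1 hj
    exact mem_filter.2 ⟨mem_filter.2 ⟨h1, h3, h4, by rw [h2]; exact (mem_filter.1 hi).2.2.2⟩, h2⟩
  have hπ : (nr (I.filter fun i => root I i ∈ G.image (root I)) : ℝ) ≤ #G / l := by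
    rw [le_div_iff₀ hl, mul_comm]
    exact (mul_le_mul_of_nonneg_left (Nat.cast_le.2 (nr_filter_root _)) hl.le).trans hT
  have hz : (#Z : ℝ) ^ 2 ≤ (#Z : ℝ) ^ 3 := by
    rcases Nat.eq_zero_or_pos #Z with h0 | h0
    · simp [h0]
    · exact_mod_cast Nat.pow_le_pow_right h0 (by norm_num)
  have h3 := hi P v _ (hS.sub (filter_subset (fun i => root I i ∈ G.image (root I)) I)) G
    (fun i hi => mem_filter.2 ⟨(mem_filter.1 hi).1, mem_image_of_mem _ hi⟩) Z Z
    (fun i hi => (mem_filter.1 hi).2.1) (fun i hi => (mem_filter.1 hi).2.2.1) (#G / 10)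
    (by positivity) (by
      have e1 : (#Z * D) ^ 3 ≤ (#G / 26 : ℝ) ^ 3 := pow_le_pow_left₀ (by linarith) (by linarith) 3
      have e2 : (#P : ℝ) ^ 2 * (#Z : ℝ) ^ 2 ≤ (#Z * D) ^ 3 := by
        rw [mul_pow, mul_comm]
        exact mul_le_mul hz hP (by positivity) (by positivity)
      have e3 := mul_le_mul_of_nonneg_right (pow_le_pow_left₀ (Nat.cast_nonneg _) hπ 2)
        (sq_nonneg (#Z : ℝ))
      have e4 : (#G / l : ℝ) ^ 2 * (#Z : ℝ) ^ 2 ≤ (#G : ℝ) ^ 2 * (#G / 8000) := by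
        rw [div_pow, div_mul_eq_mul_div, mul_div_assoc]
        exact mul_le_mul_of_nonneg_left (by linarith) (by positivity)
      nlinarith [pow_pos hg 3])
  linarith

section Cfg
variable {lam d u : ℝ} {P : Finset Pt} {v : ℤ → Pt} {I : Finset ℤ}

lemma Cfg0.cor_cardP (h : Cfg0 lam d u P v I) (hd : 1 ≤ d) (hl : 0 < lam) (hlu : lam ≤ u * d) :
    (#P : ℝ) ≤ u * lam * d ^ 2 :=
  h.cardP.trans (by nlinarith [mul_le_mul_of_nonneg_left hlu (by positivity : 0 ≤ lam * d)])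

lemma Cfg0.cor_X (h : Cfg0 lam d u P v I) (hd : 1 ≤ d) (hl : 0 < lam) (hlu : lam ≤ u * d) :
    4 * (nr I : ℝ) ^ 2 + 4 * (#P : ℝ) ^ 2 ≤ 8 * (u * lam * d ^ 2) ^ 2 := by
  linarith [pow_le_pow_left₀ (Nat.cast_nonneg _) h.runs 2,
    pow_le_pow_left₀ (Nat.cast_nonneg _) (h.cor_cardP hd hl hlu) 2]

end Cfg

theorem card (hi : IStarStmt) : CardStmt := by
  intro lam d u P v I h hu hd hl hlu
  have h1 := hi P v I h.sys I Subset.rfl P P h.sys.memL h.sys.memR (2 * u * (lam ^ 2 * d ^ 2))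
    (by positivity) (by
      calc (4 * (nr I : ℝ) ^ 2 + 4 * (#P : ℝ) ^ 2) * #P * #P
          ≤ 8 * (u * lam * d ^ 2) ^ 2 * (lam ^ 2 * d) * (lam ^ 2 * d) := by
            gcongr
            exacts [h.cor_X hd hl hlu, h.cardP, h.cardP]
        _ = 8 * u ^ 2 * (lam ^ 2 * d ^ 2) ^ 3 * 1 := by ring
        _ ≤ 8 * u ^ 2 * (lam ^ 2 * d ^ 2) ^ 3 * u := by gcongr
        _ = _ := by ring)
  have h2 : lam ^ 2 * d * 1 * 1 ≤ lam ^ 2 * d * d * u := by gcongr
  nlinarith [h.cardP]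

theorem part' (hp : PStarStmt) : PartStmt := by
  intro lam d u P v I h hu hd hl hlu lam' hl'
  have hs : 1 ≤ lam' ^ 2 * d := one_le_mul_of_one_le_of_one_le (one_le_pow₀ hl') hd
  obtain ⟨c, h1, h2⟩ := hp P v I h.sys (lam' ^ 2 * d) (3 * u * (lam ^ 2 * d ^ 2) / lam') hs
    (by positivity) (by
      calc (4 * (nr I : ℝ) ^ 2 + 4 * (#P : ℝ) ^ 2) * #P
          ≤ 8 * (u * lam * d ^ 2) ^ 2 * (lam ^ 2 * d) := by
            gcongr
            exacts [h.cor_X hd hl hlu, h.cardP]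
        _ ≤ 9 * (u * lam * d ^ 2) ^ 2 * (lam ^ 2 * d) := by gcongr; norm_num
        _ = _ := by field_simp; ring)
  refine ⟨c, h1, h2.trans ?_⟩
  have h3 : 2 * (#P : ℝ) / (lam' ^ 2 * d) ≤ 2 * u * (lam ^ 2 * d ^ 2) / lam' := by
    rw [div_le_div_iff₀ (by positivity) (by positivity)]
    calc 2 * (#P : ℝ) * lam' ≤ 2 * (lam ^ 2 * d) * lam' := by gcongr; exact h.cardP
      _ = 2 * (lam ^ 2 * d) * lam' * 1 * 1 * 1 * 1 := by ring
      _ ≤ 2 * (lam ^ 2 * d) * lam' * u * d * d * lam' := by gcongr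
      _ = _ := by ring
  refine (add_le_add le_rfl h3).trans_eq ?_
  ring

theorem deg (hi : IStarStmt) : DegStmt := by
  intro lam d u P v I h hu hd hl hlu g hg
  set G := I.filter fun i => g ^ 2 * d ≤ (#(I.filter fun j => v j = v i) : ℝ) with hG
  have h1 := heavy hi P v I h.sys G (filter_subset _ _) (G.image v) P
    (fun i hi => mem_image_of_mem _ hi) (fun i hi => h.sys.memR i (mem_filter.1 hi).1)
    (g ^ 2 * d) (lam / g) (by nlinarith [one_le_pow₀ (n := 2) hg]) (by positivity)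
    (cor_mul_card_image G v fun i hi => (mem_filter.1 hi).2.trans
      (Nat.cast_le.2 (card_le_card fun j hj => by
        obtain ⟨h1, h2⟩ := mem_filter.1 hj
        exact mem_filter.2 ⟨mem_filter.2 ⟨h1, by rw [h2]; exact (mem_filter.1 hi).2⟩, h2⟩)))
    (h.cardP.trans_eq (by field_simp))
  have h2 : 180 * ((nr I : ℝ) + #P) * (lam / g) ≤
      180 * (u * lam * d ^ 2 + u * lam * d ^ 2) * (lam / g) := by
    gcongr
    exacts [h.runs, h.cor_cardP (by linarith) hl hlu]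
  refine h1.trans ((add_le_add h2 (mul_le_mul_of_nonneg_left h.cardP (by norm_num))).trans_eq ?_)
  field_simp
  ring

end Crest.Agent.R51
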