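import Crest.Agent.R51.Tools

/-!
# Row 51: choice of the parameters
-/

set_option autoImplicit false

noncomputable section

namespace Crest.Agent.R51

open Finset Classical

lemma Cfg.mono_u {lam d u u' : ℝ} {P : Finset Pt} {v : ℤ → Pt} {I G : Finset ℤ}
    (hC : Cfg lam d u P v I G) (hu : 0 < u) (huu : u ≤ u') (hl : 0 ≤ lam) :
    Cfg lam d u' P v I G :=
  { sys := hC.sys
    cardP := hC.cardP
    runs := hC.runs.trans (by gcongr)
    sub := hC.sub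
    big := le_trans (div_le_div_of_nonneg_left (by positivity) hu huu) hC.big }

lemma B2.mono_u {lam d u u' η : ℝ} {P : Finset Pt} {v : ℤ → Pt} {I G : Finset ℤ} {cl : ℤ → ℕ}
    {lo hi gam : ℕ → ℝ} (hB : B2 lam d u η P v I G cl lo hi gam) (hu : 0 < u) (huu : u ≤ u')
    (hl : 0 ≤ lam) : B2 lam d u' η P v I G cl lo hi gam :=
  { toCfg := hB.toCfg.mono_u hu huu hl
    mono := hB.mono
    link := hB.link
    hull := hB.hull
    nonneg := hB.nonneg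
    atom := hB.atom
    total := hB.total.trans huu
    dom := hB.dom }

lemma Win.sub {v : ℤ → Pt} {I G G' : Finset ℤ} {win blk : ℤ → ℕ} {r K ρ M : ℝ}
    (hW : Win v I G win blk r K ρ M) (hG : G' ⊆ G) : Win v I G' win blk r K ρ M :=
  { mono := hW.mono
    monoB := hW.monoB
    same := hW.same
    bdd := hW.bdd
    few := fun p => le_trans (Nat.cast_le.mpr (card_le_card (image_subset_image
      (filter_subset_filter _ hG)))) (hW.few p)
    spread := fun p β => le_trans (Nat.cast_le.mpr (card_le_card (filter_subset_filter _ hG)))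
      (hW.spread p β)
    narrow := fun i hi => hW.narrow i (hG hi) }

theorem core (hB : LevelBStmt) (hB2 : LevelB2Stmt) (C₁ : ℕ) (hc : CherryStmt C₁) : CoreStmt := by
  obtain ⟨b, hB⟩ := hB
  obtain ⟨c, hB2⟩ := hB2
  obtain ⟨c', hc'⟩ : ∃ c', c' = (C₁ + 1) * b := ⟨_, rfl⟩
  obtain ⟨Y, hY⟩ : ∃ Y, Y = 2 * c' + C₁ + 4 := ⟨_, rfl⟩
  obtain ⟨A, hA⟩ : ∃ A, A = 8 * (Y + 2) + C₁ := ⟨_, rfl⟩
  obtain ⟨E, hE⟩ : ∃ E, E = (c + 1) * 1000 * (3 * (A + 1)) := ⟨_, rfl⟩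
  obtain ⟨L, hL⟩ : ∃ L, L = Y * b + (4 * (A + 1) * c + Y) + (A + 1) * 10 := ⟨_, rfl⟩
  refine ⟨(b + 1) * (c + 1) * 1000 * L, max 10000 (max (E : ℝ) (10 * (A : ℝ) ^ 2)), ?_⟩
  intro ω lam d P v I hω hd hlam h1 h2 hC hLv
  have hω1 : (10000 : ℝ) ≤ ω := (le_max_left _ _).trans hω
  have hω2 : (E : ℝ) ≤ ω := ((le_max_left _ _).trans (le_max_right _ _)).trans hω
  have hω3 : 10 * (A : ℝ) ^ 2 ≤ ω := ((le_max_right _ _).trans (le_max_right _ _)).trans hω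
  have o1 : (1 : ℝ) ≤ ω := by linarith
  obtain ⟨u₁, hu₁⟩ : ∃ u₁, u₁ = ω ^ (b + 1) := ⟨_, rfl⟩
  obtain ⟨u₂, hu₂⟩ : ∃ u₂, u₂ = u₁ ^ (c + 1) := ⟨_, rfl⟩
  obtain ⟨U, hU⟩ : ∃ U, U = u₂ ^ 1000 := ⟨_, rfl⟩
  have a1 : ω ≤ u₁ := hu₁ ▸ le_self_pow₀ o1 (by omega)
  have o2 : (1 : ℝ) ≤ u₁ := o1.trans a1
  have a2 : u₁ ≤ u₂ := hu₂ ▸ le_self_pow₀ o2 (by omega)
  have o3 : (1 : ℝ) ≤ u₂ := o2.trans a2
  have a3 : u₂ ≤ U := hU ▸ le_self_pow₀ o3 (by omega)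
  have o4 : (1 : ℝ) ≤ U := o3.trans a3
  have b1 : ω ^ b ≤ u₁ := hu₁ ▸ pow_le_pow_right₀ o1 (by omega)
  have b2 : u₁ ^ c ≤ u₂ := hu₂ ▸ pow_le_pow_right₀ o2 (by omega)
  have hUp : ∀ {m n : ℕ}, m ≤ n → U ^ m ≤ U ^ n := fun hmn => pow_le_pow_right₀ o4 hmn
  have hU1 : ∀ {n : ℕ}, n ≠ 0 → U ≤ U ^ n := fun hn => le_self_pow₀ o4 hn
  have hdL : U ^ L ≤ d := by
    rw [hU, hu₂, hu₁, ← pow_mul, ← pow_mul, ← pow_mul]
    exact le_trans (le_of_eq (by congr 1; ring)) hd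
  have hU0 : 0 < U := by linarith
  obtain ⟨P', I', G', win, blk, hC', hW⟩ := hB ω (U ^ (C₁ + 1)) (U ^ Y) lam d P v I hω1
    (b1.trans (a2.trans (a3.trans (hU1 (by omega)))))
    (by rw [← pow_mul]; exact hUp (by omega))
    (by rw [← pow_mul]; exact (hUp (by omega)).trans hdL) hlam h1 h2 hC hLv
  have hd0 : 0 < d := lt_of_lt_of_le (by positivity) hdL
  obtain ⟨P₂, I₂, G₂, cl, lo, hi, gam, hI₂, hG₂, hb2, hcl⟩ := hB2 u₁ (U ^ (3 * (A + 1)))
    (U ^ (A + 1)) (d / U ^ Y) d E P' v I' G' win (hω1.trans a1)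
    (b2.trans (a3.trans (hU1 (by omega))))
    (by rw [hU, hu₂, ← pow_mul, ← pow_mul, hE]; exact le_of_eq (by congr 1; ring))
    (hω2.trans a1) (b2.trans (a3.trans (hU1 (by omega))))
    (by
      rw [← pow_add, ← pow_mul, le_div_iff₀ (by positivity), ← pow_add]
      refine (hUp ?_).trans hdL
      have : (3 * (A + 1) + (A + 1)) * c = 4 * (A + 1) * c := by ring
      omega)
    (div_le_self hd0.le (one_le_pow₀ o4))
    (hC'.mono_u (by positivity) b1 (by positivity)) hW.mono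
    (fun i hi => (hW.bdd i hi).trans (by rw [← pow_mul]; exact hUp (by omega)))
  refine hc A (Y + 2) (3 * c' + 2 * C₁ + 8) (by omega) (by omega) (by omega) (by omega)
    (U ^ (A + 1)) d u₂ _ U _ _ _ _ P₂ v I' I₂ G₂ cl win blk lo hi gam
    (hb2.mono_u (by positivity) b2 (by positivity)) hI₂ (hW.sub hG₂) hcl
    (hω1.trans (a1.trans a2)) (hω3.trans (a1.trans a2)) hU.ge le_rfl le_rfl
    (by rw [← pow_mul]; exact (hUp (by omega)).trans hdL) ?_ le_rfl ?_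
  · rw [(by omega : Y + 2 - 1 = 1 + Y), pow_add, pow_one]
    exact mul_le_mul_of_nonneg_right (b1.trans (a2.trans a3)) (by positivity)
  · rw [← pow_mul, ← pow_mul, le_div_iff₀ (by positivity), ← pow_add]
    exact hUp (by omega)

end Crest.Agent.R51
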