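import Crest.Agent.R51.Tools

/-!
# Row 51: rank strips with an averaged offset
-/

set_option autoImplicit false

noncomputable section

namespace Crest.Agent.R51

open Finset Classical

variable {P : Finset Pt} {v : ℤ → Pt} {I : Finset ℤ} {i j : ℤ}

/-- number of runs strictly below `z` -/
def cutR (v : ℤ → Pt) (I : Finset ℤ) (z : Pt) : ℕ := #((starts I).filter fun g => Abv v I g z)

/-- number of other runs that meet the edge `i` -/
def cutM (v : ℤ → Pt) (I : Finset ℤ) (i : ℤ) : ℕ :=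
  #((starts I).filter fun g => g ≠ root I i ∧ Meets v I g i)

lemma Abv.wabv {g : ℤ} {z : Pt} (hz : Abv v I g z) : WAbv v I g z := fun j a b => (hz j a b).le

lemma OnSeg.not_abv {z : Pt} (hi : i ∈ I) (hz : OnSeg v i z) : ¬ Abv v I (root I i) z :=
  fun c => (c i hi rfl).ne' hz.2.2

lemma Sys.onSeg_left (hS : Sys P v I) (hi : i ∈ I) : OnSeg v i (v i) :=
  ⟨le_rfl, (hS.lt i hi).le, rfl⟩

lemma Sys.onSeg_right (hS : Sys P v I) (hi : i ∈ I) : OnSeg v i (v (i + 1)) :=
  ⟨(hS.lt i hi).le, le_rfl, hS.h_edge hi⟩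

lemma Sys.wabv_of_onSeg (hS : Sys P v I) (hi : i ∈ I) {z : Pt} (hz : OnSeg v i z) :
    WAbv v I (root I i) z := fun j hj hr => by
  obtain ⟨a, b⟩ := hS.h_ge hj hi hr
  have c := hS.h_edge hi
  obtain ⟨h1, h2, h3⟩ := hz
  unfold h at *
  rcases le_total (sl v i) (sl v j) with d | d
  · nlinarith [mul_nonneg (sub_nonneg.mpr d) (sub_nonneg.mpr h2)]
  · nlinarith [mul_nonneg (sub_nonneg.mpr d) (sub_nonneg.mpr h1)]

lemma cut_close (hi : i ∈ I) {z z' : Pt} (hz : OnSeg v i z) (hz' : OnSeg v i z') {B : Finset ℤ}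
    (h1 : ∀ g ∈ B, g ∈ starts I ∧ g ≠ root I i ∧ WAbv v I g z')
    (h2 : ∀ g ∈ starts I, Abv v I g z' → g ∈ B) :
    (cutR v I z : ℤ) - cutM v I i ≤ #B ∧ (#B : ℤ) ≤ cutR v I z + cutM v I i := by
  have a : cutR v I z ≤ #B + cutM v I i := by
    refine (card_le_card fun g hg => ?_).trans (card_union_le _ _)
    rw [mem_filter] at hg
    rw [mem_union, mem_filter]
    by_cases c : Abv v I g z'
    · exact Or.inl (h2 g hg.1 c)
    · exact Or.inr ⟨hg.1, fun e => hz.not_abv hi (e ▸ hg.2), z, z', hz, hz', hg.2.wabv, c⟩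
  have b : #B ≤ cutR v I z + cutM v I i := by
    refine (card_le_card fun g hg => ?_).trans (card_union_le _ _)
    obtain ⟨g1, g2, g3⟩ := h1 g hg
    rw [mem_union, mem_filter, mem_filter]
    by_cases c : Abv v I g z
    · exact Or.inl ⟨g1, c⟩
    · exact Or.inr ⟨g1, g2, z', z, hz', hz, g3, c⟩
  omega

lemma cut_exists_F (v : ℤ → Pt) (I : Finset ℤ) (x : ℝ) : ∃ F : ℤ → ℝ, ∀ g ∈ starts I, ∀ y : ℝ,
    (F g < y ↔ Abv v I g (x, y)) ∧ (F g ≤ y ↔ WAbv v I g (x, y)) := by
  have h1 : ∀ g, ∃ t : ℝ, g ∈ starts I → ∀ y : ℝ,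
      (t < y ↔ Abv v I g (x, y)) ∧ (t ≤ y ↔ WAbv v I g (x, y)) := by
    intro g
    by_cases hg : g ∈ starts I
    · obtain ⟨j, hj, hmax⟩ := exists_max_image (I.filter fun j => root I j = g)
        (fun j => h (sl v j) (v j) + sl v j * x)
        ⟨g, mem_filter.mpr ⟨(mem_starts.mp hg).1, root_of_mem_starts hg⟩⟩
      rw [mem_filter] at hj
      have e : ∀ (θ y : ℝ), h θ (x, y) = y - θ * x := fun _ _ => rfl
      refine ⟨h (sl v j) (v j) + sl v j * x, fun _ y => ⟨⟨fun c l a b => ?_, fun c => ?_⟩,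
        fun c l a b => ?_, fun c => ?_⟩⟩
      · have := hmax l (mem_filter.mpr ⟨a, b⟩)
        rw [e]; linarith
      · have := c j hj.1 hj.2
        rw [e] at this; linarith
      · have := hmax l (mem_filter.mpr ⟨a, b⟩)
        rw [e]; linarith
      · have := c j hj.1 hj.2
        rw [e] at this; linarith
    · exact ⟨0, fun c => absurd c hg⟩
  choose F hF using h1
  exact ⟨F, hF⟩

lemma cut_offsets (a : ℤ) (m w : ℕ) (hw : 1 ≤ w) :
    #((range w).filter fun o : ℕ => (a - m + o) / w ≠ (a + m + o) / (w : ℤ)) ≤ 2 * m := by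
  have hw0 : (0 : ℤ) < w := by omega
  have e : #(Ioc (a - m) (a + m)) = 2 * m := by rw [Int.card_Ioc]; omega
  rw [← e]
  refine card_le_card_of_injOn (fun o : ℕ => (a + m + o) / (w : ℤ) * w - o) (fun o ho => ?_)
    fun o ho o' ho' c => ?_
  · rw [mem_coe, mem_filter] at ho
    have h1 : (a - m + o) / (w : ℤ) < (a + m + o) / w :=
      lt_of_le_of_ne (Int.ediv_le_ediv hw0 (by omega)) ho.2
    have h2 := Int.lt_mul_of_ediv_lt hw0 h1
    have h3 := Int.ediv_mul_le (a + m + o) hw0.ne'
    simp only [mem_coe, mem_Ioc]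
    omega
  · rw [mem_coe, mem_filter, mem_range] at ho ho'
    have h1 : (w : ℤ) ∣ (o : ℤ) - o' :=
      ⟨(a + m + o) / (w : ℤ) - (a + m + o') / w, by simp only at c; linarith⟩
    have := Int.eq_zero_of_abs_lt_dvd h1 (abs_lt.mpr ⟨by omega, by omega⟩)
    omega

lemma cut_div {a b t s w : ℤ} (hw : 0 < w) (h1 : a / w = b / w) (h2 : a ≤ t) (h3 : t ≤ b)
    (h4 : a ≤ s) (h5 : s ≤ b) : t / w = s / w := by
  have := Int.ediv_le_ediv hw h2
  have := Int.ediv_le_ediv hw h3
  have := Int.ediv_le_ediv hw h4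
  have := Int.ediv_le_ediv hw h5
  omega

theorem cutLemma (hm : MeetStmt) : CutStmt := by
  intro P v I hS w hw
  have hw0 : (0 : ℤ) < w := by omega
  have hX : ∑ i ∈ I, cutM v I i ≤ 4 * nr I ^ 2 + 4 * #P ^ 2 := by
    refine le_trans (le_of_eq ?_) (hm P v I hS)
    rw [card_filter, sum_product]
    exact sum_congr rfl fun i _ => card_filter _ _
  set Bad : ℕ → Finset ℤ := fun o => I.filter fun i =>
    ((cutR v I (v i) : ℤ) - cutM v I i + o) / w ≠ ((cutR v I (v i) : ℤ) + cutM v I i + o) / (w : ℤ)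
    with hBad
  have hsum : ∑ o ∈ range w, #(Bad o) ≤ 2 * (4 * nr I ^ 2 + 4 * #P ^ 2) := by
    refine le_trans ?_ (Nat.mul_le_mul_left 2 hX)
    simp only [hBad, card_filter]
    rw [sum_comm, mul_sum]
    refine sum_le_sum fun i _ => ?_
    rw [← card_filter]
    exact cut_offsets _ _ _ hw
  obtain ⟨o, -, ho⟩ := exists_le_of_sum_le (s := range w) (f := fun o => w * #(Bad o))
    (g := fun _ => 2 * (4 * nr I ^ 2 + 4 * #P ^ 2)) ⟨0, mem_range.mpr hw⟩ (by
      rw [← mul_sum, sum_const, card_range, smul_eq_mul]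
      exact Nat.mul_le_mul_left w hsum)
  have hgood : ∀ i ∈ I, i ∉ Bad o → ∀ t : ℤ, (cutR v I (v i) : ℤ) - cutM v I i ≤ t →
      t ≤ cutR v I (v i) + cutM v I i → (t + o) / w = ((cutR v I (v i) : ℤ) + o) / w := by
    intro i hi hb t h1 h2
    have : ((cutR v I (v i) : ℤ) - cutM v I i + o) / w =
        ((cutR v I (v i) : ℤ) + cutM v I i + o) / (w : ℤ) := by
      by_contra c
      exact hb (mem_filter.mpr ⟨hi, c⟩)
    exact cut_div hw0 this (by omega) (by omega) (by omega) (by omega)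
  refine ⟨fun z => ((cutR v I z : ℤ) + o) / w, Bad o, ho, fun i hi hb => ?_, fun k x => ?_⟩
  · obtain ⟨a, b⟩ := cut_close hi (hS.onSeg_left hi) (hS.onSeg_right hi)
      (B := (starts I).filter fun g => Abv v I g (v (i + 1)))
      (fun g hg => ⟨(mem_filter.mp hg).1, fun e => (hS.onSeg_right hi).not_abv hi
        (e ▸ (mem_filter.mp hg).2), (mem_filter.mp hg).2.wabv⟩)
      fun g a b => mem_filter.mpr ⟨a, b⟩
    exact (hgood i hi hb _ a b).symm
  · obtain ⟨F, hF⟩ := cut_exists_F v I x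
    set B : ℤ → Finset ℤ := fun f => (starts I).filter fun g => F g < F f ∨ (F g = F f ∧ g < f)
      with hB
    have hlt : ∀ f ∈ starts I, ∀ f', (F f < F f' ∨ (F f = F f' ∧ f < f')) → #(B f) < #(B f') := by
      intro f hf f' c
      refine card_lt_card ⟨fun g hg => ?_, fun d => ?_⟩
      · rw [mem_filter] at hg
        refine mem_filter.mpr ⟨hg.1, ?_⟩
        rcases hg.2 with a | a <;> rcases c with c | c
        · exact Or.inl (a.trans c)
        · exact Or.inl (a.trans_eq c.1)
        · exact Or.inl (a.1.trans_lt c)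
        · exact Or.inr ⟨a.1.trans c.1, a.2.trans c.2⟩
      · have := (mem_filter.mp (d (mem_filter.mpr ⟨hf, c⟩))).2
        simp at this
    have e : #(Ico (k * w) (k * w + w)) = w := by rw [Int.card_Ico]; omega
    refine le_trans (card_le_card_of_injOn (fun i => (#(B (root I i)) : ℤ) + o) (fun i hi => ?_)
      fun i hi j hj c => ?_) e.le
    · simp only [mem_coe, mem_filter] at hi
      obtain ⟨hi, hb, hk, h1, h2⟩ := hi
      have hz : OnSeg v i (x, h (sl v i) (v i) + sl v i * x) :=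
        ⟨h1, h2.le, by simp only [h]; ring⟩
      have hr := hF _ (root_mem_starts hi) (h (sl v i) (v i) + sl v i * x)
      have hf : F (root I i) = h (sl v i) (v i) + sl v i * x :=
        le_antisymm (hr.2.mpr (hS.wabv_of_onSeg hi hz))
          (not_lt.mp fun c => hz.not_abv hi (hr.1.mp c))
      obtain ⟨a, b⟩ := cut_close hi (hS.onSeg_left hi) hz (B := B (root I i))
        (fun g hg => by
          rw [mem_filter] at hg
          refine ⟨hg.1, fun e => ?_, (hF g hg.1 _).2.mp ?_⟩
          · have := hg.2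
            simp [e] at this
          · rw [← hf]
            exact hg.2.elim le_of_lt fun c => c.1.le)
        fun g a b => mem_filter.mpr ⟨a, Or.inl (hf ▸ (hF g a _).1.mpr b)⟩
      have h3 := (hgood i hi hb _ a b).trans hk
      have h4 := Int.ediv_mul_le ((#(B (root I i)) : ℤ) + o) hw0.ne'
      have h5 := Int.lt_ediv_add_one_mul_self ((#(B (root I i)) : ℤ) + o) hw0
      rw [h3] at h4 h5
      simp only [mem_coe, mem_Ico]
      exact ⟨h4, by linarith⟩
    · simp only [mem_coe, mem_filter] at hi hj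
      have c' : #(B (root I i)) = #(B (root I j)) := by simp only at c; omega
      have hi' := root_mem_starts hi.1
      have hj' := root_mem_starts hj.1
      have hr : root I i = root I j := by
        rcases lt_trichotomy (F (root I i)) (F (root I j)) with a | a | a
        · exact absurd c' (hlt _ hi' _ (Or.inl a)).ne
        · rcases lt_trichotomy (root I i) (root I j) with b | b | b
          · exact absurd c' (hlt _ hi' _ (Or.inr ⟨a, b⟩)).ne
          · exact b
          · exact absurd c' (hlt _ hj' _ (Or.inr ⟨a.symm, b⟩)).ne'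
        · exact absurd c' (hlt _ hj' _ (Or.inl a)).ne'
      rcases lt_trichotomy i j with a | a | a
      · have := hS.x_le_of_seg (i := i + 1) (j := j) (by omega)
          ((seg_of_root_eq hi.1 hj.1 hr).mono (by omega) (by omega))
        linarith [hi.2.2.2.2, hj.2.2.2.1]
      · exact a
      · have := hS.x_le_of_seg (i := j + 1) (j := i) (by omega)
          ((seg_of_root_eq hj.1 hi.1 hr.symm).mono (by omega) (by omega))
        linarith [hj.2.2.2.2, hi.2.2.2.1]

end Crest.Agent.R51
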