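import Crest.Agent.R51.Tools

/-!
# Row 51: descent to an extremal part
-/

set_option autoImplicit false

noncomputable section

namespace Crest.Agent.R51

open Finset Classical

/-- the numerical part of the descent -/
lemma descend_num {U l d g p r : ℝ} (hU : 1 ≤ U) (hl : 0 < l) (hld : l ≤ d) (hd : 6 * U < d)
    (hp0 : 0 ≤ p) (hr0 : 0 ≤ r) (hg : 0 < g) (hp : d * p ≤ U * g) (hr : l * r ≤ U * g)
    (hp' : p ≤ l ^ 2 * d)
    (hi : (4 * r ^ 2 + 4 * p ^ 2) * p * p ≤ (g / 10) ^ 3 → g ≤ 5 * (g / 10) + p + 2 * p) :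
    l ^ 2 * d ^ 2 / (8000 * U ^ 4) ≤ g ∧ g ≤ 8000 * U ^ 2 * (l ^ 2 * d ^ 2) := by
  have hd0 : 0 < d := by linarith
  have hU0 : 0 < U := by linarith
  have h1 : l * p ≤ U * g := (mul_le_mul_of_nonneg_right hld hp0).trans hp
  have h2 : (l * r) ^ 2 ≤ (U * g) ^ 2 := pow_le_pow_left₀ (by positivity) hr 2
  have h3 : (l * p) ^ 2 ≤ (U * g) ^ 2 := pow_le_pow_left₀ (by positivity) h1 2
  have h4 : l ^ 2 * (4 * r ^ 2 + 4 * p ^ 2) ≤ 8 * (U * g) ^ 2 := by nlinarith
  constructor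
  · by_contra hc
    rw [not_le, lt_div_iff₀ (by positivity)] at hc
    have h5 : (d * p) ^ 2 ≤ (U * g) ^ 2 := pow_le_pow_left₀ (by positivity) hp 2
    have h6 : l ^ 2 * (4 * r ^ 2 + 4 * p ^ 2) * (d * p) ^ 2 ≤ 8 * (U * g) ^ 2 * (U * g) ^ 2 :=
      mul_le_mul h4 h5 (by positivity) (by positivity)
    have h7 : g ^ 3 * (g * (8000 * U ^ 4)) ≤ g ^ 3 * (l ^ 2 * d ^ 2) :=
      mul_le_mul_of_nonneg_left hc.le (by positivity)
    have h8 := hi (le_of_mul_le_mul_left (a := l ^ 2 * d ^ 2) (by nlinarith) (by positivity))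
    have h9 : d * g ≤ d * (6 * p) := mul_le_mul_of_nonneg_left (by linarith) hd0.le
    nlinarith
  · by_contra hc
    rw [not_le] at hc
    have h5 : p ^ 2 ≤ (l ^ 2 * d) ^ 2 := pow_le_pow_left₀ hp0 hp' 2
    have h6 : l ^ 2 * (4 * r ^ 2 + 4 * p ^ 2) * p ^ 2 ≤ 8 * (U * g) ^ 2 * (l ^ 2 * d) ^ 2 :=
      mul_le_mul h4 h5 (by positivity) (by positivity)
    have h7 : l ^ 2 * g ^ 2 * (8000 * U ^ 2 * (l ^ 2 * d ^ 2)) ≤ l ^ 2 * g ^ 2 * g :=
      mul_le_mul_of_nonneg_left hc.le (by positivity)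
    have h8 := hi (le_of_mul_le_mul_left (a := l ^ 2) (by nlinarith) (by positivity))
    have h9 : l ^ 2 * d * 1 ≤ l ^ 2 * d * d :=
      mul_le_mul_of_nonneg_left (by linarith) (by positivity)
    have h10 : 1 * (l ^ 2 * d ^ 2) ≤ U ^ 2 * (l ^ 2 * d ^ 2) :=
      mul_le_mul_of_nonneg_right (one_le_pow₀ hU) (by positivity)
    have h11 : 0 < l ^ 2 * d := by positivity
    nlinarith

lemma card_le_cut_add_inside {κ : Type} {P : Finset Pt} {v : ℤ → Pt} {I G : Finset ℤ}
    (hS : Sys P v I) (hG : G ⊆ I) (c : Pt → κ) :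
    #G ≤ #(cut c v I) + ∑ k ∈ P.image c, #(inside c k v G) := by
  refine le_trans (card_le_card fun i hi => ?_)
    ((card_union_le _ ((P.image c).biUnion fun k => inside c k v G)).trans
      (Nat.add_le_add_left card_biUnion_le _))
  rw [mem_union, mem_cut, mem_biUnion]
  by_cases e : c (v i) = c (v (i + 1))
  · exact Or.inr ⟨c (v i), mem_image_of_mem c (hS.memL i (hG hi)),
      mem_inside.mpr ⟨hi, rfl, e.symm⟩⟩
  · exact Or.inl ⟨hG hi, e⟩

lemma sum_card_part {κ : Type} (P : Finset Pt) (c : Pt → κ) :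
    ∑ k ∈ P.image c, #(part c k P) = #P := by
  rw [card_eq_sum_card_image c P]
  rfl

theorem descend (hi : IStarStmt) : DescendStmt := by
  intro lam d u u' lam' P v I G κ c t hC hu hu' hlam h2 hld h50 ht hpart hsum
  have huu : 1 ≤ u * u' := one_le_mul_of_one_le_of_one_le hu hu'
  have hl : 0 < lam' := by nlinarith
  have hd : 0 < d := by linarith
  have hu0 : 0 < u := by linarith
  have hu0' : 0 < u' := by linarith
  set S := lam ^ 2 * d ^ 2 with hSdef
  have hS : 0 < S := by positivity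
  have hbig : S ≤ u * #G := by
    have := hC.big
    rw [div_le_iff₀ hu0] at this
    linarith
  have ht0 : 0 ≤ ∑ k ∈ P.image c, t k := sum_nonneg fun k _ => ht k
  have hnr : (0 : ℝ) ≤ nr I := Nat.cast_nonneg _
  rw [le_div_iff₀ hl] at hsum
  have a1 : (#G : ℝ) ≤ #(cut c v I) + ∑ k ∈ P.image c, (#(inside c k v G) : ℝ) := by
    exact_mod_cast card_le_cut_add_inside hC.sys hC.sub c
  have a2 : ∑ k ∈ P.image c, (#(part c k P) : ℝ) = #P := by exact_mod_cast sum_card_part P c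
  have a3 : ∑ k ∈ P.image c, (nr (inside c k v I) : ℝ) ≤ nr I + #(cut c v I) := by
    exact_mod_cast sum_nr_inside (v := v) (I := I) c (P.image c)
  have hcut0 : (0 : ℝ) ≤ #(cut c v I) := Nat.cast_nonneg _
  have a4 : 2 * u * #(cut c v I) ≤ S := by
    have b1 : (#(cut c v I) : ℝ) * (2 * u * u') ≤ #(cut c v I) * lam' :=
      mul_le_mul_of_nonneg_left h2 hcut0
    have b2 : (#(cut c v I) : ℝ) * lam' ≤ u' * S :=
      le_trans (mul_le_mul_of_nonneg_right (by linarith) hl.le) hsum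
    exact le_of_mul_le_mul_left (a := u') (by nlinarith) hu0'
  obtain ⟨k, hk⟩ : ∃ k, d * #(part c k P) + lam' * (nr (inside c k v I) + t k) <
      8 * u * u' * #(inside c k v G) := by
    by_contra hcon
    push Not at hcon
    have b1 := sum_le_sum fun k (_ : k ∈ P.image c) => hcon k
    rw [sum_add_distrib, ← mul_sum, ← mul_sum, ← mul_sum, sum_add_distrib, a2] at b1
    have b2 : d * #P ≤ S := by
      have := mul_le_mul_of_nonneg_left hC.cardP hd.le
      rw [hSdef]; linarith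
    have b3 : lam' * (∑ k ∈ P.image c, (nr (inside c k v I) : ℝ) + ∑ k ∈ P.image c, t k) ≤
        u' * S := le_trans (mul_le_mul_of_nonneg_left (by linarith) hl.le)
          ((mul_comm _ _).trans_le hsum)
    have b4 : S ≤ 2 * u * ∑ k ∈ P.image c, (#(inside c k v G) : ℝ) := by
      have := mul_le_mul_of_nonneg_left a1 hu0.le
      linarith
    have b5 := mul_le_mul_of_nonneg_left b4 hu0'.le
    have b6 : 1 * S ≤ u' * S := mul_le_mul_of_nonneg_right hu' hS.le
    nlinarith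
  set U := 8 * u * u' with hU
  have hU1 : 1 ≤ U := by rw [hU]; nlinarith
  have hp0 : (0 : ℝ) ≤ #(part c k P) := Nat.cast_nonneg _
  have hr0 : (0 : ℝ) ≤ nr (inside c k v I) := Nat.cast_nonneg _
  have c1 : 0 ≤ d * #(part c k P) := by positivity
  have c2 : 0 ≤ lam' * nr (inside c k v I) := by positivity
  have c3 : 0 ≤ lam' * t k := mul_nonneg hl.le (ht k)
  rw [mul_add] at hk
  have hg : (0 : ℝ) < #(inside c k v G) := 
    (mul_pos_iff_of_pos_left (by linarith : 0 < U)).mp (by linarith)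
  have hsub : inside c k v G ⊆ inside c k v I := fun i a =>
    mem_inside.mpr ⟨hC.sub (mem_inside.mp a).1, (mem_inside.mp a).2⟩
  have hSp := hC.sys.part c k
  obtain ⟨n1, n2⟩ := descend_num (U := U) (l := lam') (d := d) (g := #(inside c k v G))
    (p := #(part c k P)) (r := nr (inside c k v I)) hU1 hl hld (by rw [hU]; nlinarith) hp0 hr0 hg
    (by linarith) (by linarith) (hpart k)
    (hi _ v _ hSp _ hsub _ _ (fun i a => hSp.memL i (hsub a)) (fun i a => hSp.memR i (hsub a)) _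
      (by positivity))
  have n3 : U * #(inside c k v G) ≤ lam' * (8000 * U ^ 4 * lam' * d ^ 2) := by
    have e1 := mul_le_mul_of_nonneg_left n2 (by linarith : 0 ≤ U)
    have e2 : U ^ 3 * (lam' ^ 2 * d ^ 2) ≤ U ^ 4 * (lam' ^ 2 * d ^ 2) :=
      mul_le_mul_of_nonneg_right (pow_le_pow_right₀ hU1 (by norm_num)) (by positivity)
    nlinarith
  exact ⟨k, ⟨⟨hSp, hpart k, le_of_mul_le_mul_left (by linarith) hl⟩, hsub, n1⟩,
    le_of_mul_le_mul_left (by linarith) hl⟩

end Crest.Agent.R51
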