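import Crest.Agent.R51.Tools
import Crest.Agent.R51.Stmts

/-!
# Row 51: a large out-degree in a class forces a large `ν`
-/

set_option autoImplicit false

noncomputable section

namespace Crest.Agent.R51

open Finset Classical

section
variable {P : Finset Pt} {v : ℤ → Pt} {I : Finset ℤ} {cl : ℤ → ℕ} {lo hi : ℕ → ℝ}

/-- two vertices on one run with small `ν` lie in neighbouring strips -/
lemma ex_close (hS : Sys P v I) (hL : Link I cl) (hH : Hull (sl v) I cl lo hi) {y : ℝ}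
    (hy : 0 ≤ y) {i j : ℤ} {J : ℕ} (hi0 : i ∈ I) (hJ : cl i = J) (hij : i ≤ j) (hs : Seg I i j)
    (h1 : (nu P (lo J) (hi J) (v i) : ℝ) ≤ y) (h2 : (nu P (lo J) (hi J) (v j) : ℝ) ≤ y) :
    |st P (lo J) (2 * y + 1) (v j) - st P (lo J) (2 * y + 1) (v i)| ≤ 1 := by
  have hW : 0 < 2 * y + 1 := by linarith
  have hlh : lo J ≤ hi J := hH.lo_le_hi (hJ ▸ mem_image_of_mem cl hi0)
  have h3 := hS.dr_le_nu (lo := lo J) (hi := hi J) (θ := lo J) hij hs (fun l a b => by
    have hl : l ∈ I := hs l a b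
    have e : cl l = J := by
      rw [← hJ]; exact (hL.seg a (hs.mono le_rfl (by omega))).symm
    exact ⟨e ▸ hH.lo_le l hl, e ▸ hH.le_hi l hl⟩) le_rfl hlh
  have h4 := st_close (P := P) (θ := lo J) (p := v i) (q := v j) hW 1 (by
    push_cast; linarith)
  simpa using h4

/-- one level -/
lemma ex_level (hh : HeavyStmt) (hS : Sys P v I) (hL : Link I cl) (hH : Hull (sl v) I cl lo hi)
    (b : ℤ → ℝ) {y ρ z : ℝ}
    (hb1 : ∀ i, (nu P (lo (cl i)) (hi (cl i)) (v i) : ℝ) ≤ b i)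
    (hb2 : ∀ i, (nu P (lo (cl i)) (hi (cl i)) (v (i + 1)) : ℝ) ≤ b i)
    (hy : 0 ≤ y) (hρ : 2 ≤ ρ) (hz : 0 < z) (hB : 3 * (2 * y + 1) + 1 ≤ z ^ 2 * ρ) :
    (#(I.filter fun i => b i ≤ y ∧
        ρ < (#(I.filter fun j => v j = v i ∧ cl j = cl i ∧ b j ≤ y) : ℝ)) : ℝ) ≤
      540 * nr I * z + #(I.image cl) * (#P / (2 * y + 1) + 1) * (180 * #P * z + 8 * #P) := by
  set W := 2 * y + 1 with hWdef
  have hW : 0 < W := by rw [hWdef]; linarith
  set G := I.filter fun i => b i ≤ y ∧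
    ρ < (#(I.filter fun j => v j = v i ∧ cl j = cl i ∧ b j ≤ y) : ℝ) with hG
  have hGI : G ⊆ I := filter_subset _ _
  set key : ℤ → ℕ × ℤ := fun i => (cl i, st P (lo (cl i)) W (v i)) with hkey
  set T : Finset (ℕ × ℤ) := I.image cl ×ˢ Finset.Icc (0 : ℤ) ⌊(#P : ℝ) / W⌋ with hT
  have hTc : (#T : ℝ) ≤ #(I.image cl) * (#P / W + 1) := by
    rw [hT, card_product]
    push_cast
    refine mul_le_mul_of_nonneg_left ?_ (Nat.cast_nonneg _)
    have h0 : 0 ≤ ⌊(#P : ℝ) / W⌋ := Int.floor_nonneg.mpr (by positivity)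
    have h1 : ((#(Finset.Icc (0 : ℤ) ⌊(#P : ℝ) / W⌋) : ℤ) : ℝ) =
        ((⌊(#P : ℝ) / W⌋ + 1 : ℤ) : ℝ) := by
      rw [Int.card_Icc, Int.toNat_of_nonneg (by omega)]; simp
    push_cast at h1
    rw [h1]
    linarith [Int.floor_le ((#P : ℝ) / W)]
  have hmap : ∀ i ∈ G, key i ∈ T := fun i hi0 => by
    rw [hT, mem_product, mem_Icc]
    exact ⟨mem_image_of_mem cl (hGI hi0), st_nonneg hW _, Int.le_floor.mpr (st_le hW _)⟩
  set R : ℕ × ℤ → Finset ℤ := fun κ => (G.filter fun i => key i = κ).image (root I) with hR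
  -- the bound for one class and strip
  have hone : ∀ κ ∈ T, (#(G.filter fun i => key i = κ) : ℝ) ≤
      180 * z * #(R κ) + (180 * #P * z + 8 * #P) := by
    intro κ _
    set Gκ := G.filter fun i => key i = κ with hGκ
    set B := P.filter fun p => |st P (lo κ.1) W p - κ.2| ≤ 1 with hBdef
    have hsub : Gκ ⊆ I.filter fun i => root I i ∈ R κ := fun i hi0 =>
      mem_filter.mpr ⟨hGI (mem_filter.mp hi0).1, mem_image_of_mem _ hi0⟩
    have hmemB : ∀ i ∈ Gκ, v (i + 1) ∈ B := by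
      intro i hi0
      obtain ⟨hiG, hk⟩ := mem_filter.mp hi0
      have hiI := hGI hiG
      have hby := (mem_filter.mp hiG).2.1
      refine mem_filter.mpr ⟨hS.memR i hiI, ?_⟩
      rw [← hk]
      exact ex_close hS hL hH hy hiI rfl (by omega) (fun l a c => by
        rw [(by omega : l = i)]; exact hiI) ((hb1 i).trans hby) ((hb2 i).trans hby)
    have hA : ρ * #(Gκ.image v) ≤ #Gκ := by
      rw [card_eq_sum_card_fiberwise (f := v) (s := Gκ) (t := Gκ.image v)
        (fun i hi0 => mem_coe.mpr (mem_image_of_mem v (mem_coe.mp hi0))), mul_comm,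
        ← nsmul_eq_mul]
      push_cast
      refine card_nsmul_le_sum _ _ _ fun p hp => ?_
      obtain ⟨i, hi0, rfl⟩ := mem_image.mp hp
      obtain ⟨hiG, hk⟩ := mem_filter.mp hi0
      refine (mem_filter.mp hiG).2.2.le.trans (Nat.cast_le.mpr (card_le_card fun j hj => ?_))
      obtain ⟨hjI, e1, e2, e3⟩ := mem_filter.mp hj
      refine mem_filter.mpr ⟨mem_filter.mpr ⟨mem_filter.mpr ⟨hjI, e3, ?_⟩, ?_⟩, e1⟩
      · rw [e1, e2]; exact (mem_filter.mp hiG).2.2
      · rw [← hk]; simp only [hkey]; rw [e1, e2]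
    have hBc : (#B : ℝ) ≤ z ^ 2 * ρ := (hS.gp.card_st3 (lo κ.1) hW κ.2).trans hB
    have h1 := hh P v _ (hS.sub (filter_subset (fun i => root I i ∈ R κ) I)) Gκ hsub
      (Gκ.image v) B (fun i hi0 => mem_image_of_mem v hi0) hmemB ρ z hρ hz hA hBc
    have h2 : (nr (I.filter fun i => root I i ∈ R κ) : ℝ) ≤ #(R κ) :=
      Nat.cast_le.mpr (nr_filter_root _)
    have h3 : (#B : ℝ) ≤ #P := Nat.cast_le.mpr (card_filter_le _ _)
    have h4 := mul_le_mul_of_nonneg_left h2 hz.le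
    linarith
  -- every run is used at most three times
  have hruns : ∑ κ ∈ T, (#(R κ) : ℝ) ≤ 3 * nr I := by
    have h1 : ∀ κ, (#(R κ) : ℝ) = #((starts I).filter fun g => g ∈ R κ) := fun κ => by
      congr 2
      ext g
      rw [mem_filter]
      refine ⟨fun hg => ⟨?_, hg⟩, fun hg => hg.2⟩
      obtain ⟨i, hi0, rfl⟩ := mem_image.mp hg
      exact root_mem_starts (hGI (mem_filter.mp hi0).1)
    have h0 : ∑ κ ∈ T, (#((starts I).filter fun g => g ∈ R κ) : ℝ) =
        ∑ g ∈ starts I, (#(T.filter fun κ => g ∈ R κ) : ℝ) := by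
      simp only [card_filter, Nat.cast_sum, Nat.cast_ite, Nat.cast_one, Nat.cast_zero]
      exact sum_comm
    rw [sum_congr rfl fun κ _ => h1 κ, h0, mul_comm, nr, ← nsmul_eq_mul]
    refine sum_le_card_nsmul _ _ _ fun g _ => ?_
    rcases (T.filter fun κ => g ∈ R κ).eq_empty_or_nonempty with he | ⟨κ₀, hκ₀⟩
    · rw [he]; simp
    · obtain ⟨i₀, hi₀, e₀⟩ := mem_image.mp (mem_filter.mp hκ₀).2
      obtain ⟨hi₀G, hk₀⟩ := mem_filter.mp hi₀
      have hsub : (T.filter fun κ => g ∈ R κ) ⊆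
          {κ₀.1} ×ˢ Finset.Icc (κ₀.2 - 1) (κ₀.2 + 1) := by
        intro κ hκ
        obtain ⟨i, hi1, e⟩ := mem_image.mp (mem_filter.mp hκ).2
        obtain ⟨hiG, hk⟩ := mem_filter.mp hi1
        have hroot : root I i = root I i₀ := e.trans e₀.symm
        have hc : cl i = cl i₀ := hL.root_eq (hGI hiG) (hGI hi₀G) hroot
        have hn1 : (nu P (lo (cl i₀)) (hi (cl i₀)) (v i) : ℝ) ≤ y := by
          rw [← hc]; exact (hb1 i).trans (mem_filter.mp hiG).2.1
        have hn2 : (nu P (lo (cl i₀)) (hi (cl i₀)) (v i₀) : ℝ) ≤ y :=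
          (hb1 i₀).trans (mem_filter.mp hi₀G).2.1
        have hcl : |st P (lo (cl i₀)) W (v i) - st P (lo (cl i₀)) W (v i₀)| ≤ 1 := by
          rcases le_total i i₀ with c | c
          · rw [abs_sub_comm]
            exact ex_close hS hL hH hy (hGI hiG) hc c
              ((seg_of_root_eq (hGI hiG) (hGI hi₀G) hroot).mono le_rfl (by omega)) hn1 hn2
          · exact ex_close hS hL hH hy (hGI hi₀G) rfl c
              ((seg_of_root_eq (hGI hi₀G) (hGI hiG) hroot.symm).mono le_rfl (by omega)) hn2 hn1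
        rw [← hk, ← hk₀, mem_product, mem_singleton, mem_Icc]
        simp only [hkey]
        rw [hc]
        rw [abs_le] at hcl
        exact ⟨rfl, by omega, by omega⟩
      have h2 := card_le_card hsub
      rw [card_product, card_singleton, Int.card_Icc] at h2
      have h3 : (κ₀.2 + 1 + 1 - (κ₀.2 - 1)).toNat = 3 := by
        rw [(by ring : κ₀.2 + 1 + 1 - (κ₀.2 - 1) = 3)]; rfl
      rw [h3] at h2
      exact_mod_cast h2
  rw [card_eq_sum_card_fiberwise (f := key) (s := G) (t := T)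
    (fun i hi0 => mem_coe.mpr (hmap i (mem_coe.mp hi0)))]
  push_cast
  refine (sum_le_sum hone).trans ?_
  rw [sum_add_distrib, ← mul_sum, sum_const, nsmul_eq_mul]
  have h5 := mul_le_mul_of_nonneg_left hruns (by positivity : 0 ≤ 180 * z)
  have h6 := mul_le_mul_of_nonneg_right hTc
    (by positivity : (0 : ℝ) ≤ 180 * #P * z + 8 * #P)
  linarith

end

/-- levels -/
lemma ex_exists_level {u t w : ℝ} (E : ℕ) (hu : 2 ≤ u) (ht : 0 < t) (h1 : t ≤ w)
    (h2 : w ≤ u ^ (E + 1) * t) : ∃ k ∈ range (E + 2), u ^ k * t ≤ w ∧ w ≤ u * (u ^ k * t) := by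
  obtain ⟨k, hk1, hk2⟩ := exists_nat_pow_near (x := w / t) (y := u)
    ((one_le_div ht).mpr h1) (by linarith)
  rw [le_div_iff₀ ht] at hk1
  rw [div_lt_iff₀ ht] at hk2
  refine ⟨k, mem_range.mpr ?_, hk1, ?_⟩
  · have h3 : u ^ k ≤ u ^ (E + 1) := le_of_mul_le_mul_right (hk1.trans h2) ht
    have := (pow_le_pow_iff_right₀ (by linarith : 1 < u)).mp h3
    omega
  · rw [pow_succ] at hk2
    linarith

theorem excess (hh : HeavyStmt) : ExcessStmt := by
  intro lam d u Z r E P v I cl lo hi hC _ hL hH hu huZ hZ hlam hr hrE hEZ hcl hd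
  have hS := hC.sys
  have hZ0 : 0 < Z := by linarith
  have hr0 : 0 < r := by linarith
  have hlam0 : 0 < lam := by linarith
  have hrl : 1 ≤ r * lam := one_le_mul_of_one_le_of_one_le hr hlam
  have hd1 : Z ^ 3 * (r ^ 2 * lam) ≤ d := by
    refine le_trans ?_ hd
    have e : (Z * r * lam) ^ 3 = Z ^ 3 * (r ^ 2 * lam) * (r * lam ^ 2) := by ring
    rw [e]
    exact le_mul_of_one_le_right (by positivity)
      (one_le_mul_of_one_le_of_one_le hr (one_le_pow₀ hlam))
  have hZ3 : 1 ≤ Z ^ 3 := one_le_pow₀ (by linarith)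
  have hrd : r ≤ d := by
    have h1 : r ≤ r ^ 2 * lam := by nlinarith
    have h2 : r ^ 2 * lam ≤ Z ^ 3 * (r ^ 2 * lam) := le_mul_of_one_le_left (by positivity) hZ3
    linarith
  have hd0 : 0 < d := by linarith
  set s := lam ^ 2 * d with hs
  have hs0 : 0 < s := by positivity
  set t := s / r with ht
  have ht0 : 0 < t := by positivity
  have hlt : lam ^ 2 ≤ t := by
    rw [ht, le_div_iff₀ hr0, hs]
    exact mul_le_mul_of_nonneg_left hrd (by positivity)
  have hl2 : 1 ≤ lam ^ 2 := one_le_pow₀ hlam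
  have hst : s = r * t := by rw [ht]; field_simp
  set b := nb P v cl lo hi t with hb
  have hb1 : ∀ i, (nu P (lo (cl i)) (hi (cl i)) (v i) : ℝ) ≤ b i := fun i => by
    rw [hb, nb]; linarith [le_max_left (nu P (lo (cl i)) (hi (cl i)) (v i) : ℝ)
      (nu P (lo (cl i)) (hi (cl i)) (v (i + 1)))]
  have hb2 : ∀ i, (nu P (lo (cl i)) (hi (cl i)) (v (i + 1)) : ℝ) ≤ b i := fun i => by
    rw [hb, nb]; linarith [le_max_right (nu P (lo (cl i)) (hi (cl i)) (v i) : ℝ)
      (nu P (lo (cl i)) (hi (cl i)) (v (i + 1)))]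
  have hb3 : ∀ i, t ≤ b i := fun i => by
    rw [hb, nb]
    linarith [le_max_left (nu P (lo (cl i)) (hi (cl i)) (v i) : ℝ)
      (nu P (lo (cl i)) (hi (cl i)) (v (i + 1))),
      (Nat.cast_nonneg (nu P (lo (cl i)) (hi (cl i)) (v i)) : (0 : ℝ) ≤ _)]
  have hb4 : ∀ i, b i ≤ u ^ (E + 1) * t := fun i => by
    have h1 : max (nu P (lo (cl i)) (hi (cl i)) (v i) : ℝ)
        (nu P (lo (cl i)) (hi (cl i)) (v (i + 1))) ≤ s :=
      max_le ((Nat.cast_le.mpr (nu_le_card _ _ _ _)).trans hC.cardP)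
        ((Nat.cast_le.mpr (nu_le_card _ _ _ _)).trans hC.cardP)
    have h2 : 2 * r ≤ u ^ (E + 1) := by
      rw [pow_succ, mul_comm]
      exact mul_le_mul hrE hu (by norm_num) (by positivity)
    have h3 := mul_le_mul_of_nonneg_right h2 ht0.le
    have h4 := mul_le_mul_of_nonneg_right hr ht0.le
    rw [hb, nb]
    linarith
  set z := lam / Z ^ 4 with hz
  have hz0 : 0 < z := by positivity
  set F : ℕ → Finset ℤ := fun k => I.filter fun i => b i ≤ 2 * u * (u ^ k * t) ∧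
    Z ^ 10 * (u ^ k * t) / lam ^ 2 <
      (#(I.filter fun j => v j = v i ∧ cl j = cl i ∧ b j ≤ 2 * u * (u ^ k * t)) : ℝ) with hF
  have hlev : ∀ k, (#(F k) : ℝ) ≤ lam ^ 2 * d ^ 2 / Z ^ 2 := by
    intro k
    set x := u ^ k * t with hx
    have hx1 : t ≤ x := le_mul_of_one_le_left ht0.le (one_le_pow₀ (by linarith))
    have hx0 : 1 ≤ x := by linarith
    have hρ : 2 ≤ Z ^ 10 * x / lam ^ 2 := by
      rw [le_div_iff₀ (by positivity)]
      have h1 : (2 : ℝ) ≤ Z ^ 10 := le_trans (by linarith) (le_self_pow₀ (by linarith) (by norm_num))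
      exact mul_le_mul h1 (hlt.trans hx1) (by positivity) (by positivity)
    have hB : 3 * (2 * (2 * u * x) + 1) + 1 ≤ z ^ 2 * (Z ^ 10 * x / lam ^ 2) := by
      have e : z ^ 2 * (Z ^ 10 * x / lam ^ 2) = Z * (Z * x) := by rw [hz]; field_simp
      rw [e]
      have h1 : u * x ≤ Z * x := mul_le_mul_of_nonneg_right huZ (by linarith)
      have h2 : 1 ≤ Z * x := one_le_mul_of_one_le_of_one_le (by linarith) hx0
      have h3 := mul_le_mul_of_nonneg_right hZ (by linarith : 0 ≤ Z * x)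
      linarith
    have hy : 0 ≤ 2 * u * x := by positivity
    refine (ex_level hh hS hL hH b hb1 hb2 hy hρ hz0 hB).trans ?_
    have hP0 : (0 : ℝ) ≤ #P := Nat.cast_nonneg _
    have hstr : (#P : ℝ) / (2 * (2 * u * x) + 1) + 1 ≤ 2 * r := by
      have h1 : (#P : ℝ) / (2 * (2 * u * x) + 1) ≤ r := by
        rw [div_le_iff₀ (by linarith)]
        have h2 : t ≤ 2 * (2 * u * x) + 1 := by nlinarith
        have h3 := mul_le_mul_of_nonneg_left h2 hr0.le
        linarith [hC.cardP]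
      linarith
    have hzl : z ≤ lam := by
      rw [hz]; exact div_le_self hlam0.le (one_le_pow₀ (by linarith))
    have hA : 180 * (#P : ℝ) * z + 8 * #P ≤ 188 * (s * lam) := by
      have h1 : (#P : ℝ) * z ≤ s * lam := mul_le_mul hC.cardP hzl hz0.le hs0.le
      have h2 : s ≤ s * lam := le_mul_of_one_le_right hs0.le hlam
      linarith [hC.cardP]
    have hB2 : (#(I.image cl) : ℝ) * (#P / (2 * (2 * u * x) + 1) + 1) *
        (180 * #P * z + 8 * #P) ≤ r * (2 * r) * (188 * (s * lam)) :=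
      mul_le_mul (mul_le_mul hcl hstr (add_nonneg (div_nonneg hP0 (by linarith)) zero_le_one)
        hr0.le) hA (add_nonneg (mul_nonneg (by linarith) hz0.le) (by linarith))
        (mul_nonneg hr0.le (by linarith))
    have hN : 540 * (nr I : ℝ) * z ≤ 540 * (Z * lam * d ^ 2) * z := by
      have h1 : u * lam * d ^ 2 ≤ Z * lam * d ^ 2 := by gcongr
      have h2 := hC.runs.trans h1
      gcongr
    have e1 : 540 * (Z * lam * d ^ 2) * z = 540 / Z * (lam ^ 2 * d ^ 2 / Z ^ 2) := by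
      rw [hz]; field_simp
    have e2 : r * (2 * r) * (188 * (s * lam)) ≤ 376 / Z * (lam ^ 2 * d ^ 2 / Z ^ 2) := by
      have e3 : 376 / Z * (lam ^ 2 * d ^ 2 / Z ^ 2) = 376 * s * (d / Z ^ 3) := by
        rw [hs]; field_simp
      have e4 : r ^ 2 * lam ≤ d / Z ^ 3 := by
        rw [le_div_iff₀ (by positivity)]; linarith
      rw [e3]
      have e5 := mul_le_mul_of_nonneg_left e4 (by positivity : 0 ≤ 376 * s)
      linarith
    have e6 : 540 / Z + 376 / Z ≤ 1 := by
      rw [← add_div, div_le_one hZ0]; linarith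
    have e7 := mul_le_mul_of_nonneg_right e6 (by positivity : 0 ≤ lam ^ 2 * d ^ 2 / Z ^ 2)
    linarith
  have hsub : (I.filter fun i => Z ^ 10 * b i / lam ^ 2 <
      (#(I.filter fun j => v j = v i ∧ cl j = cl i ∧ b j ≤ 2 * b i) : ℝ)) ⊆
      (range (E + 2)).biUnion F := by
    intro i hi0
    obtain ⟨hiI, hlt2⟩ := mem_filter.mp hi0
    obtain ⟨k, hk, h1, h2⟩ := ex_exists_level E hu ht0 (hb3 i) (hb4 i)
    have hb0 : 0 ≤ b i := ht0.le.trans (hb3 i)
    refine mem_biUnion.mpr ⟨k, hk, mem_filter.mpr ⟨hiI, by linarith, ?_⟩⟩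
    refine lt_of_le_of_lt ?_ (hlt2.trans_le (Nat.cast_le.mpr (card_le_card fun j hj => ?_)))
    · gcongr
    · rw [mem_filter] at hj ⊢
      exact ⟨hj.1, hj.2.1, hj.2.2.1, by linarith [hj.2.2.2]⟩
  refine (Nat.cast_le.mpr ((card_le_card hsub).trans card_biUnion_le)).trans ?_
  push_cast
  refine (sum_le_card_nsmul _ _ _ fun k _ => hlev k).trans ?_
  rw [card_range, nsmul_eq_mul]
  push_cast
  have e : lam ^ 2 * d ^ 2 / Z = Z * (lam ^ 2 * d ^ 2 / Z ^ 2) := by field_simp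
  rw [e]
  exact mul_le_mul_of_nonneg_right hEZ (by positivity)

end Crest.Agent.R51
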