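import Crest.Agent.R51.Tools

/-!
# Row 51: runs cross the strips of a direction used at the same point
-/

set_option autoImplicit false

noncomputable section

namespace Crest.Agent.R51

open Finset Classical

/-- the points of blob `Q` in the three strips around strip `k` -/
def flY {κ : Type} (P : Finset Pt) (θ W : ℝ) (c : Pt → κ) (k : ℤ) (Q : κ) : Finset Pt :=
  part c Q (P.filter fun z => |st P θ W z - k| ≤ 1)

lemma mem_flY {κ : Type} {P : Finset Pt} {θ W : ℝ} {c : Pt → κ} {k : ℤ} {Q : κ} {z : Pt} :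
    z ∈ flY P θ W c k Q ↔ z ∈ P ∧ |st P θ W z - k| ≤ 1 ∧ c z = Q := by
  simp only [flY, mem_part, mem_filter, and_assoc]

lemma fl_near (G S : Finset ℤ) (l : ℕ) :
    (#(G.filter fun i => ∃ m ∈ S, i - l ≤ m ∧ m < i + l) : ℝ) ≤ 2 * l * #S := by
  have h1 : (G.filter fun i => ∃ m ∈ S, i - l ≤ m ∧ m < i + l) ⊆
      S.biUnion fun m => Ioc (m - l) (m + l) := by
    intro i hi
    obtain ⟨-, m, hm, h1, h2⟩ := mem_filter.1 hi
    exact mem_biUnion.2 ⟨m, hm, mem_Ioc.2 ⟨by omega, by omega⟩⟩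
  have h2 := (card_le_card h1).trans card_biUnion_le
  have h3 : ∑ m ∈ S, #(Ioc (m - l) (m + l)) = 2 * l * #S := by
    rw [sum_congr rfl (g := fun _ => 2 * l) fun m _ => by rw [Int.card_Ioc]; omega]
    simp [mul_comm]
  rw [h3] at h2
  exact_mod_cast h2

lemma fl_sum_part {κ : Type} (c : Pt → κ) (T : Finset κ) (P : Finset Pt) :
    ∑ Q ∈ T, (#(part c Q P) : ℝ) ≤ #P := by
  have h1 := card_filter_prod T P (fun Q z => c z = Q)
  have h2 := card_filter_prod' T P (fun Q z => c z = Q)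
  have h3 : ∑ z ∈ P, (#(T.filter fun Q => c z = Q) : ℝ) ≤ ∑ _z ∈ P, (1 : ℝ) := by
    refine sum_le_sum fun z _ => ?_
    have : #(T.filter fun Q => c z = Q) ≤ 1 :=
      card_le_one.2 fun a ha b hb => (mem_filter.1 ha).2.symm.trans (mem_filter.1 hb).2
    exact_mod_cast this
  simp only [sum_const, nsmul_eq_mul, mul_one] at h3
  have h4 : ∑ Q ∈ T, (#(part c Q P) : ℝ) = ∑ Q ∈ T, (#(P.filter fun z => c z = Q) : ℝ) := by
    refine sum_congr rfl fun Q _ => ?_
    unfold part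
    congr
  rw [h4]
  refine le_trans (le_of_eq ?_) h3
  convert h1.symm.trans h2

lemma fl_sum_Y {κ : Type} (c : Pt → κ) (T : Finset (ℤ × κ)) (P : Finset Pt) (θ W : ℝ) :
    ∑ t ∈ T, (#(flY P θ W c t.1 t.2) : ℝ) ≤ 3 * #P := by
  have h1 := card_filter_prod T P (fun t z => |st P θ W z - t.1| ≤ 1 ∧ c z = t.2)
  have h2 := card_filter_prod' T P (fun t z => |st P θ W z - t.1| ≤ 1 ∧ c z = t.2)
  have h3 : ∑ z ∈ P, (#(T.filter fun t => |st P θ W z - t.1| ≤ 1 ∧ c z = t.2) : ℝ) ≤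
      ∑ _z ∈ P, (3 : ℝ) := by
    refine sum_le_sum fun z _ => ?_
    have h5 : (T.filter fun t => |st P θ W z - t.1| ≤ 1 ∧ c z = t.2) ⊆
        (Icc (st P θ W z - 1) (st P θ W z + 1)).image fun k => (k, c z) := by
      intro t ht
      obtain ⟨-, h6, h7⟩ := mem_filter.1 ht
      rw [abs_le] at h6
      exact mem_image.2 ⟨t.1, mem_Icc.2 ⟨by omega, by omega⟩, by rw [h7]⟩
    have h8 := (card_le_card h5).trans card_image_le
    rw [Int.card_Icc] at h8
    have : #(T.filter fun t => |st P θ W z - t.1| ≤ 1 ∧ c z = t.2) ≤ 3 := by omega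
    exact_mod_cast this
  simp only [sum_const, nsmul_eq_mul] at h3
  have h4 : ∑ t ∈ T, (#(flY P θ W c t.1 t.2) : ℝ) =
      ∑ t ∈ T, (#(P.filter fun z => |st P θ W z - t.1| ≤ 1 ∧ c z = t.2) : ℝ) := by
    refine sum_congr rfl fun t _ => ?_
    congr 2
    ext z
    rw [mem_flY, mem_filter]
  rw [h4, mul_comm]
  refine le_trans (le_of_eq ?_) h3
  convert h1.symm.trans h2

lemma fl_sum_long (hl : LongStmt) {P : Finset Pt} {v : ℤ → Pt} {I : Finset ℤ} (hS : Sys P v I)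
    {ι : Type} (T : Finset ι) (Y : ι → Finset Pt) {l D q M : ℝ} (h0 : 0 < l) (hD : 1 ≤ D)
    (hP : (#P : ℝ) ^ 2 ≤ D ^ 3) (hq0 : 0 ≤ q) (hq : ∀ t ∈ T, (#(Y t) : ℝ) ≤ q)
    (hM : ∑ t ∈ T, (#(Y t) : ℝ) ≤ M) :
    (#(T.biUnion fun t => longIn v I (Y t) l) : ℝ) ≤ (8000 * q / l ^ 2 + 26 * D) * M := by
  have h1 : (#(T.biUnion fun t => longIn v I (Y t) l) : ℝ) ≤
      ∑ t ∈ T, (#(longIn v I (Y t) l) : ℝ) := by exact_mod_cast card_biUnion_le
  have hc : 0 ≤ 8000 * q / l ^ 2 + 26 * D := by positivity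
  refine h1.trans (le_trans ?_ (mul_le_mul_of_nonneg_left hM hc))
  rw [mul_sum]
  refine sum_le_sum fun t ht => (hl P v I hS (Y t) l D h0 hD hP).trans ?_
  have h2 : (0 : ℝ) ≤ #(Y t) := Nat.cast_nonneg _
  have h3 : 8000 * (#(Y t) : ℝ) ^ 2 / l ^ 2 ≤ 8000 * q / l ^ 2 * #(Y t) := by
    rw [div_mul_eq_mul_div]
    refine div_le_div_of_nonneg_right ?_ (by positivity)
    have := hq t ht
    nlinarith
  nlinarith

/-- few blobs are large inside three strips -/
lemma fl_big {κ : Type} {P : Finset Pt} (hP : GP P) (c : Pt → κ) (T : Finset κ) (θ : ℝ) {W q : ℝ}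
    (hW : 1 ≤ W) (hq : 0 < q) (k : ℤ) :
    (#(T.filter fun Q => q < (#(flY P θ W c k Q) : ℝ)) : ℝ) ≤ 4 * W / q := by
  have h1 := card_mul_le_sum T (fun Q => (#(flY P θ W c k Q) : ℝ)) q
    (fun _ _ => Nat.cast_nonneg _) (fun Q => q < (#(flY P θ W c k Q) : ℝ)) (fun _ _ h => h.le)
  have h2 := fl_sum_part c T (P.filter fun z => |st P θ W z - k| ≤ 1)
  have h3 := hP.card_st3 θ (W := W) (by linarith) k
  rw [le_div_iff₀ hq]
  refine h1.trans (h2.trans ?_)
  linarith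

variable {lam d u η : ℝ} {P : Finset Pt} {v : ℤ → Pt} {I G : Finset ℤ} {cl : ℤ → ℕ}
  {lo hi gam : ℕ → ℝ}

/-- a flat segment without cut edges stays in one set `flY` -/
lemma fl_long (hB : B2 lam d u η P v I G cl lo hi gam) {κ : Type} (c : Pt → κ) {W : ℝ}
    (hW : 1 ≤ W) {l : ℕ} (hl : 1 ≤ l) {a : ℕ} (ha : a ∈ I.image cl) {i : ℤ} (hi' : i ∈ I)
    (hne : a ≠ cl i) (hF : Flat P v I (lo a) W l i)
    (hc : ¬ ∃ m ∈ cut c v I, i - l ≤ m ∧ m < i + l) :
    ∃ j, (j = i ∨ j = i - l) ∧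
      j ∈ longIn v I (flY P (lo a) W c (st P (lo a) W (v i)) (c (v i))) l := by
  obtain ⟨j, hj, hs, hd⟩ := hF
  have hS := hB.sys
  refine ⟨j, hj, ?_⟩
  have hji : j ≤ i ∧ i ≤ j + l := by omega
  -- one class
  have hcl : ∀ m, j ≤ m → m < j + l → cl m = cl i := by
    intro m h1 h2
    rcases hj with rfl | hj
    · exact (hB.link.seg h1 (hs.mono le_rfl (by omega))).symm
    · refine hB.link.seg (by omega) ?_
      exact Seg.snoc (hs.mono h1 (by omega)) hi'
  -- one blob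
  have hstep : ∀ m, j ≤ m → m < j + l → c (v m) = c (v (m + 1)) := by
    intro m h1 h2
    by_contra hn
    exact hc ⟨m, mem_cut.2 ⟨hs m h1 h2, hn⟩, by omega, by omega⟩
  have hblob : ∀ m, j ≤ m → m ≤ j + l → c (v m) = c (v j) := by
    intro m h1
    induction m, h1 using Int.leInduction with
    | base => exact fun _ => rfl
    | succ n hn ih => exact fun h2 => (hstep n hn (by omega)).symm.trans (ih (by omega))
  have hmem : ∀ m, j ≤ m → m ≤ j + l →
      v m ∈ flY P (lo a) W c (st P (lo a) W (v i)) (c (v i)) := by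
    intro m h1 h2
    refine mem_flY.2 ⟨hS.mem_of_seg (by omega) hs h1 h2, ?_,
      (hblob m h1 h2).trans (hblob i hji.1 hji.2).symm⟩
    have h3 : dr P (lo a) (v i) (v m) ≤ ((1 : ℕ) : ℝ) * W := by
      rw [Nat.cast_one, one_mul]
      rcases le_total i m with h4 | h4
      · exact (hS.rk_between hB.hull hB.mono ha hne hs hcl hji.1 h4 h2).trans hd
      · rw [dr_comm]
        exact (hS.rk_between hB.hull hB.mono ha hne hs hcl h1 h4 hji.2).trans hd
    exact_mod_cast st_close (by linarith) 1 h3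
  refine mem_filter.2 ⟨hs j le_rfl (by omega), hmem j le_rfl (by omega),
    hmem (j + 1) (by omega) (by omega), ?_⟩
  have h5 : Ico j (j + l) ⊆ I.filter fun m => root I m = root I j ∧
      v m ∈ flY P (lo a) W c (st P (lo a) W (v i)) (c (v i)) ∧
      v (m + 1) ∈ flY P (lo a) W c (st P (lo a) W (v i)) (c (v i)) := by
    intro m hm
    obtain ⟨h1, h2⟩ := mem_Ico.1 hm
    exact mem_filter.2 ⟨hs m h1 h2, root_eq_of_seg h1 (hs.mono le_rfl (by omega)),
      hmem m h1 h2.le, hmem (m + 1) (by omega) (by omega)⟩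
  have h6 := card_le_card h5
  rw [Int.card_Ico, show (j + l - j).toNat = l by omega] at h6
  exact_mod_cast h6

/-- case (ii): the edges with a long segment in a small set `flY` -/
lemma fl_small (hl : LongStmt) (hS : Sys P v I) (hG : G ⊆ I) {κ : Type} (c : Pt → κ) (θ W : ℝ)
    {l : ℕ} (h1 : 1 ≤ l) {D q : ℝ} (hD : 1 ≤ D) (hP : (#P : ℝ) ^ 2 ≤ D ^ 3) (hq : 0 ≤ q) :
    (#(G.filter fun i => (#(flY P θ W c (st P θ W (v i)) (c (v i))) : ℝ) ≤ q ∧
      ∃ j, (j = i ∨ j = i - l) ∧ j ∈ longIn v I (flY P θ W c (st P θ W (v i)) (c (v i))) l) : ℝ) ≤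
      2 * ((8000 * q / l ^ 2 + 26 * D) * (3 * #P)) := by
  set T := (P.image fun p => (st P θ W p, c p)).filter
    fun t => (#(flY P θ W c t.1 t.2) : ℝ) ≤ q with hT
  set L := T.biUnion fun t => longIn v I (flY P θ W c t.1 t.2) l with hL
  have h2 : (#L : ℝ) ≤ (8000 * q / l ^ 2 + 26 * D) * (3 * #P) :=
    fl_sum_long hl hS T (fun t => flY P θ W c t.1 t.2) (by exact_mod_cast h1) hD hP hq
      (fun t ht => (mem_filter.1 ht).2) (fl_sum_Y c T P θ W)
  have h3 : (G.filter fun i => (#(flY P θ W c (st P θ W (v i)) (c (v i))) : ℝ) ≤ q ∧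
      ∃ j, (j = i ∨ j = i - l) ∧ j ∈ longIn v I (flY P θ W c (st P θ W (v i)) (c (v i))) l) ⊆
      L ∪ L.image fun j => j + l := by
    intro i hi
    obtain ⟨hiG, h4, j, hj, h5⟩ := mem_filter.1 hi
    have h6 : j ∈ L := mem_biUnion.2 ⟨(st P θ W (v i), c (v i)),
      mem_filter.2 ⟨mem_image.2 ⟨v i, hS.memL i (hG hiG), rfl⟩, h4⟩, h5⟩
    rcases hj with rfl | hj
    · exact mem_union_left _ h6
    · exact mem_union_right _ (mem_image.2 ⟨j, h6, by omega⟩)
  have h7 := (card_le_card h3).trans ((card_union_le _ _).trans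
    (Nat.add_le_add_left card_image_le _))
  have h8 : (#(G.filter fun i => (#(flY P θ W c (st P θ W (v i)) (c (v i))) : ℝ) ≤ q ∧
      ∃ j, (j = i ∨ j = i - l) ∧ j ∈ longIn v I (flY P θ W c (st P θ W (v i)) (c (v i))) l) : ℝ) ≤
      #L + #L := by exact_mod_cast h7
  linarith

/-- case (iii): the remaining edges, run by run -/
lemma fl_rest (hB : B2 lam d u η P v I G cl lo hi gam) {κ : Type} (c : Pt → κ) {W q l₁ : ℝ}
    (hW : 1 ≤ W) (hq : 0 < q) (hl : 0 ≤ l₁) :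
    (#(G.filter fun g => q < (#(flY P (lo (cl g)) W c (st P (lo (cl g)) W (v g)) (c (v g))) : ℝ) ∧
      (nu P (lo (cl g)) (hi (cl g)) (v g) : ℝ) ≤ W ∧ g ∉ cut c v I ∧
      g ∉ longIn v I (part c (c (v g)) P) l₁) : ℝ) ≤ nr I * (7 * (4 * W / q) * l₁) := by
  have hS := hB.sys
  set S := G.filter fun g =>
    q < (#(flY P (lo (cl g)) W c (st P (lo (cl g)) W (v g)) (c (v g))) : ℝ) ∧
      (nu P (lo (cl g)) (hi (cl g)) (v g) : ℝ) ≤ W ∧ g ∉ cut c v I ∧
      g ∉ longIn v I (part c (c (v g)) P) l₁ with hSdef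
  have hSI : S ⊆ I := (filter_subset _ _).trans hB.sub
  refine card_le_nr_mul hSI fun f _ => ?_
  set R := S.filter fun i => root I i = f with hR
  have hW0 : 0 < W := by linarith
  rcases R.eq_empty_or_nonempty with h0 | ⟨g₀, hg₀⟩
  · rw [h0, card_empty, Nat.cast_zero]; positivity
  have hRI : ∀ g ∈ R, g ∈ I := fun g hg => hSI (mem_filter.1 hg).1
  have hroot : ∀ g ∈ R, root I g = f := fun g hg => (mem_filter.1 hg).2
  have hcl : ∀ g ∈ R, cl g = cl g₀ := fun g hg =>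
    hB.link.root_eq (hRI g hg) (hRI g₀ hg₀) ((hroot g hg).trans (hroot g₀ hg₀).symm)
  set a := cl g₀ with ha
  have haI : a ∈ I.image cl := mem_image_of_mem _ (hRI g₀ hg₀)
  have hnu : ∀ g ∈ R, (nu P (lo a) (hi a) (v g) : ℝ) ≤ W := fun g hg => by
    have := (mem_filter.1 (mem_filter.1 hg).1).2.2.1
    rwa [hcl g hg] at this
  have hdr : ∀ g ∈ R, ∀ g' ∈ R, g ≤ g' → dr P (lo a) (v g) (v g') ≤ ((3 : ℕ) : ℝ) * W := by
    intro g hg g' hg' hgg
    have hs : Seg I g (g' + 1) :=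
      seg_of_root_eq (hRI g hg) (hRI g' hg') ((hroot g hg).trans (hroot g' hg').symm)
    have h1 := hS.dr_le_nu (lo := lo a) (hi := hi a) (θ := lo a) hgg (hs.mono le_rfl (by omega))
      (fun m h1 h2 => by
        have hm : m ∈ I := hs m h1 (by omega)
        have hc : cl m = a := (hB.link.seg h1 (hs.mono le_rfl (by omega))).symm.trans (hcl g hg)
        rw [← hc]
        exact ⟨hB.hull.lo_le m hm, hB.hull.le_hi m hm⟩) le_rfl (hB.hull.lo_le_hi haI)
    have h2 := hnu g hg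
    have h3 := hnu g' hg'
    push_cast
    linarith
  have hst : ∀ g ∈ R, st P (lo a) W (v g) ∈
      Icc (st P (lo a) W (v g₀) - 3) (st P (lo a) W (v g₀) + 3) := by
    intro g hg
    have h1 : dr P (lo a) (v g₀) (v g) ≤ ((3 : ℕ) : ℝ) * W := by
      rcases le_total g₀ g with h | h
      · exact hdr g₀ hg₀ g hg h
      · rw [dr_comm]; exact hdr g hg g₀ hg₀ h
    have h2 := st_close hW0 3 h1
    rw [abs_le] at h2
    push_cast at h2
    exact mem_Icc.2 ⟨by omega, by omega⟩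
  set T := (Icc (st P (lo a) W (v g₀) - 3) (st P (lo a) W (v g₀) + 3)).biUnion fun k =>
    (P.image c).filter fun Q => q < (#(flY P (lo a) W c k Q) : ℝ) with hT
  have hTc : (#T : ℝ) ≤ 7 * (4 * W / q) := by
    have h1 : (#T : ℝ) ≤ ∑ k ∈ Icc (st P (lo a) W (v g₀) - 3) (st P (lo a) W (v g₀) + 3),
        (#((P.image c).filter fun Q => q < (#(flY P (lo a) W c k Q) : ℝ)) : ℝ) := by
      exact_mod_cast card_biUnion_le
    refine h1.trans ((sum_le_sum fun k _ => fl_big hS.gp c _ (lo a) hW hq k).trans (le_of_eq ?_))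
    rw [sum_const, Int.card_Icc, nsmul_eq_mul]
    congr 1
    rw [show st P (lo a) W (v g₀) + 3 + 1 - (st P (lo a) W (v g₀) - 3) = 7 by ring]
    rfl
  have hmap : ∀ g ∈ R, c (v g) ∈ T := fun g hg => by
    refine mem_biUnion.2 ⟨_, hst g hg, mem_filter.2
      ⟨mem_image_of_mem _ (hS.memL g (hRI g hg)), ?_⟩⟩
    have := (mem_filter.1 (mem_filter.1 hg).1).2.1
    rwa [hcl g hg] at this
  have hfib : ∀ Q ∈ T, (#(R.filter fun g => c (v g) = Q) : ℝ) ≤ l₁ := by
    intro Q _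
    rcases (R.filter fun g => c (v g) = Q).eq_empty_or_nonempty with h0 | ⟨g₁, hg₁⟩
    · rw [h0, card_empty, Nat.cast_zero]; exact hl
    have hin : ∀ g ∈ R, c (v g) = Q → v g ∈ part c Q P ∧ v (g + 1) ∈ part c Q P := by
      intro g hg hQ
      have h1 := (mem_filter.1 (mem_filter.1 hg).1).2.2.2.1
      have h2 : c (v g) = c (v (g + 1)) := by
        by_contra hn
        exact h1 (mem_cut.2 ⟨hRI g hg, hn⟩)
      exact ⟨mem_part.2 ⟨hS.memL g (hRI g hg), hQ⟩,
        mem_part.2 ⟨hS.memR g (hRI g hg), h2.symm.trans hQ⟩⟩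
    obtain ⟨hg₁R, hQ₁⟩ := mem_filter.1 hg₁
    have h3 := (mem_filter.1 (mem_filter.1 hg₁R).1).2.2.2.2
    rw [hQ₁] at h3
    have h4 : (#(I.filter fun j => root I j = root I g₁ ∧ v j ∈ part c Q P ∧
        v (j + 1) ∈ part c Q P) : ℝ) < l₁ := by
      by_contra hn
      exact h3 (mem_filter.2 ⟨hRI g₁ hg₁R, (hin g₁ hg₁R hQ₁).1, (hin g₁ hg₁R hQ₁).2, not_lt.1 hn⟩)
    refine le_trans ?_ h4.le
    have h5 : (R.filter fun g => c (v g) = Q) ⊆ I.filter fun j => root I j = root I g₁ ∧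
        v j ∈ part c Q P ∧ v (j + 1) ∈ part c Q P := by
      intro g hg
      obtain ⟨hgR, hQ⟩ := mem_filter.1 hg
      exact mem_filter.2 ⟨hRI g hgR, (hroot g hgR).trans (hroot g₁ hg₁R).symm, hin g hgR hQ⟩
    exact_mod_cast card_le_card h5
  have h6 : (#R : ℝ) = ∑ Q ∈ T, (#(R.filter fun g => c (v g) = Q) : ℝ) := by
    exact_mod_cast card_eq_sum_card_fiberwise (f := fun g => c (v g)) (s := R) (t := T) hmap
  rw [h6]
  refine (sum_le_sum hfib).trans ?_
  rw [sum_const, nsmul_eq_mul]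
  exact mul_le_mul_of_nonneg_right hTc hl

/-- the property of case (ii) -/
def flSmall {κ : Type} (P : Finset Pt) (v : ℤ → Pt) (I : Finset ℤ) (lo : ℕ → ℝ) (W : ℝ)
    (c : Pt → κ) (l : ℕ) (q : ℝ) (a : ℕ) (i : ℤ) : Prop :=
  (#(flY P (lo a) W c (st P (lo a) W (v i)) (c (v i))) : ℝ) ≤ q ∧
    ∃ j, (j = i ∨ j = i - l) ∧ j ∈ longIn v I (flY P (lo a) W c (st P (lo a) W (v i)) (c (v i))) l

theorem flat (hp : PartStmt) (hl : LongStmt) : FlatStmt := by
  intro lam d u η Z W l P v I G cl lo hi gam hB hu huZ hZ hlam hld hW hη hl1 hWl hd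
  have hS := hB.sys
  have hZ0 : 0 < Z := by linarith
  have hZ1 : 1 ≤ Z := by linarith
  have hd1 : 1 ≤ d := hlam.trans hld
  have hd0 : 0 < d := by linarith
  have hlam0 : 0 < lam := by linarith
  have hW0 : 0 < W := by linarith
  have hl' : (1 : ℝ) ≤ l := by exact_mod_cast hl1
  have hl0 : (0 : ℝ) < l := by linarith
  have hZ4 : 1 ≤ Z ^ 4 := one_le_pow₀ hZ1
  obtain ⟨c, hpart, hcut⟩ := hp lam d u P v I hB.toCfg0 hu hd1 hlam0 (by nlinarith) (Z ^ 4 * l)
    (by nlinarith)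
  set s := lam ^ 2 * d with hs
  have hs0 : 0 < s := by positivity
  have hP : (#P : ℝ) ≤ s := hB.cardP
  have hD : 1 ≤ d / Z ^ 4 := by
    rw [le_div_iff₀ (by positivity), one_mul]
    have h1 : 1 ≤ lam ^ 4 := one_le_pow₀ hlam
    have h2 : Z ^ 4 ≤ Z ^ 12 := pow_le_pow_right₀ hZ1 (by norm_num)
    have h3 : 0 < Z ^ 12 := by positivity
    nlinarith
  have hPD : (#P : ℝ) ^ 2 ≤ (d / Z ^ 4) ^ 3 := by
    refine (pow_le_pow_left₀ (Nat.cast_nonneg _) hP 2).trans ?_
    rw [div_pow, le_div_iff₀ (by positivity)]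
    calc s ^ 2 * (Z ^ 4) ^ 3 = lam ^ 4 * Z ^ 12 * d ^ 2 := by rw [hs]; ring
      _ ≤ d * d ^ 2 := mul_le_mul_of_nonneg_right hd (by positivity)
      _ = d ^ 3 := by ring
  set q := (l : ℝ) ^ 2 * d / Z ^ 5 with hq
  have hq0 : 0 < q := by positivity
  -- the unit of all bounds
  set b := s * d / Z ^ 3 with hb
  have hb0 : 0 < b := by positivity
  have hcut' : (l : ℝ) * #(cut c v I) ≤ 17 * b := by
    refine (mul_le_mul_of_nonneg_left hcut hl0.le).trans ?_
    have h1 : (l : ℝ) * (17 * u * (lam ^ 2 * d ^ 2) / (Z ^ 4 * l)) = 17 * b * (u / Z) := by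
      rw [hb, hs]; field_simp
    rw [h1]
    exact mul_le_of_le_one_right (by positivity) ((div_le_one hZ0).2 huZ)
  -- (i)
  have c1 : (#(cher v G fun _ e => ∃ m ∈ cut c v I, e - l ≤ m ∧ m < e + l) : ℝ) ≤
      u * d * (34 * b) := by
    refine (hB.cher_snd hd0.le _).trans (mul_le_mul_of_nonneg_left ?_ (by positivity))
    refine (fl_near G _ l).trans ?_
    linarith
  -- (ii)
  have h2 : 2 * ((8000 * q / l ^ 2 + 26 * (d / Z ^ 4)) * (3 * #P)) ≤ b := by
    have h3 : 8000 * q / l ^ 2 + 26 * (d / Z ^ 4) = (8000 / Z + 26) * (d / Z ^ 4) := by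
      rw [hq]; field_simp
    have h4 : 8000 / Z ≤ 1 := (div_le_one hZ0).2 (by linarith)
    have h5 : (8000 / Z + 26) * (d / Z ^ 4) * (3 * #P) ≤ 27 * (d / Z ^ 4) * (3 * s) :=
      mul_le_mul (mul_le_mul_of_nonneg_right (by linarith) (by positivity)) (by linarith)
        (by positivity) (by positivity)
    have h6 : 2 * (27 * (d / Z ^ 4) * (3 * s)) = b * (162 / Z) := by
      rw [hb]; field_simp; ring
    have h7 : b * (162 / Z) ≤ b :=
      mul_le_of_le_one_right hb0.le ((div_le_one hZ0).2 (by linarith))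
    rw [h3]
    linarith
  have c2 := hB.cher_class hd0.le (flSmall P v I lo W c l q) hb0.le fun a _ => by
    have h1 := fl_small hl hS hB.sub c (lo a) W hl1 hD hPD hq0.le
    refine le_trans (le_of_eq ?_) (h1.trans h2)
    congr 2
    ext i
    rw [mem_filter, mem_filter]
    rfl
  -- (iii)
  have c3 : (#(cher v G fun g _ =>
      q < (#(flY P (lo (cl g)) W c (st P (lo (cl g)) W (v g)) (c (v g))) : ℝ)) : ℝ) ≤
      u * d * (20 * b) := by
    refine (hB.cher_fst hd0.le _).trans (mul_le_mul_of_nonneg_left ?_ (by positivity))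
    set L := (P.image c).biUnion fun Q => longIn v I (part c Q P) (Z ^ 6 * l) with hL
    have e1 := hB.card_nu_gt hd0.le hW0
    have e2 : (#L : ℝ) ≤ (8000 * ((Z ^ 4 * l) ^ 2 * d) / (Z ^ 6 * l) ^ 2 + 26 * (d / Z ^ 4)) * s :=
      fl_sum_long hl hS _ (fun Q => part c Q P) (by positivity) hD hPD (by positivity)
        (fun Q _ => hpart Q) ((fl_sum_part c _ P).trans hP)
    have e3 := fl_rest hB c (l₁ := Z ^ 6 * l) hW hq0 (by positivity)
    have hsub : (G.filter fun g =>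
        q < (#(flY P (lo (cl g)) W c (st P (lo (cl g)) W (v g)) (c (v g))) : ℝ)) ⊆
        ((G.filter fun i => W < (nu P (lo (cl i)) (hi (cl i)) (v i) : ℝ)) ∪ cut c v I ∪ L) ∪
        G.filter fun g =>
          q < (#(flY P (lo (cl g)) W c (st P (lo (cl g)) W (v g)) (c (v g))) : ℝ) ∧
          (nu P (lo (cl g)) (hi (cl g)) (v g) : ℝ) ≤ W ∧ g ∉ cut c v I ∧
          g ∉ longIn v I (part c (c (v g)) P) (Z ^ 6 * l) := by
      intro g hg
      obtain ⟨hgG, hbig⟩ := mem_filter.1 hg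
      simp only [mem_union]
      by_cases h1 : W < (nu P (lo (cl g)) (hi (cl g)) (v g) : ℝ)
      · exact Or.inl (Or.inl (Or.inl (mem_filter.2 ⟨hgG, h1⟩)))
      by_cases h2 : g ∈ cut c v I
      · exact Or.inl (Or.inl (Or.inr h2))
      by_cases h3 : g ∈ longIn v I (part c (c (v g)) P) (Z ^ 6 * l)
      · exact Or.inl (Or.inr (mem_biUnion.2
          ⟨c (v g), mem_image_of_mem _ (hS.memL g (hB.sub hgG)), h3⟩))
      exact Or.inr (mem_filter.2 ⟨hgG, hbig, not_lt.1 h1, h2, h3⟩)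
    have hcard := (card_le_card hsub).trans ((card_union_le _ _).trans (Nat.add_le_add_right
      ((card_union_le _ _).trans (Nat.add_le_add_right (card_union_le _ _) _)) _))
    have hcard' := (Nat.cast_le (α := ℝ)).2 hcard
    push_cast at hcard'
    have f1 : s * (d * η * (s / W)) ≤ b := by
      have h1 : η * (s / W) ≤ 1 / Z ^ 3 := by
        rw [← mul_div_assoc, div_le_div_iff₀ hW0 (by positivity)]
        linarith
      calc s * (d * η * (s / W)) = s * d * (η * (s / W)) := by ring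
        _ ≤ s * d * (1 / Z ^ 3) := mul_le_mul_of_nonneg_left h1 (by positivity)
        _ = b := by rw [hb]; ring
    have f2 : (#(cut c v I) : ℝ) ≤ 17 * b := by
      have : (0 : ℝ) ≤ #(cut c v I) := Nat.cast_nonneg _
      nlinarith
    have f3 : (8000 * ((Z ^ 4 * l) ^ 2 * d) / (Z ^ 6 * l) ^ 2 + 26 * (d / Z ^ 4)) * s ≤ b := by
      have h1 : (8000 * ((Z ^ 4 * l) ^ 2 * d) / (Z ^ 6 * l) ^ 2 + 26 * (d / Z ^ 4)) * s =
          b * (8026 / Z) := by
        rw [hb]; field_simp; ring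
      rw [h1]
      exact mul_le_of_le_one_right hb0.le ((div_le_one hZ0).2 (by linarith))
    have f4 : (nr I : ℝ) * (7 * (4 * W / q) * (Z ^ 6 * l)) ≤ b := by
      have h1 : W ≤ l * (lam * d) / Z ^ 20 := by
        rw [le_div_iff₀ (by positivity)]; linarith
      have h2 : (nr I : ℝ) ≤ Z * lam * d ^ 2 :=
        hB.runs.trans (by gcongr)
      have h3 : (nr I : ℝ) * (7 * (4 * W / q) * (Z ^ 6 * l)) ≤
          Z * lam * d ^ 2 * (7 * (4 * (l * (lam * d) / Z ^ 20) / q) * (Z ^ 6 * l)) := by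
        gcongr
      have h4 : Z * lam * d ^ 2 * (7 * (4 * (l * (lam * d) / Z ^ 20) / q) * (Z ^ 6 * l)) =
          b * (28 / Z ^ 5) := by
        rw [hb, hq, hs]; field_simp; ring
      have h5 : Z ≤ Z ^ 5 := le_self_pow₀ hZ1 (by norm_num)
      refine h3.trans (h4.le.trans ?_)
      exact mul_le_of_le_one_right hb0.le ((div_le_one (by positivity)).2 (by linarith))
    linarith
  have hA := cher_or (v := v) (G := G)
    (Q := fun g i => cl g ≠ cl i ∧ Flat P v I (lo (cl g)) W l i)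
    (Q₁ := fun _ e => ∃ m ∈ cut c v I, e - l ≤ m ∧ m < e + l)
    (Q₂ := fun g i => ∃ j, (j = i ∨ j = i - l) ∧
      j ∈ longIn v I (flY P (lo (cl g)) W c (st P (lo (cl g)) W (v i)) (c (v i))) l)
    (fun g hg e he _ hQ => by
      by_cases h1 : ∃ m ∈ cut c v I, e - l ≤ m ∧ m < e + l
      · exact Or.inl h1
      · exact Or.inr (fl_long hB c hW hl1 (hB.mem_image hg) (hB.sub he) hQ.1 hQ.2 h1))
  have hA' := cher_or (v := v) (G := G)
    (Q := fun g i => ∃ j, (j = i ∨ j = i - l) ∧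
      j ∈ longIn v I (flY P (lo (cl g)) W c (st P (lo (cl g)) W (v i)) (c (v i))) l)
    (Q₁ := fun g e => flSmall P v I lo W c l q (cl g) e)
    (Q₂ := fun g _ => q < (#(flY P (lo (cl g)) W c (st P (lo (cl g)) W (v g)) (c (v g))) : ℝ))
    (fun g _ e _ hv hQ => by
      rw [hv]
      by_cases h1 : q < (#(flY P (lo (cl g)) W c (st P (lo (cl g)) W (v e)) (c (v e))) : ℝ)
      · exact Or.inr h1
      · exact Or.inl ⟨not_lt.1 h1, hQ⟩)
  have hfin : u * d * (55 * b) ≤ lam ^ 2 * d ^ 3 / Z := by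
    have h1 : u * d * (55 * b) ≤ Z * d * (55 * b) := by gcongr
    have h2 : Z * d * (55 * b) = lam ^ 2 * d ^ 3 / Z * (55 / Z) := by
      rw [hb, hs]; field_simp
    refine h1.trans (h2.le.trans ?_)
    exact mul_le_of_le_one_right (by positivity) ((div_le_one hZ0).2 (by linarith))
  linarith

end Crest.Agent.R51
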