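import Crest.Agent.R51.Tools

/-!
# Row 51: out-edges are not concentrated in one small class
-/

set_option autoImplicit false

noncomputable section

namespace Crest.Agent.R51

open Finset Classical

/-- edges of `S` leaving `p` in class `J` -/
def gDeg (v : ℤ → Pt) (cl : ℤ → ℕ) (S : Finset ℤ) (p : Pt) (J : ℕ) : Finset ℤ :=
  S.filter fun j => v j = p ∧ cl j = J

/-- edges of `S` with large out-degree in their class -/
def gH (v : ℤ → Pt) (cl : ℤ → ℕ) (S : Finset ℤ) (ρ : ℝ) : Finset ℤ :=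
  S.filter fun i => ρ ≤ (#(gDeg v cl S (v i) (cl i)) : ℝ)

/-- edges with a predecessor such that neither is cut -/
def gNice (c : Pt → ℤ × ℕ) (v : ℤ → Pt) (I : Finset ℤ) : Finset ℤ :=
  I.filter fun i => i - 1 ∈ I ∧ c (v (i - 1)) = c (v i) ∧ c (v i) = c (v (i + 1))

section
variable {P : Finset Pt} {v : ℤ → Pt} {cl : ℤ → ℕ} {S I N : Finset ℤ} {p : Pt} {J : ℕ} {i j : ℤ}
  {ρ : ℝ} {c : Pt → ℤ × ℕ} {lo hi : ℕ → ℝ}

lemma mem_gDeg : j ∈ gDeg v cl S p J ↔ j ∈ S ∧ v j = p ∧ cl j = J := mem_filter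

lemma mem_gH : i ∈ gH v cl S ρ ↔ i ∈ S ∧ ρ ≤ (#(gDeg v cl S (v i) (cl i)) : ℝ) := mem_filter

lemma mem_gNice : i ∈ gNice c v I ↔
    i ∈ I ∧ i - 1 ∈ I ∧ c (v (i - 1)) = c (v i) ∧ c (v i) = c (v (i + 1)) := mem_filter

lemma gam_card_le_sum {α β : Type*} (S : Finset α) (T : Finset β) (f : α → β)
    (hf : ∀ a ∈ S, f a ∈ T) (w : β → ℝ)
    (hw : ∀ b ∈ T, ∀ F : Finset α, (∀ a ∈ F, a ∈ S ∧ f a = b) → (#F : ℝ) ≤ w b) :
    (#S : ℝ) ≤ ∑ b ∈ T, w b := by
  rw [card_eq_sum_card_fiberwise (f := f) (t := T) hf]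
  push_cast
  exact sum_le_sum fun b hb => hw b hb _ fun a ha => mem_filter.1 ha

lemma gam_sum_le_card {α β : Type*} (S : Finset α) (T : Finset β) (f : α → β) (F : β → Finset α)
    (hF : ∀ b ∈ T, ∀ a ∈ F b, a ∈ S ∧ f a = b) : ∑ b ∈ T, (#(F b) : ℝ) ≤ #S := by
  have h1 : ∑ b ∈ T, #(F b) ≤ ∑ b ∈ T, #(S.filter fun a => f a = b) :=
    sum_le_sum fun b hb => card_le_card fun a ha => mem_filter.2 (hF b hb a ha)
  have h2 := sum_card_fiberwise_eq_card_filter S T f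
  exact_mod_cast h1.trans (h2.le.trans (card_filter_le _ _))

lemma gH_le (N : Finset ℤ) (ρ : ℝ) :
    (#(gH v cl I ρ) : ℝ) ≤ 2 * #(I \ N) + #(gH v cl N (ρ / 2)) := by
  have h1 := gam_card_le_sum (gH v cl I ρ) (I.image fun i => (v i, cl i)) (fun i => (v i, cl i))
    (fun a ha => mem_image_of_mem _ (mem_gH.1 ha).1)
    (fun b => 2 * (#(gDeg v cl (I \ N) b.1 b.2) : ℝ) + #(gDeg v cl (gH v cl N (ρ / 2)) b.1 b.2))
    (by
      rintro ⟨p, J⟩ _ F hF
      rcases F.eq_empty_or_nonempty with rfl | ⟨a, ha⟩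
      · simp only [card_empty, Nat.cast_zero]; positivity
      have h2 : ρ ≤ (#(gDeg v cl I p J) : ℝ) := by
        have := (mem_gH.1 (hF a ha).1).2
        have e := (hF a ha).2
        simp only [Prod.mk.injEq] at e
        rwa [e.1, e.2] at this
      have h3 : (#F : ℝ) ≤ #(gDeg v cl I p J) := by
        refine Nat.cast_le.2 (card_le_card fun x hx => ?_)
        have e := (hF x hx).2
        simp only [Prod.mk.injEq] at e
        exact mem_gDeg.2 ⟨(mem_gH.1 (hF x hx).1).1, e.1, e.2⟩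
      have h4 : (#(gDeg v cl I p J) : ℝ) ≤ #(gDeg v cl N p J) + #(gDeg v cl (I \ N) p J) := by
        have : gDeg v cl I p J ⊆ gDeg v cl N p J ∪ gDeg v cl (I \ N) p J := by
          intro x hx
          rw [mem_gDeg] at hx
          by_cases hxN : x ∈ N
          · exact mem_union_left _ (mem_gDeg.2 ⟨hxN, hx.2⟩)
          · exact mem_union_right _ (mem_gDeg.2 ⟨mem_sdiff.2 ⟨hx.1, hxN⟩, hx.2⟩)
        exact_mod_cast (card_le_card this).trans (card_union_le _ _)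
      have h5 : (0 : ℝ) ≤ #(gDeg v cl (I \ N) p J) := Nat.cast_nonneg _
      have h6 : (0 : ℝ) ≤ #(gDeg v cl (gH v cl N (ρ / 2)) p J) := Nat.cast_nonneg _
      by_cases h7 : ρ / 2 ≤ (#(gDeg v cl N p J) : ℝ)
      · have h8 : (#(gDeg v cl N p J) : ℝ) ≤ #(gDeg v cl (gH v cl N (ρ / 2)) p J) := by
          refine Nat.cast_le.2 (card_le_card fun x hx => ?_)
          rw [mem_gDeg] at hx
          refine mem_gDeg.2 ⟨mem_gH.2 ⟨hx.1, ?_⟩, hx.2⟩
          rwa [hx.2.1, hx.2.2]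
        dsimp only
        linarith
      · dsimp only
        push Not at h7
        linarith)
  have h2 := gam_sum_le_card (I \ N) (I.image fun i => (v i, cl i)) (fun i => (v i, cl i))
    (fun b => gDeg v cl (I \ N) b.1 b.2) fun b _ a ha => by
      rw [mem_gDeg] at ha
      exact ⟨ha.1, Prod.ext ha.2.1 ha.2.2⟩
  have h3 := gam_sum_le_card (gH v cl N (ρ / 2)) (I.image fun i => (v i, cl i))
    (fun i => (v i, cl i)) (fun b => gDeg v cl (gH v cl N (ρ / 2)) b.1 b.2) fun b _ a ha => by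
      rw [mem_gDeg] at ha
      exact ⟨ha.1, Prod.ext ha.2.1 ha.2.2⟩
  rw [sum_add_distrib, ← mul_sum] at h1
  linarith

lemma card_not_nice (c : Pt → ℤ × ℕ) (v : ℤ → Pt) (I : Finset ℤ) :
    (#(I \ gNice c v I) : ℝ) ≤ nr I + 2 * #(cut c v I) := by
  have h1 : I \ gNice c v I ⊆ starts I ∪ (cut c v I ∪ (cut c v I).image fun i => i + 1) := by
    intro i hi
    rw [mem_sdiff, mem_gNice] at hi
    by_cases h2 : i - 1 ∈ I
    · refine mem_union_right _ ?_
      by_cases h3 : c (v i) = c (v (i + 1))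
      · refine mem_union_right _ (mem_image.2 ⟨i - 1, mem_cut.2 ⟨h2, ?_⟩, by ring⟩)
        rw [sub_add_cancel]
        exact fun h4 => hi.2 ⟨hi.1, h2, h4, h3⟩
      · exact mem_union_left _ (mem_cut.2 ⟨hi.1, h3⟩)
    · exact mem_union_left _ (mem_starts.2 ⟨hi.1, h2⟩)
  have h2 := (card_le_card h1).trans ((card_union_le _ _).trans (Nat.add_le_add_left
    ((card_union_le _ _).trans (Nat.add_le_add_left card_image_le _)) _))
  have h3 : (#(I \ gNice c v I) : ℝ) ≤ #(starts I) + (#(cut c v I) + #(cut c v I)) := by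
    exact_mod_cast h2
  unfold nr
  linarith

lemma slope_mem_of_mid {a b : Pt} {l u : ℝ} (h1 : a.1 < p.1) (h2 : p.1 < b.1)
    (h3 : l ≤ slope a p) (h4 : slope a p ≤ u) (h5 : l ≤ slope p b) (h6 : slope p b ≤ u) :
    l ≤ slope a b ∧ slope a b ≤ u := by
  unfold slope at *
  have e1 : 0 < p.1 - a.1 := by linarith
  have e2 : 0 < b.1 - p.1 := by linarith
  have e3 : 0 < b.1 - a.1 := by linarith
  rw [le_div_iff₀ e1] at h3
  rw [div_le_iff₀ e1] at h4
  rw [le_div_iff₀ e2] at h5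
  rw [div_le_iff₀ e2] at h6
  rw [le_div_iff₀ e3, div_le_iff₀ e3]
  constructor <;> linarith

/-- a heavy nice point forces many pairs of its cell with slope in the hull of the class -/
lemma gam_pairs (hS : Sys P v I) (hL : Link I cl) (hH : Hull (sl v) I cl lo hi) (hρ : 0 ≤ ρ)
    (hi' : i ∈ gH v cl (gNice c v I) ρ) :
    ρ ^ 2 ≤ (#((part c (c (v i)) P ×ˢ part c (c (v i)) P).filter fun x =>
      lo (cl i) ≤ slope x.1 x.2 ∧ slope x.1 x.2 ≤ hi (cl i)) : ℝ) := by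
  set D := gDeg v cl (gNice c v I) (v i) (cl i) with hD
  have h1 : ρ ≤ (#D : ℝ) := (mem_gH.1 hi').2
  have hm : ∀ j ∈ D, (j ∈ I ∧ j - 1 ∈ I ∧ c (v (j - 1)) = c (v j) ∧ c (v j) = c (v (j + 1))) ∧
      v j = v i ∧ cl j = cl i := fun j hj => ⟨mem_gNice.1 (mem_gDeg.1 hj).1, (mem_gDeg.1 hj).2⟩
  have h2 : #(D ×ˢ D) ≤ #((part c (c (v i)) P ×ˢ part c (c (v i)) P).filter fun x =>
      lo (cl i) ≤ slope x.1 x.2 ∧ slope x.1 x.2 ≤ hi (cl i)) := by
    refine card_le_card_of_injOn (fun x => (v (x.1 - 1), v (x.2 + 1))) ?_ ?_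
    · rintro ⟨j, j'⟩ hx
      rw [mem_coe, mem_product] at hx
      obtain ⟨⟨a1, a2, a3, -⟩, a5, a6⟩ := hm j hx.1
      obtain ⟨⟨b1, -, -, b4⟩, b5, b6⟩ := hm j' hx.2
      have e1 : v (j - 1 + 1) = v i := by rw [sub_add_cancel, a5]
      have c1 : cl (j - 1) = cl i := by
        rw [hL (j - 1) a2 (by rwa [sub_add_cancel]), sub_add_cancel, a6]
      have l1 := hS.lt _ a2
      have l2 := hS.lt _ b1
      have s1 := hH.lo_le _ a2
      have s2 := hH.le_hi _ a2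
      have s3 := hH.lo_le _ b1
      have s4 := hH.le_hi _ b1
      simp only [sl] at s1 s2 s3 s4
      rw [e1] at l1 s1 s2
      rw [b5] at l2 s3 s4
      rw [c1] at s1 s2
      rw [b6] at s3 s4
      rw [mem_coe, mem_filter, mem_product]
      refine ⟨⟨mem_part.2 ⟨hS.memL _ a2, ?_⟩, mem_part.2 ⟨hS.memR _ b1, ?_⟩⟩,
        slope_mem_of_mid l1 l2 s1 s2 s3 s4⟩
      · rw [← a5]; exact a3
      · rw [← b5]; exact b4.symm
    · rintro ⟨j, j'⟩ hx ⟨l, l'⟩ hy hxy
      rw [mem_coe, mem_product] at hx hy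
      simp only [Prod.mk.injEq] at hxy ⊢
      obtain ⟨⟨-, a2, -⟩, a5, -⟩ := hm j hx.1
      obtain ⟨⟨b1, -⟩, b5, -⟩ := hm j' hx.2
      obtain ⟨⟨-, c2, -⟩, c5, -⟩ := hm l hy.1
      obtain ⟨⟨d1, -⟩, d5, -⟩ := hm l' hy.2
      constructor
      · have := hS.eq_of_ends a2 c2 hxy.1 (by rw [sub_add_cancel, sub_add_cancel, a5, c5])
        linarith
      · exact hS.eq_of_ends b1 d1 (b5.trans d5.symm) hxy.2
  rw [card_product] at h2
  have h3 : ((#D * #D : ℕ) : ℝ) ≤ _ := Nat.cast_le.2 h2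
  push_cast at h3
  nlinarith

/-- classes that are hot in the cell `k` -/
def gHot (v : ℤ → Pt) (cl : ℤ → ℕ) (c : Pt → ℤ × ℕ) (H : Finset ℤ) (k : ℤ × ℕ) : Finset ℕ :=
  (H.filter fun i => c (v i) = k).image cl

lemma gam_hot (hS : Sys P v I) (hM : Mono (sl v) I cl) (hL : Link I cl) (hρ : 0 ≤ ρ) (k : ℤ × ℕ) :
    (#(gHot v cl c (gH v cl (gNice c v I) ρ) k) : ℝ) * ρ ^ 2 ≤ (#(part c k P) : ℝ) ^ 2 := by
  obtain ⟨lo, hi, hH⟩ := exists_hull (sl v) I cl
  set T := gHot v cl c (gH v cl (gNice c v I) ρ) k with hT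
  set Q : ℕ → Finset (Pt × Pt) := fun J => (part c k P ×ˢ part c k P).filter fun x =>
    lo J ≤ slope x.1 x.2 ∧ slope x.1 x.2 ≤ hi J with hQ
  have hTm : ∀ J ∈ T, ∃ i ∈ gH v cl (gNice c v I) ρ, c (v i) = k ∧ cl i = J := by
    intro J hJ
    obtain ⟨i, h1, h2⟩ := mem_image.1 hJ
    exact ⟨i, (mem_filter.1 h1).1, (mem_filter.1 h1).2, h2⟩
  have hTI : ∀ J ∈ T, J ∈ I.image cl := by
    intro J hJ
    obtain ⟨i, h1, -, h2⟩ := hTm J hJ
    exact mem_image.2 ⟨i, (mem_gNice.1 (mem_gH.1 h1).1).1, h2⟩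
  have h1 : ∀ J ∈ T, ρ ^ 2 ≤ (#(Q J) : ℝ) := by
    intro J hJ
    obtain ⟨i, h1, rfl, rfl⟩ := hTm J hJ
    exact gam_pairs hS hL hH hρ h1
  have hd : (T : Set ℕ).PairwiseDisjoint Q := by
    intro a ha b hb hab
    rw [Function.onFun, disjoint_left]
    intro x hxa hxb
    have xa := (mem_filter.1 hxa).2
    have xb := (mem_filter.1 hxb).2
    rcases lt_or_gt_of_ne hab with h | h
    · have := hH.lt hM (hTI a ha) (hTI b hb) h
      linarith [xa.2, xb.1]
    · have := hH.lt hM (hTI b hb) (hTI a ha) h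
      linarith [xa.1, xb.2]
  have h2 : ∑ J ∈ T, #(Q J) ≤ #(part c k P) * #(part c k P) := by
    rw [← card_biUnion hd, ← card_product]
    exact card_le_card (biUnion_subset.2 fun J _ => filter_subset _ _)
  have h3 : ∑ J ∈ T, (#(Q J) : ℝ) ≤ (#(part c k P) : ℝ) ^ 2 := by
    rw [sq]; exact_mod_cast h2
  refine le_trans ?_ h3
  have := card_nsmul_le_sum T (fun J => (#(Q J) : ℝ)) (ρ ^ 2) h1
  rwa [nsmul_eq_mul] at this

/-- the pair (cell, class) is very hot -/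
def gVH (P : Finset Pt) (v : ℤ → Pt) (cl : ℤ → ℕ) (c : Pt → ℤ × ℕ) (H : Finset ℤ) (a : ℝ)
    (k : ℤ × ℕ) (J : ℕ) : Prop :=
  (#(part c k P) : ℝ) * a < #(H.filter fun i => c (v i) = k ∧ cl i = J)

lemma gam_cold {H : Finset ℤ} (hP : ∀ i ∈ H, v i ∈ P) {a n : ℝ} (ha : 0 ≤ a)
    (hn : ∀ k, (#(gHot v cl c H k) : ℝ) ≤ n) :
    (#(H.filter fun i => ¬ gVH P v cl c H a (c (v i)) (cl i)) : ℝ) ≤ n * a * #P := by
  have hn0 : 0 ≤ n := (Nat.cast_nonneg _).trans (hn (0, 0))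
  have h1 := gam_card_le_sum (H.filter fun i => ¬ gVH P v cl c H a (c (v i)) (cl i)) (P.image c)
    (fun i => c (v i)) (fun i hi => mem_image_of_mem _ (hP i (mem_filter.1 hi).1))
    (fun k => n * a * #(part c k P)) (by
      intro k _ F hF
      have h2 := gam_card_le_sum F (gHot v cl c H k) cl
        (fun i hi => mem_image_of_mem _ (mem_filter.2 ⟨(mem_filter.1 (hF i hi).1).1, (hF i hi).2⟩))
        (fun _ => (#(part c k P) : ℝ) * a) (by
          intro J _ F' hF'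
          rcases F'.eq_empty_or_nonempty with rfl | ⟨x, hx⟩
          · simp only [card_empty, Nat.cast_zero]; positivity
          have h3 := (mem_filter.1 (hF x (hF' x hx).1).1).2
          rw [(hF x (hF' x hx).1).2, (hF' x hx).2, gVH, not_lt] at h3
          refine le_trans (Nat.cast_le.2 (card_le_card fun y hy => ?_)) h3
          exact mem_filter.2 ⟨(mem_filter.1 (hF y (hF' y hy).1).1).1, (hF y (hF' y hy).1).2,
            (hF' y hy).2⟩)
      rw [sum_const, nsmul_eq_mul] at h2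
      have h4 : (0 : ℝ) ≤ #(part c k P) * a := by positivity
      calc (#F : ℝ) ≤ _ := h2
        _ ≤ n * (#(part c k P) * a) := mul_le_mul_of_nonneg_right (hn k) h4
        _ = _ := by ring)
  have h2 := gam_sum_le_card P (P.image c) c (fun k => part c k P) fun k _ p hp => mem_part.1 hp
  rw [← mul_sum] at h1
  exact h1.trans (mul_le_mul_of_nonneg_left h2 (by positivity))

lemma gam_B {H : Finset ℤ} (hI : H ⊆ I) {a : ℝ} (ha : 0 ≤ a) (J : ℕ) :
    (#(P.filter fun p => gVH P v cl c H a (c p) J) : ℝ) * a ≤ #(I.filter fun i => cl i = J) := by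
  set K := (P.image c).filter fun k => gVH P v cl c H a k J with hK
  have h1 := gam_card_le_sum (P.filter fun p => gVH P v cl c H a (c p) J) K c
    (fun p hp => mem_filter.2 ⟨mem_image_of_mem _ (mem_filter.1 hp).1, (mem_filter.1 hp).2⟩)
    (fun k => (#(part c k P) : ℝ)) (fun k _ F hF => Nat.cast_le.2 (card_le_card fun p hp =>
      mem_part.2 ⟨(mem_filter.1 (hF p hp).1).1, (hF p hp).2⟩))
  have h2 := gam_sum_le_card (I.filter fun i => cl i = J) K (fun i => c (v i))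
    (fun k => H.filter fun i => c (v i) = k ∧ cl i = J) fun k _ i hi => by
      rw [mem_filter] at hi
      exact ⟨mem_filter.2 ⟨hI hi.1, hi.2.2⟩, hi.2.1⟩
  calc _ ≤ (∑ k ∈ K, (#(part c k P) : ℝ)) * a := mul_le_mul_of_nonneg_right h1 ha
    _ = ∑ k ∈ K, (#(part c k P) : ℝ) * a := sum_mul _ _ _
    _ ≤ _ := le_trans (sum_le_sum fun k hk => le_of_lt (mem_filter.1 hk).2) h2

/-- the very hot edges of one class -/
lemma gam_class (hh : HeavyStmt) (hS : Sys P v I) (hρ : 2 ≤ ρ) {a z : ℝ} (hz : 0 < z) (J : ℕ)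
    (hB : (#(P.filter fun p => gVH P v cl c (gH v cl (gNice c v I) ρ) a (c p) J) : ℝ) ≤ z ^ 2 * ρ)
    (F : Finset ℤ) (hF : ∀ i ∈ F, i ∈ (gH v cl (gNice c v I) ρ).filter (fun i =>
      gVH P v cl c (gH v cl (gNice c v I) ρ) a (c (v i)) (cl i)) ∧ cl i = J) :
    (#F : ℝ) ≤ 180 * ((nr (I.filter fun i => cl i = J) : ℝ) + #P) * z + 8 * (z ^ 2 * ρ) := by
  set H := gH v cl (gNice c v I) ρ with hH
  set G := H.filter fun i => gVH P v cl c H a (c (v i)) J ∧ cl i = J with hG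
  have hGm : ∀ i ∈ G, (i ∈ I ∧ c (v i) = c (v (i + 1))) ∧ gVH P v cl c H a (c (v i)) J ∧
      cl i = J := fun i hi => by
    have h1 := mem_filter.1 hi
    have h2 := mem_gNice.1 (mem_gH.1 h1.1).1
    exact ⟨⟨h2.1, h2.2.2.2⟩, h1.2⟩
  have hFG : F ⊆ G := fun i hi => by
    have h1 := mem_filter.1 (hF i hi).1
    refine mem_filter.2 ⟨h1.1, ?_, (hF i hi).2⟩
    rw [← (hF i hi).2]; exact h1.2
  have hA : ρ * #(G.image v) ≤ #G := by
    have h1 := gam_sum_le_card G (G.image v) v (fun p => gDeg v cl (gNice c v I) p J) (by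
      intro p hp j hj
      obtain ⟨i, hi, rfl⟩ := mem_image.1 hp
      rw [mem_gDeg] at hj
      have h2 := mem_filter.1 hi
      refine ⟨mem_filter.2 ⟨mem_gH.2 ⟨hj.1, ?_⟩, ?_, hj.2.2⟩, hj.2.1⟩
      · rw [hj.2.1, hj.2.2, ← h2.2.2]; exact (mem_gH.1 h2.1).2
      · rw [hj.2.1]; exact h2.2.1)
    refine le_trans ?_ h1
    have := card_nsmul_le_sum (G.image v) (fun p => (#(gDeg v cl (gNice c v I) p J) : ℝ)) ρ (by
      intro p hp
      obtain ⟨i, hi, rfl⟩ := mem_image.1 hp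
      have h2 := mem_filter.1 hi
      rw [← h2.2.2]; exact (mem_gH.1 h2.1).2)
    rwa [nsmul_eq_mul, mul_comm] at this
  have h1 := hh P v (I.filter fun i => cl i = J) (hS.sub (filter_subset _ _)) G
    (fun i hi => mem_filter.2 ⟨(hGm i hi).1.1, (hGm i hi).2.2⟩) (G.image v)
    (P.filter fun p => gVH P v cl c H a (c p) J) (fun i hi => mem_image_of_mem _ hi)
    (fun i hi => mem_filter.2 ⟨hS.memR _ (hGm i hi).1.1, by
      rw [← (hGm i hi).1.2]; exact (hGm i hi).2.1⟩) ρ z hρ hz hA hB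
  have h2 : (#F : ℝ) ≤ #G := Nat.cast_le.2 (card_le_card hFG)
  linarith

end

theorem gamma (hh : HeavyStmt) (_hc : CardStmt) (hp : PartStmt) : GammaStmt := by
  intro lam d u Z r P v I cl hC hM hL hu huZ hZ hlam hld hd hr hrl hcl
  have hS := hC.sys
  have hZ0 : 0 < Z := by linarith
  have hZ1 : 1 ≤ Z := by linarith
  have hlam1 : 1 ≤ lam := (one_le_pow₀ hZ1).trans hlam
  have hlam0 : 0 < lam := by linarith
  have hd1 : 1 ≤ d := hlam1.trans hld
  have hd0 : 0 < d := by linarith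
  have hZ2 : 1 ≤ Z ^ 2 := one_le_pow₀ hZ1
  obtain ⟨c, hc1, hc2⟩ := hp lam d u P v I hC hu hd1 hlam0 (by nlinarith) (300 * Z ^ 2)
    (by linarith)
  set T := lam ^ 2 * d ^ 2 / Z with hT
  have hT0 : 0 < T := by positivity
  set ρ := d / Z / 2 with hρ
  set H := gH v cl (gNice c v I) ρ with hH
  set n := 4 * (300 * Z ^ 2) ^ 4 * Z ^ 2 with hn
  have hn0 : 0 < n := by positivity
  set a := d / (4 * Z * n) with ha
  have ha0 : 0 < a := by positivity
  set z := lam / Z ^ 7 with hz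
  have hz0 : 0 < z := by positivity
  have hρ0 : 0 < ρ := by positivity
  have hρ2 : 2 ≤ ρ := by
    have h1 : Z ^ 2 ≤ Z ^ 30 := pow_le_pow_right₀ hZ1 (by norm_num)
    rw [hρ, le_div_iff₀ (by norm_num), le_div_iff₀ hZ0]
    nlinarith
  have hHI : H ⊆ I := fun i hi => (mem_gNice.1 (mem_gH.1 hi).1).1
  -- heavy edges
  have e1 : (#(gH v cl I (d / Z)) : ℝ) ≤ 2 * #(I \ gNice c v I) + #H :=
    gH_le _ _
  have e2 := card_not_nice c v I
  have e3 : (nr I : ℝ) ≤ T / 10000 := by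
    refine hC.runs.trans ?_
    rw [hT, le_div_iff₀ (by norm_num), le_div_iff₀ hZ0]
    have h1 : u * 10000 * Z ≤ lam := by
      calc u * 10000 * Z ≤ Z * Z * Z := by gcongr
        _ = Z ^ 3 := by ring
        _ ≤ lam := hlam
    have h2 : 0 ≤ lam * d ^ 2 := by positivity
    nlinarith
  have e4 : (#(cut c v I) : ℝ) ≤ 17 / 300 * T := by
    refine hc2.trans ?_
    rw [hT, div_le_iff₀ (by positivity)]
    have h2 : 0 ≤ lam ^ 2 * d ^ 2 := by positivity
    have : 17 / 300 * (lam ^ 2 * d ^ 2 / Z) * (300 * Z ^ 2) = 17 * Z * (lam ^ 2 * d ^ 2) := by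
      field_simp
    rw [this]
    gcongr
  -- hot classes
  have e5 : ∀ k, (#(gHot v cl c H k) : ℝ) ≤ n := by
    intro k
    have h1 := gam_hot (c := c) hS hM hL hρ0.le k
    have h2 : (#(part c k P) : ℝ) ^ 2 ≤ ((300 * Z ^ 2) ^ 2 * d) ^ 2 := by
      gcongr; exact hc1 k
    have h3 : ((300 * Z ^ 2) ^ 2 * d) ^ 2 = n / 4 * 4 * ρ ^ 2 * 4 / 4 := by
      rw [hn, hρ]; field_simp; norm_num
    have h4 : (#(gHot v cl c H k) : ℝ) * ρ ^ 2 ≤ n * ρ ^ 2 := by
      refine h1.trans (h2.trans (le_of_eq ?_))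
      rw [h3]; ring
    exact le_of_mul_le_mul_right h4 (by positivity)
  have e6 : (#(H.filter fun i => ¬ gVH P v cl c H a (c (v i)) (cl i)) : ℝ) ≤ T / 4 := by
    refine (gam_cold (fun i hi => hS.memL i (hHI hi)) ha0.le e5).trans ?_
    calc n * a * #P ≤ n * a * (lam ^ 2 * d) := by gcongr; exact hC.cardP
      _ = T / 4 := by rw [ha, hT]; field_simp
  -- very hot pairs
  have e7 : ∀ J, (#(P.filter fun p => gVH P v cl c H a (c p) J) : ℝ) ≤ z ^ 2 * ρ := by
    intro J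
    have h1 := (gam_B (P := P) (v := v) (c := c) hHI ha0.le J).trans (hcl J)
    refine le_of_mul_le_mul_right (h1.trans ?_) ha0
    have h2 : z ^ 2 * ρ * a = lam ^ 2 * d ^ 2 / (32 * 300 ^ 4 * Z ^ 26) := by
      rw [hz, hρ, ha, hn]; field_simp; norm_num
    rw [h2]
    have h3 : (10000 : ℝ) ^ 4 ≤ Z ^ 4 := by gcongr
    have h4 : 32 * 300 ^ 4 * Z ^ 26 ≤ Z ^ 30 := by
      calc 32 * 300 ^ 4 * Z ^ 26 ≤ Z ^ 4 * Z ^ 26 := by
            gcongr; exact le_trans (by norm_num) h3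
        _ = Z ^ 30 := by ring
    gcongr
  have e8 := gam_card_le_sum (H.filter fun i => gVH P v cl c H a (c (v i)) (cl i)) (I.image cl) cl
    (fun i hi => mem_image_of_mem _ (hHI (mem_filter.1 hi).1))
    (fun J => 180 * ((nr (I.filter fun i => cl i = J) : ℝ) + #P) * z + 8 * (z ^ 2 * ρ))
    fun J _ F hF => gam_class hh hS hρ2 hz0 J (e7 J) F hF
  have e9 : ∑ J ∈ I.image cl, (nr (I.filter fun i => cl i = J) : ℝ) ≤ nr I := by
    exact_mod_cast sum_nr_class hL (I.image cl)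
  have e10 : (#(H.filter fun i => gVH P v cl c H a (c (v i)) (cl i)) : ℝ) ≤ T / 4 := by
    rw [sum_add_distrib, ← sum_mul, ← mul_sum, sum_add_distrib, sum_const, sum_const,
      nsmul_eq_mul, nsmul_eq_mul] at e8
    have hr0 : 0 ≤ r := (Nat.cast_nonneg _).trans hr
    have h1 : (#(I.image cl) : ℝ) * #P ≤ lam * d ^ 2 := by
      calc (#(I.image cl) : ℝ) * #P ≤ r * (lam ^ 2 * d) := by gcongr; exact hC.cardP
        _ = r * lam * (lam * d) := by ring
        _ ≤ d * (lam * d) := by gcongr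
        _ = lam * d ^ 2 := by ring
    have h2 : (nr I : ℝ) ≤ Z * (lam * d ^ 2) := by
      refine hC.runs.trans ?_
      rw [mul_assoc]; gcongr
    have h0 : 0 ≤ lam * d ^ 2 := by positivity
    have h3 : ∑ J ∈ I.image cl, (nr (I.filter fun i => cl i = J) : ℝ) + #(I.image cl) * #P ≤
        2 * Z * (lam * d ^ 2) := by nlinarith
    have hZ5 : 10000 ≤ Z ^ 5 := hZ.trans (le_self_pow₀ hZ1 (by norm_num))
    have h4 : 180 * (2 * Z * (lam * d ^ 2)) * z ≤ T / 8 := by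
      have : 180 * (2 * Z * (lam * d ^ 2)) * z = T * (360 / Z ^ 5) := by
        rw [hz, hT]; field_simp; norm_num
      rw [this, div_eq_mul_inv T]
      gcongr
      rw [div_le_iff₀ (by positivity)]; linarith
    have h5 : (#(I.image cl) : ℝ) * (8 * (z ^ 2 * ρ)) ≤ T / 8 := by
      have h6 : r ≤ d := by nlinarith
      have hZ14 : 10000 ≤ Z ^ 14 := hZ.trans (le_self_pow₀ hZ1 (by norm_num))
      calc (#(I.image cl) : ℝ) * (8 * (z ^ 2 * ρ)) ≤ d * (8 * (z ^ 2 * ρ)) := by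
            gcongr; exact hr.trans h6
        _ = T * (4 / Z ^ 14) := by rw [hz, hT, hρ]; field_simp; norm_num
        _ ≤ T / 8 := by
            rw [div_eq_mul_inv T]
            gcongr
            rw [div_le_iff₀ (by positivity)]; linarith
    have h7 : 180 * (∑ J ∈ I.image cl, (nr (I.filter fun i => cl i = J) : ℝ) +
        #(I.image cl) * #P) * z ≤ 180 * (2 * Z * (lam * d ^ 2)) * z := by gcongr
    linarith
  have e11 : (#H : ℝ) = #(H.filter fun i => gVH P v cl c H a (c (v i)) (cl i)) +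
      #(H.filter fun i => ¬ gVH P v cl c H a (c (v i)) (cl i)) := by
    exact_mod_cast (card_filter_add_card_filter_not _).symm
  have e12 : (#(gH v cl I (d / Z)) : ℝ) ≤ T := by linarith
  exact e12

end Crest.Agent.R51
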