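import Crest.Agent.R51.Stmts

/-!
# Row 51: heights, ranks, strips
-/

set_option autoImplicit false

noncomputable section

namespace Crest.Agent.R51

open Finset Classical

variable {P : Finset Pt} {p q r : Pt} {θ : ℝ}

lemma slope_comm (p q : Pt) : slope p q = slope q p := by
  unfold slope
  rw [← neg_sub p.2, ← neg_sub p.1, neg_div_neg_eq]

lemma h_sub (θ : ℝ) (hx : p.1 ≠ q.1) : h θ q - h θ p = (slope p q - θ) * (q.1 - p.1) := by
  have : q.1 - p.1 ≠ 0 := sub_ne_zero.mpr hx.symm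
  unfold h slope
  field_simp
  ring

lemma h_slope (hx : p.1 ≠ q.1) : h (slope p q) q = h (slope p q) p := by
  have := h_sub (slope p q) hx
  rw [sub_self, zero_mul] at this
  linarith

lemma slope_eq_of_h_eq (hx : p.1 ≠ q.1) (hh : h θ p = h θ q) : slope p q = θ := by
  have h1 := h_sub θ hx
  have : q.1 - p.1 ≠ 0 := sub_ne_zero.mpr hx.symm
  rw [hh, sub_self] at h1
  rcases mul_eq_zero.mp h1.symm with h2 | h2
  · linarith
  · exact absurd h2 this

/-- change of direction -/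
lemma h_shift (θ θ' : ℝ) (p : Pt) : h θ' p = h θ p + (θ - θ') * p.1 := by
  unfold h; ring

lemma below_irrefl (θ : ℝ) (p : Pt) : ¬ below θ p p := by
  unfold below; simp

lemma below_trans (h1 : below θ p q) (h2 : below θ q r) : below θ p r := by
  unfold below at *
  rcases h1 with h1 | ⟨h1, h1'⟩ <;> rcases h2 with h2 | ⟨h2, h2'⟩
  · left; linarith
  · left; linarith
  · left; linarith
  · right; exact ⟨by linarith, by linarith⟩

lemma below_asymm (h1 : below θ p q) : ¬ below θ q p := fun h2 =>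
  below_irrefl θ p (below_trans h1 h2)

lemma below_total (θ : ℝ) (hx : p.1 ≠ q.1) : below θ p q ∨ below θ q p := by
  unfold below
  rcases lt_trichotomy (h θ p) (h θ q) with h1 | h1 | h1
  · left; left; exact h1
  · rcases lt_or_gt_of_ne hx with h2 | h2
    · right; right; exact ⟨h1.symm, h2⟩
    · left; right; exact ⟨h1, h2⟩
  · right; left; exact h1

lemma below.le (h1 : below θ p q) : h θ p ≤ h θ q := by
  rcases h1 with h1 | h1
  · exact h1.le
  · exact h1.1.le

lemma below_of_lt (h1 : h θ p < h θ q) : below θ p q := Or.inl h1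

/-- `q` to the right of `p` is below `p` from the time `slope p q` on -/
lemma below_right_iff (hx : p.1 < q.1) : below θ q p ↔ slope p q ≤ θ := by
  have h1 := h_sub θ hx.ne
  have h2 : 0 < q.1 - p.1 := by linarith
  unfold below
  constructor
  · rintro (h3 | ⟨h3, -⟩)
    · by_contra h4
      have := mul_pos (sub_pos.mpr (not_le.mp h4)) h2
      linarith
    · exact (slope_eq_of_h_eq hx.ne h3.symm).le
  · intro h3
    rcases h3.lt_or_eq with h3 | h3
    · left
      have := mul_neg_of_neg_of_pos (sub_neg.mpr h3) h2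
      linarith
    · right
      refine ⟨?_, hx⟩
      rw [h3, sub_self, zero_mul] at h1
      linarith

/-- `p` to the left of `q` is below `q` before the time `slope p q` -/
lemma below_left_iff (hx : p.1 < q.1) : below θ p q ↔ θ < slope p q := by
  rw [← not_le, ← below_right_iff hx]
  exact ⟨fun h1 => below_asymm h1, fun h1 => (below_total θ hx.ne).resolve_right h1⟩

lemma GP.mono (hP : GP P) {B : Finset Pt} (hB : B ⊆ P) : GP B :=
  ⟨fun p hp q hq => hP.xinj p (hB hp) q (hB hq),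
   fun p hp q hq r hr => hP.ncol p (hB hp) q (hB hq) r (hB hr)⟩

lemma GP.ne_x (hP : GP P) (hp : p ∈ P) (hq : q ∈ P) (hne : p ≠ q) : p.1 ≠ q.1 :=
  fun h1 => hne (hP.xinj p hp q hq h1)

lemma GP.eq_of_h_eq3 (hP : GP P) (hp : p ∈ P) (hq : q ∈ P) (hr : r ∈ P) (h1 : h θ p = h θ q)
    (h2 : h θ p = h θ r) : p = q ∨ p = r ∨ q = r := by
  by_contra hcon
  push Not at hcon
  apply hP.ncol p hp q hq r hr hcon.1 hcon.2.1 hcon.2.2
  unfold h at h1 h2
  have e1 : q.2 - p.2 = θ * (q.1 - p.1) := by linarith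
  have e2 : r.2 - p.2 = θ * (r.1 - p.1) := by linarith
  rw [e1, e2]; ring

lemma GP.slope_inj (hP : GP P) (hp : p ∈ P) (hq : q ∈ P) (hr : r ∈ P) (hq' : q ≠ p) (hr' : r ≠ p)
    (hs : slope p q = slope p r) : q = r := by
  have h1 := h_slope (hP.ne_x hp hq hq'.symm)
  have h2 := h_slope (hP.ne_x hp hr hr'.symm)
  rw [← hs] at h2
  rcases hP.eq_of_h_eq3 hp hq hr h1.symm h2.symm with h3 | h3 | h3
  · exact absurd h3.symm hq'
  · exact absurd h3.symm hr'
  · exact h3

lemma GP.card_h_eq (hP : GP P) (θ y : ℝ) : #(P.filter fun q => h θ q = y) ≤ 2 := by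
  by_contra hcon
  obtain ⟨a, ha, b, hb, c, hc, hab, hac, hbc⟩ := two_lt_card.mp (not_le.mp hcon)
  rw [mem_filter] at ha hb hc
  rcases hP.eq_of_h_eq3 ha.1 hb.1 hc.1 (ha.2.trans hb.2.symm) (ha.2.trans hc.2.symm) with
    h1 | h1 | h1
  · exact hab h1
  · exact hac h1
  · exact hbc h1

lemma rk_le_card (P : Finset Pt) (θ : ℝ) (p : Pt) : rk P θ p ≤ #P := card_filter_le _ _

lemma rk_lt_card (hp : p ∈ P) : rk P θ p < #P :=
  card_lt_card (filter_ssubset.mpr ⟨p, hp, below_irrefl θ p⟩)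

lemma rk_le_of_below (h1 : below θ q p) : rk P θ q ≤ rk P θ p :=
  card_le_card fun _ hz => mem_filter.mpr ⟨(mem_filter.mp hz).1, below_trans (mem_filter.mp hz).2 h1⟩

lemma rk_lt_of_below (hq : q ∈ P) (h1 : below θ q p) : rk P θ q < rk P θ p := by
  refine card_lt_card ⟨fun z hz => mem_filter.mpr
    ⟨(mem_filter.mp hz).1, below_trans (mem_filter.mp hz).2 h1⟩, fun hsub => ?_⟩
  exact below_irrefl θ q (mem_filter.mp (hsub (mem_filter.mpr ⟨hq, h1⟩))).2

lemma GP.below_iff_rk_lt (hP : GP P) (hp : p ∈ P) (hq : q ∈ P) :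
    below θ q p ↔ rk P θ q < rk P θ p := by
  refine ⟨rk_lt_of_below hq, fun h1 => ?_⟩
  by_cases hne : q = p
  · rw [hne] at h1; exact absurd h1 (lt_irrefl _)
  · rcases below_total θ (hP.ne_x hq hp hne) with h2 | h2
    · exact h2
    · exact absurd (rk_le_of_below (P := P) h2) (not_le.mpr h1)

lemma GP.rk_inj (hP : GP P) (hp : p ∈ P) (hq : q ∈ P) (h1 : rk P θ p = rk P θ q) : p = q := by
  by_contra hne
  rcases below_total θ (hP.ne_x hp hq hne) with h2 | h2
  · exact absurd (rk_lt_of_below hp h2) (by omega)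
  · exact absurd (rk_lt_of_below hq h2) (by omega)

lemma GP.h_le_of_rk_le (hP : GP P) (hp : p ∈ P) (hq : q ∈ P) (h1 : rk P θ q ≤ rk P θ p) :
    h θ q ≤ h θ p := by
  rcases h1.lt_or_eq with h1 | h1
  · exact ((hP.below_iff_rk_lt hp hq).mpr h1).le
  · rw [hP.rk_inj hq hp h1]

/-- number of points with rank in an integer interval -/
lemma GP.card_rk_Icc_int (hP : GP P) (θ : ℝ) (a b : ℤ) :
    #(P.filter fun p => a ≤ (rk P θ p : ℤ) ∧ (rk P θ p : ℤ) ≤ b) ≤ (b + 1 - a).toNat := by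
  rw [← Int.card_Icc]
  refine card_le_card_of_injOn (fun p => (rk P θ p : ℤ)) ?_ ?_
  · intro p hp
    simp only [coe_Icc, Set.mem_Icc]
    exact (mem_filter.mp (mem_coe.mp hp)).2
  · intro p hp q hq hpq
    exact hP.rk_inj (θ := θ) (mem_filter.mp (mem_coe.mp hp)).1 (mem_filter.mp (mem_coe.mp hq)).1
      (Int.natCast_inj.mp hpq)

/-- number of points with rank in a real interval -/
lemma GP.card_rk_Icc (hP : GP P) (θ : ℝ) {a b : ℝ} (hab : a ≤ b + 1) :
    (#(P.filter fun p => a ≤ (rk P θ p : ℝ) ∧ (rk P θ p : ℝ) ≤ b) : ℝ) ≤ b - a + 1 := by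
  have h1 := hP.card_rk_Icc_int θ ⌈a⌉ ⌊b⌋
  have h2 : (P.filter fun p => a ≤ (rk P θ p : ℝ) ∧ (rk P θ p : ℝ) ≤ b) =
      P.filter fun p => ⌈a⌉ ≤ (rk P θ p : ℤ) ∧ (rk P θ p : ℤ) ≤ ⌊b⌋ := by
    refine filter_congr fun p _ => ?_
    rw [Int.ceil_le, Int.le_floor]; simp
  rw [h2]
  have h3 : (((⌊b⌋ + 1 - ⌈a⌉).toNat : ℕ) : ℝ) ≤ b - a + 1 := by
    rcases le_total 0 (⌊b⌋ + 1 - ⌈a⌉) with h4 | h4
    · have : (((⌊b⌋ + 1 - ⌈a⌉).toNat : ℤ) : ℝ) = ((⌊b⌋ + 1 - ⌈a⌉ : ℤ) : ℝ) := by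
        rw [Int.toNat_of_nonneg h4]
      push_cast at this
      rw [this]
      linarith [Int.floor_le b, Int.le_ceil a]
    · rw [Int.toNat_eq_zero.mpr h4]; push_cast; linarith
  exact le_trans (by exact_mod_cast h1) h3

lemma GP.card_rk_le (hP : GP P) (θ : ℝ) (j : ℕ) : #(P.filter fun p => rk P θ p ≤ j) ≤ j + 1 := by
  have h1 := hP.card_rk_Icc_int θ 0 j
  have h2 : (P.filter fun p => rk P θ p ≤ j) =
      P.filter fun p => (0 : ℤ) ≤ (rk P θ p : ℤ) ∧ (rk P θ p : ℤ) ≤ j := by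
    refine filter_congr fun p _ => ?_
    omega
  rw [h2]
  omega

lemma st_nonneg {W : ℝ} (hW : 0 < W) (p : Pt) : 0 ≤ st P θ W p :=
  Int.floor_nonneg.mpr (by positivity)

lemma st_le {W : ℝ} (hW : 0 < W) (p : Pt) : (st P θ W p : ℝ) ≤ #P / W :=
  (Int.floor_le _).trans (div_le_div_of_nonneg_right (by exact_mod_cast rk_le_card P θ p) hW.le)

lemma st_mono {W : ℝ} (hW : 0 < W) (h1 : rk P θ p ≤ rk P θ q) : st P θ W p ≤ st P θ W q :=
  Int.floor_mono (div_le_div_of_nonneg_right (by exact_mod_cast h1) hW.le)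

/-- strips `k - n, …, k + n` contain at most `(2n+1) W + 1` points -/
lemma GP.card_st_near (hP : GP P) (θ : ℝ) {W : ℝ} (hW : 0 < W) (k : ℤ) (n : ℕ) :
    (#(P.filter fun p => |st P θ W p - k| ≤ n) : ℝ) ≤ (2 * n + 1) * W + 1 := by
  have h1 := hP.card_rk_Icc θ (a := (k - n) * W) (b := (k + n + 1) * W) (by
    have : (0 : ℝ) ≤ n := Nat.cast_nonneg n
    nlinarith)
  refine le_trans ?_ (h1.trans (le_of_eq (by ring)))
  refine Nat.cast_le.mpr (card_le_card fun p hp => ?_)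
  rw [mem_filter] at hp ⊢
  obtain ⟨hp, h2⟩ := hp
  rw [abs_le] at h2
  have h3 : ((k : ℝ) - n) ≤ st P θ W p := by exact_mod_cast (by linarith [h2.1] : k - n ≤ _)
  have h4 : (st P θ W p : ℝ) ≤ k + n := by exact_mod_cast (by linarith [h2.2] : _ ≤ k + n)
  have h5 := Int.floor_le ((rk P θ p : ℝ) / W)
  have h6 := Int.lt_floor_add_one ((rk P θ p : ℝ) / W)
  unfold st at h3 h4
  refine ⟨hp, ?_, ?_⟩
  · rw [← le_div_iff₀ hW]; linarith
  · rw [← div_le_iff₀ hW]; linarith

lemma GP.card_st (hP : GP P) (θ : ℝ) {W : ℝ} (hW : 0 < W) (k : ℤ) :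
    (#(P.filter fun p => st P θ W p = k) : ℝ) ≤ W + 1 := by
  have h1 := hP.card_st_near θ hW k 0
  simp only [Nat.cast_zero, abs_nonpos_iff, sub_eq_zero, mul_zero, zero_add, one_mul] at h1
  exact h1

lemma GP.card_st3 (hP : GP P) (θ : ℝ) {W : ℝ} (hW : 0 < W) (k : ℤ) :
    (#(P.filter fun p => |st P θ W p - k| ≤ 1) : ℝ) ≤ 3 * W + 1 := by
  have h1 := hP.card_st_near θ hW k 1
  simp only [Nat.cast_one] at h1
  linarith

lemma dr_comm (P : Finset Pt) (θ : ℝ) (p q : Pt) : dr P θ p q = dr P θ q p := abs_sub_comm _ _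

lemma dr_nonneg (P : Finset Pt) (θ : ℝ) (p q : Pt) : 0 ≤ dr P θ p q := abs_nonneg _

lemma dr_self (P : Finset Pt) (θ : ℝ) (p : Pt) : dr P θ p p = 0 := by simp [dr]

lemma st_close {W : ℝ} (hW : 0 < W) (n : ℕ) (h1 : dr P θ p q ≤ n * W) :
    |st P θ W q - st P θ W p| ≤ n := by
  unfold dr at h1
  rw [abs_le] at h1 ⊢
  have a1 := Int.floor_le ((rk P θ p : ℝ) / W)
  have a2 := Int.lt_floor_add_one ((rk P θ p : ℝ) / W)
  have a3 := Int.floor_le ((rk P θ q : ℝ) / W)
  have a4 := Int.lt_floor_add_one ((rk P θ q : ℝ) / W)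
  have b1 : (rk P θ q : ℝ) / W ≤ (rk P θ p : ℝ) / W + n := by
    rw [div_add' _ _ _ hW.ne', div_le_div_iff_of_pos_right hW]; linarith [h1.2]
  have b2 : (rk P θ p : ℝ) / W ≤ (rk P θ q : ℝ) / W + n := by
    rw [div_add' _ _ _ hW.ne', div_le_div_iff_of_pos_right hW]; linarith [h1.1]
  unfold st
  constructor
  · have : (⌊(rk P θ p : ℝ) / W⌋ : ℝ) < ⌊(rk P θ q : ℝ) / W⌋ + n + 1 := by linarith
    have : ⌊(rk P θ p : ℝ) / W⌋ < ⌊(rk P θ q : ℝ) / W⌋ + n + 1 := by exact_mod_cast this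
    linarith
  · have : (⌊(rk P θ q : ℝ) / W⌋ : ℝ) < ⌊(rk P θ p : ℝ) / W⌋ + n + 1 := by linarith
    have : ⌊(rk P θ q : ℝ) / W⌋ < ⌊(rk P θ p : ℝ) / W⌋ + n + 1 := by exact_mod_cast this
    linarith

lemma dr_lt_of_st_eq {W : ℝ} (hW : 0 < W) (h1 : st P θ W p = st P θ W q) : dr P θ p q < W := by
  unfold st at h1
  have h2 := Int.abs_sub_lt_one_of_floor_eq_floor h1
  unfold dr
  rw [← sub_div, abs_div, abs_of_pos hW, div_lt_one hW, abs_sub_comm] at h2
  exact h2

/-- a sign change of `h · q - h · p` between two times in `[lo, hi]` puts the slope there -/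
lemma slope_mem_of_sign {lo hi θ' : ℝ} (hx : p.1 ≠ q.1) (h1 : lo ≤ θ) (h2 : θ ≤ hi) (h3 : lo ≤ θ')
    (h4 : θ' ≤ hi) (ha : h θ q ≤ h θ p) (hb : h θ' p ≤ h θ' q) :
    lo ≤ slope p q ∧ slope p q ≤ hi := by
  have e1 := h_sub θ hx
  have e2 := h_sub θ' hx
  rcases lt_or_gt_of_ne hx with hlt | hlt
  · have a1 : slope p q ≤ θ := by
      by_contra hc
      have := mul_pos (sub_pos.mpr (not_le.mp hc)) (sub_pos.mpr hlt)
      linarith
    have a2 : θ' ≤ slope p q := by
      by_contra hc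
      have := mul_neg_of_neg_of_pos (sub_neg.mpr (not_le.mp hc)) (sub_pos.mpr hlt)
      linarith
    exact ⟨by linarith, by linarith⟩
  · have a1 : θ ≤ slope p q := by
      by_contra hc
      have := mul_pos_of_neg_of_neg (sub_neg.mpr (not_le.mp hc)) (sub_neg.mpr hlt)
      linarith
    have a2 : slope p q ≤ θ' := by
      by_contra hc
      have := mul_neg_of_pos_of_neg (sub_pos.mpr (not_le.mp hc)) (sub_neg.mpr hlt)
      linarith
    exact ⟨by linarith, by linarith⟩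

/-- the rank of a point changes by at most `nu` inside a time interval -/
lemma GP.rk_le_add_nu (hP : GP P) (hp : p ∈ P) {lo hi θ' : ℝ} (h1 : lo ≤ θ) (h2 : θ ≤ hi)
    (h3 : lo ≤ θ') (h4 : θ' ≤ hi) : rk P θ p ≤ rk P θ' p + nu P lo hi p := by
  unfold rk nu
  refine le_trans (card_le_card ?_) (card_union_le _ _)
  intro q hq
  rw [mem_filter] at hq
  rw [mem_union, mem_filter, mem_filter]
  by_cases hb : below θ' q p
  · exact Or.inl ⟨hq.1, hb⟩
  · have hne : q ≠ p := fun e => below_irrefl θ p (e ▸ hq.2)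
    have hx := hP.ne_x hp hq.1 hne.symm
    exact Or.inr ⟨hq.1, hne, slope_mem_of_sign hx h1 h2 h3 h4 hq.2.le
      ((below_total θ' hx).resolve_right hb).le⟩

lemma GP.abs_rk_sub_le_nu (hP : GP P) (hp : p ∈ P) {lo hi θ' : ℝ} (h1 : lo ≤ θ) (h2 : θ ≤ hi)
    (h3 : lo ≤ θ') (h4 : θ' ≤ hi) : |(rk P θ p : ℝ) - rk P θ' p| ≤ nu P lo hi p := by
  have a := hP.rk_le_add_nu hp h1 h2 h3 h4
  have b := hP.rk_le_add_nu hp h3 h4 h1 h2
  have a' : (rk P θ p : ℝ) ≤ rk P θ' p + nu P lo hi p := by exact_mod_cast a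
  have b' : (rk P θ' p : ℝ) ≤ rk P θ p + nu P lo hi p := by exact_mod_cast b
  rw [abs_le]; constructor <;> linarith

/-- the left end of an edge is just above its right end -/
lemma GP.rk_left (hP : GP P) (hp : p ∈ P) (hq : q ∈ P) (hx : p.1 < q.1) :
    rk P (slope p q) p = rk P (slope p q) q + 1 := by
  have hb : below (slope p q) q p := (below_right_iff hx).mpr le_rfl
  have he := h_slope hx.ne
  unfold rk
  rw [← card_insert_of_notMem (a := q) (s := P.filter fun z => below (slope p q) z q)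
    (fun hm => below_irrefl _ _ (mem_filter.mp hm).2)]
  congr 1
  ext z
  rw [mem_insert, mem_filter, mem_filter]
  constructor
  · rintro ⟨hz, hzb⟩
    by_cases e : z = q
    · exact Or.inl e
    · right
      refine ⟨hz, ?_⟩
      rcases hzb with hzb | ⟨hzb, hzx⟩
      · left; linarith
      · rcases hP.eq_of_h_eq3 hp hq hz he.symm hzb.symm with e1 | e1 | e1
        · rw [e1] at hx; exact absurd hx (lt_irrefl _)
        · rw [e1] at hzx; exact absurd hzx (lt_irrefl _)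
        · exact absurd e1.symm e
  · rintro (e | ⟨hz, hzb⟩)
    · rw [e]; exact ⟨hq, hb⟩
    · exact ⟨hz, below_trans hzb hb⟩

/-- (RD) two points whose slope lies in `[lo, hi]` have close ranks at all times in `[lo, hi]` -/
lemma GP.dr_le_nu (hP : GP P) (hp : p ∈ P) (hq : q ∈ P) (hne : p ≠ q) {lo hi : ℝ} (h1 : lo ≤ θ)
    (h2 : θ ≤ hi) (h3 : lo ≤ slope p q) (h4 : slope p q ≤ hi) :
    dr P θ p q ≤ nu P lo hi p + nu P lo hi q + 1 := by
  have a := hP.abs_rk_sub_le_nu hp h1 h2 h3 h4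
  have b := hP.abs_rk_sub_le_nu hq h1 h2 h3 h4
  have c : |(rk P (slope p q) q : ℝ) - rk P (slope p q) p| ≤ 1 := by
    rcases lt_or_gt_of_ne (hP.ne_x hp hq hne) with hx | hx
    · rw [hP.rk_left hp hq hx]; push_cast; simp
    · rw [slope_comm, hP.rk_left hq hp hx]; push_cast; simp
  unfold dr
  rw [abs_le] at a b c ⊢
  constructor <;> linarith [a.1, a.2, b.1, b.2, c.1, c.2]

lemma nu_le_card (P : Finset Pt) (lo hi : ℝ) (p : Pt) : nu P lo hi p ≤ #P := card_filter_le _ _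

/-- disjoint time intervals -/
lemma sum_nu_le {ι : Type*} (T : Finset ι) (lo hi : ι → ℝ) (p : Pt)
    (hd : ∀ a ∈ T, ∀ b ∈ T, a ≠ b → hi a < lo b ∨ hi b < lo a) :
    ∑ a ∈ T, nu P (lo a) (hi a) p ≤ #P := by
  unfold nu
  rw [← card_biUnion]
  · exact card_le_card (biUnion_subset.mpr fun a _ => filter_subset _ _)
  · intro a ha b hb hab
    rw [Function.onFun, disjoint_left]
    intro z h1 h2
    rw [mem_filter] at h1 h2
    rcases hd a ha b hb hab with h3 | h3 <;> linarith [h1.2.2.1, h1.2.2.2, h2.2.2.1, h2.2.2.2]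

/-- points weakly between `p` and `q` in height -/
lemma GP.card_between (hP : GP P) (hp : p ∈ P) (hq : q ∈ P) (hpq : h θ p ≤ h θ q) :
    dr P θ p q + 1 ≤ (#(P.filter fun z => h θ p ≤ h θ z ∧ h θ z ≤ h θ q) : ℝ) ∧
    (#(P.filter fun z => h θ p ≤ h θ z ∧ h θ z ≤ h θ q) : ℝ) ≤ dr P θ p q + 3 := by
  -- order the two points
  obtain ⟨a, b, ha, hb, hab, e1, e2, e3⟩ : ∃ a b : Pt, a ∈ P ∧ b ∈ P ∧ rk P θ a ≤ rk P θ b ∧
      h θ a = h θ p ∧ h θ b = h θ q ∧ dr P θ p q = (rk P θ b : ℝ) - rk P θ a := by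
    rcases le_total (rk P θ p) (rk P θ q) with h1 | h1
    · exact ⟨p, q, hp, hq, h1, rfl, rfl, abs_of_nonneg (sub_nonneg.mpr (by exact_mod_cast h1))⟩
    · have h2 := hP.h_le_of_rk_le hp hq h1
      refine ⟨q, p, hq, hp, h1, by linarith, by linarith, ?_⟩
      unfold dr
      rw [abs_sub_comm]
      exact abs_of_nonneg (sub_nonneg.mpr (by exact_mod_cast h1))
  rw [e3, ← e1, ← e2]
  constructor
  · have h1 : (P.filter fun z => below θ z b) ∪ {b} ⊆ (P.filter fun z => below θ z a) ∪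
        (P.filter fun z => h θ a ≤ h θ z ∧ h θ z ≤ h θ b) := by
      intro z hz
      rw [mem_union, mem_filter, mem_singleton] at hz
      rw [mem_union, mem_filter, mem_filter]
      have hab' := hP.h_le_of_rk_le hb ha hab
      rcases hz with hz | hz
      · by_cases h2 : h θ z < h θ a
        · exact Or.inl ⟨hz.1, Or.inl h2⟩
        · exact Or.inr ⟨hz.1, not_lt.mp h2, hz.2.le⟩
      · rw [hz]; exact Or.inr ⟨hb, hab', le_rfl⟩
    have h2 := (card_le_card h1).trans (card_union_le _ _)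
    rw [card_union_of_disjoint (by
      rw [disjoint_singleton_right]; exact fun hm => below_irrefl _ _ (mem_filter.mp hm).2),
      card_singleton] at h2
    have h3 : (rk P θ b : ℝ) + 1 ≤ rk P θ a +
        #(P.filter fun z => h θ a ≤ h θ z ∧ h θ z ≤ h θ b) := by exact_mod_cast h2
    linarith
  · have h1 : (P.filter fun z => h θ a ≤ h θ z ∧ h θ z ≤ h θ b) ⊆
        (P.filter fun z => (rk P θ a : ℝ) ≤ (rk P θ z : ℝ) ∧ (rk P θ z : ℝ) ≤ (rk P θ b : ℝ)) ∪
        (((P.filter fun z => h θ z = h θ a).erase a) ∪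
          ((P.filter fun z => h θ z = h θ b).erase b)) := by
      intro z hz
      rw [mem_filter] at hz
      simp only [mem_union, mem_filter, mem_erase, Nat.cast_le]
      by_cases c1 : rk P θ a ≤ rk P θ z
      · by_cases c2 : rk P θ z ≤ rk P θ b
        · exact Or.inl ⟨hz.1, c1, c2⟩
        · have := hP.h_le_of_rk_le hz.1 hb (not_le.mp c2).le
          exact Or.inr (Or.inr ⟨fun e => c2 (e ▸ le_rfl), hz.1, by linarith [hz.2.2]⟩)
      · have := hP.h_le_of_rk_le ha hz.1 (not_le.mp c1).le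
        exact Or.inr (Or.inl ⟨fun e => c1 (e ▸ le_rfl), hz.1, by linarith [hz.2.1]⟩)
    have h2 := (card_le_card h1).trans ((card_union_le _ _).trans
      (Nat.add_le_add_left (card_union_le _ _) _))
    have h3 := hP.card_rk_Icc θ (a := (rk P θ a : ℝ)) (b := (rk P θ b : ℝ)) (by
      have : (rk P θ a : ℝ) ≤ rk P θ b := by exact_mod_cast hab
      linarith)
    have h4 := hP.card_h_eq θ (h θ a)
    have h5 := hP.card_h_eq θ (h θ b)
    have g1 := card_erase_of_mem (s := P.filter fun z => h θ z = h θ a) (a := a)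
      (mem_filter.mpr ⟨ha, rfl⟩)
    have g2 := card_erase_of_mem (s := P.filter fun z => h θ z = h θ b) (a := b)
      (mem_filter.mpr ⟨hb, rfl⟩)
    rw [g1, g2] at h2
    have h6 : #(P.filter fun z => h θ a ≤ h θ z ∧ h θ z ≤ h θ b) ≤
        #(P.filter fun z => (rk P θ a : ℝ) ≤ (rk P θ z : ℝ) ∧ (rk P θ z : ℝ) ≤ (rk P θ b : ℝ)) + 2 := by
      omega
    have h7 : (#(P.filter fun z => h θ a ≤ h θ z ∧ h θ z ≤ h θ b) : ℝ) ≤
        #(P.filter fun z => (rk P θ a : ℝ) ≤ (rk P θ z : ℝ) ∧ (rk P θ z : ℝ) ≤ (rk P θ b : ℝ)) + 2 := by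
      exact_mod_cast h6
    linarith

/-- symmetric form of the upper bound in `card_between` -/
lemma GP.card_between' (hP : GP P) (hp : p ∈ P) (hq : q ∈ P) (θ : ℝ) :
    (#(P.filter fun z => (h θ z - h θ p) * (h θ z - h θ q) ≤ 0) : ℝ) ≤ dr P θ p q + 3 := by
  rcases le_total (h θ p) (h θ q) with h1 | h1
  · refine le_trans (Nat.cast_le.mpr (card_le_card fun z hz => ?_)) (hP.card_between hp hq h1).2
    rw [mem_filter] at hz ⊢
    refine ⟨hz.1, ?_, ?_⟩ <;> nlinarith [hz.2]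
  · rw [dr_comm]
    refine le_trans (Nat.cast_le.mpr (card_le_card fun z hz => ?_)) (hP.card_between hq hp h1).2
    rw [mem_filter] at hz ⊢
    refine ⟨hz.1, ?_, ?_⟩ <;> nlinarith [hz.2]

/-- `nu` is almost the same for two points with close ranks at both ends of the interval -/
lemma GP.nu_le_nu (hP : GP P) (hp : p ∈ P) (hq : q ∈ P) {lo hi : ℝ} (hlh : lo ≤ hi) :
    (nu P lo hi p : ℝ) ≤ nu P lo hi q + dr P lo p q + dr P hi p q + 6 := by
  have h1 := hP.card_between' hp hq lo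
  have h2 := hP.card_between' hp hq hi
  have h3 : (P.filter fun z => z ≠ p ∧ lo ≤ slope p z ∧ slope p z ≤ hi) ⊆
      (P.filter fun z => z ≠ q ∧ lo ≤ slope q z ∧ slope q z ≤ hi) ∪
      ((P.filter fun z => (h lo z - h lo p) * (h lo z - h lo q) ≤ 0) ∪
       (P.filter fun z => (h hi z - h hi p) * (h hi z - h hi q) ≤ 0)) := by
    intro z hz
    rw [mem_filter] at hz
    obtain ⟨hz, hzp, a1, a2⟩ := hz
    simp only [mem_union, mem_filter]
    by_cases c1 : (h lo z - h lo p) * (h lo z - h lo q) ≤ 0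
    · exact Or.inr (Or.inl ⟨hz, c1⟩)
    by_cases c2 : (h hi z - h hi p) * (h hi z - h hi q) ≤ 0
    · exact Or.inr (Or.inr ⟨hz, c2⟩)
    left
    have hzq : z ≠ q := fun e => c1 (by rw [e]; simp)
    refine ⟨hz, hzq, ?_⟩
    have hx := hP.ne_x hp hz hzp.symm
    have hx' := hP.ne_x hq hz hzq.symm
    have e1 := h_sub lo hx
    have e2 := h_sub hi hx
    push Not at c1 c2
    have s0 : (h lo z - h lo p) * (h hi z - h hi p) ≤ 0 := by
      rw [e1, e2]
      have := mul_nonneg (sub_nonneg.mpr a1) (sub_nonneg.mpr a2)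
      nlinarith [sq_nonneg (z.1 - p.1)]
    rcases le_total (h lo z) (h lo q) with d1 | d1
    · have f1 : h lo z - h lo p < 0 := by
        by_contra hc
        have := mul_nonpos_of_nonneg_of_nonpos (not_lt.mp hc) (sub_nonpos.mpr d1)
        linarith
      have f2 : 0 ≤ h hi z - h hi p := by
        by_contra hc
        have := mul_pos_of_neg_of_neg f1 (not_le.mp hc)
        linarith
      have f3 : h hi q ≤ h hi z := by
        by_contra hc
        have := mul_nonpos_of_nonneg_of_nonpos f2 (sub_nonpos.mpr (not_le.mp hc).le)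
        linarith
      exact slope_mem_of_sign hx' le_rfl hlh hlh le_rfl d1 f3
    · have f1 : 0 < h lo z - h lo p := by
        by_contra hc
        have := mul_nonpos_of_nonpos_of_nonneg (not_lt.mp hc) (sub_nonneg.mpr d1)
        linarith
      have f2 : h hi z - h hi p ≤ 0 := by
        by_contra hc
        have := mul_pos f1 (not_le.mp hc)
        linarith
      have f3 : h hi z ≤ h hi q := by
        by_contra hc
        have := mul_nonpos_of_nonpos_of_nonneg f2 (sub_nonneg.mpr (not_le.mp hc).le)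
        linarith
      exact slope_mem_of_sign hx' hlh le_rfl le_rfl hlh f3 d1
  have h4 := (card_le_card h3).trans ((card_union_le _ _).trans
      (Nat.add_le_add_left (card_union_le _ _) _))
  have h5 : (nu P lo hi p : ℝ) ≤ nu P lo hi q +
      ((#(P.filter fun z => (h lo z - h lo p) * (h lo z - h lo q) ≤ 0) : ℝ) +
       #(P.filter fun z => (h hi z - h hi p) * (h hi z - h hi q) ≤ 0)) := by
    unfold nu; exact_mod_cast h4
  linarith

end Crest.Agent.R51
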