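import Crest.Agent.R51.HWcountB

/-!
# Row 51: rank witnesses exist for most cherries
-/

set_option autoImplicit false

noncomputable section

namespace Crest.Agent.R51

open Finset Classical

/-- the numerical hypotheses of `HWcount` -/
structure HWP (lam d u η Z U T g m : ℝ) (l : ℕ) : Prop where
  u1 : 1 ≤ u
  uZ : u ≤ Z
  Z4 : 10000 ≤ Z
  ZU : Z ^ 150 ≤ U
  UT : U ≤ T
  Tl : T ≤ lam
  ld : lam ^ 10 ≤ d
  η0 : 0 ≤ η
  η3 : η * T ^ 3 ≤ 1
  g1 : U ≤ g * T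
  g2 : g * U ≤ 1
  m1 : U ≤ m * T
  m2 : m * U ≤ 1
  l1 : m * lam ≤ l * Z ^ 9
  l2 : l * Z ^ 9 ≤ 2 * (m * lam)

namespace HWP

variable {lam d u η Z U T g m : ℝ} {l : ℕ} (H : HWP lam d u η Z U T g m l)
include H

lemma Z1 : 1 ≤ Z := by linarith [H.Z4]
lemma pw (j : ℕ) (hj : j ≤ 150) : Z ^ j ≤ U := (pow_le_pow_right₀ H.Z1 hj).trans H.ZU
lemma U1 : 1 ≤ U := by simpa using H.pw 0 (by norm_num)
lemma T1 : 1 ≤ T := H.U1.trans H.UT
lemma lam1 : 1 ≤ lam := H.T1.trans H.Tl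
lemma lamd : lam ≤ d := (le_self_pow₀ H.lam1 (by norm_num)).trans H.ld
lemma d1 : 1 ≤ d := H.lam1.trans H.lamd
lemma g0 : 0 < g := by
  by_contra h
  nlinarith [H.g1, H.U1, H.T1, not_lt.1 h]
lemma m0 : 0 < m := by
  by_contra h
  nlinarith [H.m1, H.U1, H.T1, not_lt.1 h]
lemma gle : g ≤ 1 := (le_mul_of_one_le_right H.g0.le H.U1).trans H.g2
lemma mle : m ≤ 1 := (le_mul_of_one_le_right H.m0.le H.U1).trans H.m2
lemma glam : U ≤ g * lam := H.g1.trans (mul_le_mul_of_nonneg_left H.Tl H.g0.le)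
lemma mlam : U ≤ m * lam := H.m1.trans (mul_le_mul_of_nonneg_left H.Tl H.m0.le)

lemma ηle {x : ℝ} (h : U ≤ x * T) : η * T ^ 2 ≤ x := by
  have hT : 0 < T := by linarith [H.T1]
  refine le_of_mul_le_mul_right ?_ hT
  calc η * T ^ 2 * T = η * T ^ 3 := by ring
    _ ≤ x * T := H.η3.trans (H.U1.trans h)

lemma ηpw {x : ℝ} (h : U ≤ x * T) (j : ℕ) (hj : j ≤ 150) : η * (Z ^ j * U) ≤ x := by
  refine le_trans (mul_le_mul_of_nonneg_left ?_ H.η0) (H.ηle h)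
  rw [sq]
  exact mul_le_mul ((H.pw j hj).trans H.UT) H.UT (by linarith [H.U1]) (by linarith [H.T1])

lemma ηpw' {x : ℝ} (h : U ≤ x * T) (j : ℕ) (hj : j ≤ 150) : η * Z ^ j ≤ x := by
  have := H.Z1
  refine le_trans (mul_le_mul_of_nonneg_left ?_ H.η0) (H.ηpw h j hj)
  exact le_mul_of_one_le_right (by positivity) H.U1

lemma ηgm (j : ℕ) (hj : j ≤ 150) : η * Z ^ j * U ≤ g * m := by
  have hT : 0 < T := by linarith [H.T1]
  have hU : 0 < U := by linarith [H.U1]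
  refine le_of_mul_le_mul_right ?_ (by positivity : 0 < T ^ 2)
  calc η * Z ^ j * U * T ^ 2 ≤ η * T * U * T ^ 2 := by
        have := H.η0
        have := (H.pw j hj).trans H.UT
        gcongr
    _ = η * T ^ 3 * U := by ring
    _ ≤ U * U := mul_le_mul_of_nonneg_right (H.η3.trans H.U1) hU.le
    _ ≤ g * T * (m * T) := mul_le_mul H.g1 H.m1 hU.le (hU.le.trans H.g1)
    _ = g * m * T ^ 2 := by ring

lemma lamZ (j : ℕ) (hj : j ≤ 150) : lam ^ 4 * Z ^ j ≤ d := by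
  have := H.lam1
  refine le_trans ?_ H.ld
  calc lam ^ 4 * Z ^ j ≤ lam ^ 4 * lam :=
        mul_le_mul_of_nonneg_left ((H.pw j hj).trans (H.UT.trans H.Tl)) (by positivity)
    _ = lam ^ 5 := by ring
    _ ≤ lam ^ 10 := pow_le_pow_right₀ this (by norm_num)

lemma l0 : 1 ≤ l := by
  have h1 := H.l1
  have h2 := H.mlam
  have h3 := H.U1
  by_contra h
  obtain rfl : l = 0 := by omega
  simp only [Nat.cast_zero, zero_mul] at h1
  linarith

/-- removing the threshold `τ = g d / (4 Z^4)` -/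
lemma conv {N X : ℝ} (h : N * (g * d / Z ^ 4 / 4) ≤ X * (d * g)) : N ≤ 4 * Z ^ 4 * X := by
  have := H.g0
  have := H.d1
  have := H.Z1
  refine le_of_mul_le_mul_right ?_ (by positivity : 0 < g * d / Z ^ 4 / 4)
  refine h.trans (le_of_eq ?_)
  field_simp

/-- the final comparison: `c u^2 Z^a / Z^b ≤ c / Z^2` -/
lemma fin {x c : ℝ} (hc : 0 ≤ c) (h : x * Z ^ 4 ≤ c * u ^ 2) :
    x * (lam ^ 2 * d ^ 3) ≤ c * (lam ^ 2 * d ^ 3 / Z ^ 2) := by
  have := H.d1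
  have hZ := H.Z1
  have hu := H.u1
  have h1 : x * Z ^ 2 ≤ c := by
    refine le_of_mul_le_mul_right ?_ (by positivity : 0 < Z ^ 2)
    calc x * Z ^ 2 * Z ^ 2 = x * Z ^ 4 := by ring
      _ ≤ c * u ^ 2 := h
      _ ≤ c * Z ^ 2 := by have := H.uZ; gcongr
  rw [← mul_div_assoc, le_div_iff₀ (by positivity)]
  calc x * (lam ^ 2 * d ^ 3) * Z ^ 2 = x * Z ^ 2 * (lam ^ 2 * d ^ 3) := by ring
    _ ≤ c * (lam ^ 2 * d ^ 3) := mul_le_mul_of_nonneg_right h1 (by positivity)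

lemma n0 : u * (lam ^ 2 * d ^ 2) * (d * g) ≤ 1 * (lam ^ 2 * d ^ 3 / Z ^ 2) := by
  rw [show u * (lam ^ 2 * d ^ 2) * (d * g) = u * g * (lam ^ 2 * d ^ 3) by ring]
  refine H.fin zero_le_one ?_
  have hu := H.u1
  have h1 : g * Z ^ 4 ≤ 1 := (mul_le_mul_of_nonneg_left (H.pw 4 (by norm_num)) H.g0.le).trans H.g2
  nlinarith

lemma n1 : u * d * (lam ^ 2 * d * ((2 * u / g + 1) * (3 * (g * d / Z ^ 4) + d * η))) ≤
    12 * (lam ^ 2 * d ^ 3 / Z ^ 2) := by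
  have hg := H.g0
  have hd := H.d1
  have hZ := H.Z1
  have hu := H.u1
  have := H.η0
  have h1 : 2 * u / g + 1 ≤ 3 * u / g := by
    rw [div_add_one hg.ne', div_le_div_iff_of_pos_right hg]
    linarith [H.gle]
  have h2 : d * η ≤ g * d / Z ^ 4 := by
    rw [le_div_iff₀ (by positivity), mul_assoc, mul_comm g]
    exact mul_le_mul_of_nonneg_left (H.ηpw' H.g1 4 (by norm_num)) (by positivity)
  calc _ ≤ u * d * (lam ^ 2 * d * (3 * u / g * (4 * (g * d / Z ^ 4)))) := by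
        gcongr
        linarith
    _ = 12 * u ^ 2 / Z ^ 4 * (lam ^ 2 * d ^ 3) := by field_simp; ring
    _ ≤ _ := H.fin (by norm_num) (le_of_eq (by field_simp))

lemma n2 : 4 * Z ^ 4 * (u * d * (2 * l * (u * lam * d ^ 2) *
    (1 + lam ^ 2 * d / (m * (lam ^ 2 * d) / 2)))) ≤ 48 * (lam ^ 2 * d ^ 3 / Z ^ 2) := by
  have hm := H.m0
  have hd := H.d1
  have hZ := H.Z1
  have hu := H.u1
  have hl := H.lam1
  have h1 : 1 + lam ^ 2 * d / (m * (lam ^ 2 * d) / 2) ≤ 3 / m := by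
    rw [show lam ^ 2 * d / (m * (lam ^ 2 * d) / 2) = 2 / m by field_simp,
      one_add_div hm.ne', div_le_div_iff_of_pos_right hm]
    linarith [H.mle]
  have h2 : (l : ℝ) ≤ 2 * (m * lam) / Z ^ 9 := by
    rw [le_div_iff₀ (by positivity)]; exact H.l2
  calc _ ≤ 4 * Z ^ 4 * (u * d * (2 * (2 * (m * lam) / Z ^ 9) * (u * lam * d ^ 2) * (3 / m))) := by
        gcongr
    _ = 48 * u ^ 2 / Z ^ 5 * (lam ^ 2 * d ^ 3) := by field_simp; ring
    _ ≤ _ := H.fin (by norm_num) (by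
        rw [show 48 * u ^ 2 / Z ^ 5 * Z ^ 4 = 48 * u ^ 2 / Z by field_simp]
        exact div_le_self (by positivity) hZ)

lemma n3 : 4 * Z ^ 4 * (lam ^ 2 * d ^ 3 / Z ^ 7) ≤ 4 * (lam ^ 2 * d ^ 3 / Z ^ 2) := by
  have hd := H.d1
  have hZ := H.Z1
  rw [show 4 * Z ^ 4 * (lam ^ 2 * d ^ 3 / Z ^ 7) = 4 * (lam ^ 2 * d ^ 3 / Z ^ 3) by field_simp]
  gcongr
  norm_num

lemma n4a : u * d * (lam ^ 2 * d * (lam ^ 2 * d / (Z ^ 8 * g * (lam ^ 2 * d)) * (d * g))) ≤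
    1 * (lam ^ 2 * d ^ 3 / Z ^ 2) := by
  have hg := H.g0
  have hd := H.d1
  have hZ := H.Z1
  have hu := H.u1
  have hl := H.lam1
  calc _ = u / Z ^ 8 * (lam ^ 2 * d ^ 3) := by field_simp
    _ ≤ _ := H.fin zero_le_one (by
        rw [show u / Z ^ 8 * Z ^ 4 = u / Z ^ 4 by field_simp]
        exact (div_le_self (by positivity) (one_le_pow₀ hZ)).trans (by nlinarith))

lemma n4b : u * d * (4 * Z ^ 4 * (u * lam * d ^ 2 * (2 * l * (1 +
    (2 * (Z ^ 8 * g * (lam ^ 2 * d)) + 1) / (U * g * m * (lam ^ 2 * d) / 2))))) ≤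
    112 * (lam ^ 2 * d ^ 3 / Z ^ 2) := by
  have hg := H.g0
  have hm := H.m0
  have hd := H.d1
  have hZ := H.Z1
  have hu := H.u1
  have hl := H.lam1
  have hU := H.U1
  have h0 : 1 ≤ Z ^ 8 * g * (lam ^ 2 * d) := by
    rw [show Z ^ 8 * g * (lam ^ 2 * d) = Z ^ 8 * (g * lam) * (lam * d) by ring]
    exact one_le_mul_of_one_le_of_one_le
      (one_le_mul_of_one_le_of_one_le (one_le_pow₀ hZ) (hU.trans H.glam))
      (one_le_mul_of_one_le_of_one_le hl hd)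
  have h1 : 1 + (2 * (Z ^ 8 * g * (lam ^ 2 * d)) + 1) / (U * g * m * (lam ^ 2 * d) / 2) ≤
      7 * Z ^ 8 / (U * m) := by
    have a1 : (2 * (Z ^ 8 * g * (lam ^ 2 * d)) + 1) / (U * g * m * (lam ^ 2 * d) / 2) ≤
        3 * (Z ^ 8 * g * (lam ^ 2 * d)) / (U * g * m * (lam ^ 2 * d) / 2) :=
      div_le_div_of_nonneg_right (by linarith) (by positivity)
    have a2 : 1 ≤ Z ^ 8 / (U * m) := by
      rw [one_le_div (by positivity), mul_comm]
      exact H.m2.trans (one_le_pow₀ hZ)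
    rw [show 3 * (Z ^ 8 * g * (lam ^ 2 * d)) / (U * g * m * (lam ^ 2 * d) / 2) =
      6 * (Z ^ 8 / (U * m)) by field_simp; ring] at a1
    rw [mul_div_assoc 7]
    linarith
  have h2 : (l : ℝ) ≤ 2 * (m * lam) / Z ^ 9 := by
    rw [le_div_iff₀ (by positivity)]; exact H.l2
  calc _ ≤ u * d * (4 * Z ^ 4 * (u * lam * d ^ 2 *
        (2 * (2 * (m * lam) / Z ^ 9) * (7 * Z ^ 8 / (U * m))))) := by gcongr
    _ = 112 * u ^ 2 * Z ^ 3 / U * (lam ^ 2 * d ^ 3) := by field_simp; ring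
    _ ≤ _ := H.fin (by norm_num) (by
        rw [show 112 * u ^ 2 * Z ^ 3 / U * Z ^ 4 = 112 * u ^ 2 * (Z ^ 7 / U) by field_simp]
        refine mul_le_of_le_one_right (by positivity) ?_
        rw [div_le_one (by positivity)]
        exact H.pw 7 (by norm_num))

lemma n5a : 9 * (lam ^ 2 * d) * (8000 * ((Z ^ 2) ^ 50 * (m * (lam ^ 2 * d)) *
    (g * m * (lam ^ 2 * d) / U) / (lam ^ 2 * d)) / (l : ℝ) ^ 2 + 26 * (d / T ^ 2)) ≤
    72234 * Z ^ 118 * (lam ^ 2 * d) / U * (d * g) := by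
  have hg := H.g0
  have hm := H.m0
  have hd := H.d1
  have hZ := H.Z1
  have hl := H.lam1
  have hU := H.U1
  have hT := H.T1
  have h2 : m * lam / Z ^ 9 ≤ l := by
    rw [div_le_iff₀ (by positivity)]; exact H.l1
  have h3 : d / T ^ 2 ≤ Z ^ 118 * g * d / U := by
    rw [div_le_div_iff₀ (by positivity) (by positivity),
      show Z ^ 118 * g * d * T ^ 2 = d * (g * T * (Z ^ 118 * T)) by ring]
    refine mul_le_mul_of_nonneg_left (H.g1.trans (le_mul_of_one_le_right (by positivity) ?_))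
      (by positivity)
    exact one_le_mul_of_one_le_of_one_le (one_le_pow₀ hZ) hT
  calc _ ≤ 9 * (lam ^ 2 * d) * (8000 * ((Z ^ 2) ^ 50 * (m * (lam ^ 2 * d)) *
        (g * m * (lam ^ 2 * d) / U) / (lam ^ 2 * d)) / (m * lam / Z ^ 9) ^ 2 +
        26 * (Z ^ 118 * g * d / U)) := by gcongr
    _ = _ := by field_simp; ring

lemma n5 : (u * d) ^ 2 * (4 * Z ^ 4 * (72234 * Z ^ 118 * (lam ^ 2 * d) / U)) ≤
    1 * (lam ^ 2 * d ^ 3 / Z ^ 2) := by
  have hd := H.d1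
  have hZ := H.Z1
  have hu := H.u1
  have hU := H.U1
  calc _ = u ^ 2 * (288936 * Z ^ 122 / U) * (lam ^ 2 * d ^ 3) := by field_simp; ring
    _ ≤ _ := H.fin zero_le_one (by
        rw [show u ^ 2 * (288936 * Z ^ 122 / U) * Z ^ 4 = u ^ 2 * (288936 * Z ^ 126 / U) by
          field_simp, one_mul]
        refine mul_le_of_le_one_right (by positivity) ?_
        rw [div_le_one (by positivity)]
        refine le_trans ?_ (H.pw 128 (by norm_num))
        rw [show Z ^ 128 = Z ^ 2 * Z ^ 126 by ring]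
        refine mul_le_mul_of_nonneg_right ?_ (by positivity)
        nlinarith [H.Z4])

end HWP

lemma HW_exists_par {lam d u η Z U T g m : ℝ} (h0 : 0 ≤ η) (h1 : 1 ≤ u) (h2 : u ≤ Z)
    (h3 : 10000 ≤ Z) (h4 : Z ^ 150 ≤ U) (h5 : U ≤ T) (h6 : η ≤ 1 / T ^ 3) (h7 : T ≤ lam)
    (h8 : lam ^ 10 ≤ d) (h9 : U / T ≤ g) (h10 : g ≤ 1 / U) (h11 : U / T ≤ m) (h12 : m ≤ 1 / U) :
    ∃ l : ℕ, HWP lam d u η Z U T g m l := by
  have hZ : 1 ≤ Z := by linarith
  have hU9 : Z ^ 9 ≤ U := (pow_le_pow_right₀ hZ (by norm_num)).trans h4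
  have hU : 1 ≤ U := (one_le_pow₀ hZ).trans hU9
  have hT : 0 < T := by linarith
  rw [le_div_iff₀ (by positivity)] at h6 h10 h12
  have hm : 0 ≤ m := le_trans (by positivity) h11
  rw [div_le_iff₀ hT] at h9 h11
  have hx : 1 ≤ m * lam / Z ^ 9 := by
    rw [one_le_div (by positivity)]
    exact hU9.trans (h11.trans (mul_le_mul_of_nonneg_left h7 hm))
  refine ⟨⌈m * lam / Z ^ 9⌉₊, h1, h2, h3, h4, h5, h7, h8, h0, h6, h9, h10, h11, h12, ?_, ?_⟩
  · rw [← div_le_iff₀ (by positivity)]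
    exact Nat.le_ceil _
  · rw [← le_div_iff₀ (by positivity), mul_div_assoc 2]
    linarith [Nat.ceil_lt_add_one (zero_le_one.trans hx)]

/-- an element of a large subset avoiding four small subsets -/
lemma HW_pick {D G : Finset ℤ} (hD : D ⊆ G) {ρ : ℝ} {Q Q₁ Q₂ Q₃ Q₄ : ℤ → Prop} (h : ρ ≤ hwN D Q)
    (h1 : ¬ ρ / 4 ≤ hwN D Q₁) (h2 : ¬ ρ / 4 ≤ hwN D Q₂) (h3 : ¬ ρ / 4 ≤ hwN D Q₃)
    (h4 : ¬ ρ / 4 ≤ hwN G Q₄) : ∃ f ∈ D, Q f ∧ ¬ Q₁ f ∧ ¬ Q₂ f ∧ ¬ Q₃ f ∧ ¬ Q₄ f := by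
  by_contra hneg
  have : hwN D Q ≤ hwN D Q₁ + hwN D Q₂ + hwN D Q₃ + hwN G Q₄ := by
    unfold hwN
    rw [← Nat.cast_add, ← Nat.cast_add, ← Nat.cast_add, Nat.cast_le]
    refine le_trans (card_le_card fun f hf => ?_) ((card_union_le _ _).trans (add_le_add_left
      ((card_union_le _ _).trans (add_le_add_left (card_union_le _ _) _)) _))
    rw [HW_mf] at hf
    rw [mem_union, mem_union, mem_union, HW_mf, HW_mf, HW_mf, HW_mf]
    have := hD hf.1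
    by_contra hc
    exact hneg ⟨f, hf.1, hf.2, by tauto⟩
  linarith [not_le.1 h1, not_le.1 h2, not_le.1 h3, not_le.1 h4]

lemma HW_union {v : ℤ → Pt} {G : Finset ℤ} {Q Q₀ Q₁ Q₂ Q₃ Q₄ Q₅ Q₆ Q₇ : ℤ → ℤ → Prop}
    (h : ∀ a ∈ G, ∀ e ∈ G, v a = v e → Q a e → Q₀ a e ∨ Q₁ a e ∨ Q₂ a e ∨ Q₃ a e ∨ Q₄ a e ∨
      Q₅ a e ∨ Q₆ a e ∨ Q₇ a e) :
    (#(cher v G Q) : ℝ) ≤ #(cher v G Q₀) + (#(cher v G Q₁) + (#(cher v G Q₂) + (#(cher v G Q₃) +
      (#(cher v G Q₄) + (#(cher v G Q₅) + (#(cher v G Q₆) + #(cher v G Q₇))))))) := by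
  refine (cher_or h).trans (add_le_add_right ?_ _)
  iterate 5 refine (cher_or fun _ _ _ _ _ h => h).trans (add_le_add_right ?_ _)
  exact cher_or fun _ _ _ _ _ h => h

theorem hwcount (hf : FlatStmt) (hb : BoxStmt) (hl : LongStmt) : HWcountStmt := by
  intro lam d u η Z U T g m ε₁ ε₂ P v I G cl lo hi gam hB h1 h2 h3 h4 h5 h6 h7 h8 h9 h10 h11 h12
    hε₁ hε₂
  obtain ⟨l, H⟩ := HW_exists_par ((hB.nonneg 0).trans (hB.atom 0)) h1 h2 h3 h4 h5 h6 h7 h8 h9 h10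
    h11 h12
  have hg := H.g0
  have hm := H.m0
  have hd := H.d1
  have hd0 : 0 ≤ d := by linarith
  have hZ := H.Z1
  have hlam := H.lam1
  have hU := H.U1
  have hT := H.T1
  have hη := H.η0
  have hl1 : (1 : ℝ) ≤ l := by exact_mod_cast H.l0
  obtain ⟨grp, gm, gr, gw⟩ := HW_exists_grp (I.image cl) gam hB.nonneg hB.atom hB.total hg (by
    have := H.ηpw' H.g1 1 (by norm_num)
    nlinarith)
  obtain ⟨lo', hi', hH⟩ := exists_hull (sl v) I fun i => grp (cl i)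
  obtain ⟨o, ho⟩ : ∃ o : ℤ, (ε₂ = 1 ∧ o = 0) ∨ (ε₂ = -1 ∧ o = l) := by
    rcases hε₂ with h | h
    exacts [⟨0, Or.inl ⟨h, rfl⟩⟩, ⟨l, Or.inr ⟨h, rfl⟩⟩]
  have hρ : d * η ≤ g * d / Z ^ 4 := by
    rw [le_div_iff₀ (by positivity), mul_assoc, mul_comm g]
    exact mul_le_mul_of_nonneg_left (H.ηpw' H.g1 4 (by norm_num)) hd0
  have hE := HW_E hB hd0 gw
  refine (HW_union
    (Q₀ := fun a e => grp (cl a) = grp (cl e))
    (Q₁ := fun _ e => (#(hwD v G cl grp ε₁ e) : ℝ) < 3 * (g * d / Z ^ 4))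
    (Q₂ := fun a e => g * d / Z ^ 4 / 4 ≤ hwN (hwD v G cl grp ε₁ e) fun f =>
      cl a < cl f ∧ ¬ Mv P v I (lo (cl a)) (m * (lam ^ 2 * d) / 2) l f)
    (Q₃ := fun a e => g * d / Z ^ 4 / 4 ≤ hwN (hwD v G cl grp ε₁ e) fun f =>
      cl a ≠ cl f ∧ Flat P v I (lo (cl a)) (m * (lam ^ 2 * d) / U) l f)
    (Q₄ := fun _ e => Z ^ 8 * g * (lam ^ 2 * d) <
      (nu P (lo' (grp (cl e))) (hi' (grp (cl e))) (v e) : ℝ))
    (Q₅ := fun _ e => g * d / Z ^ 4 / 4 ≤ hwN (hwD v G cl grp ε₁ e) fun f =>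
      (nu P (lo' (grp (cl f))) (hi' (grp (cl f))) (v f) : ℝ) ≤ Z ^ 8 * g * (lam ^ 2 * d) ∧
        ¬ Mv P v I (lo (cl e)) (U * g * m * (lam ^ 2 * d) / 2) l f)
    (Q₆ := fun a e =>
      (#(zbox P (lo (cl a)) (m * (lam ^ 2 * d)) (lo (cl e)) (g * m * (lam ^ 2 * d) / U) (v e)) : ℝ) ≤
        (Z ^ 2) ^ 50 * (m * (lam ^ 2 * d)) * (g * m * (lam ^ 2 * d) / U) / (lam ^ 2 * d) ∧
      g * d / Z ^ 4 / 4 ≤ hwN G fun f => v f = v e ∧ f - o ∈ longIn v I
        (zbox P (lo (cl a)) (m * (lam ^ 2 * d)) (lo (cl e)) (g * m * (lam ^ 2 * d) / U) (v e)) l)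
    (Q₇ := fun a e => cl a ≠ cl e ∧
      (Z ^ 2) ^ 50 * (m * (lam ^ 2 * d)) * (g * m * (lam ^ 2 * d) / U) / (lam ^ 2 * d) <
      (#(zbox P (lo (cl a)) (m * (lam ^ 2 * d)) (lo (cl e)) (g * m * (lam ^ 2 * d) / U) (v e)) : ℝ))
    fun a ha e he hv hQ => ?_).trans ?_
  · by_contra hneg
    simp only [not_or] at hneg
    obtain ⟨q0, q1, q2, q3, q4, q5, q6, q7⟩ := hneg
    have q7' := not_lt.1 fun h => q7 ⟨hQ.1.ne, h⟩
    obtain ⟨f, hfD, f0, f1, f2, f3, f4⟩ := HW_pick (filter_subset _ _)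
      (HW_far hB hd0 hε₁ hρ (not_lt.1 q1)) q2 q3 q5 fun h => q6 ⟨q7', h⟩
    obtain ⟨fG, fv, fg, fε⟩ := mem_hwD.1 hfD
    have haf : cl a < cl f := by
      by_contra hc
      have b1 := gm (not_lt.1 hc)
      have b2 := gm hQ.1.le
      exact q0 (by omega)
    have hef : cl e ≠ cl f := fun h => by
      rw [h, sub_self, mul_zero] at fε
      exact lt_irrefl _ fε
    obtain ⟨q, hq, r1, r2, r3, r4, r5, r6, r7⟩ := HW_good hB.sys hB.hull hB.mono hB.link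
      (hB.mem_image ha) (hB.mem_image he) (hB.sub fG) haf.ne hef H.l0 ho
      (W₁ := m * (lam ^ 2 * d)) (W₂ := g * m * (lam ^ 2 * d) / U) (by positivity) (by positivity)
      (half_le_self (by positivity)) (not_not.1 fun h => f1 ⟨haf, h⟩)
      (not_not.1 fun h => f3 ⟨by rw [fg, fv]; exact not_lt.1 q4, h⟩) (fun h => f2 ⟨haf.ne, h⟩)
      (fun h => f4 ⟨fv, fv ▸ h⟩)
    rw [fv] at r1 r2 r3 r4 r5 r6 r7
    refine hQ.2 ⟨q, hq, cl f, hB.mem_image fG, haf, fε, r1, r2, r3, ?_, ?_, r4, r5, r6, r7⟩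
    · rw [mul_comm g, mul_div_assoc] at f0
      exact (div_le_div_of_nonneg_left hg.le (by positivity) (H.pw 4 (by norm_num))).trans
        (le_of_mul_le_mul_left f0 (by positivity))
    · refine le_trans (sum_le_sum_of_subset_of_nonneg (fun c hc => ?_) fun c _ _ => hB.nonneg c)
        (gw (grp (cl e)))
      rw [mem_filter] at hc ⊢
      refine ⟨hc.1, ?_⟩
      have b1 := gm hc.2.1
      have b2 := gm hc.2.2
      rw [gm.map_min] at b1
      rw [gm.map_max] at b2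
      omega
  have t0 := (HW_t0 hB hd0 hg.le gw).trans H.n0
  have t1 := (HW_t1 hB hd0 hε₁ (ρ := 3 * (g * d / Z ^ 4)) (by positivity) (by positivity) gr).trans
    H.n1
  have t2 := (H.conv (HW_conv1 (ε := ε₁) (fun a f => cl a < cl f ∧
    ¬ Mv P v I (lo (cl a)) (m * (lam ^ 2 * d) / 2) l f) hE)).trans
    ((mul_le_mul_of_nonneg_left (HW_t2 hB hd0 (by positivity) l) (by positivity)).trans H.n2)
  have hZ2 : ∀ j : ℕ, j ≠ 0 → Z ≤ Z ^ j := fun j hj => le_self_pow₀ hZ hj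
  have t3' := hf lam d u η (Z ^ 7) (m * (lam ^ 2 * d) / U) l P v I G cl lo hi gam hB h1
    (h2.trans (hZ2 7 (by norm_num))) (h3.trans (hZ2 7 (by norm_num))) hlam H.lamd
    (by
      rw [one_le_div (by positivity), show m * (lam ^ 2 * d) = m * lam * (lam * d) by ring]
      exact H.mlam.trans (le_mul_of_one_le_right (by positivity)
        (one_le_mul_of_one_le_of_one_le hlam hd)))
    (by
      rw [le_div_iff₀ (by positivity), show η * ((Z ^ 7) ^ 3 * (lam ^ 2 * d)) * U =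
        η * (Z ^ 21 * U) * (lam ^ 2 * d) by ring]
      exact mul_le_mul_of_nonneg_right (H.ηpw H.m1 21 (by norm_num)) (by positivity)) H.l0
    (by
      rw [← mul_div_assoc, div_le_iff₀ (by positivity)]
      calc (Z ^ 7) ^ 20 * (m * (lam ^ 2 * d)) = Z ^ 140 * (lam * d) * (m * lam) := by ring
        _ ≤ Z ^ 140 * (lam * d) * (l * Z ^ 9) := mul_le_mul_of_nonneg_left H.l1 (by positivity)
        _ = l * (lam * d) * Z ^ 149 := by ring
        _ ≤ l * (lam * d) * U := mul_le_mul_of_nonneg_left (H.pw 149 (by norm_num)) (by positivity))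
    (by rw [← pow_mul]; exact H.lamZ _ (by norm_num))
  have t3 := (H.conv (HW_conv1 (ε := ε₁) (fun a f => cl a ≠ cl f ∧
    Flat P v I (lo (cl a)) (m * (lam ^ 2 * d) / U) l f) hE)).trans
    ((mul_le_mul_of_nonneg_left t3' (by positivity)).trans H.n3)
  have t4 := (HW_t4a hB hd0 hg.le gm gw hH (ν := Z ^ 8 * g * (lam ^ 2 * d))
    (by positivity)).trans H.n4a
  have t5' := H.conv ((HW_conv2 (ε := ε₁) (fun e f =>
    (nu P (lo' (grp (cl f))) (hi' (grp (cl f))) (v f) : ℝ) ≤ Z ^ 8 * g * (lam ^ 2 * d) ∧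
      ¬ Mv P v I (lo (cl e)) (U * g * m * (lam ^ 2 * d) / 2) l f)).trans
    (HW_t4b hB hd0 hg.le gw hH hε₁ (by positivity) (by positivity) l))
  have t5 := (hB.cher_snd hd0 _).trans
    ((mul_le_mul_of_nonneg_left t5' (by positivity)).trans H.n4b)
  have t6 := (hB.cher_class2 hd0 (fun a c p =>
      (#(zbox P (lo a) (m * (lam ^ 2 * d)) (lo c) (g * m * (lam ^ 2 * d) / U) p) : ℝ) ≤
        (Z ^ 2) ^ 50 * (m * (lam ^ 2 * d)) * (g * m * (lam ^ 2 * d) / U) / (lam ^ 2 * d) ∧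
      g * d / Z ^ 4 / 4 ≤ hwN G fun f => v f = p ∧ f - o ∈ longIn v I
        (zbox P (lo a) (m * (lam ^ 2 * d)) (lo c) (g * m * (lam ^ 2 * d) / U) p) l)
    (b := 4 * Z ^ 4 * (72234 * Z ^ 118 * (lam ^ 2 * d) / U)) (by positivity) fun a _ c _ => by
      refine H.conv (le_trans ?_ H.n5a)
      have := HW_long (G := G) hl hB.sys (lo a) (m * (lam ^ 2 * d)) (lo c)
        (g * m * (lam ^ 2 * d) / U) o (l := l) (D := d / T ^ 2)
        (y := (Z ^ 2) ^ 50 * (m * (lam ^ 2 * d)) * (g * m * (lam ^ 2 * d) / U) / (lam ^ 2 * d))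
        (τ := g * d / Z ^ 4 / 4) (by positivity)
        (by
          rw [one_le_div (by positivity)]
          exact (pow_le_pow_left₀ (by positivity) h7 2).trans
            ((pow_le_pow_right₀ hlam (by norm_num)).trans h8))
        (by
          refine (pow_le_pow_left₀ (Nat.cast_nonneg _) hB.cardP 2).trans ?_
          rw [div_pow, le_div_iff₀ (by positivity)]
          calc (lam ^ 2 * d) ^ 2 * (T ^ 2) ^ 3 = d ^ 2 * (lam ^ 4 * T ^ 6) := by ring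
            _ ≤ d ^ 2 * (lam ^ 4 * lam ^ 6) := by gcongr
            _ = d ^ 2 * lam ^ 10 := by ring
            _ ≤ d ^ 2 * d := by gcongr
            _ = d ^ 3 := by ring) (by positivity)
      refine le_trans (mul_le_mul_of_nonneg_right (HW_le fun p hp => HW_mf.2 (HW_mf.1 hp))
        (by positivity)) (this.trans ?_)
      have := hB.cardP
      gcongr).trans H.n5
  have t7 := hb lam d u η (Z ^ 2) (m * (lam ^ 2 * d)) (g * m * (lam ^ 2 * d) / U) P v I G cl lo hi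
    gam hB h1 (h2.trans (hZ2 2 (by norm_num))) (h3.trans (hZ2 2 (by norm_num))) hlam H.lamd
    (by
      rw [show m * (lam ^ 2 * d) = m * lam * (lam * d) by ring]
      exact le_mul_of_one_le_left (by positivity) (hU.trans H.mlam))
    (by
      rw [one_le_div (by positivity), show g * m * (lam ^ 2 * d) = g * lam * (m * lam * d) by ring]
      exact H.glam.trans (le_mul_of_one_le_right (by positivity)
        (one_le_mul_of_one_le_of_one_le (hU.trans H.mlam) hd)))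
    (by
      rw [← mul_assoc, ← pow_mul]
      exact mul_le_mul_of_nonneg_right (H.ηpw' H.m1 _ (by norm_num)) (by positivity))
    (by
      rw [le_div_iff₀ (by positivity), show η * ((Z ^ 2) ^ 6 * (lam ^ 2 * d)) * U =
        η * Z ^ 12 * U * (lam ^ 2 * d) by ring]
      exact mul_le_mul_of_nonneg_right (H.ηgm 12 (by norm_num)) (by positivity))
    (by rw [← pow_mul]; exact H.lamZ _ (by norm_num))
  have e : lam ^ 2 * d ^ 3 / Z = Z * (lam ^ 2 * d ^ 3 / Z ^ 2) := by field_simp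
  have hS : 0 ≤ lam ^ 2 * d ^ 3 / Z ^ 2 := by positivity
  have hfin := mul_le_mul_of_nonneg_right h3 hS
  rw [e]
  refine (add_le_add t0 (add_le_add t1 (add_le_add t2 (add_le_add t3 (add_le_add t4
    (add_le_add t5 (add_le_add t6 t7))))))).trans ?_
  linarith

end Crest.Agent.R51
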