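import Crest.Agent.R51.Tools

/-!
# Row 51: auxiliary lemmas for `HWcount` (groups of classes, moves, conversions)
-/

set_option autoImplicit false

noncomputable section

namespace Crest.Agent.R51

open Finset Classical

lemma HW_le {α : Type*} {A B : Finset α} (h : ∀ x ∈ A, x ∈ B) : (#A : ℝ) ≤ #B :=
  Nat.cast_le.mpr (card_le_card h)

/-- `mem_filter` for an arbitrary decidability instance -/
lemma HW_mf {α : Type*} {D : Finset α} {Q : α → Prop} {inst : DecidablePred Q} {x : α} :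
    x ∈ @Finset.filter α Q inst D ↔ x ∈ D ∧ Q x := mem_filter

/-- groups of consecutive classes of weight at most `g` -/
lemma HW_exists_grp (T : Finset ℕ) (gam : ℕ → ℝ) {u η g : ℝ} (h0 : ∀ c, 0 ≤ gam c)
    (hη : ∀ c, gam c ≤ η) (hu : ∑ c ∈ T, gam c ≤ u) (hg : 0 < g) (hηg : η ≤ g / 2) :
    ∃ grp : ℕ → ℕ, Monotone grp ∧ (∀ c, (grp c : ℝ) ≤ 2 * u / g) ∧
      ∀ k, ∑ c ∈ T.filter (fun c => grp c = k), gam c ≤ g := by
  set S : ℕ → ℝ := fun c => ∑ c' ∈ T.filter (fun c' => c' < c), gam c' with hS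
  have hS0 : ∀ c, 0 ≤ S c := fun c => sum_nonneg fun _ _ => h0 _
  have hmono : ∀ {a b : ℕ}, a ≤ b → T.filter (fun c' => c' < a) ⊆ T.filter (fun c' => c' < b) :=
    fun hab x hx => by
      rw [mem_filter] at hx ⊢
      exact ⟨hx.1, hx.2.trans_le hab⟩
  have hg2 : 0 < g / 2 := by linarith
  refine ⟨fun c => ⌊S c / (g / 2)⌋₊, fun a b hab => Nat.floor_le_floor ?_, fun c => ?_, fun k => ?_⟩
  · exact div_le_div_of_nonneg_right
      (sum_le_sum_of_subset_of_nonneg (hmono hab) fun _ _ _ => h0 _) hg2.le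
  · refine (Nat.floor_le (div_nonneg (hS0 c) hg2.le)).trans ?_
    have : S c ≤ u :=
      (sum_le_sum_of_subset_of_nonneg (filter_subset _ _) fun _ _ _ => h0 _).trans hu
    rw [div_le_div_iff₀ hg2 hg]
    nlinarith
  · rcases (T.filter (fun c => ⌊S c / (g / 2)⌋₊ = k)).eq_empty_or_nonempty with he | hne
    · rw [he, sum_empty]; exact hg.le
    set A := T.filter (fun c => ⌊S c / (g / 2)⌋₊ = k) with hA
    have h1 := (mem_filter.1 (A.min'_mem hne)).2
    have h2 := (mem_filter.1 (A.max'_mem hne)).2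
    have a1 : (k : ℝ) ≤ S (A.min' hne) / (g / 2) := by
      rw [← h1]; exact Nat.floor_le (div_nonneg (hS0 _) hg2.le)
    have a2 : S (A.max' hne) / (g / 2) < k + 1 := by
      rw [← h2]; exact Nat.lt_floor_add_one _
    rw [le_div_iff₀ hg2] at a1
    rw [div_lt_iff₀ hg2] at a2
    have hsub : A ⊆ insert (A.max' hne)
        (T.filter (fun c' => c' < A.max' hne) \ T.filter (fun c' => c' < A.min' hne)) := by
      intro x hx
      rw [mem_insert, mem_sdiff, mem_filter, mem_filter]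
      rcases (A.le_max' x hx).eq_or_lt with h | h
      · exact Or.inl h
      · exact Or.inr ⟨⟨(mem_filter.1 hx).1, h⟩, fun h' => absurd h'.2 (not_lt.2 (A.min'_le x hx))⟩
    refine (sum_le_sum_of_subset_of_nonneg hsub fun _ _ _ => h0 _).trans ?_
    rw [sum_insert (by simp), sum_sdiff_eq_sub (hmono (A.min'_le _ (A.max'_mem hne)))]
    have := hη (A.max' hne)
    change gam (A.max' hne) + (S (A.max' hne) - S (A.min' hne)) ≤ g
    linarith

/-- few elements have few elements above them -/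
lemma HW_top (D : Finset ℤ) (κ : ℤ → ℝ) {ρ β : ℝ} (hρ : 0 ≤ ρ) (hβ : 0 ≤ β)
    (hlev : ∀ e ∈ D, (#(D.filter fun f => κ f = κ e) : ℝ) ≤ β) (E : Finset ℤ) (hE : E ⊆ D)
    (h : ∀ e ∈ E, (#(D.filter fun f => κ e < κ f) : ℝ) < ρ) : (#E : ℝ) ≤ ρ + β := by
  rcases E.eq_empty_or_nonempty with he | hne
  · rw [he, card_empty, Nat.cast_zero]; positivity
  obtain ⟨e, he, hmin⟩ := E.exists_min_image κ hne
  have hsub : E ⊆ (D.filter fun f => κ e < κ f) ∪ D.filter fun f => κ f = κ e := by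
    intro x hx
    rw [mem_union, mem_filter, mem_filter]
    rcases (hmin x hx).eq_or_lt with h1 | h1
    · exact Or.inr ⟨hE hx, h1.symm⟩
    · exact Or.inl ⟨hE hx, h1⟩
  have h1 : (#E : ℝ) ≤ #(D.filter fun f => κ e < κ f) + #(D.filter fun f => κ f = κ e) := by
    exact_mod_cast (card_le_card hsub).trans (card_union_le _ _)
  linarith [h e he, hlev e (hE he)]

variable {P : Finset Pt} {v : ℤ → Pt} {I G : Finset ℤ} {cl : ℤ → ℕ} {lo hi gam : ℕ → ℝ}

/-- good edges at the point of `e`, in the group of `e`, on the side `ε` -/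
def hwD (v : ℤ → Pt) (G : Finset ℤ) (cl : ℤ → ℕ) (grp : ℕ → ℕ) (ε : ℝ) (e : ℤ) : Finset ℤ :=
  G.filter fun f => v f = v e ∧ grp (cl f) = grp (cl e) ∧ 0 < ε * ((cl f : ℝ) - cl e)

lemma mem_hwD {grp : ℕ → ℕ} {ε : ℝ} {e f : ℤ} : f ∈ hwD v G cl grp ε e ↔
    f ∈ G ∧ v f = v e ∧ grp (cl f) = grp (cl e) ∧ 0 < ε * ((cl f : ℝ) - cl e) := mem_filter

/-- good edges at `p` in the group `k` -/
def hwE (v : ℤ → Pt) (G : Finset ℤ) (cl : ℤ → ℕ) (grp : ℕ → ℕ) (p : Pt) (k : ℕ) : Finset ℤ :=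
  G.filter fun f => v f = p ∧ grp (cl f) = k

lemma mem_hwE {grp : ℕ → ℕ} {p : Pt} {k : ℕ} {f : ℤ} : f ∈ hwE v G cl grp p k ↔
    f ∈ G ∧ v f = p ∧ grp (cl f) = k := mem_filter

/-- number of elements of a set with a property, as a real number -/
def hwN (D : Finset ℤ) (Q : ℤ → Prop) : ℝ := #(D.filter Q)

lemma hwN_nonneg (D : Finset ℤ) (Q : ℤ → Prop) : 0 ≤ hwN D Q := Nat.cast_nonneg _

/-- conversion for properties of the first edge -/
lemma HW_conv1 {grp : ℕ → ℕ} {ε τ b : ℝ} (Q : ℤ → ℤ → Prop)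
    (hb : ∀ p k, (#(hwE v G cl grp p k) : ℝ) ≤ b) :
    (#(cher v G fun a e => τ ≤ hwN (hwD v G cl grp ε e) (Q a)) : ℝ) * τ ≤ #(cher v G Q) * b := by
  rw [card_cher_eq', card_cher_eq', sum_mul, sum_mul]
  refine sum_le_sum fun a _ => ?_
  rw [← nsmul_eq_mul, ← nsmul_eq_mul]
  refine card_nsmul_le_card_nsmul (fun e f => grp (cl f) = grp (cl e)) (fun e he => ?_)
    fun f hf => ?_
  · rw [mem_filter] at he
    refine he.2.2.trans (HW_le fun f hf => ?_)
    rw [mem_filter, mem_hwD] at hf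
    rw [mem_bipartiteAbove, mem_filter]
    exact ⟨⟨hf.1.1, he.2.1.trans hf.1.2.1.symm, hf.2⟩, hf.1.2.2.1⟩
  · refine le_trans (HW_le fun e he => ?_) (hb (v a) (grp (cl f)))
    rw [mem_bipartiteBelow, mem_filter] at he
    exact mem_hwE.2 ⟨he.1.1, he.1.2.1.symm, he.2.symm⟩

/-- conversion for properties of the second edge -/
lemma HW_conv2 {grp : ℕ → ℕ} {ε τ : ℝ} (Q : ℤ → ℤ → Prop) :
    hwN G (fun e => τ ≤ hwN (hwD v G cl grp ε e) (Q e)) * τ ≤
      #(cher v G fun e f => (grp (cl f) = grp (cl e) ∧ 0 < ε * ((cl f : ℝ) - cl e)) ∧ Q e f) := by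
  rw [card_cher_eq']
  refine card_mul_le_sum G _ τ (fun _ _ => Nat.cast_nonneg _) _ fun e _ he => ?_
  refine he.trans (HW_le fun f hf => ?_)
  rw [mem_filter, mem_hwD] at hf
  exact HW_mf.2 ⟨hf.1.1, hf.1.2.1.symm, hf.1.2.2, hf.2⟩

/-- the run of `f` has `l` edges before and after `v f` and moves by at most `R` in rank -/
def Mv (P : Finset Pt) (v : ℤ → Pt) (I : Finset ℤ) (θ R : ℝ) (l : ℕ) (f : ℤ) : Prop :=
  Seg I (f - l) (f + l) ∧ dr P θ (v (f - l)) (v (f + l)) ≤ R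

lemma HW_step (hS : Sys P v I) (hH : Hull (sl v) I cl lo hi) (hM : Mono (sl v) I cl) {a : ℕ}
    (ha : a ∈ I.image cl) {ε : ℝ} (hε : Sg ε) {i : ℤ} (hi' : i ∈ I)
    (h : 0 < ε * ((cl i : ℝ) - a)) :
    ε * (rk P (lo a) (v i) : ℝ) ≤ ε * rk P (lo a) (v (i + 1)) := by
  have hs : Seg I i (i + 1) := fun l h1 h2 => by
    obtain rfl : l = i := by omega
    exact hi'
  have hc : cl i ∈ I.image cl := mem_image_of_mem _ hi'
  rcases hε with rfl | rfl
  · have h1 : a < cl i := by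
      have : (a : ℝ) < cl i := by linarith
      exact_mod_cast this
    have h2 := hS.rk_mono_up P (θ := lo a) (by omega : i ≤ i + 1) hs fun l h3 h4 => by
      obtain rfl : l = i := by omega
      exact (hH.lo_le_hi ha).trans_lt ((hH.lt hM ha hc h1).trans_le (hH.lo_le l hi'))
    rw [one_mul, one_mul]
    exact_mod_cast h2
  · have h1 : cl i < a := by
      have : (cl i : ℝ) < a := by linarith
      exact_mod_cast this
    have h2 := hS.rk_mono_down P (θ := lo a) (by omega : i ≤ i + 1) hs fun l h3 h4 => by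
      obtain rfl : l = i := by omega
      exact (hH.le_hi l hi').trans (hH.lt hM hc ha h1).le
    have h3 : (rk P (lo a) (v (i + 1)) : ℝ) ≤ rk P (lo a) (v i) := by exact_mod_cast h2
    linarith

lemma HW_move {I' S : Finset ℤ} (h1 : I' ⊆ I) (h2 : S ⊆ I') {ε θ V R : ℝ} (hε : Sg ε)
    (hr : ∀ i ∈ I', ε * (rk P θ (v i) : ℝ) ≤ ε * rk P θ (v (i + 1))) (hV0 : 0 ≤ V) (hR : 0 < R)
    (hV : ∀ i ∈ S, ∀ j ∈ S, i ≤ j → Seg I' i j → dr P θ (v i) (v j) ≤ V) (l : ℕ) :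
    hwN S (fun f => ¬ Mv P v I θ R l f) ≤ 2 * l * nr I' * (1 + V / R) := by
  have habs : ∀ p q : Pt, dr P θ p q = |ε * (rk P θ q : ℝ) - ε * rk P θ p| := fun p q => by
    rw [← mul_sub, abs_mul]
    rcases hε with rfl | rfl <;> simp [dr]
  refine le_trans (HW_le fun f hf => ?_)
    (move2 h2 (fun i => ε * (rk P θ (v i) : ℝ)) hr hV0 hR (fun i hi j hj hij hs => ?_) l)
  · rw [HW_mf] at hf ⊢
    refine ⟨hf.1, fun h => hf.2 ⟨h.1.subset h1, ?_⟩⟩
    have := Seg.le_of_step (fun i => ε * (rk P θ (v i) : ℝ)) (by omega : f - l ≤ f + l)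
      fun t h3 h4 => hr t (h.1 t h3 h4)
    rw [habs, abs_of_nonneg (sub_nonneg.2 this)]
    exact h.2
  · refine (le_abs_self _).trans ?_
    rw [← habs]
    exact hV i hi j hj hij hs

/-- edges whose run stays long in a small block -/
lemma HW_long (hl : LongStmt) (hS : Sys P v I) (θ₁ W₁ θ₂ W₂ : ℝ) (o : ℤ) {l D y τ : ℝ}
    (hl0 : 0 < l) (hD : 1 ≤ D) (hPD : (#P : ℝ) ^ 2 ≤ D ^ 3) (hy : 0 ≤ y) :
    (#(P.filter fun p => (#(zbox P θ₁ W₁ θ₂ W₂ p) : ℝ) ≤ y ∧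
      τ ≤ hwN G fun f => v f = p ∧ f - o ∈ longIn v I (zbox P θ₁ W₁ θ₂ W₂ p) l) : ℝ) * τ ≤
      9 * #P * (8000 * y / l ^ 2 + 26 * D) := by
  set A := P.filter fun p => (#(zbox P θ₁ W₁ θ₂ W₂ p) : ℝ) ≤ y ∧
      τ ≤ hwN G fun f => v f = p ∧ f - o ∈ longIn v I (zbox P θ₁ W₁ θ₂ W₂ p) l with hA
  set bx : Pt → ℤ × ℤ := fun p => (st P θ₁ W₁ p, st P θ₂ W₂ p) with hbx
  set Y : ℤ × ℤ → Finset Pt := fun k =>
    P.filter fun z => |st P θ₁ W₁ z - k.1| ≤ 1 ∧ |st P θ₂ W₂ z - k.2| ≤ 1 with hY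
  have hz : ∀ p, zbox P θ₁ W₁ θ₂ W₂ p = Y (bx p) := fun p => rfl
  have hc0 : 0 ≤ 8000 * y / l ^ 2 + 26 * D := by positivity
  have h1 : (#A : ℝ) * τ ≤ ∑ p ∈ A, hwN G fun f => v f = p ∧ f - o ∈ longIn v I (Y (bx p)) l := by
    rw [← nsmul_eq_mul]
    exact card_nsmul_le_sum _ _ _ fun p hp => (mem_filter.1 hp).2.2
  have h2 : ∀ k ∈ A.image bx, ∑ p ∈ A.filter (fun p => bx p = k),
      (hwN G fun f => v f = p ∧ f - o ∈ longIn v I (Y (bx p)) l) ≤
        #(Y k) * (8000 * y / l ^ 2 + 26 * D) := by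
    intro k hk
    obtain ⟨p₀, hp₀, rfl⟩ := mem_image.1 hk
    have hy0 : (#(Y (bx p₀)) : ℝ) ≤ y := (mem_filter.1 hp₀).2.1
    have a1 : ∑ p ∈ A.filter (fun p => bx p = bx p₀),
        (hwN G fun f => v f = p ∧ f - o ∈ longIn v I (Y (bx p)) l) ≤
        ∑ p ∈ A.filter (fun p => bx p = bx p₀),
          (#((G.filter fun f => f - o ∈ longIn v I (Y (bx p₀)) l).filter fun f => v f = p) : ℝ) := by
      refine sum_le_sum fun p hp => HW_le fun f hf => ?_
      rw [HW_mf] at hf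
      rw [mem_filter, mem_filter, ← (mem_filter.1 hp).2]
      exact ⟨⟨hf.1, hf.2.2⟩, hf.2.1⟩
    have a2 : ∑ p ∈ A.filter (fun p => bx p = bx p₀),
        (#((G.filter fun f => f - o ∈ longIn v I (Y (bx p₀)) l).filter fun f => v f = p) : ℝ) ≤
        #(longIn v I (Y (bx p₀)) l) := by
      rw [← Nat.cast_sum, sum_card_fiberwise_eq_card_filter, Nat.cast_le]
      refine card_le_card_of_injOn (fun f => f - o) (fun f hf => ?_) fun a _ b _ h => by
        simpa using h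
      exact (mem_filter.1 (mem_filter.1 hf).1).2
    refine a1.trans (a2.trans ((hl P v I hS _ l D hl0 hD hPD).trans ?_))
    have : 8000 * (#(Y (bx p₀)) : ℝ) ^ 2 / l ^ 2 ≤ #(Y (bx p₀)) * (8000 * y / l ^ 2) := by
      rw [← mul_div_assoc]
      refine div_le_div_of_nonneg_right ?_ (by positivity)
      have : (0 : ℝ) ≤ #(Y (bx p₀)) := Nat.cast_nonneg _
      nlinarith
    linarith
  have h3 : ∑ k ∈ A.image bx, #(Y k) ≤ 9 * #P := by
    have e : ∑ k ∈ A.image bx, #(Y k) = ∑ z ∈ P, #((A.image bx).filter fun k =>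
        |st P θ₁ W₁ z - k.1| ≤ 1 ∧ |st P θ₂ W₂ z - k.2| ≤ 1) := by
      simp only [hY, card_filter]
      exact sum_comm
    rw [e, mul_comm, ← smul_eq_mul]
    refine sum_le_card_nsmul _ _ _ fun z _ => ?_
    have : ((A.image bx).filter fun k => |st P θ₁ W₁ z - k.1| ≤ 1 ∧ |st P θ₂ W₂ z - k.2| ≤ 1) ⊆
        Icc (st P θ₁ W₁ z - 1) (st P θ₁ W₁ z + 1) ×ˢ Icc (st P θ₂ W₂ z - 1) (st P θ₂ W₂ z + 1) := by
      intro k hk
      rw [mem_filter, abs_le, abs_le] at hk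
      rw [mem_product, mem_Icc, mem_Icc]
      omega
    refine (card_le_card this).trans ?_
    rw [card_product, Int.card_Icc, Int.card_Icc,
      show (st P θ₁ W₁ z + 1 + 1 - (st P θ₁ W₁ z - 1)).toNat = 3 by omega,
      show (st P θ₂ W₂ z + 1 + 1 - (st P θ₂ W₂ z - 1)).toNat = 3 by omega]
  have h4 : ∑ k ∈ A.image bx, (#(Y k) : ℝ) ≤ 9 * #P := by exact_mod_cast h3
  refine h1.trans ?_
  rw [← sum_fiberwise_of_maps_to (g := bx) (t := A.image bx) fun p hp => mem_image_of_mem _ hp]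
  refine (sum_le_sum h2).trans ?_
  rw [← sum_mul]
  exact mul_le_mul_of_nonneg_right h4 hc0

/-- geometry of a good pair -/
lemma HW_good (hS : Sys P v I) (hH : Hull (sl v) I cl lo hi) (hM : Mono (sl v) I cl)
    (hL : Link I cl) {a c : ℕ} (ha : a ∈ I.image cl) (hc : c ∈ I.image cl) {f : ℤ} (hf : f ∈ I)
    (haf : a ≠ cl f) (hcf : c ≠ cl f) {l : ℕ} (hl : 1 ≤ l) {ε : ℝ} {o : ℤ}
    (ho : (ε = 1 ∧ o = 0) ∨ (ε = -1 ∧ o = l)) {R₁ R₂ W₁ W₂ W₃ : ℝ} (hW₁ : 0 < W₁) (hW₂ : 0 < W₂)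
    (hR : R₁ ≤ W₁) (m1 : Mv P v I (lo a) R₁ l f) (m2 : Mv P v I (lo c) R₂ l f)
    (m3 : ¬ Flat P v I (lo a) W₃ l f)
    (m4 : f - o ∉ longIn v I (zbox P (lo a) W₁ (lo c) W₂ (v f)) l) :
    ∃ q ∈ P, 0 < ε * (q.1 - (v f).1) ∧ lo (cl f) ≤ slope (v f) q ∧ slope (v f) q ≤ hi (cl f) ∧
      W₃ ≤ dr P (lo a) (v f) q ∧ dr P (lo a) (v f) q ≤ R₁ ∧
      W₂ ≤ dr P (lo c) (v f) q ∧ dr P (lo c) (v f) q ≤ R₂ := by
  have hs := m1.1
  have hcl : ∀ t, f - l ≤ t → t < f + l → cl t = cl f := fun t h1 h2 => by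
    rcases le_total t f with h | h
    · exact hL.seg h (hs.mono h1 (by omega))
    · exact (hL.seg h (hs.mono (by omega) (by omega))).symm
  obtain ⟨j, hj⟩ : ∃ j, j = f - o := ⟨_, rfl⟩
  have j1 : f - l ≤ j := by omega
  have j2 : j ≤ f := by omega
  have hsj : Seg I j (j + l) := hs.mono j1 (by omega)
  have hclj : ∀ t, j ≤ t → t < j + l → cl t = cl f := fun t h1 h2 => hcl t (by omega) (by omega)
  have u1 : dr P (lo a) (v j) (v (j + l)) ≤ R₁ :=
    (hS.rk_between hH hM ha haf hs hcl j1 (by omega) (by omega)).trans m1.2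
  have u2 : dr P (lo c) (v j) (v (j + l)) ≤ R₂ :=
    (hS.rk_between hH hM hc hcf hs hcl j1 (by omega) (by omega)).trans m2.2
  have u3 : W₃ ≤ dr P (lo a) (v j) (v (j + l)) := by
    by_contra hneg
    exact m3 ⟨j, by omega, hsj, (not_le.1 hneg).le⟩
  have hin : ∀ b ∈ I.image cl, b ≠ cl f → ∀ t, j ≤ t → t ≤ j + l →
      dr P (lo b) (v f) (v t) ≤ dr P (lo b) (v j) (v (j + l)) := fun b hb hbf t h1 h2 => by
    rcases le_total t f with h | h
    · rw [dr_comm]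
      exact hS.rk_between hH hM hb hbf hsj hclj h1 h (by omega)
    · exact hS.rk_between hH hM hb hbf hsj hclj j2 h h2
  have u4 : W₂ ≤ dr P (lo c) (v j) (v (j + l)) := by
    by_contra hneg
    have hz : ∀ t, j ≤ t → t ≤ j + l → v t ∈ zbox P (lo a) W₁ (lo c) W₂ (v f) := fun t h1 h2 => by
      refine mem_filter.2 ⟨hS.mem_of_seg (by omega) hsj h1 h2, ?_, ?_⟩
      · have := st_close (P := P) (θ := lo a) (p := v f) (q := v t) hW₁ 1 (by
          rw [Nat.cast_one, one_mul]; exact (hin a ha haf t h1 h2).trans (u1.trans hR))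
        simpa using this
      · have := st_close (P := P) (θ := lo c) (p := v f) (q := v t) hW₂ 1 (by
          rw [Nat.cast_one, one_mul]; exact (hin c hc hcf t h1 h2).trans (not_le.1 hneg).le)
        simpa using this
    refine m4 ?_
    rw [← hj]
    refine mem_filter.2 ⟨hsj j le_rfl (by omega), hz j le_rfl (by omega),
      hz (j + 1) (by omega) (by omega), ?_⟩
    have e : (l : ℝ) = #(Ico j (j + l)) := by rw [Int.card_Ico]; simp
    rw [e]
    refine HW_le fun t ht => ?_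
    rw [mem_Ico] at ht
    exact mem_filter.2 ⟨hsj t ht.1 ht.2, root_eq_of_seg ht.1 (hsj.mono le_rfl (by omega)),
      hz t ht.1 ht.2.le, hz (t + 1) (by omega) (by omega)⟩
  have hx := hS.x_lt_of_seg (by omega : j < j + l) hsj
  have hch := hS.chord (lo := lo (cl f)) (hi := hi (cl f)) (by omega : j < j + l) hsj
    fun t h1 h2 => by
      rw [← hclj t h1 h2]
      exact ⟨hH.lo_le t (hsj t h1 h2), hH.le_hi t (hsj t h1 h2)⟩
  rcases ho with ⟨rfl, rfl⟩ | ⟨rfl, rfl⟩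
  · obtain rfl : j = f := by omega
    exact ⟨v (j + l), hS.mem_of_seg (by omega) hsj (by omega) le_rfl, by linarith, hch.1, hch.2,
      u3, u1, u4, u2⟩
  · have e : j + l = f := by omega
    rw [e] at u1 u2 u3 u4 hx hch
    rw [dr_comm] at u1 u2 u3 u4
    rw [slope_comm] at hch
    exact ⟨v j, hS.mem_of_seg (by omega) hsj le_rfl (by omega), by linarith, hch.1, hch.2,
      u3, u1, u4, u2⟩

end Crest.Agent.R51
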