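import Crest.Agent.R51.HWcountA

/-!
# Row 51: counting the bad types of cherries for `HWcount`
-/

set_option autoImplicit false

noncomputable section

namespace Crest.Agent.R51

open Finset Classical

variable {lam d u η g : ℝ} {P : Finset Pt} {v : ℤ → Pt} {I G : Finset ℤ} {cl : ℤ → ℕ}
  {lo hi gam : ℕ → ℝ} {grp : ℕ → ℕ}

lemma HW_E (hB : B2 lam d u η P v I G cl lo hi gam) (hd : 0 ≤ d)
    (hw : ∀ k, ∑ c ∈ (I.image cl).filter (fun c => grp c = k), gam c ≤ g) (p : Pt) (k : ℕ) :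
    (#(hwE v G cl grp p k) : ℝ) ≤ d * g := by
  refine le_trans (HW_le fun f hf => ?_)
    ((hB.deg_set p ((I.image cl).filter fun c => grp c = k)).trans
      (mul_le_mul_of_nonneg_left (hw k) hd))
  rw [mem_hwE] at hf
  exact HW_mf.2 ⟨hf.1, hf.2.1, mem_filter.2 ⟨hB.mem_image hf.1, hf.2.2⟩⟩

lemma HW_lev (hB : B2 lam d u η P v I G cl lo hi gam) (hd : 0 ≤ d) {ε : ℝ} (hε : ε ≠ 0)
    {D : Finset ℤ} {p : Pt} (hD : ∀ f ∈ D, f ∈ G ∧ v f = p) (e : ℤ) :
    (#(D.filter fun f => ε * (cl f : ℝ) = ε * cl e) : ℝ) ≤ d * η := by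
  refine le_trans (HW_le fun f hf => ?_)
    ((hB.dom p (cl e)).trans (mul_le_mul_of_nonneg_left (hB.atom _) hd))
  rw [mem_filter] at hf
  exact HW_mf.2 ⟨(hD f hf.1).1, (hD f hf.1).2, Nat.cast_inj.1 (mul_left_cancel₀ hε hf.2)⟩

lemma Sg.ne_zero {ε : ℝ} (h : Sg ε) : ε ≠ 0 := by rcases h with rfl | rfl <;> norm_num

/-- type (0) -/
lemma HW_t0 (hB : B2 lam d u η P v I G cl lo hi gam) (hd : 0 ≤ d) (hg : 0 ≤ g)
    (hw : ∀ k, ∑ c ∈ (I.image cl).filter (fun c => grp c = k), gam c ≤ g) :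
    (#(cher v G fun a e => grp (cl a) = grp (cl e)) : ℝ) ≤ u * (lam ^ 2 * d ^ 2) * (d * g) := by
  refine (cher_le_of_fst (b := d * g) fun e _ => ?_).trans
    (mul_le_mul_of_nonneg_right (hB.cardG hd) (by positivity))
  exact le_trans (HW_le fun f hf => mem_hwE.2 (HW_mf.1 hf)) (HW_E hB hd hw (v e) (grp (cl e)))

/-- type (1) -/
lemma HW_t1 (hB : B2 lam d u η P v I G cl lo hi gam) (hd : 0 ≤ d) {ε ρ r : ℝ} (hε : Sg ε)
    (hρ : 0 ≤ ρ) (hr0 : 0 ≤ r) (hr : ∀ c, (grp c : ℝ) ≤ r) :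
    (#(cher v G fun _ e => (#(hwD v G cl grp ε e) : ℝ) < ρ) : ℝ) ≤
      u * d * (lam ^ 2 * d * ((r + 1) * (ρ + d * η))) := by
  have hη : 0 ≤ η := (hB.nonneg 0).trans (hB.atom 0)
  have hu := hB.u_nonneg
  refine (hB.cher_snd hd _).trans (mul_le_mul_of_nonneg_left ?_ (by positivity))
  refine hB.card_le_of_pt _ (by positivity) fun p _ => ?_
  set A := G.filter fun i => v i = p ∧ (#(hwD v G cl grp ε i) : ℝ) < ρ with hA
  rw [card_eq_sum_card_image (fun i => grp (cl i)) A, Nat.cast_sum]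
  refine (sum_le_card_nsmul _ _ (ρ + d * η) fun k _ => ?_).trans ?_
  · refine HW_top (hwE v G cl grp p k) (fun f => ε * (cl f : ℝ)) hρ (by positivity)
      (fun e _ => HW_lev hB hd hε.ne_zero (p := p)
        (fun f hf => ⟨(mem_hwE.1 hf).1, (mem_hwE.1 hf).2.1⟩) e) _ (fun e he => ?_) fun e he => ?_
    · rw [mem_filter, hA, mem_filter] at he
      exact mem_hwE.2 ⟨he.1.1, he.1.2.1, he.2⟩
    · rw [mem_filter, hA, mem_filter] at he
      refine lt_of_le_of_lt (HW_le fun f hf => ?_) he.1.2.2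
      rw [mem_filter, mem_hwE] at hf
      exact mem_hwD.2 ⟨hf.1.1, hf.1.2.1.trans he.1.2.1.symm, hf.1.2.2.trans he.2.symm,
        by linarith [hf.2]⟩
  · rw [nsmul_eq_mul]
    exact mul_le_mul_of_nonneg_right
      (card_image_le_of_bdd (cl := fun i => grp (cl i)) hr0 fun i _ => hr _) (by positivity)

/-- many elements of `hwD` are far from the class of `e` -/
lemma HW_far (hB : B2 lam d u η P v I G cl lo hi gam) (hd : 0 ≤ d) {ε ρ : ℝ} (hε : Sg ε)
    (hρ : d * η ≤ ρ) {e : ℤ} (h : 3 * ρ ≤ #(hwD v G cl grp ε e)) :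
    ρ ≤ hwN (hwD v G cl grp ε e) fun f =>
      ρ ≤ d * ∑ c' ∈ (I.image cl).filter
        (fun c' => min (cl e) (cl f) < c' ∧ c' < max (cl e) (cl f)), gam c' := by
  have hη : 0 ≤ η := (hB.nonneg 0).trans (hB.atom 0)
  have hρ0 : 0 ≤ ρ := le_trans (by positivity) hρ
  set D := hwD v G cl grp ε e with hD
  set Q : ℤ → Prop := fun f => ρ ≤ d * ∑ c' ∈ (I.image cl).filter
    (fun c' => min (cl e) (cl f) < c' ∧ c' < max (cl e) (cl f)), gam c' with hQ
  have h1 : (#(D.filter fun f => ¬ Q f) : ℝ) ≤ ρ + d * η := by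
    refine HW_top D (fun f => -ε * (cl f : ℝ)) hρ0 (by positivity)
      (fun e' _ => HW_lev hB hd (neg_ne_zero.2 hε.ne_zero) (p := v e)
        (fun f hf => ⟨(mem_hwD.1 hf).1, (mem_hwD.1 hf).2.1⟩) e') _ (filter_subset _ _)
      fun f hf => ?_
    rw [HW_mf] at hf
    refine lt_of_le_of_lt (le_trans (HW_le fun f' hf' => ?_) (hB.deg_set (v e) _)) (not_le.1 hf.2)
    rw [mem_filter, mem_hwD] at hf'
    refine HW_mf.2 ⟨hf'.1.1, hf'.1.2.1, mem_filter.2 ⟨hB.mem_image hf'.1.1, ?_⟩⟩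
    have a1 := hf'.1.2.2.2
    have a2 := hf'.2
    rcases hε with rfl | rfl
    · have b1 : cl e < cl f' := by
        have : (cl e : ℝ) < cl f' := by linarith
        exact_mod_cast this
      have b2 : cl f' < cl f := by
        have : (cl f' : ℝ) < cl f := by linarith
        exact_mod_cast this
      omega
    · have b1 : cl f' < cl e := by
        have : (cl f' : ℝ) < cl e := by linarith
        exact_mod_cast this
      have b2 : cl f < cl f' := by
        have : (cl f : ℝ) < cl f' := by linarith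
        exact_mod_cast this
      omega
  have h2 : (#D : ℝ) ≤ hwN D Q + #(D.filter fun f => ¬ Q f) := by
    unfold hwN
    rw [← Nat.cast_add, Nat.cast_le]
    refine le_trans (card_le_card fun f hf => ?_) (card_union_le _ _)
    rw [mem_union, HW_mf, HW_mf]
    tauto
  linarith

/-- type (2) -/
lemma HW_t2 (hB : B2 lam d u η P v I G cl lo hi gam) (hd : 0 ≤ d) {R : ℝ} (hR : 0 < R) (l : ℕ) :
    (#(cher v G fun a f => cl a < cl f ∧ ¬ Mv P v I (lo (cl a)) R l f) : ℝ) ≤
      u * d * (2 * l * (u * lam * d ^ 2) * (1 + lam ^ 2 * d / R)) := by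
  have hπ : (0 : ℝ) ≤ u * lam * d ^ 2 := (Nat.cast_nonneg _).trans hB.runs
  refine hB.cher_class hd (fun a f => a < cl f ∧ ¬ Mv P v I (lo a) R l f) (by positivity)
    fun a ha => ?_
  have h1 := HW_move (P := P) (v := v) (I := I) (I' := I.filter fun i => a < cl i)
    (S := G.filter fun i => a < cl i) (ε := 1) (θ := lo a) (V := lam ^ 2 * d) (R := R)
    (filter_subset _ _) (filter_subset_filter _ hB.sub) (Or.inl rfl)
    (fun i hi => HW_step hB.sys hB.hull hB.mono ha (Or.inl rfl) (mem_filter.1 hi).1 (by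
      have : (a : ℝ) < cl i := by exact_mod_cast (mem_filter.1 hi).2
      linarith)) (by positivity) hR (fun i _ j _ _ _ => by
      have a1 : (rk P (lo a) (v i) : ℝ) ≤ #P := by exact_mod_cast rk_le_card P _ _
      have a2 : (rk P (lo a) (v j) : ℝ) ≤ #P := by exact_mod_cast rk_le_card P _ _
      have a3 : (0 : ℝ) ≤ rk P (lo a) (v i) := Nat.cast_nonneg _
      have a4 : (0 : ℝ) ≤ rk P (lo a) (v j) := Nat.cast_nonneg _
      have := hB.cardP
      unfold dr
      rw [abs_le]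
      constructor <;> linarith) l
  refine le_trans (HW_le fun f hf => ?_) (h1.trans ?_)
  · rw [HW_mf] at hf
    exact HW_mf.2 ⟨mem_filter.2 ⟨hf.1, hf.2.1⟩, hf.2.2⟩
  · refine mul_le_mul_of_nonneg_right (mul_le_mul_of_nonneg_left ?_ (by positivity))
      (by positivity)
    refine le_trans ?_ hB.runs
    have := nr_filter_class hB.link (fun c => a < c)
    exact_mod_cast (by convert this)

/-- type (4a) -/
lemma HW_t4a (hB : B2 lam d u η P v I G cl lo hi gam) (hd : 0 ≤ d) (hg : 0 ≤ g)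
    (hm : Monotone grp)
    (hw : ∀ k, ∑ c ∈ (I.image cl).filter (fun c => grp c = k), gam c ≤ g) {lo' hi' : ℕ → ℝ}
    (hH : Hull (sl v) I (fun i => grp (cl i)) lo' hi') {ν : ℝ} (hν : 0 < ν) :
    (#(cher v G fun _ e => ν < (nu P (lo' (grp (cl e))) (hi' (grp (cl e))) (v e) : ℝ)) : ℝ) ≤
      u * d * (lam ^ 2 * d * (lam ^ 2 * d / ν * (d * g))) := by
  have hu := hB.u_nonneg
  refine (hB.cher_snd hd _).trans (mul_le_mul_of_nonneg_left ?_ (by positivity))
  refine hB.card_le_of_pt _ (by positivity) fun p _ => ?_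
  set A := G.filter fun i => v i = p ∧ ν < (nu P (lo' (grp (cl i))) (hi' (grp (cl i))) (v i) : ℝ)
    with hA
  rw [card_eq_sum_card_image (fun i => grp (cl i)) A, Nat.cast_sum]
  refine (sum_le_card_nsmul _ _ (d * g) fun k _ => ?_).trans ?_
  · refine le_trans (HW_le fun e he => ?_) (HW_E hB hd hw p k)
    rw [mem_filter, hA, mem_filter] at he
    exact mem_hwE.2 ⟨he.1.1, he.1.2.1, he.2⟩
  · rw [nsmul_eq_mul]
    refine mul_le_mul_of_nonneg_right (le_trans (HW_le fun k hk => ?_)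
      ((hH.card_nu_gt (hB.mono.comp hm) P p hν).trans
        (div_le_div_of_nonneg_right hB.cardP hν.le))) (by positivity)
    obtain ⟨i, hi, rfl⟩ := mem_image.1 hk
    rw [hA, mem_filter] at hi
    exact HW_mf.2 ⟨mem_image_of_mem _ (hB.sub hi.1), hi.2.1 ▸ hi.2.2⟩

/-- type (4b) -/
lemma HW_t4b (hB : B2 lam d u η P v I G cl lo hi gam) (hd : 0 ≤ d) (hg : 0 ≤ g)
    (hw : ∀ k, ∑ c ∈ (I.image cl).filter (fun c => grp c = k), gam c ≤ g) {lo' hi' : ℕ → ℝ}
    (hH : Hull (sl v) I (fun i => grp (cl i)) lo' hi') {ε ν R : ℝ} (hε : Sg ε) (hν : 0 ≤ ν)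
    (hR : 0 < R) (l : ℕ) :
    (#(cher v G fun e f => (grp (cl f) = grp (cl e) ∧ 0 < ε * ((cl f : ℝ) - cl e)) ∧
      ((nu P (lo' (grp (cl f))) (hi' (grp (cl f))) (v f) : ℝ) ≤ ν ∧
        ¬ Mv P v I (lo (cl e)) R l f)) : ℝ) ≤
      u * lam * d ^ 2 * (2 * l * (1 + (2 * ν + 1) / R)) * (d * g) := by
  refine (hB.cher_class_sum fun c f => (grp (cl f) = grp c ∧ 0 < ε * ((cl f : ℝ) - c)) ∧
      ((nu P (lo' (grp (cl f))) (hi' (grp (cl f))) (v f) : ℝ) ≤ ν ∧
        ¬ Mv P v I (lo c) R l f)).trans ?_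
  set N : ℕ → ℝ := fun k => nr (I.filter fun i => grp (cl i) = k) with hN
  set M : ℝ := 2 * l * (1 + (2 * ν + 1) / R) with hM
  have hM0 : 0 ≤ M := by positivity
  refine (sum_le_sum (g := fun c => d * M * (gam c * N (grp c))) fun c hc => ?_).trans ?_
  · have h1 := HW_move (P := P) (v := v) (I := I)
      (I' := (I.filter fun i => grp (cl i) = grp c).filter fun i => 0 < ε * ((cl i : ℝ) - c))
      (S := G.filter fun f => (grp (cl f) = grp c ∧ 0 < ε * ((cl f : ℝ) - c)) ∧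
        (nu P (lo' (grp c)) (hi' (grp c)) (v f) : ℝ) ≤ ν) (ε := ε) (θ := lo c)
      (V := 2 * ν + 1) (R := R) ((filter_subset _ _).trans (filter_subset _ _))
      (fun f hf => by
        rw [mem_filter] at hf
        exact mem_filter.2 ⟨mem_filter.2 ⟨hB.sub hf.1, hf.2.1.1⟩, hf.2.1.2⟩) hε
      (fun i hi => HW_step hB.sys hB.hull hB.mono hc hε (mem_filter.1 (mem_filter.1 hi).1).1
        (mem_filter.1 hi).2) (by positivity) hR (fun i hi j hj hij hs => by
        obtain ⟨i₀, hi₀, rfl⟩ := mem_image.1 hc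
        obtain ⟨j₀, hj₀, e1, e2⟩ := hB.hull.lo_mem i₀ hi₀
        have b1 := hH.lo_le j₀ hj₀
        have b2 := hH.le_hi j₀ hj₀
        simp only [e1, e2] at b1 b2
        have b3 := hB.sys.dr_le_nu (lo := lo' (grp (cl i₀))) (hi := hi' (grp (cl i₀))) hij
          (hs.subset ((filter_subset _ _).trans (filter_subset _ _))) (fun t h1 h2 => by
            have := mem_filter.1 (mem_filter.1 (hs t h1 h2)).1
            rw [← this.2]
            exact ⟨hH.lo_le t this.1, hH.le_hi t this.1⟩) b1 b2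
        linarith [(mem_filter.1 hi).2.2, (mem_filter.1 hj).2.2]) l
    have h2 : (nr ((I.filter fun i => grp (cl i) = grp c).filter
        fun i => 0 < ε * ((cl i : ℝ) - c)) : ℝ) ≤ N (grp c) := by
      have := nr_filter_class (hB.link.sub (filter_subset (fun i => grp (cl i) = grp c) I))
        (fun z : ℕ => 0 < ε * ((z : ℝ) - c))
      exact Nat.cast_le.2 (by convert this)
    have h3 : 2 * l * N (grp c) * (1 + (2 * ν + 1) / R) = M * N (grp c) := by rw [hM]; ring
    rw [show d * M * (gam c * N (grp c)) = d * gam c * (M * N (grp c)) by ring, ← h3]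
    refine mul_le_mul_of_nonneg_left (le_trans (HW_le fun f hf => ?_) (h1.trans ?_))
      (mul_nonneg hd (hB.nonneg c))
    · rw [HW_mf] at hf
      exact HW_mf.2 ⟨mem_filter.2 ⟨hf.1, hf.2.1, hf.2.1.1 ▸ hf.2.2.1⟩, hf.2.2.2⟩
    · exact mul_le_mul_of_nonneg_right (mul_le_mul_of_nonneg_left h2 (by positivity))
        (by positivity)
  · rw [← mul_sum]
    have h1 : ∑ c ∈ I.image cl, gam c * N (grp c) ≤ g * (u * lam * d ^ 2) := by
      rw [← sum_fiberwise_of_maps_to (g := grp) (t := (I.image cl).image grp)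
        fun c hc => mem_image_of_mem _ hc]
      refine (sum_le_sum (g := fun k => g * N k) fun k _ => ?_).trans ?_
      · rw [sum_congr rfl (g := fun c => gam c * N k) fun c hc => by rw [(mem_filter.1 hc).2],
          ← sum_mul]
        exact mul_le_mul_of_nonneg_right (hw k) (Nat.cast_nonneg _)
      · rw [← mul_sum]
        refine mul_le_mul_of_nonneg_left (le_trans ?_ hB.runs) hg
        have := sum_nr_class (hB.link.comp grp) ((I.image cl).image grp)
        simp only [hN]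
        exact_mod_cast this
    calc d * M * ∑ c ∈ I.image cl, gam c * N (grp c) ≤ d * M * (g * (u * lam * d ^ 2)) :=
          mul_le_mul_of_nonneg_left h1 (by positivity)
      _ = _ := by ring

end Crest.Agent.R51
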