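import Crest.Agent.R51.Tools

/-!
# Row 51: from rank witnesses to metric witnesses
-/

set_option autoImplicit false

noncomputable section

namespace Crest.Agent.R51

open Finset Classical

lemma hw_between {P : Finset Pt} {p q : Pt} (hP : GP P) (hp : p ∈ P) (hq : q ∈ P) (θ : ℝ)
    {F : Pt → ℝ} {ε μ ρ : ℝ} (hF : ∀ r, F r = μ * h θ r) (hν : ε * μ ≠ 0) (h0 : 0 ≤ ρ)
    (hρ : ρ = ε * (F q - F p)) :
    dr P θ p q ≤ mP P F p ε ρ ∧ mP P F p ε ρ ≤ dr P θ p q + 3 := by
  have e : ∀ r, ε * (F r - F p) = ε * μ * (h θ r - h θ p) := fun r => by rw [hF, hF]; ring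
  unfold mP
  rw [hρ] at h0 ⊢
  simp only [e] at h0 ⊢
  rcases lt_or_gt_of_ne hν with c | c
  · have h1 : h θ q ≤ h θ p := by
      by_contra hc
      have := mul_neg_of_neg_of_pos c (sub_pos.2 (not_le.1 hc))
      linarith
    have h2 := hP.card_between hq hp h1
    rw [dr_comm] at h2
    have h3 : (P.filter fun r => 0 ≤ ε * μ * (h θ r - h θ p) ∧
        ε * μ * (h θ r - h θ p) ≤ ε * μ * (h θ q - h θ p)) =
        P.filter fun r => h θ q ≤ h θ r ∧ h θ r ≤ h θ p := by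
      refine filter_congr fun r _ => ?_
      rw [mul_le_mul_left_of_neg c, mul_nonneg_iff_neg_imp_nonpos]
      constructor
      · rintro ⟨a1, a2⟩
        exact ⟨by linarith, by linarith [a1.1 c]⟩
      · rintro ⟨a1, a2⟩
        exact ⟨⟨fun _ => by linarith, fun _ => c.le⟩, by linarith⟩
    rw [h3]
    exact ⟨by linarith [h2.1], h2.2⟩
  · have h1 : h θ p ≤ h θ q := by
      have := (mul_nonneg_iff_of_pos_left c).1 h0
      linarith
    have h2 := hP.card_between hp hq h1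
    have h3 : (P.filter fun r => 0 ≤ ε * μ * (h θ r - h θ p) ∧
        ε * μ * (h θ r - h θ p) ≤ ε * μ * (h θ q - h θ p)) =
        P.filter fun r => h θ p ≤ h θ r ∧ h θ r ≤ h θ q := by
      refine filter_congr fun r _ => ?_
      rw [mul_le_mul_iff_right₀ c, mul_nonneg_iff_of_pos_left c, sub_nonneg, sub_le_sub_iff_right]
    rw [h3]
    exact ⟨by linarith [h2.1], h2.2⟩

lemma hw_kap_le {a x y : ℝ} (hx : a < x) (hy : a < y) : kap a x ≤ kap a y ↔ x ≤ y := by
  unfold kap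
  rw [one_div_le_one_div_of_neg (sub_neg.2 hx) (sub_neg.2 hy), sub_le_sub_iff_left]

lemma hw_sg_ne {ε : ℝ} (hε : Sg ε) : ε ≠ 0 := by
  rcases hε with rfl | rfl <;> norm_num

theorem hwgeom : HWgeomStmt := by
  intro σ P I cl lo hi gam s U g m ε₁ ε₂ a c p hP hM hH hg hp ha hc hac h1 h2 hms hU hRW
  obtain ⟨q, hq, z, hz, haz, s1, s2, b1, b2, g1, g2, d1, d2, d3, d4⟩ := hRW
  have hx : p.1 ≠ q.1 := fun e => by rw [e, sub_self, mul_zero] at s2; exact lt_irrefl _ s2
  have hlo : ∀ c' ∈ I.image cl, a < c' → lo a < lo c' := fun c' hc' h' =>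
    (hH.lo_le_hi ha).trans_lt (hH.lt hM ha hc' h')
  have hβ : lo a < slope p q := (hlo z hz haz).trans_le b1
  have hca : lo a < lo c := hlo c hc hac
  have hY := h_sub (lo a) hx
  have hρ : 0 ≤ ε₂ * (h (lo a) q - h (lo a) p) := by
    rw [hY, mul_left_comm]
    exact (mul_pos (sub_pos.2 hβ) s2).le
  -- the weights
  have hw : 0 ≤ ε₁ * (kap (lo a) (slope p q) - kap (lo a) (lo c)) ∧
      (∀ c' ∈ I.image cl, min c z < c' → c' < max c z → a < c' ∧
        0 ≤ ε₁ * (kap (lo a) (lo c') - kap (lo a) (lo c)) ∧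
        ε₁ * (kap (lo a) (lo c') - kap (lo a) (lo c)) ≤
          ε₁ * (kap (lo a) (slope p q) - kap (lo a) (lo c))) ∧
      ∀ c' ∈ I.image cl, a < c' → 0 ≤ ε₁ * (kap (lo a) (lo c') - kap (lo a) (lo c)) →
        ε₁ * (kap (lo a) (lo c') - kap (lo a) (lo c)) ≤
          ε₁ * (kap (lo a) (slope p q) - kap (lo a) (lo c)) → min c z ≤ c' ∧ c' ≤ max c z := by
    rcases h1 with rfl | rfl
    · have hcz : c < z := by
        have : (c : ℝ) < z := by linarith
        exact_mod_cast this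
      simp only [one_mul, sub_nonneg, sub_le_sub_iff_right, min_eq_left hcz.le, max_eq_right hcz.le]
      refine ⟨(hw_kap_le hca hβ).2 ?_, fun c' hc' a1 a2 => ⟨hac.trans a1, ?_, ?_⟩,
        fun c' hc' a0 a1 a2 => ⟨?_, ?_⟩⟩
      · linarith [hH.lo_le_hi hc, hH.lt hM hc hz hcz]
      · rw [hw_kap_le hca (hlo c' hc' (hac.trans a1))]
        linarith [hH.lo_le_hi hc, hH.lt hM hc hc' a1]
      · rw [hw_kap_le (hlo c' hc' (hac.trans a1)) hβ]
        linarith [hH.lo_le_hi hc', hH.lt hM hc' hz a2]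
      · rw [hw_kap_le hca (hlo c' hc' a0)] at a1
        by_contra hn
        linarith [hH.lo_le_hi hc', hH.lt hM hc' hc (not_le.1 hn)]
      · rw [hw_kap_le (hlo c' hc' a0) hβ] at a2
        by_contra hn
        linarith [hH.lt hM hz hc' (not_le.1 hn)]
    · have hcz : z < c := by
        have : (z : ℝ) < c := by linarith
        exact_mod_cast this
      simp only [neg_one_mul, neg_sub, sub_nonneg, sub_le_sub_iff_left, min_eq_right hcz.le,
        max_eq_left hcz.le]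
      refine ⟨(hw_kap_le hβ hca).2 ?_, fun c' hc' a1 a2 => ⟨haz.trans a1, ?_, ?_⟩,
        fun c' hc' a0 a1 a2 => ⟨?_, ?_⟩⟩
      · linarith [hH.lt hM hz hc hcz]
      · rw [hw_kap_le (hlo c' hc' (haz.trans a1)) hca]
        linarith [hH.lo_le_hi hc', hH.lt hM hc' hc a2]
      · rw [hw_kap_le hβ (hlo c' hc' (haz.trans a1))]
        linarith [hH.lt hM hz hc' a1]
      · rw [hw_kap_le hβ (hlo c' hc' a0)] at a2
        by_contra hn
        linarith [hH.lo_le_hi hc', hH.lt hM hc' hz (not_le.1 hn)]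
      · rw [hw_kap_le (hlo c' hc' a0) hca] at a1
        by_contra hn
        linarith [hH.lo_le_hi hc, hH.lt hM hc hc' (not_le.1 hn)]
  have k1 := hw_between hP hp hq (lo a) (F := h (lo a)) (ε := ε₂) (μ := 1)
    (fun r => (one_mul _).symm) (by simpa using hw_sg_ne h2) hρ rfl
  have hne : lo a - lo c ≠ 0 := (sub_neg.2 hca).ne
  have hne' : lo a - slope p q ≠ 0 := (sub_neg.2 hβ).ne
  have k2 := hw_between hP hp hq (lo c) (F := xc Prod.fst (h (lo a)) (kap (lo a) (lo c)))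
    (ε := -(ε₁ * ε₂)) (μ := kap (lo a) (lo c))
    (fun r => by simp only [xc, h, kap]; field_simp; ring)
    (mul_ne_zero (neg_ne_zero.2 (mul_ne_zero (hw_sg_ne h1) (hw_sg_ne h2))) (one_div_ne_zero hne))
    (mul_nonneg hw.1 hρ) (by
      have e : q.1 - p.1 = -(kap (lo a) (slope p q) * (h (lo a) q - h (lo a) p)) := by
        rw [hY, kap]; field_simp; ring
      simp only [xc]
      linear_combination (ε₁ * ε₂) * e)
  refine ⟨_, _, hw.1, hρ, g1.trans ?_, le_trans ?_ g2, d1.trans k1.1, by linarith [k1.2],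
    d3.trans k2.1, by linarith [k2.2]⟩
  · refine sum_le_sum_of_subset_of_nonneg (fun c' hc' => ?_) fun c' _ _ => hg c'
    rw [mem_filter] at hc'
    have := hw.2.1 c' hc'.1 hc'.2.1 hc'.2.2
    exact mem_filter.2 ⟨mem_filter.2 ⟨hc'.1, this.1⟩, this.2⟩
  · refine sum_le_sum_of_subset_of_nonneg (fun c' hc' => ?_) fun c' _ _ => hg c'
    rw [mem_filter, mem_filter] at hc'
    exact mem_filter.2 ⟨hc'.1.1, hw.2.2 c' hc'.1.1 hc'.1.2 hc'.2.1 hc'.2.2⟩

end Crest.Agent.R51
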