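import Crest.Agent.R51.Tools

/-!
# Row 51: from `j`-edges to `k`-sets
-/

set_option autoImplicit false

noncomputable section

namespace Crest.Agent.R51

open Finset Classical Filter Topology

/-- lower `k`-sets -/
def ksLow (P : Finset Pt) (k : ℕ) : Finset (Finset Pt) :=
  (P.powersetCard k).filter fun S => ∃ θ : ℝ, ∀ p ∈ S, ∀ q ∈ P, q ∉ S → h θ p < h θ q

lemma ks_edge {P S : Finset Pt} (hP : GP P) {k : ℕ} (hS : S ∈ ksLow P k)
    (hne : ∃ p ∈ S, ∃ q ∈ P, q ∉ S ∧ p.1 < q.1) :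
    ∃ e ∈ edges P (k - 1), insert e.1 (P.filter fun z => below (slope e.1 e.2) z e.2) = S := by
  obtain ⟨hS1, θ, hθ⟩ := mem_filter.1 hS
  obtain ⟨hSP, hk⟩ := mem_powersetCard.1 hS1
  obtain ⟨⟨p, q⟩, he, hmin⟩ := ((S ×ˢ P).filter fun e => e.2 ∉ S ∧ e.1.1 < e.2.1).exists_min_image
    (fun e => slope e.1 e.2) (by
      obtain ⟨p, hp, q, hq, h1, h2⟩ := hne
      exact ⟨(p, q), by simp [hp, hq, h1, h2]⟩)
  simp only [mem_filter, mem_product] at he hmin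
  obtain ⟨⟨hp, hq⟩, hqS, hx⟩ := he
  have h1 : θ < slope p q := (below_left_iff hx).1 (below_of_lt (hθ p hp q hq hqS))
  have h2 : ∀ s ∈ S, ∀ t ∈ P, t ∉ S → h (slope p q) s ≤ h (slope p q) t := fun s hs t ht htS => by
    have hst : s ≠ t := fun e => htS (e ▸ hs)
    rcases lt_or_gt_of_ne (hP.ne_x (hSP hs) ht hst) with c | c
    · have a1 := hmin (s, t) ⟨⟨hs, ht⟩, htS, c⟩
      have a2 := h_sub (slope p q) c.ne
      have a3 := mul_nonneg (sub_nonneg.2 a1) (sub_pos.2 c).le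
      linarith
    · exact ((below_right_iff c).2
        (((below_right_iff c).1 (below_of_lt (hθ s hs t ht htS))).trans h1.le)).le
  have h3 := h_slope hx.ne
  have hpq : p ≠ q := fun e => hqS (e ▸ hp)
  have h4 : insert p (P.filter fun z => below (slope p q) z q) = S := by
    ext z
    rw [mem_insert, mem_filter]
    constructor
    · rintro (rfl | ⟨hz, hb⟩)
      · exact hp
      · by_contra hzS
        have a1 := h2 p hp z hz hzS
        have a2 := hb.le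
        rcases hP.eq_of_h_eq3 (hSP hp) hq hz h3.symm (le_antisymm a1 (by linarith)) with c | c | c
        · exact hpq c
        · exact hzS (c ▸ hp)
        · exact below_irrefl _ _ (c ▸ hb)
    · intro hz
      by_cases c0 : z = p
      · exact Or.inl c0
      refine Or.inr ⟨hSP hz, below_of_lt (lt_of_le_of_ne (h2 z hz q hq hqS) fun a1 => ?_)⟩
      rcases hP.eq_of_h_eq3 (hSP hp) hq (hSP hz) h3.symm (by linarith) with c | c | c
      · exact hpq c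
      · exact c0 c.symm
      · exact hqS (c ▸ hz)
  refine ⟨(p, q), mem_filter.2 ⟨mem_product.2 ⟨hSP hp, hq⟩, hx, ?_⟩, h4⟩
  have h5 : p ∉ P.filter fun z => below (slope p q) z q := fun hm =>
    lt_irrefl _ ((below_left_iff hx).1 (mem_filter.1 hm).2)
  rw [← hk, ← h4, card_insert_of_notMem h5]
  rfl

lemma ks_low_card {P : Finset Pt} (hP : GP P) (k : ℕ) :
    #(ksLow P k) ≤ #(edges P (k - 1)) + 1 := by
  rw [← card_filter_add_card_filter_not (s := ksLow P k)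
    fun S => ∃ p ∈ S, ∃ q ∈ P, q ∉ S ∧ p.1 < q.1]
  refine Nat.add_le_add ((card_le_card fun S hS => ?_).trans (card_image_le (f := fun e : Pt × Pt =>
    insert e.1 (P.filter fun z => below (slope e.1 e.2) z e.2)))) (card_le_one.2 ?_)
  · exact mem_image.2 (ks_edge hP (mem_filter.1 hS).1 (mem_filter.1 hS).2)
  · intro S hS S' hS'
    obtain ⟨a1, a2⟩ := mem_filter.1 hS
    obtain ⟨b1, b2⟩ := mem_filter.1 hS'
    obtain ⟨a3, a4⟩ := mem_powersetCard.1 (mem_filter.1 a1).1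
    obtain ⟨b3, b4⟩ := mem_powersetCard.1 (mem_filter.1 b1).1
    push Not at a2 b2
    by_contra hne
    obtain ⟨p, hp, hp'⟩ := not_subset.1 fun hs : S ⊆ S' =>
      hne (eq_of_subset_of_card_le hs (by omega))
    obtain ⟨q, hq, hq'⟩ := not_subset.1 fun hs : S' ⊆ S =>
      hne (eq_of_subset_of_card_le hs (by omega)).symm
    exact hp' (hP.xinj p (a3 hp) q (b3 hq)
      (le_antisymm (b2 q hq p (a3 hp) hp') (a2 p hp q (b3 hq) hq')) ▸ hq)

/-- shear and reflection -/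
def ksT (η σ : ℝ) (p : Pt) : Pt := (p.1 + η * p.2, σ * p.2)

lemma ksT_inj (η : ℝ) {σ : ℝ} (hσ : σ ≠ 0) : Function.Injective (ksT η σ) := fun p q e => by
  simp only [ksT, Prod.mk.injEq] at e
  have h2 := mul_left_cancel₀ hσ e.2
  have h1 := e.1
  rw [h2] at h1
  exact Prod.ext (by linarith) h2

lemma ks_shear (Q : Finset Pt) :
    ∃ η : ℝ, ∀ p ∈ Q, ∀ q ∈ Q, p.1 + η * p.2 = q.1 + η * q.2 → p = q := by
  obtain ⟨η, hη⟩ := Infinite.exists_notMem_finset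
    ((Q ×ˢ Q).image fun e : Pt × Pt => (e.2.1 - e.1.1) / (e.1.2 - e.2.2))
  refine ⟨η, fun p hp q hq e => ?_⟩
  by_cases h2 : p.2 = q.2
  · rw [h2] at e
    exact Prod.ext (by linarith) h2
  · refine absurd (mem_image.2 ⟨(p, q), mem_product.2 ⟨hp, hq⟩, ?_⟩) hη
    rw [div_eq_iff (sub_ne_zero.2 h2)]
    linarith

lemma ks_gp {Q : Finset Pt} {η σ : ℝ} (hσ : σ ≠ 0)
    (hη : ∀ p ∈ Q, ∀ q ∈ Q, p.1 + η * p.2 = q.1 + η * q.2 → p = q)
    (hQ : ∀ p ∈ Q, ∀ q ∈ Q, ∀ r ∈ Q, p ≠ q → p ≠ r → q ≠ r →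
      (q.1 - p.1) * (r.2 - p.2) - (q.2 - p.2) * (r.1 - p.1) ≠ 0) : GP (Q.image (ksT η σ)) := by
  constructor
  · simp only [forall_mem_image]
    intro p hp q hq e
    rw [hη p hp q hq e]
  · simp only [forall_mem_image]
    intro p hp q hq r hr a1 a2 a3 e
    refine hQ p hp q hq r hr (fun c => a1 (c ▸ rfl)) (fun c => a2 (c ▸ rfl))
      (fun c => a3 (c ▸ rfl)) (mul_left_cancel₀ hσ ?_)
    simp only [ksT] at e
    linarith

lemma ks_sep {Q S : Finset Pt} (η : ℝ) {a b c : ℝ} (h1 : ∀ p ∈ S, a * p.1 + b * p.2 + c < 0)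
    (h2 : ∀ p ∈ Q, p ∉ S → 0 < a * p.1 + b * p.2 + c) :
    ∃ σ : ℝ, (σ = 1 ∨ σ = -1) ∧
      ∃ θ : ℝ, ∀ p ∈ S, ∀ q ∈ Q, q ∉ S → h θ (ksT η σ p) < h θ (ksT η σ q) := by
  have h3 : ∀ᶠ δ in 𝓝 (b - a * η), ∀ p ∈ S, ∀ q ∈ Q, q ∉ S →
      a * (p.1 + η * p.2) + δ * p.2 < a * (q.1 + η * q.2) + δ * q.2 := by
    simp only [eventually_all_finset]
    intro p hp q hq
    by_cases hqS : q ∈ S
    · exact Eventually.of_forall fun _ c => absurd hqS c
    · refine (Continuous.continuousAt (by fun_prop) |>.eventually_lt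
        (Continuous.continuousAt (by fun_prop)) ?_).mono fun _ c _ => c
      linarith [h1 p hp, h2 q hq hqS]
  obtain ⟨δ, hδ, h4⟩ : ∃ δ : ℝ, δ ≠ 0 ∧ ∀ p ∈ S, ∀ q ∈ Q, q ∉ S →
      a * (p.1 + η * p.2) + δ * p.2 < a * (q.1 + η * q.2) + δ * q.2 := by
    by_cases c0 : b - a * η = 0
    · rw [c0] at h3
      exact (eventually_mem_nhdsWithin.and (h3.filter_mono (nhdsWithin_le_nhds (s := {0}ᶜ)))).exists
    · exact ⟨_, c0, h3.self_of_nhds⟩
  rcases lt_or_gt_of_ne hδ with c0 | c0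
  · refine ⟨-1, Or.inr rfl, a / δ, fun p hp q hq hqS => ?_⟩
    refine lt_of_mul_lt_mul_left ?_ (neg_pos.2 c0).le
    have e : ∀ z : Pt, -δ * h (a / δ) (ksT η (-1) z) = a * (z.1 + η * z.2) + δ * z.2 := fun z => by
      simp only [h, ksT]; field_simp; ring
    rw [e, e]
    exact h4 p hp q hq hqS
  · refine ⟨1, Or.inl rfl, -a / δ, fun p hp q hq hqS => ?_⟩
    refine lt_of_mul_lt_mul_left ?_ c0.le
    have e : ∀ z : Pt, δ * h (-a / δ) (ksT η 1 z) = a * (z.1 + η * z.2) + δ * z.2 := fun z => by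
      simp only [h, ksT]; field_simp; ring
    rw [e, e]
    exact h4 p hp q hq hqS

lemma ks_transport (Q : Finset Pt) (k : ℕ) {T : Pt → Pt} (hT : Function.Injective T) :
    #((Q.powersetCard k).filter fun S =>
      ∃ θ : ℝ, ∀ p ∈ S, ∀ q ∈ Q, q ∉ S → h θ (T p) < h θ (T q)) ≤ #(ksLow (Q.image T) k) := by
  refine card_le_card_of_injOn (fun S => S.image T) (fun S hS => ?_)
    fun S _ S' _ e => image_injective hT e
  obtain ⟨a1, θ, a2⟩ := mem_filter.1 (mem_coe.1 hS)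
  obtain ⟨a3, a4⟩ := mem_powersetCard.1 a1
  refine mem_coe.2 (mem_filter.2 ⟨mem_powersetCard.2
    ⟨image_subset_image a3, by rw [card_image_of_injective _ hT, a4]⟩, θ, ?_⟩)
  simp only [forall_mem_image]
  exact fun p hp q hq hqS => a2 p hp q hq fun c => hqS (mem_image_of_mem T c)

theorem ksets (he : EdgeStmt) : KsetStmt := by
  obtain ⟨ε, hε, hε', C, hC, he⟩ := he
  refine ⟨ε, hε, 2 * C + 2, fun n hn k hk hkn Q hQ hcol => ?_⟩
  obtain ⟨η, hη⟩ := ks_shear Q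
  have hn1 : (1 : ℝ) ≤ n := by exact_mod_cast (by omega : 1 ≤ n)
  have hx : (1 : ℝ) ≤ ((k : ℝ) + 1) ^ ((1 : ℝ) / 3 - ε) :=
    Real.one_le_rpow (by linarith [(Nat.cast_nonneg k : (0 : ℝ) ≤ k)]) (by linarith)
  have hone : (1 : ℝ) ≤ n * ((k : ℝ) + 1) ^ ((1 : ℝ) / 3 - ε) := one_le_mul_of_one_le_of_one_le hn1 hx
  have key : ∀ σ : ℝ, σ ≠ 0 → (#((Q.powersetCard k).filter fun S =>
      ∃ θ : ℝ, ∀ p ∈ S, ∀ q ∈ Q, q ∉ S → h θ (ksT η σ p) < h θ (ksT η σ q)) : ℝ) ≤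
      (C + 1) * n * ((k : ℝ) + 1) ^ ((1 : ℝ) / 3 - ε) := fun σ hσ => by
    have hgp := ks_gp hσ hη hcol
    have hc : #(Q.image (ksT η σ)) = n := by rw [card_image_of_injective _ (ksT_inj η hσ), hQ]
    have a1 := he _ hgp k hk (by omega)
    rw [hc] at a1
    have a2 := (ks_transport Q k (ksT_inj η hσ)).trans (ks_low_card hgp k)
    have a3 := (Nat.cast_le (α := ℝ)).2 a2
    push_cast at a3
    linarith
  have k1 := key 1 one_ne_zero
  have k2 := key (-1) (by norm_num)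
  have hsub : ((Q.powersetCard k).filter fun S => ∃ a b c : ℝ, (a ≠ 0 ∨ b ≠ 0) ∧
      (∀ p ∈ S, a * p.1 + b * p.2 + c < 0) ∧ (∀ p ∈ Q, p ∉ S → 0 < a * p.1 + b * p.2 + c)) ⊆
      ((Q.powersetCard k).filter fun S =>
        ∃ θ : ℝ, ∀ p ∈ S, ∀ q ∈ Q, q ∉ S → h θ (ksT η 1 p) < h θ (ksT η 1 q)) ∪
      ((Q.powersetCard k).filter fun S =>
        ∃ θ : ℝ, ∀ p ∈ S, ∀ q ∈ Q, q ∉ S → h θ (ksT η (-1) p) < h θ (ksT η (-1) q)) := by
    intro S hS
    obtain ⟨a1, a, b, c, -, a2, a3⟩ := mem_filter.1 hS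
    obtain ⟨σ, rfl | rfl, a4⟩ := ks_sep η a2 a3
    · exact mem_union_left _ (mem_filter.2 ⟨a1, a4⟩)
    · exact mem_union_right _ (mem_filter.2 ⟨a1, a4⟩)
  have a5 := (Nat.cast_le (α := ℝ)).2 ((card_le_card hsub).trans (card_union_le _ _))
  push_cast at a5
  linarith

end Crest.Agent.R51
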