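import Crest.Agent.R51.Tools

/-!
# Row 51: level `B`
-/

set_option autoImplicit false

noncomputable section

namespace Crest.Agent.R51

open Finset Classical

lemma sum_bdry_le {κ : Type} (c : Pt → κ) {P : Finset Pt} {v : ℤ → Pt} {I : Finset ℤ}
    (hS : Sys P v I) (T : Finset κ) :
    ∑ k ∈ T, (#(I.filter fun l => ¬ (v l ∈ part c k P ↔ v (l + 1) ∈ part c k P)) : ℝ) ≤
      2 * #(cut c v I) := by
  have h1 : ∀ k, (#(I.filter fun l => ¬ (v l ∈ part c k P ↔ v (l + 1) ∈ part c k P)) : ℝ) ≤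
      #((cut c v I).filter fun l => c (v l) = k) +
        #((cut c v I).filter fun l => c (v (l + 1)) = k) := fun k => by
    have : (I.filter fun l => ¬ (v l ∈ part c k P ↔ v (l + 1) ∈ part c k P)) ⊆
        ((cut c v I).filter fun l => c (v l) = k) ∪
          ((cut c v I).filter fun l => c (v (l + 1)) = k) := fun l hl => by
      obtain ⟨a, b⟩ := mem_filter.mp hl
      simp only [mem_part, hS.memL l a, hS.memR l a, true_and] at b
      simp only [mem_union, mem_filter, mem_cut, a, true_and]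
      by_cases e : c (v l) = k
      · exact Or.inl ⟨fun e' => b ⟨fun _ => e' ▸ e, fun _ => e⟩, e⟩
      · have e2 : c (v (l + 1)) = k := by
          by_contra e2
          exact b ⟨fun x => absurd x e, fun x => absurd x e2⟩
        exact Or.inr ⟨fun e' => e (e'.trans e2), e2⟩
    exact_mod_cast (card_le_card this).trans (card_union_le _ _)
  have h2 : ∀ f : ℤ → κ, ∑ k ∈ T, (#((cut c v I).filter fun l => f l = k) : ℝ) ≤ #(cut c v I) :=
    fun f => by
      have := sum_card_fiberwise_eq_card_filter (cut c v I) T f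
      have h3 := card_filter_le (cut c v I) fun l => f l ∈ T
      exact_mod_cast this.le.trans (by convert h3)
  refine (sum_le_sum fun k _ => h1 k).trans ?_
  rw [sum_add_distrib]
  linarith [h2 fun l => c (v l), h2 fun l => c (v (l + 1))]

lemma Cfg.mono_u {lam d u u' : ℝ} {P : Finset Pt} {v : ℤ → Pt} {I G : Finset ℤ}
    (hC : Cfg lam d u P v I G) (hu : 0 < u) (h : u ≤ u') (hl : 0 ≤ lam) : Cfg lam d u' P v I G :=
  ⟨⟨hC.sys, hC.cardP, hC.runs.trans (by gcongr)⟩, hC.sub, le_trans (by gcongr) hC.big⟩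

/-- descent to the scale `lam'` with control of the boundary edges -/
lemma levelB_desc (hp : PartStmt) (hd : DescendStmt) {ω lam d lam' : ℝ} {P : Finset Pt}
    {v : ℤ → Pt} {I : Finset ℤ} (hω : 10000 ≤ ω) (hl : 0 < lam) (h1 : lam ≤ ω * d)
    (h2 : d ≤ ω * lam) (h3 : ω ^ 4 ≤ lam') (h4 : lam' ≤ d) (hC : Cfg lam d ω P v I I)
    (hL : Lv P v I) : ∃ (P₁ : Finset Pt) (I₁ : Finset ℤ) (D : Finset ℝ),
      Cfg lam' d (ω ^ 16) P₁ v I₁ I₁ ∧ (#D : ℝ) ≤ ω ^ 16 * lam' * d ^ 2 ∧
      ∀ i ∈ I₁, ∀ j ∈ I₁, sl v i ≤ sl v j →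
        |(rk P₁ (sl v i) (v (i + 1)) : ℝ) - rk P₁ (sl v j) (v (j + 1))| ≤
          #(D.filter fun x => sl v i ≤ x ∧ x ≤ sl v j) := by
  have hω1 : 1 ≤ ω := by linarith
  have hω3 : 1 ≤ ω ^ 3 := one_le_pow₀ hω1
  have h5 : 10000 * ω ^ 3 ≤ lam' := le_trans (by rw [pow_succ' ω 3]; gcongr) h3
  have hl' : 1 ≤ lam' := by linarith
  obtain ⟨c, hc1, hc2⟩ := hp lam d ω P v I hC.toCfg0 hω1 (by linarith) hl h1 lam' hl'
  have hX : 0 ≤ lam ^ 2 * d ^ 2 / lam' := by positivity
  obtain ⟨k, hk1, hk2⟩ := hd lam d ω (52 * ω ^ 2) lam' P v I I (ℤ × ℕ) c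
    (fun k => #(I.filter fun l => ¬ (v l ∈ part c k P ↔ v (l + 1) ∈ part c k P))) hC hω1
    (by nlinarith) hl (by nlinarith) h4 (by nlinarith) (fun k => Nat.cast_nonneg _) hc1 (by
      refine (add_le_add le_rfl (sum_bdry_le c hC.sys _)).trans ?_
      have a2 : (nr I : ℝ) ≤ ω ^ 2 * (lam ^ 2 * d ^ 2 / lam') := by
        refine hC.runs.trans ?_
        rw [← mul_div_assoc, le_div_iff₀ (by linarith)]
        calc ω * lam * d ^ 2 * lam' ≤ ω * lam * d ^ 2 * (ω * lam) := by gcongr; linarith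
          _ = _ := by ring
      have a3 : ω * (lam ^ 2 * d ^ 2 / lam') ≤ ω ^ 2 * (lam ^ 2 * d ^ 2 / lam') := by
        gcongr; nlinarith
      rw [mul_div_assoc] at hc2 ⊢
      linarith)
  have hu : 8000 * (8 * ω * (52 * ω ^ 2)) ^ 4 ≤ ω ^ 16 := by
    have a1 : (10000 : ℝ) ^ 4 ≤ ω ^ 4 := by gcongr
    calc 8000 * (8 * ω * (52 * ω ^ 2)) ^ 4 = 8000 * 416 ^ 4 * ω ^ 12 := by ring
      _ ≤ ω ^ 4 * ω ^ 12 := by gcongr; linarith
      _ = _ := by ring
  refine ⟨part c k P, inside c k v I,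
    (I.filter fun l => ¬ (v l ∈ part c k P ↔ v (l + 1) ∈ part c k P)).image (sl v),
    hk1.mono_u (by positivity) hu (by linarith), ?_, fun i hi j hj hij => ?_⟩
  · exact le_trans (Nat.cast_le.mpr card_image_le) (hk2.trans (by gcongr))
  · have hS := hC.sys.part c k
    refine (hL (part c k P) (fun p h => (mem_part.mp h).1) i (mem_inside.mp hi).1 j (mem_inside.mp hj).1
      (hS.memL i hi) (hS.memR i hi) (hS.memL j hj) (hS.memR j hj) hij).trans
      (Nat.cast_le.mpr (card_le_card_of_injOn (sl v) (fun l hl => ?_) fun a ha b hb e => ?_))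
    · obtain ⟨a, b, c', e⟩ := mem_filter.mp (mem_coe.mp hl)
      exact mem_coe.mpr (mem_filter.mpr ⟨mem_image_of_mem _ (mem_filter.mpr ⟨a, e⟩), b, c'⟩)
    · exact hC.sys.inj a (mem_filter.mp (mem_coe.mp ha)).1 b (mem_filter.mp (mem_coe.mp hb)).1 e

/-- blocks of `N` consecutive windows -/
lemma card_blk_le {I : Finset ℤ} {win : ℤ → ℕ} {m : ℝ} {N : ℕ} (hN : 0 < N)
    (h : ∀ w, (#(I.filter fun i => win i = w) : ℝ) ≤ m) (β : ℕ) :
    (#(I.filter fun i => win i / N = β) : ℝ) ≤ N * m := by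
  rw [card_eq_sum_card_fiberwise (f := win) (t := Ico (β * N) (β * N + N)) fun i hi => ?_]
  · push_cast
    refine (sum_le_card_nsmul _ _ m fun w _ => le_trans (Nat.cast_le.mpr (card_le_card
      fun i hi => ?_)) (h w)).trans (le_of_eq ?_)
    · simp only [mem_filter] at hi ⊢
      exact ⟨hi.1.1, hi.2⟩
    · simp
  · have e := (mem_filter.mp (mem_coe.mp hi)).2
    have a1 := Nat.div_add_mod (win i) N
    have a2 := Nat.mod_lt (win i) hN
    rw [e, mul_comm] at a1
    exact mem_coe.mpr (mem_Ico.mpr ⟨by omega, by omega⟩)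

/-- edges at points of moderate degree that are active in many windows -/
lemma card_active_le {P : Finset Pt} {v : ℤ → Pt} {I : Finset ℤ} (hS : Sys P v I) (win : ℤ → ℕ)
    {K A b : ℝ} (hK : 0 < K) (hb : 0 ≤ b)
    (h : ∑ p ∈ P, (#((I.filter fun i => v i = p).image win) : ℝ) ≤ A) :
    (#(I.filter fun i => (#(I.filter fun j => v j = v i) : ℝ) < b ∧
      K < #((I.filter fun j => v j = v i).image win)) : ℝ) ≤ A / K * b := by
  have h1 := card_mul_le_sum P (fun p => (#((I.filter fun i => v i = p).image win) : ℝ)) K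
    (fun _ _ => Nat.cast_nonneg _) (fun p => K < #((I.filter fun i => v i = p).image win))
    fun _ _ h => h.le
  rw [card_eq_sum_card_fiberwise (f := v)
    (t := P.filter fun p => K < #((I.filter fun i => v i = p).image win)) fun i hi => ?_]
  · push_cast
    refine (sum_le_card_nsmul _ _ b fun p _ => ?_).trans ?_
    · rcases eq_empty_or_nonempty ((I.filter fun i => (#(I.filter fun j => v j = v i) : ℝ) < b ∧
        K < #((I.filter fun j => v j = v i).image win)).filter fun i => v i = p) with e | ⟨i, hi⟩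
      · rw [e]; simpa using hb
      · simp only [mem_filter] at hi
        refine le_trans (Nat.cast_le.mpr (card_le_card fun j hj => ?_)) hi.1.2.1.le
        simp only [mem_filter] at hj ⊢
        exact ⟨hj.1.1, hj.2.trans hi.2.symm⟩
    · rw [nsmul_eq_mul]
      gcongr
      rw [le_div_iff₀ hK]
      exact h1.trans h
  · obtain ⟨a, -, c⟩ := mem_filter.mp (mem_coe.mp hi)
    exact mem_coe.mpr (mem_filter.mpr ⟨hS.memL i a, c⟩)

lemma levelB_main (hc : CardStmt) (hg : GammaStmt) (hdeg : DegStmt) (ha : AlphaStmt)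
    (hn : NarrowStmt) {u Z y lam d M : ℝ} {P : Finset Pt} {v : ℤ → Pt} {I : Finset ℤ}
    {D : Finset ℝ} (hu : 10000 ≤ u) (hZ : u ^ 2 ≤ Z) (hy : Z ^ 70 ≤ y) (hl : y ≤ lam)
    (hd : d = lam * y) (hM0 : 0 ≤ M) (hM : M ≤ y ^ 2 / Z ^ 70) (hC : Cfg lam d u P v I I)
    (hD : (#D : ℝ) ≤ u * lam * d ^ 2)
    (hL : ∀ i ∈ I, ∀ j ∈ I, sl v i ≤ sl v j →
      |(rk P (sl v i) (v (i + 1)) : ℝ) - rk P (sl v j) (v (j + 1))| ≤
        #(D.filter fun x => sl v i ≤ x ∧ x ≤ sl v j)) :
    ∃ (I' G' : Finset ℤ) (win blk : ℤ → ℕ), Cfg lam d (2 * u) P v I' G' ∧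
      Win v I' G' win blk (y ^ 2) (u ^ 9 * y) (d / Z) M := by
  have huZ : 10000 * u ≤ Z := le_trans (by rw [sq]; gcongr) hZ
  have hZ1 : 1 ≤ Z := by linarith
  have pZ : ∀ {n : ℕ}, n ≤ 70 → Z ^ n ≤ y := fun h => (pow_le_pow_right₀ hZ1 h).trans hy
  have hZy : Z ≤ y := by simpa using pZ (n := 1) (by norm_num)
  have hy1 : 1 ≤ y := by linarith
  have hl1 : 1 ≤ lam := by linarith
  have hld : lam ≤ d := by rw [hd]; exact le_mul_of_one_le_right (by linarith) hy1
  have hyd : y ≤ d := by linarith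
  have hd0 : 0 < d := by linarith
  have hyy : y ≤ y ^ 2 := le_self_pow₀ hy1 (by norm_num)
  set X := lam ^ 2 * d ^ 2 with hX
  have hXy : y ^ 2 ≤ X :=
    calc y ^ 2 ≤ d ^ 2 := by gcongr
      _ ≤ X := le_mul_of_one_le_left (by positivity) (one_le_pow₀ hl1)
  have hX0 : 0 < X := by positivity
  have hI := hc lam d u P v I hC.toCfg0 (by linarith) (by linarith) (by linarith)
    (hld.trans (le_mul_of_one_le_left hd0.le (by linarith)))
  set W := 13 * u * X / y ^ 2 with hW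
  have hW1 : 1 ≤ W := by
    rw [hW, le_div_iff₀ (by positivity)]; nlinarith
  obtain ⟨win, hw1, hw2, hw3⟩ := exists_quantile (sl v) I hC.sys.inj (W := W) (by linarith)
  replace hw2 : ∀ c, (#(I.filter fun i => win i = c) : ℝ) ≤ 2 * W := fun c => by linarith [hw2 c]
  replace hw3 : ∀ i, (win i : ℝ) ≤ y ^ 2 := fun i => (hw3 i).trans (by
    rw [div_le_iff₀ (by linarith), hW, mul_div_cancel₀ _ (by positivity)]; exact hI)
  obtain ⟨N, hN0, hN1, hN2⟩ : ∃ N : ℕ, 0 < N ∧ (N : ℝ) ≤ y ^ 2 / Z ^ 32 ∧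
      y ^ 2 / Z ^ 32 ≤ 2 * N := by
    have a1 : 1 ≤ y ^ 2 / Z ^ 32 := by
      rw [le_div_iff₀ (by positivity)]; linarith [pZ (n := 32) (by norm_num)]
    have a2 := Nat.floor_pos.mpr a1
    have a3 := Nat.lt_floor_add_one (y ^ 2 / Z ^ 32)
    have a4 : (1 : ℝ) ≤ ⌊y ^ 2 / Z ^ 32⌋₊ := by exact_mod_cast a2
    exact ⟨_, a2, Nat.floor_le (by positivity), by linarith⟩
  set blk : ℤ → ℕ := fun i => win i / N with hblk
  have hb1 : Mono (sl v) I blk := hw1.comp (g := fun w => w / N) fun _ _ h => Nat.div_le_div_right h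
  have hb2 : (#(I.image blk) : ℝ) ≤ Z ^ 33 := by
    refine (card_image_le_of_bdd (r := 2 * Z ^ 32) (by positivity) fun i _ => ?_).trans ?_
    · refine Nat.cast_div_le.trans ?_
      rw [div_le_iff₀ (by positivity)] at hN2 ⊢
      linarith [hw3 i]
    · have : 1 ≤ Z ^ 32 := one_le_pow₀ hZ1
      rw [pow_succ Z 32]; nlinarith
  have hb3 : ∀ β, (#(I.filter fun i => blk i = β) : ℝ) ≤ X / Z ^ 30 := fun β => by
    refine (card_blk_le hN0 hw2 β).trans ?_
    calc (N : ℝ) * (2 * W) ≤ y ^ 2 / Z ^ 32 * (2 * W) := by gcongr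
      _ = 26 * u * X / Z ^ 32 := by rw [hW]; field_simp; norm_num
      _ ≤ Z ^ 2 * X / Z ^ 32 := by gcongr; nlinarith
      _ = _ := by field_simp
  set I' := I.filter fun i => ¬ (i - 1 ∈ I ∧ blk (i - 1) ≠ blk i) with hI'
  have hsub : I' ⊆ I := filter_subset _ _
  have hdel : (#(I \ I') : ℝ) ≤ Z ^ 33 * (lam ^ 2 * d) := by
    have a1 : #(I \ I') ≤ #(I.image blk) * #P :=
      le_trans (card_le_card fun i hi => by
        rw [mem_sdiff, hI', mem_filter] at hi
        exact mem_filter.mpr ⟨hi.1, not_not.mp fun h => hi.2 ⟨hi.1, h⟩⟩) (hC.sys.class_change hb1)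
    have a2 : (#(I \ I') : ℝ) ≤ #(I.image blk) * #P := by exact_mod_cast a1
    exact a2.trans (mul_le_mul hb2 hC.cardP (Nat.cast_nonneg _) (by positivity))
  have hrl : Z ^ 33 * lam ≤ d := by
    rw [hd, mul_comm]; gcongr; exact pZ (by norm_num)
  have hC' : Cfg0 lam d (2 * u) P v I' := by
    refine ⟨hC.sys.sub hsub, hC.cardP, ?_⟩
    have a1 : (nr I' : ℝ) ≤ nr I + #(I \ I') := by exact_mod_cast nr_le_sdiff hsub
    have a2 : Z ^ 33 * (lam ^ 2 * d) ≤ u * lam * d ^ 2 :=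
      calc Z ^ 33 * (lam ^ 2 * d) = 1 * lam * (Z ^ 33 * lam * d) := by ring
        _ ≤ u * lam * (d * d) := by gcongr; linarith
        _ = _ := by ring
    linarith [hC.runs]
  have hb2' : (#(I'.image blk) : ℝ) ≤ Z ^ 33 :=
    le_trans (Nat.cast_le.mpr (card_le_card (image_subset_image hsub))) hb2
  have B1 := hg lam d (2 * u) Z (Z ^ 33) P v I' blk hC' (hb1.sub hsub) (link_filter I blk)
    (by linarith) (by linarith) (by linarith) ((pZ (by norm_num)).trans hl) hld
    ((pZ (by norm_num)).trans hyd) hb2' hrl fun β =>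
      le_trans (Nat.cast_le.mpr (card_le_card (filter_subset_filter _ hsub))) (hb3 β)
  have hu2 : 1 ≤ u ^ 2 := one_le_pow₀ (by linarith)
  have B2 := hdeg lam d u P v I hC.toCfg0 (by linarith) (by linarith) (by linarith)
    (hld.trans (le_mul_of_one_le_left hd0.le (by linarith))) (4000 * u ^ 2) (by linarith)
  have B3 := card_active_le hC.sys win (K := u ^ 9 * y) (b := (4000 * u ^ 2) ^ 2 * d)
    (A := 9 * u * y * (lam ^ 2 * d)) (by positivity) (by positivity) (by
      have hs : y ≤ lam ^ 2 * d := hyd.trans (le_mul_of_one_le_left hd0.le (one_le_pow₀ hl1))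
      have hs' : 1 ≤ lam ^ 2 * d / y := (one_le_div (by linarith)).mpr hs
      refine (ha P v I D win (y ^ 2) (lam ^ 2 * d / y) hC.sys hw1 (fun i _ => hw3 i)
        (by positivity) (by positivity) hL).trans ?_
      have a1 : u * lam * d ^ 2 = u * (y * (lam ^ 2 * d)) := by rw [hd]; ring
      have a2 : (y ^ 2 + 1) * (2 * (lam ^ 2 * d / y) + 1) ≤ 6 * (y * (lam ^ 2 * d)) :=
        calc _ ≤ (2 * y ^ 2) * (3 * (lam ^ 2 * d / y)) := by gcongr <;> linarith
          _ = _ := by field_simp; norm_num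
      have a3 : (#P : ℝ) ^ 2 / (lam ^ 2 * d / y) ≤ y * (lam ^ 2 * d) :=
        calc _ ≤ (lam ^ 2 * d) ^ 2 / (lam ^ 2 * d / y) := by gcongr; exact hC.cardP
          _ = _ := by field_simp
      have a4 : y * (lam ^ 2 * d) ≤ u * (y * (lam ^ 2 * d)) :=
        le_mul_of_one_le_left (by positivity) (by linarith)
      linarith)
  have B4 := hn (sl v) I' win blk M (2 * W) (Z ^ 33) (hw1.sub hsub) (hb1.sub hsub)
    (fun i _ j _ e => congrArg (· / N) e) hM0 (fun w =>
      le_trans (Nat.cast_le.mpr (card_le_card (filter_subset_filter _ hsub))) (hw2 w)) hb2'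
  set G' := I'.filter fun i => (#(I'.filter fun j => v j = v i ∧ blk j = blk i) : ℝ) < d / Z ∧
    (#((I.filter fun j => v j = v i).image win) : ℝ) ≤ u ^ 9 * y ∧
    Narrow (sl v) I' win blk M i with hG'
  refine ⟨I', G', win, blk, ⟨hC', filter_subset _ _, ?_⟩, hw1.sub hsub, hb1.sub hsub,
    fun i _ j _ e => congrArg (· / N) e, fun i _ => hw3 i, fun p => ?_, fun p β => ?_,
    fun i hi => (mem_filter.mp hi).2.2.2⟩
  · have a0 : I ⊆ G' ∪ (I \ I') ∪
        (I'.filter fun i => d / Z ≤ (#(I'.filter fun j => v j = v i ∧ blk j = blk i) : ℝ)) ∪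
        (I.filter fun i => (4000 * u ^ 2) ^ 2 * d ≤ (#(I.filter fun j => v j = v i) : ℝ)) ∪
        (I.filter fun i => (#(I.filter fun j => v j = v i) : ℝ) < (4000 * u ^ 2) ^ 2 * d ∧
          u ^ 9 * y < #((I.filter fun j => v j = v i).image win)) ∪
        (I'.filter fun i => ¬ Narrow (sl v) I' win blk M i) := fun i hi => by
      by_contra hcon
      simp only [mem_union, not_or] at hcon
      obtain ⟨⟨⟨⟨⟨c1, c2⟩, c3⟩, c4⟩, c5⟩, c6⟩ := hcon
      have hi' : i ∈ I' := not_not.mp fun h => c2 (mem_sdiff.mpr ⟨hi, h⟩)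
      have c4' := not_le.mp fun h => c4 (mem_filter.mpr ⟨hi, h⟩)
      exact c1 (mem_filter.mpr ⟨hi', not_le.mp fun h => c3 (mem_filter.mpr ⟨hi', h⟩),
        not_lt.mp fun h => c5 (mem_filter.mpr ⟨hi, c4', h⟩),
        not_not.mp fun h => c6 (mem_filter.mpr ⟨hi', h⟩)⟩)
    have a1 := (card_le_card a0).trans ((card_union_le _ _).trans (Nat.add_le_add_right
      ((card_union_le _ _).trans (Nat.add_le_add_right ((card_union_le _ _).trans
        (Nat.add_le_add_right ((card_union_le _ _).trans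
          (Nat.add_le_add_right (card_union_le _ _) _)) _)) _)) _))
    have a2 := (Nat.cast_le (α := ℝ)).mpr a1
    push_cast at a2
    have hXZ : X / Z ≤ X / u / 10000 := by
      rw [div_div]; gcongr; linarith
    have e1 : Z ^ 33 * (lam ^ 2 * d) ≤ X / Z := by
      rw [le_div_iff₀ (by linarith)]
      calc Z ^ 33 * (lam ^ 2 * d) * Z = Z ^ 34 * (lam ^ 2 * d) := by ring
        _ ≤ d * (lam ^ 2 * d) := by gcongr; exact (pZ (by norm_num)).trans hyd
        _ = X := by rw [hX]; ring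
    have e2 : (360 * u / (4000 * u ^ 2) + 8 / d) * X ≤ 9 / 100 * (X / u) + 8 * (X / Z) :=
      calc _ = 9 / 100 * (X / u) + 8 * (X / d) := by field_simp; ring
        _ ≤ _ := by gcongr; linarith
    have e3 : 9 * u * y * (lam ^ 2 * d) / (u ^ 9 * y) * ((4000 * u ^ 2) ^ 2 * d) ≤
        1 / 10 * (X / u) := by
      have : (10000 : ℝ) ^ 3 ≤ u ^ 3 := by gcongr
      calc _ = 9 * 4000 ^ 2 / u ^ 3 * (X / u) := by rw [hX]; field_simp
        _ ≤ _ := mul_le_mul_of_nonneg_right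
          (by rw [div_le_iff₀ (by positivity)]; linarith) (by positivity)
    have e4 : (Z ^ 33) ^ 2 * (2 * M + 1) * (2 * W) ≤ X / Z := by
      have a5 : 1 ≤ y ^ 2 / Z ^ 70 := (one_le_div (by positivity)).mpr (hy.trans hyy)
      have a6 : Z ≤ Z ^ 3 := le_self_pow₀ hZ1 (by norm_num)
      calc _ ≤ (Z ^ 33) ^ 2 * (3 * (y ^ 2 / Z ^ 70)) * (2 * W) := by gcongr; linarith
        _ = 78 * u / Z ^ 3 * (X / Z) := by rw [hW]; field_simp; norm_num
        _ ≤ 1 * (X / Z) := by
          gcongr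
          rw [div_le_one (by positivity)]; linarith
        _ = _ := one_mul _
    have e5 : X / (2 * u) = X / u / 2 := by rw [div_div, mul_comm]
    have e6 : 0 ≤ X / u := by positivity
    have e7 := hC.big
    rw [e5]
    linarith
  · rcases eq_empty_or_nonempty (G'.filter fun i => v i = p) with e | ⟨i, hi⟩
    · rw [e, image_empty, card_empty, Nat.cast_zero]; positivity
    · obtain ⟨a, rfl⟩ := mem_filter.mp hi
      exact le_trans (Nat.cast_le.mpr (card_le_card (image_subset_image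
        (filter_subset_filter _ ((filter_subset _ _).trans hsub))))) (mem_filter.mp a).2.2.1
  · rcases eq_empty_or_nonempty (G'.filter fun i => v i = p ∧ blk i = β) with e | ⟨i, hi⟩
    · rw [e, card_empty, Nat.cast_zero]; positivity
    · obtain ⟨a, rfl, rfl⟩ := mem_filter.mp hi
      exact le_trans (Nat.cast_le.mpr (card_le_card
        (filter_subset_filter _ (filter_subset _ _)))) (mem_filter.mp a).2.1.le

theorem levelB (hc : CardStmt) (hp : PartStmt) (hd : DescendStmt) (hg : GammaStmt)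
    (hdeg : DegStmt) (ha : AlphaStmt) (hn : NarrowStmt) : LevelBStmt := by
  refine ⟨200, fun ω Z y lam d P v I hω hZ hy hdy hl h1 h2 hC hL => ?_⟩
  have hω1 : 1 ≤ ω := by linarith
  have hZ1 : 1 ≤ Z := (one_le_pow₀ hω1).trans hZ
  have hZy : Z ≤ y := (le_self_pow₀ hZ1 (by norm_num)).trans hy
  have hy1 : 1 ≤ y := by linarith
  have hyd : y ≤ d / y := by
    rw [le_div_iff₀ (by linarith), ← sq]
    exact (pow_le_pow_right₀ hy1 (by norm_num)).trans hdy
  have hd0 : 0 ≤ d := le_trans (by positivity) hdy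
  obtain ⟨P₁, I₁, D, c1, c2, c3⟩ := levelB_desc hp hd (lam' := d / y) hω hl h1 h2
    (((pow_le_pow_right₀ hω1 (by norm_num)).trans hZ).trans (hZy.trans hyd))
    (div_le_self hd0 hy1) hC hL
  obtain ⟨I', G', win, blk, e1, e2⟩ := levelB_main hc hg hdeg ha hn (Z := Z) (y := y)
    (M := y ^ 2 / Z ^ 200) (hω.trans (le_self_pow₀ hω1 (by norm_num)))
    (by rw [← pow_mul]; exact (pow_le_pow_right₀ hω1 (by norm_num)).trans hZ)
    ((pow_le_pow_right₀ hZ1 (by norm_num)).trans hy) hyd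
    (div_mul_cancel₀ d (by positivity)).symm (by positivity)
    (by gcongr; norm_num) c1 c2 c3
  refine ⟨P₁, I', G', win, blk, e1.mono_u (by positivity) ?_ (by linarith),
    e2.mono, e2.monoB, e2.same, e2.bdd, fun p => (e2.few p).trans ?_, e2.spread, e2.narrow⟩
  · calc 2 * ω ^ 16 ≤ ω * ω ^ 16 := by gcongr; linarith
      _ = ω ^ 17 := by ring
      _ ≤ _ := pow_le_pow_right₀ hω1 (by norm_num)
  · rw [← pow_mul]; gcongr; norm_num

end Crest.Agent.R51
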