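import Crest.Agent.R51.Tools

/-!
# Row 51: levels `B₁` and `B₂`
-/

set_option autoImplicit false

noncomputable section

namespace Crest.Agent.R51

open Finset Classical

lemma lb2_mono {lam d u u' : ℝ} {P : Finset Pt} {v : ℤ → Pt} {I G : Finset ℤ}
    (h : Cfg lam d u P v I G) (hu : 0 < u) (hu' : u ≤ u') (hl : 0 ≤ lam) :
    Cfg lam d u' P v I G where
  sys := h.sys
  cardP := h.cardP
  runs := h.runs.trans (by gcongr)
  sub := h.sub
  big := le_trans (by gcongr) h.big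

/-- descent with rounded constants -/
lemma lb2_desc (hd : DescendStmt) {lam d u lam' : ℝ} {P : Finset Pt} {v : ℤ → Pt} {I G : Finset ℤ}
    {κ : Type} (c : Pt → κ) (h : Cfg lam d u P v I G) (hu : 10000 ≤ u) (h1 : u ^ 3 ≤ lam')
    (h2 : lam' ≤ lam) (h3 : lam ≤ d) (hc : ∀ k, (#(part c k P) : ℝ) ≤ lam' ^ 2 * d)
    (hcut : (#(cut c v I) : ℝ) ≤ 18 * u * (lam ^ 2 * d ^ 2) / lam') :
    ∃ k, Cfg lam' d (u ^ 12) (part c k P) v (inside c k v I) (inside c k v G) := by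
  have hu0 : 0 < u := by linarith
  have h4 : 10000 * u ^ 2 ≤ lam' := le_trans (by nlinarith [pow_pos hu0 2]) h1
  have hl' : 0 < lam' := lt_of_lt_of_le (by positivity) h4
  have hl : 0 < lam := hl'.trans_le h2
  have h5 : u * lam * d ^ 2 ≤ u * (lam ^ 2 * d ^ 2) / lam' := by
    rw [le_div_iff₀ hl']
    calc u * lam * d ^ 2 * lam' ≤ u * lam * d ^ 2 * lam := by gcongr
      _ = _ := by ring
  obtain ⟨k, hk, -⟩ := hd lam d u (19 * u) lam' P v I G κ c (fun _ => 0) h (by linarith)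
    (by linarith) hl (by nlinarith) (h2.trans h3) (by nlinarith) (fun _ => le_rfl) hc (by
      have := h.runs
      rw [sum_const_zero, add_zero,
        show 19 * u * (lam ^ 2 * d ^ 2) / lam' =
          18 * u * (lam ^ 2 * d ^ 2) / lam' + u * (lam ^ 2 * d ^ 2) / lam' by ring]
      linarith)
  refine ⟨k, lb2_mono hk (by positivity) ?_ hl'.le⟩
  have h6 : (10000 : ℝ) ^ 4 ≤ u ^ 4 := by gcongr
  calc 8000 * (8 * u * (19 * u)) ^ 4 = 8000 * 152 ^ 4 * u ^ 8 := by ring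
    _ ≤ u ^ 4 * u ^ 8 := by
      refine mul_le_mul_of_nonneg_right (le_trans (by norm_num) h6) (by positivity)
    _ = u ^ 12 := by ring

/-- direction classes at level `B₁` -/
lemma lb2_classes (hc : CardStmt) (hg : GammaStmt) (he : ExcessStmt) {lam d w Z N : ℝ} {E : ℕ}
    {P : Finset Pt} {v : ℤ → Pt} {I G : Finset ℤ} {win : ℤ → ℕ} (h : Cfg lam d w P v I G)
    (hM : Mono (sl v) I win) (hwin : ∀ i ∈ I, (win i : ℝ) ≤ N) (hw : 1 ≤ w) (hZ : 10000 ≤ Z)
    (hwZ : 28 * w ≤ Z) (hZN : Z ≤ N) (hl : N ^ 65 ≤ lam) (hd : (Z * N ^ 32 * lam) ^ 3 ≤ d)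
    (hE : N ^ 32 ≤ Z ^ E) (hE' : (E : ℝ) + 2 ≤ Z) :
    ∃ (I' G' : Finset ℤ) (cl : ℤ → ℕ) (lo hi : ℕ → ℝ), I' ⊆ I ∧ G' ⊆ G ∧ Cfg lam d Z P v I' G' ∧
      Mono (sl v) I' cl ∧ Link I' cl ∧ Hull (sl v) I' cl lo hi ∧ (#(I'.image cl) : ℝ) ≤ N ^ 32 ∧
      (∀ i ∈ I', ∀ j ∈ I', cl i = cl j → win i = win j) ∧
      (∀ i ∈ G', (#(I'.filter fun j => v j = v i ∧ cl j = cl i) : ℝ) ≤ d / N) ∧
      ∀ i ∈ G', (#(I'.filter fun j => v j = v i ∧ cl j = cl i ∧
          nb P v cl lo hi (lam ^ 2 * d / N ^ 32) j ≤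
            2 * nb P v cl lo hi (lam ^ 2 * d / N ^ 32) i) : ℝ) ≤
        Z ^ 10 * nb P v cl lo hi (lam ^ 2 * d / N ^ 32) i / lam ^ 2 := by
  have hN : 10000 ≤ N := hZ.trans hZN
  have hN1 : 1 ≤ N := by linarith
  have hN0 : 0 < N := by linarith
  have hZ0 : 0 < Z := by linarith
  have hw0 : 0 < w := by linarith
  have hr1 : 1 ≤ N ^ 32 := one_le_pow₀ hN1
  have hl1 : 1 ≤ lam := (one_le_pow₀ hN1).trans hl
  have hl0 : 0 < lam := by linarith
  have h1 : 1 ≤ Z * N ^ 32 * lam :=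
    one_le_mul_of_one_le_of_one_le (one_le_mul_of_one_le_of_one_le (by linarith) hr1) hl1
  have h2 : Z * N ^ 32 * lam ≤ d := (le_self_pow₀ h1 three_ne_zero).trans hd
  have h3 : N ^ 32 * lam ≤ d := by
    refine le_trans ?_ h2
    rw [mul_assoc]
    exact le_mul_of_one_le_left (by positivity) (by linarith)
  have h4 : Z * N ^ 32 ≤ d := (le_mul_of_one_le_right (by positivity) hl1).trans h2
  have hld : lam ≤ d := (le_mul_of_one_le_left hl0.le hr1).trans h3
  have hd1 : 1 ≤ d := hl1.trans hld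
  have hd0 : 0 < d := by linarith
  have h30 : N ^ 30 ≤ lam := (pow_le_pow_right₀ hN1 (by norm_num)).trans hl
  have hS0 : 0 < lam ^ 2 * d ^ 2 := by positivity
  have hcard := hc lam d w P v I h.toCfg0 hw hd1 hl0
    (hld.trans (le_mul_of_one_le_left hd0.le hw))
  have hW0 : 0 < lam ^ 2 * d ^ 2 / (2 * N ^ 30) := by positivity
  obtain ⟨q, hqM, hqc, hqb⟩ := exists_quantile (sl v) I h.sys.inj hW0
  have hclM : Mono (sl v) I fun i => win i + q i := fun i hi j hj hij =>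
    add_le_add (hM i hi j hj hij) (hqM i hi j hj hij)
  have hcl : ∀ i ∈ I, ∀ j ∈ I, win i + q i = win j + q j → win i = win j ∧ q i = q j := by
    intro i hi j hj hij
    rcases le_total (sl v i) (sl v j) with h5 | h5
    · have := hM i hi j hj h5
      have := hqM i hi j hj h5
      omega
    · have := hM j hj i hi h5
      have := hqM j hj i hi h5
      omega
  have him : (#(I.image fun i => win i + q i) : ℝ) ≤ N ^ 32 := by
    have h5 : ∀ i, (q i : ℝ) ≤ 26 * w * N ^ 30 := fun i => by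
      refine (hqb i).trans ?_
      rw [div_le_iff₀ hW0]
      refine hcard.trans (le_of_eq ?_)
      field_simp
      norm_num
    have h6 := card_image_le_of_bdd (I := I) (cl := fun i => win i + q i)
      (r := N + 26 * w * N ^ 30) (by positivity) fun i hi => by
        push_cast
        exact add_le_add (hwin i hi) (h5 i)
    have h7 : N ≤ w * N ^ 30 :=
      (le_self_pow₀ hN1 (by norm_num)).trans (le_mul_of_one_le_left (by positivity) hw)
    calc _ ≤ 28 * w * N ^ 30 := by linarith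
      _ ≤ N * N ^ 30 := by gcongr; linarith
      _ = N ^ 31 := by ring
      _ ≤ N ^ 32 := pow_le_pow_right₀ hN1 (by norm_num)
  generalize hcldef : (fun i => win i + q i) = cl at hclM him
  replace hcl : ∀ i ∈ I, ∀ j ∈ I, cl i = cl j → win i = win j ∧ q i = q j := by
    rw [← hcldef]
    exact hcl
  have hL := link_filter I cl
  have hdel : (#(I \ I.filter fun i => ¬ (i - 1 ∈ I ∧ cl (i - 1) ≠ cl i)) : ℝ) ≤
      N ^ 32 * (lam ^ 2 * d) := by
    have h5 : (I \ I.filter fun i => ¬ (i - 1 ∈ I ∧ cl (i - 1) ≠ cl i)) =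
        I.filter fun i => i - 1 ∈ I ∧ cl (i - 1) ≠ cl i := by
      ext i
      simp only [mem_sdiff, mem_filter]
      tauto
    rw [h5]
    have h6 : (#(I.filter fun i => i - 1 ∈ I ∧ cl (i - 1) ≠ cl i) : ℝ) ≤ #(I.image cl) * #P := by
      exact_mod_cast h.sys.class_change hclM
    exact h6.trans (mul_le_mul him h.cardP (by positivity) (by positivity))
  have hsub : (I.filter fun i => ¬ (i - 1 ∈ I ∧ cl (i - 1) ≠ cl i)) ⊆ I := filter_subset _ _
  generalize (I.filter fun i => ¬ (i - 1 ∈ I ∧ cl (i - 1) ≠ cl i)) = I' at hL hdel hsub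
  have hM' := hclM.sub hsub
  have him' : (#(I'.image cl) : ℝ) ≤ N ^ 32 :=
    le_trans (by exact_mod_cast card_le_card (image_subset_image hsub)) him
  have h0 : Cfg0 lam d Z P v I' := ⟨h.sys.sub hsub, h.cardP, by
    have h5 : (nr I' : ℝ) ≤ nr I + #(I \ I') := by exact_mod_cast nr_le_sdiff hsub
    have h6 : N ^ 32 * (lam ^ 2 * d) ≤ lam * d ^ 2 :=
      calc N ^ 32 * (lam ^ 2 * d) = N ^ 32 * lam * (lam * d) := by ring
        _ ≤ d * (lam * d) := by gcongr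
        _ = _ := by ring
    have h7 := h.runs
    have h8 : (w + 1) * (lam * d ^ 2) ≤ Z * (lam * d ^ 2) := by gcongr; linarith
    linarith⟩
  obtain ⟨lo, hi, hH⟩ := exists_hull (sl v) I' cl
  have hG := hg lam d Z N (N ^ 32) P v I' cl h0 hM' hL (by linarith) hZN hN
    ((pow_le_pow_right₀ hN1 (by norm_num)).trans hl) hld (h30.trans hld) him' h3 fun c => by
      rcases (I'.filter fun i => cl i = c).eq_empty_or_nonempty with h5 | ⟨i₀, hi₀⟩
      · rw [h5, card_empty, Nat.cast_zero]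
        positivity
      obtain ⟨hi₀, hi₀'⟩ := mem_filter.1 hi₀
      have h5 : (I'.filter fun i => cl i = c) ⊆ I.filter fun i => q i = q i₀ := fun i hi => by
        obtain ⟨h6, h7⟩ := mem_filter.1 hi
        exact mem_filter.2 ⟨hsub h6, (hcl i (hsub h6) i₀ (hsub hi₀) (h7.trans hi₀'.symm)).2⟩
      have h6 : 1 ≤ lam ^ 2 * d ^ 2 / (2 * N ^ 30) := by
        rw [one_le_div (by positivity)]
        have h7 : 2 ≤ lam := le_trans (by linarith) ((le_self_pow₀ hN1 (by norm_num)).trans hl)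
        calc 2 * N ^ 30 ≤ lam * lam := by gcongr
          _ = lam ^ 2 * 1 := by ring
          _ ≤ lam ^ 2 * d ^ 2 := by gcongr; exact one_le_pow₀ hd1
      calc (#(I'.filter fun i => cl i = c) : ℝ) ≤ #(I.filter fun i => q i = q i₀) := by
            exact_mod_cast card_le_card h5
        _ ≤ lam ^ 2 * d ^ 2 / (2 * N ^ 30) + lam ^ 2 * d ^ 2 / (2 * N ^ 30) := by
            linarith [hqc (q i₀)]
        _ = _ := by field_simp; norm_num
  have hX := he lam d Z Z (N ^ 32) E P v I' cl lo hi h0 hM' hL hH (by linarith) le_rfl hZ hl1 hr1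
    hE hE' him' hd
  generalize hA : (I'.filter fun i =>
    d / N ≤ (#(I'.filter fun j => v j = v i ∧ cl j = cl i) : ℝ)) = A at hG
  generalize hB : (I'.filter fun i => Z ^ 10 * nb P v cl lo hi (lam ^ 2 * d / N ^ 32) i / lam ^ 2 <
    (#(I'.filter fun j => v j = v i ∧ cl j = cl i ∧ nb P v cl lo hi (lam ^ 2 * d / N ^ 32) j ≤
      2 * nb P v cl lo hi (lam ^ 2 * d / N ^ 32) i) : ℝ)) = B at hX
  refine ⟨I', ((G ∩ I') \ A) \ B, cl, lo, hi, hsub,
    sdiff_subset.trans (sdiff_subset.trans inter_subset_left),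
    ⟨h0, sdiff_subset.trans (sdiff_subset.trans inter_subset_right), ?_⟩, hM', hL, hH, him',
    fun i hi j hj hij => (hcl i (hsub hi) j (hsub hj) hij).1, fun i hi => ?_, fun i hi => ?_⟩
  · have h5 : G ⊆ ((((G ∩ I') \ A) \ B ∪ I \ I') ∪ A) ∪ B := fun i hi => by
      have := h.sub hi
      simp only [mem_union, mem_sdiff, mem_inter]
      tauto
    have h6 : (#G : ℝ) ≤ #(((G ∩ I') \ A) \ B) + #(I \ I') + #A + #B := by
      exact_mod_cast (card_le_card h5).trans ((card_union_le _ _).trans (Nat.add_le_add_right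
        ((card_union_le _ _).trans (Nat.add_le_add_right (card_union_le _ _) _)) _))
    have h7 : N ^ 32 * (lam ^ 2 * d) ≤ lam ^ 2 * d ^ 2 / Z := by
      rw [le_div_iff₀ hZ0]
      calc N ^ 32 * (lam ^ 2 * d) * Z = Z * N ^ 32 * (lam ^ 2 * d) := by ring
        _ ≤ d * (lam ^ 2 * d) := by gcongr
        _ = _ := by ring
    have h8 : lam ^ 2 * d ^ 2 / N ≤ lam ^ 2 * d ^ 2 / Z := by gcongr
    have h9 : 4 * (lam ^ 2 * d ^ 2 / Z) ≤ lam ^ 2 * d ^ 2 / w := by
      rw [← mul_div_assoc, div_le_div_iff₀ hZ0 hw0]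
      calc 4 * (lam ^ 2 * d ^ 2) * w = lam ^ 2 * d ^ 2 * (4 * w) := by ring
        _ ≤ _ := by gcongr; linarith
    linarith [h.big]
  · obtain ⟨h5, h6⟩ := mem_sdiff.1 (mem_sdiff.1 hi).1
    rw [← hA, mem_filter, not_and, not_le] at h6
    exact (h6 (mem_inter.1 h5).2).le
  · obtain ⟨h5, h6⟩ := mem_sdiff.1 hi
    rw [← hB, mem_filter, not_and, not_lt] at h6
    exact h6 (mem_inter.1 (mem_sdiff.1 h5).1).2

/-- the refined labelling: cells in which `nu` is almost constant for all classes -/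
lemma lb2_label {lam d u r : ℝ} {P : Finset Pt} {v : ℤ → Pt} {I : Finset ℤ}
    (h : Cfg0 lam d u P v I) (T : Finset ℕ) (lo hi : ℕ → ℝ) (hlh : ∀ a ∈ T, lo a ≤ hi a)
    (hT : (#T : ℝ) ≤ r) (hr : 1 ≤ r) (hs : 12 * r ≤ lam ^ 2 * d) {κ : Type} (c : Pt → κ) :
    ∃ (κ' : Type) (c' : Pt → κ'), (∀ p q, c' p = c' q → c p = c q) ∧
      (#(cut c' v I) : ℝ) ≤ #(cut c v I) + 20 * r ^ 2 * nr I ∧
      ∀ p ∈ P, ∀ q ∈ P, c' p = c' q → ∀ a ∈ T,
        (nu P (lo a) (hi a) p : ℝ) ≤ nu P (lo a) (hi a) q + lam ^ 2 * d / r := by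
  have hr0 : 0 < r := by linarith
  have hs0 : 0 < lam ^ 2 * d := by linarith
  have hW : 0 < lam ^ 2 * d / (4 * r) := by positivity
  have hW' : (#P : ℝ) / (lam ^ 2 * d / (4 * r)) ≤ 4 * r := by
    rw [div_le_iff₀ hW]
    refine h.cardP.trans (le_of_eq ?_)
    field_simp
  have hW'' : 2 * (lam ^ 2 * d / (4 * r)) + 6 ≤ lam ^ 2 * d / r := by
    have h1 : 12 ≤ lam ^ 2 * d / r := by rwa [le_div_iff₀ hr0]
    have h2 : lam ^ 2 * d / (4 * r) = lam ^ 2 * d / r / 4 := by field_simp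
    linarith
  generalize lam ^ 2 * d / (4 * r) = W at hW hW' hW''
  have hslab : ∀ θ, (#(I.filter fun i => st P θ W (v i) ≠ st P θ W (v (i + 1))) : ℝ) ≤
      10 * r * nr I := fun θ => by
    refine (h.sys.slab_cut θ hW).trans ?_
    calc 2 * (nr I : ℝ) * (#P / W + 1) ≤ 2 * nr I * (5 * r) := by gcongr; linarith
      _ = _ := by ring
  refine ⟨κ × (T → ℤ × ℤ), fun p => (c p, fun a => (st P (lo a) W p, st P (hi a) W p)),
    fun p q e => congrArg Prod.fst e, ?_, fun p hp q hq e a ha => ?_⟩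
  · have h1 : cut (fun p => (c p, fun a : T => (st P (lo a) W p, st P (hi a) W p))) v I ⊆
        cut c v I ∪ T.biUnion fun a =>
          (I.filter fun i => st P (lo a) W (v i) ≠ st P (lo a) W (v (i + 1))) ∪
            I.filter fun i => st P (hi a) W (v i) ≠ st P (hi a) W (v (i + 1)) := by
      intro i hi
      obtain ⟨h2, h3⟩ := mem_cut.1 hi
      by_contra h4
      simp only [mem_union, mem_cut, mem_biUnion, mem_filter, h2, true_and, not_or, not_exists,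
        not_and, not_not] at h4
      exact h3 (Prod.ext h4.1 (funext fun a => Prod.ext (h4.2 a.1 a.2).1 (h4.2 a.1 a.2).2))
    have h2 := (card_le_card h1).trans ((card_union_le _ _).trans (Nat.add_le_add_left
      (card_biUnion_le.trans (sum_le_sum fun a _ => card_union_le _ _)) _))
    refine le_trans (Nat.cast_le.2 h2) ?_
    push_cast
    refine add_le_add_right ((sum_le_sum fun a _ => add_le_add (hslab _) (hslab _)).trans ?_) _
    rw [sum_const, nsmul_eq_mul]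
    calc (#T : ℝ) * (10 * r * nr I + 10 * r * nr I) ≤ r * (10 * r * nr I + 10 * r * nr I) := by
          gcongr
      _ = _ := by ring
  · have h1 := congrFun (congrArg Prod.snd e) ⟨a, ha⟩
    have h2 := dr_lt_of_st_eq hW (congrArg Prod.fst h1)
    have h3 := dr_lt_of_st_eq hW (congrArg Prod.snd h1)
    have h4 := h.sys.gp.nu_le_nu hp hq (hlh a ha)
    linarith

theorem levelB2 (hc : CardStmt) (hp : PartStmt) (hd : DescendStmt) (hg : GammaStmt)
    (he : ExcessStmt) : LevelB2Stmt := by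
  refine ⟨300, fun u N lam lamB d E P v I G win hu huN hNE hEu hul hlB hBd h hM hwin => ?_⟩
  have hu1 : 1 ≤ u := by linarith
  have hu0 : 0 < u := by linarith
  have hpow : ∀ n : ℕ, n ≤ 300 → u ^ n ≤ u ^ 300 := fun n hn => pow_le_pow_right₀ hu1 hn
  have hN1 : 1 ≤ N := (one_le_pow₀ hu1).trans huN
  have hN0 : 0 < N := by linarith
  have hl1 : 1 ≤ lam := (one_le_pow₀ hu1).trans hul
  have hl0 : 0 < lam := by linarith
  have hZ : 10000 ≤ u ^ 13 := hu.trans (le_self_pow₀ hu1 (by norm_num))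
  have hZN : u ^ 13 ≤ N := (hpow 13 (by norm_num)).trans huN
  have hr1 : 1 ≤ N ^ 32 := one_le_pow₀ hN1
  have h65 : 1 ≤ N ^ 65 := one_le_pow₀ hN1
  have hll : lam ≤ N ^ 65 * lam := le_mul_of_one_le_left hl0.le h65
  have hbig : (u ^ 13 * N ^ 32 * (N ^ 65 * lam)) ^ 3 ≤ lamB :=
    calc (u ^ 13 * N ^ 32 * (N ^ 65 * lam)) ^ 3 ≤ (N * N ^ 32 * (N ^ 65 * lam)) ^ 3 := by gcongr
      _ = N ^ 294 * lam ^ 3 := by ring
      _ ≤ N ^ 300 * lam ^ 300 := mul_le_mul (pow_le_pow_right₀ hN1 (by norm_num))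
        (pow_le_pow_right₀ hl1 (by norm_num)) (by positivity) (by positivity)
      _ = (N * lam) ^ 300 := (mul_pow _ _ _).symm
      _ ≤ lamB := hlB
  have h20 : 20 * (N ^ 32) ^ 2 * lam ≤ N ^ 65 * lam :=
    calc 20 * (N ^ 32) ^ 2 * lam ≤ N * (N ^ 32) ^ 2 * lam := by gcongr; linarith
      _ = _ := by ring
  have hN65 : N ^ 65 ≤ N ^ 65 * lam := le_mul_of_one_le_right (by positivity) hl1
  have hE : N ^ 32 ≤ (u ^ 13) ^ (32 * E) :=
    calc N ^ 32 ≤ (u ^ E) ^ 32 := by gcongr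
      _ = u ^ (32 * E) := by rw [← pow_mul, mul_comm]
      _ ≤ _ := pow_le_pow_left₀ hu0.le (le_self_pow₀ hu1 (by norm_num)) _
  have hE' : ((32 * E : ℕ) : ℝ) + 2 ≤ u ^ 13 := by
    have : u ^ 2 ≤ u ^ 13 := pow_le_pow_right₀ hu1 (by norm_num)
    push_cast
    nlinarith
  have hwZ : 28 * u ^ 12 ≤ u ^ 13 := by
    rw [pow_succ' u 12]
    gcongr
    linarith
  have hZl : (u ^ 13) ^ 3 ≤ lam := by
    rw [← pow_mul]
    exact (hpow _ (by norm_num)).trans hul
  have hZC : (u ^ 13) ^ 12 ≤ u ^ 300 := by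
    rw [← pow_mul]
    exact hpow _ (by norm_num)
  have hu3 : u ^ 3 ≤ lam := (hpow 3 (by norm_num)).trans hul
  have hu12 : 1 ≤ u ^ 12 := one_le_pow₀ hu1
  generalize u ^ 13 = Z at *
  generalize N ^ 65 * lam = l₁ at *
  generalize u ^ 300 = U at *
  have hZ0 : 0 < Z := by linarith
  have hl₁1 : 1 ≤ l₁ := hl1.trans hll
  have hl₁0 : 0 < l₁ := by linarith
  have hl₁B : l₁ ≤ lamB := by
    have h1 : 1 ≤ Z * N ^ 32 := one_le_mul_of_one_le_of_one_le (by linarith) hr1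
    exact (le_mul_of_one_le_left hl₁0.le h1).trans
      ((le_self_pow₀ (one_le_mul_of_one_le_of_one_le h1 hl₁1) three_ne_zero).trans hbig)
  have hl₁d : l₁ ≤ d := hl₁B.trans hBd
  have hd1 : 1 ≤ d := hl₁1.trans hl₁d
  have hd0 : 0 < d := by linarith
  -- first descent
  obtain ⟨c₁, hc₁, hcut₁⟩ := hp lamB d u P v I h.toCfg0 hu1 hd1 (by linarith)
    (hBd.trans (le_mul_of_one_le_left hd0.le hu1)) l₁ hl₁1
  obtain ⟨k₁, h₁⟩ := lb2_desc hd c₁ h hu (hu3.trans hll) hl₁B hBd hc₁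
    (hcut₁.trans (by gcongr; norm_num))
  have hI₁ : inside c₁ k₁ v I ⊆ I := fun i hi => (mem_inside.1 hi).1
  have hG₁ : inside c₁ k₁ v G ⊆ G := fun i hi => (mem_inside.1 hi).1
  generalize part c₁ k₁ P = P₁ at h₁
  generalize inside c₁ k₁ v I = I₁ at h₁ hI₁
  generalize inside c₁ k₁ v G = G₁ at h₁ hG₁
  -- classes
  obtain ⟨I₂, G₂, cl, lo, hi, hI₂, hG₂, h₂, hM₂, hL₂, hH₂, him, hw₂, hheavy, hexc⟩ :=
    lb2_classes hc hg he h₁ (hM.sub hI₁) (fun i hi => hwin i (hI₁ hi)) hu12 hZ hwZ hZN hN65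
      (hbig.trans hBd) hE hE'
  generalize N ^ 32 = r at *
  have hr0 : 0 < r := by linarith
  have hs0 : 0 < l₁ ^ 2 * d := by positivity
  -- second descent
  obtain ⟨c₂, hc₂, hcut₂⟩ := hp l₁ d Z P₁ v I₂ h₂.toCfg0 (by linarith) hd1 hl₁0
    (hl₁d.trans (le_mul_of_one_le_left hd0.le (by linarith))) lam hl1
  obtain ⟨κ, c, hcc, hcut, hnu⟩ := lb2_label h₂.toCfg0 (I₂.image cl) lo hi
    (fun a ha => hH₂.lo_le_hi ha) him hr1 (by
      have h1 : r ≤ r ^ 2 * lam :=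
        (le_self_pow₀ hr1 two_ne_zero).trans (le_mul_of_one_le_right (by positivity) hl1)
      have h2 : l₁ ≤ l₁ ^ 2 * d :=
        (le_self_pow₀ hl₁1 two_ne_zero).trans (le_mul_of_one_le_right (by positivity) hd1)
      linarith) c₂
  obtain ⟨k, h₃⟩ := lb2_desc hd c h₂ hZ hZl hll hl₁d (fun k => by
      rcases (part c k P₁).eq_empty_or_nonempty with h1 | ⟨p₀, hp₀⟩
      · rw [h1, card_empty, Nat.cast_zero]
        positivity
      refine le_trans ?_ (hc₂ (c₂ p₀))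
      exact_mod_cast card_le_card fun p hp => mem_part.2
        ⟨(mem_part.1 hp).1, hcc _ _ ((mem_part.1 hp).2.trans (mem_part.1 hp₀).2.symm)⟩) (by
      have h1 : 20 * r ^ 2 * (nr I₂ : ℝ) ≤ Z * (l₁ ^ 2 * d ^ 2) / lam := by
        rw [le_div_iff₀ hl0]
        calc 20 * r ^ 2 * (nr I₂ : ℝ) * lam = 20 * r ^ 2 * lam * nr I₂ := by ring
          _ ≤ l₁ * (Z * l₁ * d ^ 2) := mul_le_mul h20 h₂.runs (by positivity) hl₁0.le
          _ = _ := by ring
      rw [show 18 * Z * (l₁ ^ 2 * d ^ 2) / lam =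
        17 * Z * (l₁ ^ 2 * d ^ 2) / lam + Z * (l₁ ^ 2 * d ^ 2) / lam by ring]
      linarith)
  have hI₃ : inside c k v I₂ ⊆ I₂ := filter_subset _ _
  have hG₃ : inside c k v G₂ ⊆ G₂ := filter_subset _ _
  obtain ⟨i₀, hi₀⟩ : (inside c k v G₂).Nonempty := by
    have : (0 : ℝ) < #(inside c k v G₂) := lt_of_lt_of_le (by positivity) h₃.big
    exact card_pos.1 (by exact_mod_cast this)
  have hmem : ∀ i ∈ inside c k v G₂, (v i ∈ P₁ ∧ c (v i) = k) ∧
      v (i + 1) ∈ P₁ ∧ c (v (i + 1)) = k := fun i hi =>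
    ⟨mem_part.1 (h₃.sys.memL i (h₃.sub hi)), mem_part.1 (h₃.sys.memR i (h₃.sub hi))⟩
  obtain ⟨lo', hi', hH₃⟩ := exists_hull (sl v) (inside c k v I₂) cl
  have ht0 : 0 < l₁ ^ 2 * d / r := by positivity
  have hrt : r * (l₁ ^ 2 * d / r) = l₁ ^ 2 * d := by field_simp
  generalize l₁ ^ 2 * d / r = t at *
  refine ⟨part c k P₁, inside c k v I₂, inside c k v G₂, cl, lo', hi',
    fun a => min (Z ^ 10 * (nu P₁ (lo a) (hi a) (v i₀) + 2 * t) / (l₁ ^ 2 * d)) (1 / N),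
    hI₃.trans (hI₂.trans hI₁), hG₃.trans (hG₂.trans hG₁),
    ⟨lb2_mono h₃ (by positivity) hZC hl0.le, hM₂.sub hI₃, hL₂.sub hI₃, hH₃,
      fun a => by positivity, fun a => min_le_right _ _, ?_, fun p a => ?_⟩,
    fun i hi j hj => hw₂ i (hI₃ hi) j (hI₃ hj)⟩
  · have h1 : (∑ a ∈ I₂.image cl, (nu P₁ (lo a) (hi a) (v i₀) : ℝ)) ≤ l₁ ^ 2 * d :=
      le_trans (by exact_mod_cast hH₂.sum_nu hM₂ P₁ (v i₀)) h₂.cardP
    calc _ ≤ ∑ a ∈ (inside c k v I₂).image cl,
          Z ^ 10 * (nu P₁ (lo a) (hi a) (v i₀) + 2 * t) / (l₁ ^ 2 * d) :=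
          sum_le_sum fun a _ => min_le_left _ _
      _ ≤ ∑ a ∈ I₂.image cl, Z ^ 10 * (nu P₁ (lo a) (hi a) (v i₀) + 2 * t) / (l₁ ^ 2 * d) :=
          sum_le_sum_of_subset_of_nonneg (image_subset_image hI₃) fun a _ _ => by positivity
      _ = Z ^ 10 * (∑ a ∈ I₂.image cl, (nu P₁ (lo a) (hi a) (v i₀) : ℝ) +
          #(I₂.image cl) * (2 * t)) / (l₁ ^ 2 * d) := by
          rw [← sum_div, ← mul_sum, sum_add_distrib, sum_const, nsmul_eq_mul]
      _ ≤ Z ^ 10 * (l₁ ^ 2 * d + r * (2 * t)) / (l₁ ^ 2 * d) := by gcongr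
      _ = Z ^ 10 * 3 := by
          rw [mul_left_comm r, hrt]
          field_simp
          norm_num
      _ ≤ Z ^ 10 * Z ^ 2 := by gcongr; nlinarith
      _ = Z ^ 12 := by ring
      _ ≤ U := hZC
  · rcases ((inside c k v G₂).filter fun i => v i = p ∧ cl i = a).eq_empty_or_nonempty with
      h1 | ⟨i, hi'⟩
    · rw [h1, card_empty, Nat.cast_zero]
      positivity
    obtain ⟨hiG, rfl, rfl⟩ := mem_filter.1 hi'
    have hia : cl i ∈ I₂.image cl := mem_image_of_mem cl (h₂.sub (hG₃ hiG))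
    have hnb : ∀ j ∈ inside c k v G₂, cl j = cl i → ∀ j' ∈ inside c k v G₂,
        nb P₁ v cl lo hi t j ≤ nu P₁ (lo (cl i)) (hi (cl i)) (v j') + 2 * t := by
      intro j hj e j' hj'
      have h1 := hnu _ (hmem j hj).1.1 _ (hmem j' hj').1.1
        ((hmem j hj).1.2.trans (hmem j' hj').1.2.symm) _ hia
      have h2 := hnu _ (hmem j hj).2.1 _ (hmem j' hj').1.1
        ((hmem j hj).2.2.trans (hmem j' hj').1.2.symm) _ hia
      rw [nb, e]
      linarith [max_le h1 h2]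
    rw [mul_min_of_nonneg _ _ hd0.le]
    refine le_min ?_ ?_
    · have h1 : ((inside c k v G₂).filter fun j => v j = v i ∧ cl j = cl i) ⊆
          I₂.filter fun j => v j = v i ∧ cl j = cl i ∧
            nb P₁ v cl lo hi t j ≤ 2 * nb P₁ v cl lo hi t i := fun j hj => by
        obtain ⟨h1, h2, h3⟩ := mem_filter.1 hj
        refine mem_filter.2 ⟨h₂.sub (hG₃ h1), h2, h3, (hnb j h1 h3 i hiG).trans ?_⟩
        have h4 := le_max_left (nu P₁ (lo (cl i)) (hi (cl i)) (v i) : ℝ)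
          (nu P₁ (lo (cl i)) (hi (cl i)) (v (i + 1)))
        have h5 : (0 : ℝ) ≤ nu P₁ (lo (cl i)) (hi (cl i)) (v i) := Nat.cast_nonneg _
        rw [nb]
        linarith
      calc _ ≤ _ := Nat.cast_le.2 (card_le_card h1)
        _ ≤ _ := hexc i (hG₃ hiG)
        _ ≤ Z ^ 10 * (nu P₁ (lo (cl i)) (hi (cl i)) (v i₀) + 2 * t) / l₁ ^ 2 := by
          gcongr
          exact hnb i hiG rfl i₀ hi₀
        _ = _ := by field_simp
    · calc _ ≤ _ := Nat.cast_le.2 (card_le_card (filter_subset_filter _ (hG₃.trans h₂.sub)))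
        _ ≤ _ := hheavy i (hG₃ hiG)
        _ = _ := by ring

end Crest.Agent.R51
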