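import Crest.Agent.R51.Tools

/-!
# Row 51: the meeting bound (`MeetStmt`)
-/

set_option autoImplicit false

noncomputable section

namespace Crest.Agent.R51

open Finset Classical

variable {P : Finset Pt} {v : ℤ → Pt} {I : Finset ℤ}

/-- first time at which one of finitely many affine functions vanishes -/
lemma meet_touch {ι : Type*} (T : Finset ι) (a b : ι → ℝ) (ha : ∀ j ∈ T, 0 ≤ a j)
    (hb : ∃ j ∈ T, b j ≤ 0) : ∃ t : ℝ, 0 ≤ t ∧ t ≤ 1 ∧ (∀ j ∈ T, 0 ≤ a j + t * (b j - a j)) ∧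
      ∃ j ∈ T, a j + t * (b j - a j) = 0 := by
  obtain ⟨j₀, hj₀, hb₀⟩ := hb
  obtain ⟨j, hj, hmin⟩ := exists_min_image (T.filter fun j => b j ≤ 0)
    (fun j => a j / (a j - b j)) ⟨j₀, mem_filter.mpr ⟨hj₀, hb₀⟩⟩
  have key : ∀ l ∈ T, b l ≤ 0 → a l + a l / (a l - b l) * (b l - a l) = 0 := fun l hl hbl => by
    rcases eq_or_ne (a l - b l) 0 with e | e
    · have := ha l hl
      rw [e, div_zero]; linarith
    · field_simp; ring
  rw [mem_filter] at hj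
  have h0 := ha j hj.1
  have ht0 : 0 ≤ a j / (a j - b j) := div_nonneg h0 (by linarith [hj.2])
  have ht1 : a j / (a j - b j) ≤ 1 := div_le_one_of_le₀ (by linarith [hj.2]) (by linarith [hj.2])
  refine ⟨a j / (a j - b j), ht0, ht1, fun l hl => ?_, j, hj.1, key j hj.1 hj.2⟩
  have h1 := ha l hl
  rcases le_total (b l) 0 with c | c
  · have h2 := hmin l (mem_filter.mpr ⟨hl, c⟩)
    have h3 := key l hl c
    have h4 := mul_le_mul_of_nonneg_right h2 (by linarith : 0 ≤ a l - b l)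
    linarith
  · nlinarith

/-- a meeting point of edge `i` with the run `g`, on the line of edge `i'` of that run -/
def MeetAt (v : ℤ → Pt) (I : Finset ℤ) (g i : ℤ) (z : Pt) (i' : ℤ) : Prop :=
  OnSeg v i z ∧ WAbv v I g z ∧ i' ∈ I ∧ root I i' = g ∧ h (sl v i') z = h (sl v i') (v i')

lemma meet_point {g i : ℤ} (hm : Meets v I g i) : ∃ z i', MeetAt v I g i z i' := by
  obtain ⟨z₁, z₂, h1, h2, h3, h4⟩ := hm
  unfold Abv at h4
  push Not at h4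
  obtain ⟨j₀, hj₀, hr₀, hb₀⟩ := h4
  obtain ⟨t, ht0, ht1, hall, j, hj, hz⟩ := meet_touch (I.filter fun j => root I j = g)
    (fun j => h (sl v j) z₁ - h (sl v j) (v j)) (fun j => h (sl v j) z₂ - h (sl v j) (v j))
    (fun j hj => sub_nonneg.mpr (h3 j (mem_filter.mp hj).1 (mem_filter.mp hj).2))
    ⟨j₀, mem_filter.mpr ⟨hj₀, hr₀⟩, sub_nonpos.mpr hb₀⟩
  have hh : ∀ θ, h θ (z₁.1 + t * (z₂.1 - z₁.1), z₁.2 + t * (z₂.2 - z₁.2)) =
      h θ z₁ + t * (h θ z₂ - h θ z₁) := fun θ => by unfold h; ring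
  rw [mem_filter] at hj
  refine ⟨(z₁.1 + t * (z₂.1 - z₁.1), z₁.2 + t * (z₂.2 - z₁.2)), j, ⟨?_, ?_, ?_⟩,
    fun l hl hr => ?_, hj.1, hj.2, ?_⟩
  · have := h1.1
    have := h2.1
    change _ ≤ z₁.1 + t * (z₂.1 - z₁.1)
    nlinarith
  · have := h1.2.1
    have := h2.2.1
    change z₁.1 + t * (z₂.1 - z₁.1) ≤ _
    nlinarith
  · rw [hh, h1.2.2, h2.2.2]; ring
  · have := hall l (mem_filter.mpr ⟨hl, hr⟩)
    rw [hh]; linarith
  · rw [hh]; linarith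

lemma meet_wabv (hS : Sys P v I) {i : ℤ} (hi : i ∈ I) {z : Pt} (hz : OnSeg v i z) :
    WAbv v I (root I i) z := by
  intro j hj hr
  obtain ⟨h1, h2⟩ := hS.h_ge hj hi hr
  have e0 := hS.h_edge hi
  have e1 := h_shift (sl v i) (sl v j) z
  have e2 := h_shift (sl v i) (sl v j) (v i)
  have e3 := h_shift (sl v i) (sl v j) (v (i + 1))
  obtain ⟨a, b, c⟩ := hz
  rcases le_total (sl v i) (sl v j) with d | d
  · have := mul_le_mul_of_nonneg_left b (sub_nonneg.mpr d)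
    linarith
  · have := mul_le_mul_of_nonneg_left a (sub_nonneg.mpr d)
    linarith

lemma meet_le_slope {z z' : Pt} {σ : ℝ} (hx : z.1 < z'.1) (h1 : h σ z ≤ h σ z') :
    σ ≤ slope z z' := by
  have := h_sub σ hx.ne
  by_contra hc
  have := mul_neg_of_neg_of_pos (sub_neg.mpr (not_le.mp hc)) (sub_pos.mpr hx)
  linarith

lemma meet_slope_le {z z' : Pt} {σ : ℝ} (hx : z.1 < z'.1) (h1 : h σ z' ≤ h σ z) :
    slope z z' ≤ σ := by
  have := h_sub σ hx.ne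
  by_contra hc
  have := mul_pos (sub_pos.mpr (not_le.mp hc)) (sub_pos.mpr hx)
  linarith

/-- two meetings of the same pair of runs are ordered -/
lemma meet_order (hS : Sys P v I) {g a c a' c' : ℤ} {z z' : Pt} (ha : a ∈ I) (hc : c ∈ I)
    (hr : root I a = root I c) (hac : a + 2 ≤ c) (h1 : MeetAt v I g a z a')
    (h2 : MeetAt v I g c z' c') :
    ∃ s, sl v a ≤ s ∧ sl v a' ≤ s ∧ s ≤ sl v c ∧ s ≤ sl v c' := by
  have hx : z.1 < z'.1 := by
    have := hS.x_lt_of_seg (i := a + 1) (j := c) (by omega)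
      ((seg_of_root_eq ha hc hr).mono (by omega) (by omega))
    linarith [h1.1.2.1, h2.1.1]
  refine ⟨slope z z', meet_le_slope hx ?_, meet_le_slope hx ?_, meet_slope_le hx ?_,
    meet_slope_le hx ?_⟩
  · rw [h1.1.2.2]; exact meet_wabv hS hc h2.1 a ha hr
  · rw [h1.2.2.2.2]; exact h2.2.1 a' h1.2.2.1 h1.2.2.2.1
  · rw [h2.1.2.2]; exact meet_wabv hS ha h1.1 c hc hr.symm
  · rw [h2.2.2.2.2]; exact h1.2.1 c' h2.2.2.1 h2.2.2.2.1

lemma meet_four (S : Finset ℤ) :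
    #(S.filter fun b => ¬ ∃ a ∈ S, ∃ c ∈ S, a + 2 ≤ b ∧ b + 2 ≤ c) ≤ 4 := by
  rcases S.eq_empty_or_nonempty with rfl | hne
  · simp
  refine le_trans (card_le_card (t := {S.min' hne, S.min' hne + 1, S.max' hne - 1, S.max' hne})
    fun b hb => ?_) card_le_four
  rw [mem_filter] at hb
  have h1 := min'_le S b hb.1
  have h2 := le_max' S b hb.1
  have h3 : ¬ (S.min' hne + 2 ≤ b ∧ b + 2 ≤ S.max' hne) := fun hc =>
    hb.2 ⟨_, min'_mem S hne, _, max'_mem S hne, hc⟩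
  simp only [mem_insert, mem_singleton]
  omega

/-- the vertex at which a run waits at time `τ` -/
lemma meet_link {a c : ℤ} {τ : ℝ} (hac : a < c) (h1 : sl v a ≤ τ) (h2 : τ ≤ sl v c) :
    ∃ l, a < l ∧ l ≤ c ∧ sl v (l - 1) ≤ τ ∧ τ ≤ sl v l := by
  obtain ⟨l, hl, hmin⟩ := exists_min_image ((Ioc a c).filter fun l => τ ≤ sl v l) id
    ⟨c, mem_filter.mpr ⟨mem_Ioc.mpr ⟨hac, le_rfl⟩, h2⟩⟩
  rw [mem_filter, mem_Ioc] at hl
  refine ⟨l, hl.1.1, hl.1.2, ?_, hl.2⟩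
  rcases (by omega : l - 1 = a ∨ a < l - 1) with e | e
  · rw [e]; exact h1
  · by_contra hc
    have := hmin (l - 1) (mem_filter.mpr ⟨mem_Ioc.mpr ⟨e, by omega⟩, (not_le.mp hc).le⟩)
    simp only [id] at this
    omega

/-- the support function of the part `[a, c]` of a run -/
def meetM (v : ℤ → Pt) {a c : ℤ} (hac : a < c) (τ : ℝ) : ℝ :=
  (Icc a c).inf' (nonempty_Icc.mpr hac.le) fun l => h τ (v l)

lemma meetM_cont {a c : ℤ} (hac : a < c) : Continuous (meetM v hac) :=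
  Continuous.finset_inf'_apply _ fun l _ => by unfold h; fun_prop

lemma meetM_link (hS : Sys P v I) {a c : ℤ} (hac : a < c) (hs : Seg I a (c + 1)) {τ : ℝ}
    (h1 : sl v a ≤ τ) (h2 : τ ≤ sl v c) : ∃ l, l - 1 ∈ I ∧ l ∈ I ∧ root I l = root I a ∧
      sl v (l - 1) ≤ τ ∧ τ ≤ sl v l ∧ meetM v hac τ = h τ (v l) := by
  obtain ⟨l, a1, a2, a3, a4⟩ := meet_link hac h1 h2
  refine ⟨l, hs _ (by omega) (by omega), hs _ (by omega) (by omega),
    root_eq_of_seg a1.le (hs.mono le_rfl (by omega)), a3, a4, le_antisymm ?_ ?_⟩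
  · exact inf'_le _ (mem_Icc.mpr ⟨a1.le, a2⟩)
  · refine le_inf' _ _ fun m hm => ?_
    rw [mem_Icc] at hm
    exact hS.h_ge_of_wait (fun _ => a4) (fun _ => a3) (hs.mono (by omega) (by omega))

lemma meetM_le (hS : Sys P v I) {a c : ℤ} (hac : a < c) (hs : Seg I a (c + 1)) {τ : ℝ}
    (h1 : sl v a ≤ τ) (h2 : τ ≤ sl v c) {z : Pt} (hz : WAbv v I (root I a) z) :
    meetM v hac τ ≤ h τ z := by
  obtain ⟨l, a1, a2, a3, a4, a5, a6⟩ := meetM_link hS hac hs h1 h2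
  have b1 := hz l a2 a3
  have b0 : root I l = root I (l - 1) := by
    have := root_succ a1 (by rw [sub_add_cancel]; exact a2)
    rwa [sub_add_cancel] at this
  have b2 := hz (l - 1) a1 (b0.symm.trans a3)
  have b3 := hS.h_edge a1
  rw [sub_add_cancel] at b3
  rw [a6]
  rcases le_total z.1 (v l).1 with d | d
  · have := mul_le_mul_of_nonneg_left d (sub_nonneg.mpr a4)
    linarith [h_shift (sl v (l - 1)) τ z, h_shift (sl v (l - 1)) τ (v l)]
  · have := mul_le_mul_of_nonneg_left d (sub_nonneg.mpr a5)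
    linarith [h_shift (sl v l) τ z, h_shift (sl v l) τ (v l)]

lemma le_meetM (hS : Sys P v I) {a c i : ℤ} (hac : a < c) (hs : Seg I a (c + 1)) (hi : i ∈ I)
    (hr : root I i = root I a) : h (sl v i) (v i) ≤ meetM v hac (sl v i) := by
  refine le_inf' _ _ fun m hm => ?_
  rw [mem_Icc] at hm
  exact (hS.h_ge hi (hs m hm.1 (by omega))
    (hr.trans (root_eq_of_seg hm.1 (hs.mono le_rfl (by omega))).symm)).1

/-- the meeting `(i, g)` is charged to the common tangent through `p` and `q` -/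
def MeetTg (v : ℤ → Pt) (I : Finset ℤ) (i g : ℤ) (p q : Pt) : Prop :=
  ∃ (z : Pt) (i' : ℤ) (τ : ℝ) (l l' : ℤ), MeetAt v I g i z i' ∧ τ ∈ Set.uIcc (sl v i) (sl v i') ∧
    (l - 1 ∈ I ∧ l ∈ I ∧ root I l = root I i ∧ sl v (l - 1) ≤ τ ∧ τ ≤ sl v l) ∧
    (l' - 1 ∈ I ∧ l' ∈ I ∧ root I l' = g ∧ sl v (l' - 1) ≤ τ ∧ τ ≤ sl v l') ∧
    v l = p ∧ v l' = q ∧ h τ p = h τ q

lemma meet_tangent (hS : Sys P v I) {g a i c : ℤ} (ha : a ∈ I) (hi : i ∈ I) (hc : c ∈ I)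
    (hr : root I a = root I i) (hr' : root I i = root I c) (hai : a + 2 ≤ i) (hic : i + 2 ≤ c)
    (hg : g ≠ root I i) (ma : Meets v I g a) (mi : Meets v I g i) (mc : Meets v I g c) :
    ∃ p ∈ P, ∃ q ∈ P, MeetTg v I i g p q := by
  obtain ⟨za, a', h1⟩ := meet_point ma
  obtain ⟨z, i', h2⟩ := meet_point mi
  obtain ⟨zc, c', h3⟩ := meet_point mc
  obtain ⟨s, s1, s2, s3, s4⟩ := meet_order hS ha hi hr hai h1 h2
  obtain ⟨t, t1, t2, t3, t4⟩ := meet_order hS hi hc hr' hic h2 h3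
  have hne : sl v i ≠ sl v i' := fun e => hg (by rw [hS.inj i hi i' h2.2.2.1 e, h2.2.2.2.1])
  have hac : a < c := by omega
  have hs : Seg I a (c + 1) := seg_of_root_eq ha hc (hr.trans hr')
  have hr2 : root I a' = root I c' := h1.2.2.2.1.trans h3.2.2.2.1.symm
  have hac' : a' < c' := by
    by_contra hcon
    have := hS.sl_le_of_seg (not_lt.mp hcon) (seg_of_root_eq h3.2.2.1 h1.2.2.1 hr2.symm)
    exact hne (by linarith)
  have hs' : Seg I a' (c' + 1) := seg_of_root_eq h1.2.2.1 h3.2.2.1 hr2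
  have d1 : 0 ≤ meetM v hac (sl v i) - meetM v hac' (sl v i) := by
    have b1 := le_meetM hS hac hs hi hr.symm
    have b2 := meetM_le hS hac' hs' (τ := sl v i) (by linarith) (by linarith) (z := z)
      (by rw [h1.2.2.2.1]; exact h2.2.1)
    linarith [h2.1.2.2]
  have d2 : meetM v hac (sl v i') - meetM v hac' (sl v i') ≤ 0 := by
    have b1 := le_meetM hS hac' hs' h2.2.2.1 (h2.2.2.2.1.trans h1.2.2.2.1.symm)
    have b2 := meetM_le hS hac hs (τ := sl v i') (by linarith) (by linarith) (z := z)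
      (by rw [hr]; exact meet_wabv hS hi h2.1)
    linarith [h2.2.2.2.2]
  obtain ⟨τ, hτ, hτ0⟩ := intermediate_value_uIcc (a := sl v i) (b := sl v i')
    (f := fun τ => meetM v hac τ - meetM v hac' τ)
    ((meetM_cont hac).sub (meetM_cont hac')).continuousOn (Set.mem_uIcc_of_ge d2 d1)
  have hτ' : s ≤ τ ∧ τ ≤ t := by
    rcases Set.mem_uIcc.mp hτ with e | e
    · exact ⟨by linarith [e.1], by linarith [e.2]⟩
    · exact ⟨by linarith [e.1], by linarith [e.2]⟩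
  obtain ⟨l, a1, a2, a3, a4, a5, a6⟩ := meetM_link hS hac hs (τ := τ) (by linarith [hτ'.1])
    (by linarith [hτ'.2])
  obtain ⟨l', b1, b2, b3, b4, b5, b6⟩ := meetM_link hS hac' hs' (τ := τ) (by linarith [hτ'.1])
    (by linarith [hτ'.2])
  refine ⟨v l, hS.memL l a2, v l', hS.memL l' b2, z, i', τ, l, l', h2, hτ,
    ⟨a1, a2, a3.trans hr, a4, a5⟩, ⟨b1, b2, b3.trans h1.2.2.2.1, b4, b5⟩, rfl, rfl, ?_⟩
  rw [← a6, ← b6]
  exact sub_eq_zero.mp hτ0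

lemma MeetTg.slope (hS : Sys P v I) {i g l l' : ℤ} {τ : ℝ} (hg : g ≠ root I i)
    (ha : l - 1 ∈ I ∧ l ∈ I ∧ root I l = root I i ∧ sl v (l - 1) ≤ τ ∧ τ ≤ sl v l)
    (hb : l' - 1 ∈ I ∧ l' ∈ I ∧ root I l' = g ∧ sl v (l' - 1) ≤ τ ∧ τ ≤ sl v l')
    (he : h τ (v l) = h τ (v l')) : R51.slope (v l) (v l') = τ := by
  refine slope_eq_of_h_eq (hS.gp.ne_x (hS.memL l ha.2.1) (hS.memL l' hb.2.1) fun e => hg ?_) he
  have := hS.wait l l' ha.1 ha.2.1 hb.1 hb.2.1 e (ha.2.2.2.1.trans hb.2.2.2.2)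
    (hb.2.2.2.1.trans ha.2.2.2.2)
  rw [← hb.2.2.1, ← this, ha.2.2.1]

lemma MeetTg.runs (hS : Sys P v I) {i g j g' : ℤ} {p q : Pt} (hg : g ≠ root I i)
    (hg' : g' ≠ root I j) (h1 : MeetTg v I i g p q) (h2 : MeetTg v I j g' p q) :
    root I i = root I j ∧ g = g' := by
  obtain ⟨z, i', τ, l, l', -, -, ha, hb, rfl, rfl, he⟩ := h1
  obtain ⟨z₂, j', τ₂, m, m', -, -, hc, hd, e1, e2, he'⟩ := h2
  have t1 := MeetTg.slope hS hg ha hb he
  have t2 := MeetTg.slope hS hg' hc hd (by rw [e1, e2]; exact he')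
  rw [e1, e2, t1] at t2
  subst t2
  have u1 := hS.wait m l hc.1 hc.2.1 ha.1 ha.2.1 e1 (hc.2.2.2.1.trans ha.2.2.2.2)
    (ha.2.2.2.1.trans hc.2.2.2.2)
  have u2 := hS.wait m' l' hd.1 hd.2.1 hb.1 hb.2.1 e2 (hd.2.2.2.1.trans hb.2.2.2.2)
    (hb.2.2.2.1.trans hd.2.2.2.2)
  exact ⟨by rw [← ha.2.2.1, ← u1, hc.2.2.1], by rw [← hb.2.2.1, ← u2, hd.2.2.1]⟩

lemma MeetTg.spec (hS : Sys P v I) {i g : ℤ} {p q : Pt} (hg : g ≠ root I i)
    (h1 : MeetTg v I i g p q) :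
    ∃ z i', MeetAt v I g i z i' ∧ R51.slope p q ∈ Set.uIcc (sl v i) (sl v i') := by
  obtain ⟨z, i', τ, l, l', hm, hτ, ha, hb, rfl, rfl, he⟩ := h1
  exact ⟨z, i', hm, by rw [MeetTg.slope hS hg ha hb he]; exact hτ⟩

lemma meet_fibre (hS : Sys P v I) (M : Finset (ℤ × ℤ))
    (hM : ∀ x ∈ M, x.1 ∈ I ∧ x.2 ≠ root I x.1) (p q : Pt) :
    #(M.filter fun x => MeetTg v I x.1 x.2 p q) ≤ 4 := by
  set F := M.filter fun x => MeetTg v I x.1 x.2 p q with hF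
  have hr : ∀ x ∈ F, ∀ y ∈ F, root I x.1 = root I y.1 ∧ x.2 = y.2 := fun x hx y hy => by
    rw [mem_filter] at hx hy
    exact MeetTg.runs hS (hM x hx.1).2 (hM y hy.1).2 hx.2 hy.2
  rw [← card_image_of_injOn (f := Prod.fst) fun x hx y hy e => Prod.ext e (hr x hx y hy).2]
  refine le_trans (le_of_eq ?_) (meet_four (F.image Prod.fst))
  rw [filter_true_of_mem]
  rintro b hb ⟨a, ha, c, hc, hab, hbc⟩
  obtain ⟨x, hx, rfl⟩ := mem_image.mp ha
  obtain ⟨y, hy, rfl⟩ := mem_image.mp hb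
  obtain ⟨w, hw, rfl⟩ := mem_image.mp hc
  obtain ⟨r1, r2⟩ := hr x hx y hy
  obtain ⟨r3, r4⟩ := hr y hy w hw
  rw [mem_filter] at hx hy hw
  obtain ⟨z₁, a', m1, u1⟩ := hx.2.spec hS (hM x hx.1).2
  obtain ⟨z₂, b', m2, -⟩ := hy.2.spec hS (hM y hy.1).2
  obtain ⟨z₃, c', m3, u3⟩ := hw.2.spec hS (hM w hw.1).2
  rw [r2] at m1
  rw [← r4] at m3
  obtain ⟨s, s1, s2, s3, s4⟩ := meet_order hS (hM x hx.1).1 (hM y hy.1).1 r1 hab m1 m2
  obtain ⟨t, t1, t2, t3, t4⟩ := meet_order hS (hM y hy.1).1 (hM w hw.1).1 r3 hbc m2 m3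
  have e1 : slope p q ≤ s := by
    rcases Set.mem_uIcc.mp u1 with e | e <;> linarith [e.2]
  have e2 : t ≤ slope p q := by
    rcases Set.mem_uIcc.mp u3 with e | e <;> linarith [e.1]
  have e3 := hS.inj _ (hM y hy.1).1 _ m2.2.2.1 (by linarith)
  exact (hM y hy.1).2 (by rw [e3, m2.2.2.2.1])

theorem meet : MeetStmt := by
  intro P v I hS
  set M := (I ×ˢ starts I).filter fun x => x.2 ≠ root I x.1 ∧ Meets v I x.2 x.1 with hM
  have hM1 : ∀ x ∈ M, x.1 ∈ I ∧ x.2 ≠ root I x.1 := fun x hx => by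
    rw [mem_filter, mem_product] at hx
    exact ⟨hx.1.1, hx.2.1⟩
  let S : ℤ × ℤ → Finset ℤ := fun y => I.filter fun i => root I i = y.1 ∧ Meets v I y.2 i
  let N : ℤ × ℤ → Finset (ℤ × ℤ) := fun y => ((S y).filter fun b =>
    ¬ ∃ a ∈ S y, ∃ c ∈ S y, a + 2 ≤ b ∧ b + 2 ≤ c).image fun i => (i, y.2)
  have hsub : M ⊆ (starts I ×ˢ starts I).biUnion N ∪
      (P ×ˢ P).biUnion fun y => M.filter fun x => MeetTg v I x.1 x.2 y.1 y.2 := by
    intro x hx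
    have hx' := hx
    rw [mem_filter, mem_product] at hx'
    obtain ⟨⟨hi, hg⟩, hne, hm⟩ := hx'
    rw [mem_union, mem_biUnion, mem_biUnion]
    by_cases hmid : ∃ a ∈ S (root I x.1, x.2), ∃ c ∈ S (root I x.1, x.2), a + 2 ≤ x.1 ∧ x.1 + 2 ≤ c
    · obtain ⟨a, ha, c, hc, hai, hic⟩ := hmid
      rw [mem_filter] at ha hc
      obtain ⟨p, hp, q, hq, ht⟩ := meet_tangent hS ha.1 hi hc.1 ha.2.1 hc.2.1.symm hai hic hne
        ha.2.2 hm hc.2.2
      exact Or.inr ⟨(p, q), mem_product.mpr ⟨hp, hq⟩, mem_filter.mpr ⟨hx, ht⟩⟩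
    · exact Or.inl ⟨(root I x.1, x.2), mem_product.mpr ⟨root_mem_starts hi, hg⟩,
        mem_image.mpr ⟨x.1, mem_filter.mpr ⟨mem_filter.mpr ⟨hi, rfl, hm⟩, hmid⟩, rfl⟩⟩
  refine (card_le_card hsub).trans ((card_union_le _ _).trans (add_le_add ?_ ?_))
  · refine (card_biUnion_le_card_mul _ _ 4 fun y _ => card_image_le.trans (meet_four _)).trans
      (le_of_eq ?_)
    rw [card_product, nr]; ring
  · refine (card_biUnion_le_card_mul _ _ 4 fun y _ => meet_fibre hS M hM1 y.1 y.2).trans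
      (le_of_eq ?_)
    rw [card_product]; ring

end Crest.Agent.R51
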