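import Crest.Agent.R51.Stmts

/-!
# Row 51: most windows are narrow
-/

set_option autoImplicit false

noncomputable section

namespace Crest.Agent.R51

open Finset Classical

namespace NarrowAux

theorem exists_hull (σ : ℤ → ℝ) (I : Finset ℤ) (c : ℤ → ℕ) :
    ∃ lo hi : ℕ → ℝ, Hull σ I c lo hi := by
  have h : ∀ w : ℕ, ∃ l h : ℝ, (∀ i ∈ I, c i = w → l ≤ σ i ∧ σ i ≤ h) ∧
      ((∃ i ∈ I, c i = w) → (∃ j ∈ I, c j = w ∧ σ j = l) ∧ ∃ j ∈ I, c j = w ∧ σ j = h) := by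
    intro w
    by_cases hne : (I.filter fun i => c i = w).Nonempty
    · obtain ⟨a, ha, hmin⟩ := exists_min_image _ σ hne
      obtain ⟨b, hb, hmax⟩ := exists_max_image _ σ hne
      rw [mem_filter] at ha hb
      refine ⟨σ a, σ b, fun i hi hc => ⟨hmin i (mem_filter.2 ⟨hi, hc⟩),
        hmax i (mem_filter.2 ⟨hi, hc⟩)⟩, fun _ => ⟨⟨a, ha.1, ha.2, rfl⟩, ⟨b, hb.1, hb.2, rfl⟩⟩⟩
    · refine ⟨0, 0, fun i hi hc => absurd ⟨i, mem_filter.2 ⟨hi, hc⟩⟩ hne, ?_⟩
      rintro ⟨i, hi, hc⟩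
      exact absurd ⟨i, mem_filter.2 ⟨hi, hc⟩⟩ hne
  choose lo hi h1 h2 using h
  exact ⟨lo, hi, fun i hi' => (h1 _ i hi' rfl).1, fun i hi' => (h1 _ i hi' rfl).2,
    fun i hi' => (h2 _ ⟨i, hi', rfl⟩).1, fun i hi' => (h2 _ ⟨i, hi', rfl⟩).2⟩

theorem kap_sub {a x z : ℝ} (hx : a < x) (hz : a < z) :
    kap a z - kap a x = (z - x) / ((x - a) * (z - a)) := by
  unfold kap
  have h1 : a - x ≠ 0 := by linarith
  have h2 : a - z ≠ 0 := by linarith
  have h3 : x - a ≠ 0 := by linarith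
  have h4 : z - a ≠ 0 := by linarith
  field_simp
  ring

theorem kap_mono {a x z : ℝ} (hx : a < x) (hxz : x ≤ z) : kap a x ≤ kap a z := by
  have := kap_sub hx (hx.trans_le hxz)
  have h1 : 0 < x - a := by linarith
  have h2 : 0 < z - a := by linarith
  have h3 : 0 ≤ z - x := by linarith
  have : 0 ≤ (z - x) / ((x - a) * (z - a)) := by positivity
  linarith

/-- bad towards the upper end -/
def BadP (M a i₁ i₂ b₂ : ℝ) : Prop := kap a b₂ - kap a i₂ < M * (kap a i₂ - kap a i₁)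

/-- bad towards the lower end -/
def BadN (M a b₁ i₁ i₂ : ℝ) : Prop := kap a i₁ - kap a b₁ < M * (kap a i₂ - kap a i₁)

theorem badP_iff {M a i₁ i₂ b₂ : ℝ} (h1 : a < i₁) (h2 : i₁ ≤ i₂) (h3 : i₂ ≤ b₂) :
    BadP M a i₁ i₂ b₂ ↔ (b₂ - i₂) * (i₁ - a) < M * (i₂ - i₁) * (b₂ - a) := by
  have p1 : 0 < i₁ - a := by linarith
  have p2 : 0 < i₂ - a := by linarith
  have p3 : 0 < b₂ - a := by linarith
  unfold BadP
  rw [kap_sub (by linarith) (by linarith), kap_sub h1 (by linarith), ← mul_div_assoc,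
    div_lt_div_iff₀ (by positivity) (by positivity)]
  have e1 : (b₂ - i₂) * ((i₁ - a) * (i₂ - a)) = (b₂ - i₂) * (i₁ - a) * (i₂ - a) := by ring
  have e2 : M * (i₂ - i₁) * ((i₂ - a) * (b₂ - a)) = M * (i₂ - i₁) * (b₂ - a) * (i₂ - a) := by ring
  rw [e1, e2]
  exact mul_lt_mul_iff_left₀ p2

theorem badN_iff {M a b₁ i₁ i₂ : ℝ} (h1 : a < b₁) (h2 : b₁ ≤ i₁) (h3 : i₁ ≤ i₂) :
    BadN M a b₁ i₁ i₂ ↔ (i₁ - b₁) * (i₂ - a) < M * (i₂ - i₁) * (b₁ - a) := by
  have p1 : 0 < b₁ - a := by linarith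
  have p2 : 0 < i₁ - a := by linarith
  have p3 : 0 < i₂ - a := by linarith
  unfold BadN
  rw [kap_sub h1 (by linarith), kap_sub (by linarith) (by linarith), ← mul_div_assoc,
    div_lt_div_iff₀ (by positivity) (by positivity)]
  have e1 : (i₁ - b₁) * ((i₁ - a) * (i₂ - a)) = (i₁ - b₁) * (i₂ - a) * (i₁ - a) := by ring
  have e2 : M * (i₂ - i₁) * ((b₁ - a) * (i₁ - a)) = M * (i₂ - i₁) * (b₁ - a) * (i₁ - a) := by ring
  rw [e1, e2]
  exact mul_lt_mul_iff_left₀ p2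

theorem badP_up {M a a' i₁ i₂ b₂ : ℝ} (ha : a ≤ a') (h1 : a' < i₁) (h2 : i₁ ≤ i₂) (h3 : i₂ ≤ b₂)
    (h : BadP M a i₁ i₂ b₂) : BadP M a' i₁ i₂ b₂ := by
  rw [badP_iff (by linarith) h2 h3] at h
  rw [badP_iff h1 h2 h3]
  have p3 : 0 < b₂ - a := by linarith
  have p4 : 0 < b₂ - a' := by linarith
  have q1 : (i₁ - a') * (b₂ - a) ≤ (i₁ - a) * (b₂ - a') := by nlinarith
  have q2 := mul_le_mul_of_nonneg_left q1 (show 0 ≤ b₂ - i₂ by linarith)
  have q3 := mul_lt_mul_of_pos_right h p4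
  refine lt_of_mul_lt_mul_right ?_ p3.le
  nlinarith

theorem badN_down {M a a' b₁ i₁ i₂ : ℝ} (ha : a' ≤ a) (h1 : a < b₁) (h2 : b₁ ≤ i₁)
    (h3 : i₁ ≤ i₂) (h : BadN M a b₁ i₁ i₂) : BadN M a' b₁ i₁ i₂ := by
  rw [badN_iff h1 h2 h3] at h
  rw [badN_iff (by linarith) h2 h3]
  have p3 : 0 < b₁ - a := by linarith
  have p4 : 0 < b₁ - a' := by linarith
  have q1 : (i₂ - a') * (b₁ - a) ≤ (i₂ - a) * (b₁ - a') := by nlinarith
  have q2 := mul_le_mul_of_nonneg_left q1 (show 0 ≤ i₁ - b₁ by linarith)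
  have q3 := mul_lt_mul_of_pos_right h p4
  refine lt_of_mul_lt_mul_right ?_ p3.le
  nlinarith

theorem sum_len_le (lo hi : ℕ → ℝ) (A : ℝ) (W : Finset ℕ) :
    ∀ B : ℝ, A ≤ B → (∀ w ∈ W, A ≤ lo w) → (∀ w ∈ W, hi w ≤ B) →
      (∀ w ∈ W, ∀ w' ∈ W, w < w' → hi w ≤ lo w') → ∑ w ∈ W, (hi w - lo w) ≤ B - A := by
  induction W using Finset.induction_on_max with
  | empty => intro B hB _ _ _; simpa using hB
  | insert a s ha ih =>
    intro B _ h1 h2 h3
    have hna : a ∉ s := fun h => lt_irrefl _ (ha a h)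
    rw [sum_insert hna]
    have := ih (lo a) (h1 a (mem_insert_self _ _)) (fun w hw => h1 w (mem_insert_of_mem hw))
      (fun w hw => h3 w (mem_insert_of_mem hw) a (mem_insert_self _ _) (ha w hw))
      (fun w hw w' hw' => h3 w (mem_insert_of_mem hw) w' (mem_insert_of_mem hw'))
    have := h2 a (mem_insert_self _ _)
    linarith

theorem card_bad_le (lo hi : ℕ → ℝ) (A B M : ℝ) (hM : 0 ≤ M) (W : Finset ℕ)
    (h1 : ∀ w ∈ W, A ≤ lo w) (h0 : ∀ w ∈ W, lo w ≤ hi w) (h2 : ∀ w ∈ W, hi w ≤ B)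
    (h3 : ∀ w ∈ W, ∀ w' ∈ W, w < w' → hi w ≤ lo w')
    (hP : ∀ w ∈ W, B - hi w < M * (hi w - lo w)) (hN : ∀ w ∈ W, lo w - A < M * (hi w - lo w)) :
    (#W : ℝ) ≤ 2 * M + 1 := by
  rcases W.eq_empty_or_nonempty with rfl | hne
  · simp only [card_empty, Nat.cast_zero]; linarith
  obtain ⟨w₀, hw₀⟩ := id hne
  have hAB : A ≤ B := (h1 w₀ hw₀).trans ((h0 w₀ hw₀).trans (h2 w₀ hw₀))
  have s1 := sum_len_le lo hi A W B hAB h1 h2 h3
  have s2 : ∑ _w ∈ W, (B - A) < ∑ w ∈ W, (2 * M + 1) * (hi w - lo w) :=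
    sum_lt_sum_of_nonempty hne fun w hw => by
      have := hP w hw
      have := hN w hw
      linarith
  rw [sum_const, nsmul_eq_mul, ← mul_sum] at s2
  have s3 : (2 * M + 1) * ∑ w ∈ W, (hi w - lo w) ≤ (2 * M + 1) * (B - A) :=
    mul_le_mul_of_nonneg_left s1 (by linarith)
  exact (lt_of_mul_lt_mul_right (s2.trans_le s3) (by linarith)).le

end NarrowAux

open NarrowAux in
theorem narrow : NarrowStmt := by
  intro σ I win blk M m n hw hb hwb hM hm hn
  obtain ⟨lw, uw, Hw⟩ := exists_hull σ I win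
  obtain ⟨lb, ub, Hb⟩ := exists_hull σ I blk
  have hm0 : 0 ≤ m := (Nat.cast_nonneg _).trans (hm 0)
  have lt_of_blk : ∀ i ∈ I, ∀ j ∈ I, blk j < blk i → σ j < σ i := fun i hi j hj h => by
    by_contra h'
    exact absurd (hb i hi j hj (not_lt.1 h')) (not_le.2 h)
  have lt_of_win : ∀ i ∈ I, ∀ j ∈ I, win j < win i → σ j < σ i := fun i hi j hj h => by
    by_contra h'
    exact absurd (hw i hi j hj (not_lt.1 h')) (not_le.2 h)
  have c1 : ∀ i ∈ I, lb (blk i) ≤ lw (win i) := fun i hi => by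
    obtain ⟨j, hj, h1, h2⟩ := Hw.lo_mem i hi
    rw [← h2, ← hwb j hj i hi h1]
    exact Hb.lo_le j hj
  have c2 : ∀ i ∈ I, lw (win i) ≤ uw (win i) := fun i hi => (Hw.lo_le i hi).trans (Hw.le_hi i hi)
  have c3 : ∀ i ∈ I, uw (win i) ≤ ub (blk i) := fun i hi => by
    obtain ⟨j, hj, h1, h2⟩ := Hw.hi_mem i hi
    rw [← h2, ← hwb j hj i hi h1]
    exact Hb.le_hi j hj
  have c0 : ∀ i ∈ I, ∀ j ∈ I, blk j < blk i → σ j < lb (blk i) := fun i hi j hj h => by
    obtain ⟨z, hz, h1, h2⟩ := Hb.lo_mem i hi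
    rw [← h2]
    exact lt_of_blk z hz j hj (by rwa [h1])
  set BW : ℕ × ℕ → Finset ℕ := fun x => (I.image win).filter fun w =>
    ∃ i ∈ I, win i = w ∧ blk i = x.2 ∧ ub x.1 < lb x.2 ∧
      BadP M (ub x.1) (lw w) (uw w) (ub x.2) ∧ BadN M (ub x.1) (lb x.2) (lw w) (uw w) with hBW
  have hcard : ∀ x, (#(BW x) : ℝ) ≤ 2 * M + 1 := by
    intro x
    have mem : ∀ w ∈ BW x, ∃ i ∈ I, win i = w ∧ blk i = x.2 ∧ ub x.1 < lb x.2 ∧
        BadP M (ub x.1) (lw w) (uw w) (ub x.2) ∧ BadN M (ub x.1) (lb x.2) (lw w) (uw w) :=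
      fun w hw' => (mem_filter.1 hw').2
    refine card_bad_le (fun w => kap (ub x.1) (lw w)) (fun w => kap (ub x.1) (uw w))
      (kap (ub x.1) (lb x.2)) (kap (ub x.1) (ub x.2)) M hM (BW x) ?_ ?_ ?_ ?_ ?_ ?_
    · intro w hw'
      obtain ⟨i, hi, rfl, h2, h3, -⟩ := mem w hw'
      exact kap_mono h3 (h2 ▸ c1 i hi)
    · intro w hw'
      obtain ⟨i, hi, rfl, h2, h3, -⟩ := mem w hw'
      exact kap_mono (h3.trans_le (h2 ▸ c1 i hi)) (c2 i hi)
    · intro w hw'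
      obtain ⟨i, hi, rfl, h2, h3, -⟩ := mem w hw'
      exact kap_mono (h3.trans_le ((h2 ▸ c1 i hi).trans (c2 i hi))) (h2 ▸ c3 i hi)
    · intro w hw' w' hw'' hlt
      obtain ⟨i, hi, rfl, h2, h3, -⟩ := mem w hw'
      obtain ⟨i', hi', rfl, -⟩ := mem w' hw''
      refine kap_mono (h3.trans_le ((h2 ▸ c1 i hi).trans (c2 i hi))) ?_
      obtain ⟨j, hj, e1, e2⟩ := Hw.hi_mem i hi
      obtain ⟨j', hj', e1', e2'⟩ := Hw.lo_mem i' hi'
      rw [← e2, ← e2']
      exact (lt_of_win j' hj' j hj (by rwa [e1, e1'])).le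
    · intro w hw'
      obtain ⟨i, -, -, -, -, h, -⟩ := mem w hw'
      exact h
    · intro w hw'
      obtain ⟨i, -, -, -, -, -, h⟩ := mem w hw'
      exact h
  have hsub : (I.filter fun i => ¬ Narrow σ I win blk M i) ⊆
      (I.image blk ×ˢ I.image blk).biUnion fun x =>
        (BW x).biUnion fun w => I.filter fun i => win i = w := by
    intro i hi'
    obtain ⟨hi, hnn⟩ := mem_filter.1 hi'
    have bad : ∀ k : ℕ, ∃ j ∈ I, blk j < blk i ∧ blk j ≠ k ∧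
        BadP M (σ j) (lw (win i)) (uw (win i)) (ub (blk i)) ∧
        BadN M (σ j) (lb (blk i)) (lw (win i)) (uw (win i)) := by
      intro k
      by_contra hcon
      refine hnn ⟨k, fun j hj hlt hk => ?_⟩
      have a0 := c0 i hi j hj hlt
      have a1 := a0.trans_le (c1 i hi)
      have rng : ∀ i' ∈ I, win i' = win i → kap (σ j) (lw (win i)) ≤ kap (σ j) (σ i') ∧
          kap (σ j) (σ i') ≤ kap (σ j) (uw (win i)) := fun i' hi' e =>
        ⟨kap_mono a1 (e ▸ Hw.lo_le i' hi'),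
          kap_mono (a1.trans_le (e ▸ Hw.lo_le i' hi')) (e ▸ Hw.le_hi i' hi')⟩
      have wid : ∀ i' ∈ I, ∀ i'' ∈ I, win i' = win i → win i'' = win i →
          M * |kap (σ j) (σ i') - kap (σ j) (σ i'')| ≤
            M * (kap (σ j) (uw (win i)) - kap (σ j) (lw (win i))) := by
        intro i' hi' i'' hi'' e e'
        have r1 := rng i' hi' e
        have r2 := rng i'' hi'' e'
        refine mul_le_mul_of_nonneg_left ?_ hM
        rw [abs_le]
        constructor <;> linarith [r1.1, r1.2, r2.1, r2.2]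
      by_cases hP : BadP M (σ j) (lw (win i)) (uw (win i)) (ub (blk i))
      · have hN : ¬ BadN M (σ j) (lb (blk i)) (lw (win i)) (uw (win i)) :=
          fun hN => hcon ⟨j, hj, hlt, hk, hP, hN⟩
        obtain ⟨z, hz, e1, e2⟩ := Hb.lo_mem i hi
        refine ⟨z, hz, e1, fun i' hi' i'' hi'' e e' => (wid i' hi' i'' hi'' e e').trans ?_⟩
        rw [e2, abs_sub_comm]
        refine le_trans ?_ (le_abs_self _)
        have := (rng i' hi' e).1
        have := not_lt.1 hN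
        linarith
      · obtain ⟨z, hz, e1, e2⟩ := Hb.hi_mem i hi
        refine ⟨z, hz, e1, fun i' hi' i'' hi'' e e' => (wid i' hi' i'' hi'' e e').trans ?_⟩
        rw [e2]
        refine le_trans ?_ (le_abs_self _)
        have := (rng i' hi' e).2
        have := not_lt.1 hP
        linarith
    have fin : ∀ j ∈ I, ∀ j' ∈ I, blk j < blk j' → blk j' < blk i →
        BadP M (σ j) (lw (win i)) (uw (win i)) (ub (blk i)) →
        BadN M (σ j') (lb (blk i)) (lw (win i)) (uw (win i)) →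
        i ∈ (I.image blk ×ˢ I.image blk).biUnion fun x =>
          (BW x).biUnion fun w => I.filter fun i => win i = w := by
      intro j hj j' hj' h1 h2 hP hN
      obtain ⟨z, hz, e1, e2⟩ := Hb.hi_mem j hj
      have a0 : ub (blk j) < lb (blk i) := by
        rw [← e2]
        exact c0 i hi z hz (by rw [e1]; exact h1.trans h2)
      have a1 : ub (blk j) < σ j' := by
        rw [← e2]
        exact lt_of_blk j' hj' z hz (by rwa [e1])
      refine mem_biUnion.2 ⟨(blk j, blk i),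
        mem_product.2 ⟨mem_image_of_mem _ hj, mem_image_of_mem _ hi⟩,
        mem_biUnion.2 ⟨win i, mem_filter.2 ⟨mem_image_of_mem _ hi, i, hi, rfl, rfl, a0, ?_, ?_⟩,
          mem_filter.2 ⟨hi, rfl⟩⟩⟩
      · exact badP_up (Hb.le_hi j hj) (a0.trans_le (c1 i hi)) (c2 i hi) (c3 i hi) hP
      · exact badN_down a1.le (c0 i hi j' hj' h2) (c1 i hi) (c2 i hi) hN
    obtain ⟨j, hj, l1, -, p1, n1⟩ := bad 0
    obtain ⟨j', hj', l2, hne, p2, n2⟩ := bad (blk j)
    rcases lt_or_gt_of_ne hne with h | h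
    · exact fin j' hj' j hj h l1 p2 n1
    · exact fin j hj j' hj' h l2 p1 n2
  have h1 : (#(I.filter fun i => ¬ Narrow σ I win blk M i) : ℝ) ≤
      ∑ x ∈ I.image blk ×ˢ I.image blk, ∑ w ∈ BW x, (#(I.filter fun i => win i = w) : ℝ) := by
    have := (card_le_card hsub).trans (card_biUnion_le.trans
      (sum_le_sum fun x _ => card_biUnion_le))
    exact_mod_cast this
  refine h1.trans ?_
  have h2 : ∀ x, ∑ w ∈ BW x, (#(I.filter fun i => win i = w) : ℝ) ≤ (2 * M + 1) * m := by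
    intro x
    refine (sum_le_sum fun w _ => hm w).trans ?_
    rw [sum_const, nsmul_eq_mul]
    exact mul_le_mul_of_nonneg_right (hcard x) hm0
  refine (sum_le_sum fun x _ => h2 x).trans ?_
  rw [sum_const, nsmul_eq_mul, card_product, mul_assoc]
  refine mul_le_mul_of_nonneg_right ?_ (by positivity)
  push_cast
  rw [sq]
  exact mul_le_mul hn hn (Nat.cast_nonneg _) ((Nat.cast_nonneg _).trans hn)

end Crest.Agent.R51
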