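import Crest.Agent.R51.Stmts

/-!
# Row 51: the common profile (`ProfileStmt`).  Author: helper31.
-/

set_option autoImplicit false

noncomputable section

namespace Crest.Agent.R51

open Finset Classical

namespace ProfileAux

theorem mG2_mono {C : Finset ℕ} {gam κ : ℕ → ℝ} (h0 : ∀ c, 0 ≤ gam c) (c : ℕ) {w w' : ℝ}
    (h : w ≤ w') : mG2 C gam κ c w ≤ mG2 C gam κ c w' := by
  refine Finset.sum_le_sum_of_subset_of_nonneg (fun x hx => ?_) fun x _ _ => h0 x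
  rw [Finset.mem_filter] at hx ⊢
  exact ⟨hx.1, hx.2.trans h⟩

theorem mG2_nonneg {C : Finset ℕ} {gam κ : ℕ → ℝ} (h0 : ∀ c, 0 ≤ gam c) (c : ℕ) (w : ℝ) :
    0 ≤ mG2 C gam κ c w := Finset.sum_nonneg fun x _ => h0 x

theorem mG2_le {C : Finset ℕ} {gam κ : ℕ → ℝ} (h0 : ∀ c, 0 ≤ gam c) (c : ℕ) (w : ℝ) :
    mG2 C gam κ c w ≤ ∑ c ∈ C, gam c :=
  Finset.sum_le_sum_of_subset_of_nonneg (Finset.filter_subset _ _) fun x _ _ => h0 x

theorem mP2_mono (P : Finset Pt) (F : Pt → ℝ) (p : Pt) {w w' : ℝ} (h : w ≤ w') :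
    mP2 P F p w ≤ mP2 P F p w' := by
  unfold mP2
  refine Nat.cast_le.2 (Finset.card_le_card fun x hx => ?_)
  rw [Finset.mem_filter] at hx ⊢
  exact ⟨hx.1, hx.2.trans h⟩

theorem mP2_nonneg (P : Finset Pt) (F : Pt → ℝ) (p : Pt) (w : ℝ) : 0 ≤ mP2 P F p w :=
  Nat.cast_nonneg _

theorem mP2_le (P : Finset Pt) (F : Pt → ℝ) (p : Pt) (w : ℝ) : mP2 P F p w ≤ #P :=
  Nat.cast_le.2 (Finset.card_filter_le _ _)

/-- the common arithmetic of (S) and (S') -/
theorem comb {U n x N y z : ℝ} (hU : 2 ≤ U) (hn : 0 < n) (hn1 : n ≤ 1) (hx : x ≤ U)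
    (h1 : x ≤ 4 * U ^ 5 * max N n) (hz : z < 1 / U ^ 2)
    (h2 : y < 1 / U ^ 2 → N ≤ 2 * U ^ 5 * (max y n * max z n)) : x ≤ U ^ 13 * max y n := by
  have hU1 : 1 ≤ U := by linarith
  have hm : n ≤ max y n := le_max_right _ _
  have hm0 : 0 < max y n := hn.trans_le hm
  have hU2 : 1 ≤ U ^ 2 := one_le_pow₀ hU1
  have hU5 : 1 ≤ U ^ 5 := one_le_pow₀ hU1
  by_cases hy : y < 1 / U ^ 2
  · have a1 : max z n ≤ 1 := max_le (hz.le.trans ((div_le_one (by positivity)).2 hU2)) hn1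
    have a2 : N ≤ 2 * U ^ 5 * max y n :=
      (h2 hy).trans (mul_le_mul_of_nonneg_left (mul_le_of_le_one_right hm0.le a1) (by positivity))
    have a3 : n ≤ 2 * U ^ 5 * max y n := hm.trans (le_mul_of_one_le_left hm0.le (by linarith))
    have a4 : (8 : ℝ) ≤ U ^ 3 := by
      have := pow_le_pow_left₀ (by norm_num : (0 : ℝ) ≤ 2) hU 3
      norm_num at this; exact this
    calc x ≤ 4 * U ^ 5 * (2 * U ^ 5 * max y n) :=
          h1.trans (mul_le_mul_of_nonneg_left (max_le a2 a3) (by positivity))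
      _ = 8 * (U ^ 10 * max y n) := by ring
      _ ≤ U ^ 3 * (U ^ 10 * max y n) := mul_le_mul_of_nonneg_right a4 (by positivity)
      _ = U ^ 13 * max y n := by ring
  · have a1 : 1 / U ^ 2 ≤ max y n := (not_lt.1 hy).trans (le_max_left _ _)
    have a2 : U ^ 3 ≤ U ^ 13 := pow_le_pow_right₀ hU1 (by norm_num)
    calc x ≤ U := hx
      _ = U ^ 3 * (1 / U ^ 2) := by field_simp
      _ ≤ U ^ 13 * max y n := mul_le_mul a2 a1 (by positivity) (by positivity)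

/-- division by a lower bound -/
theorem divl {U x y z : ℝ} {a b : ℕ} (hU : 2 ≤ U) (hx : 0 ≤ x) (hy : 1 / U ^ a ≤ y)
    (h : x * y ≤ U ^ b * z) : x ≤ U ^ (a + b) * z := by
  have hU0 : 0 < U := by linarith
  have h1 : x * (1 / U ^ a) ≤ U ^ b * z := (mul_le_mul_of_nonneg_left hy hx).trans h
  rw [mul_one_div, div_le_iff₀ (by positivity)] at h1
  rw [pow_add]
  linarith

theorem up {U x z : ℝ} {a b : ℕ} (hU : 2 ≤ U) (hz : 0 ≤ z) (hab : a ≤ b) (h : x ≤ U ^ a * z) :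
    x ≤ U ^ b * z :=
  h.trans (mul_le_mul_of_nonneg_right (pow_le_pow_right₀ (by linarith) hab) hz)

theorem chain {U x y z : ℝ} {a b : ℕ} (hU : 2 ≤ U) (h : x ≤ U ^ a * y) (h' : y ≤ U ^ b * z) :
    x ≤ U ^ (a + b) * z := by
  have hU0 : 0 < U := by linarith
  rw [pow_add, mul_assoc]
  exact h.trans (mul_le_mul_of_nonneg_left h' (by positivity))

theorem maxl {U n x z : ℝ} {a : ℕ} (hU : 2 ≤ U) (hn : 0 < n) (hz : n ≤ z) (h : x ≤ U ^ a * z) :
    max x n ≤ U ^ a * z :=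
  max_le h (hz.trans (le_mul_of_one_le_left (hn.le.trans hz) (one_le_pow₀ (by linarith))))

/-- The abstract form: `G` is the weight function of the anchor, `M` the mass function of a point. -/
structure Pair (U n : ℝ) (G M : ℝ → ℝ) : Prop where
  G0 : ∀ r, 0 ≤ G r
  M0 : ∀ r, 0 ≤ M r
  Gm : Monotone G
  Mm : Monotone M
  GU : ∀ r, G r ≤ U
  M1 : ∀ r, M r ≤ 1
  S : ∀ r r', 0 ≤ r → 0 ≤ r' → G r' * M r ≤ U ^ 13 * max (M (2 * r * r')) n
  S' : ∀ r r', 0 ≤ r → 0 ≤ r' → G r' * M r ≤ U ^ 13 * max (G (2 * r * r')) n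
  lowM : 1 / U ^ 130 ≤ M (1 / 16)
  lowG : 1 / U ^ 40 ≤ G 1

namespace Pair
variable {U n : ℝ} {G G' M : ℝ → ℝ}

theorem lowM1 (h : Pair U n G M) : 1 / U ^ 130 ≤ M 1 := h.lowM.trans (h.Mm (by norm_num))

theorem dbl (hU : 2 ≤ U) (hn : 0 < n) (h : Pair U n G M) {r : ℝ} (hr : 0 ≤ r) :
    max (G (8 * r)) n ≤ U ^ 143 * max (G r) n := by
  have h1 := h.S' (1 / 16) (8 * r) (by norm_num) (by linarith)
  rw [show 2 * (1 / 16) * (8 * r) = r by ring] at h1
  exact maxl hU hn (le_max_right _ _) (divl hU (h.G0 _) h.lowM h1)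

theorem dbl2 (hU : 2 ≤ U) (hn : 0 < n) (h : Pair U n G M) {r : ℝ} (hr : 0 ≤ r) :
    max (G (2 * r)) n ≤ U ^ 143 * max (G r) n :=
  (max_le_max_right _ (h.Gm (by linarith))).trans (h.dbl hU hn hr)

theorem M_le (hU : 2 ≤ U) (h : Pair U n G M) {r : ℝ} (hr : 0 ≤ r) :
    M r ≤ U ^ 53 * max (G (2 * r)) n := by
  have h1 := h.S' r 1 hr zero_le_one
  rw [mul_one, mul_comm] at h1
  exact divl hU (h.M0 _) h.lowG h1

theorem G_le (hU : 2 ≤ U) (h : Pair U n G M) {r : ℝ} (hr : 0 ≤ r) :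
    G r ≤ U ^ 143 * max (M (2 * r)) n := by
  have h1 := h.S 1 r zero_le_one hr
  rw [mul_one] at h1
  exact divl hU (h.G0 _) h.lowM1 h1

theorem upY (hU : 2 ≤ U) (hn : 0 < n) (h : Pair U n G M) {r : ℝ} (hr : 0 ≤ r) :
    M r ≤ U ^ 196 * max (G r) n := chain hU (h.M_le hU hr) (h.dbl2 hU hn hr)

theorem low (hU : 2 ≤ U) (hn : 0 < n) (h : Pair U n G M) {r : ℝ} (hr : 0 ≤ r) :
    max (G r) n ≤ U ^ 286 * max (M (r / 4)) n := by
  have h1 := h.dbl hU hn (r := r / 8) (by linarith)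
  have h2 := h.G_le hU (r := r / 8) (by linarith)
  rw [show 8 * (r / 8) = r by ring] at h1
  rw [show 2 * (r / 8) = r / 4 by ring] at h2
  exact chain hU h1 (maxl hU hn (le_max_right _ _) h2)

theorem loY (hU : 2 ≤ U) (hn : 0 < n) (h : Pair U n G M) {r : ℝ} (hr : 0 ≤ r) :
    max (G r) n ≤ U ^ 286 * max (M r) n :=
  (h.low hU hn hr).trans (mul_le_mul_of_nonneg_left (max_le_max_right _ (h.Mm (by linarith)))
    (pow_nonneg (by linarith) _))

theorem upG (hU : 2 ≤ U) (hn : 0 < n) (h : Pair U n G M) (h' : Pair U n G' M) {r : ℝ}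
    (hr : 0 ≤ r) : G' r ≤ U ^ 482 * max (G r) n :=
  chain (a := 339) (b := 143) hU (chain (a := 143) (b := 196) hU (h'.G_le hU hr)
    (maxl hU hn (le_max_right _ _) (h.upY hU hn (by linarith)))) (h.dbl2 hU hn hr)

theorem loG (hU : 2 ≤ U) (hn : 0 < n) (h : Pair U n G M) (h' : Pair U n G' M) {r : ℝ}
    (hr : 0 ≤ r) : max (G r) n ≤ U ^ 339 * max (G' r) n := by
  have h1 := h'.M_le hU (r := r / 4) (by linarith)
  have h2 : M (r / 4) ≤ U ^ 53 * max (G' r) n :=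
    h1.trans (mul_le_mul_of_nonneg_left (max_le_max_right _ (h'.Gm (by linarith)))
      (pow_nonneg (by linarith) _))
  exact chain (a := 286) (b := 53) hU (h.low hU hn hr) (maxl hU hn (le_max_right _ _) h2)

theorem sm (hU : 2 ≤ U) (hn : 0 < n) (hn1 : n ≤ 1) (h : Pair U n G M) {r r' : ℝ} (hr : 0 ≤ r)
    (hr' : 0 ≤ r') : max (G r) n * max (G r') n ≤ U ^ 299 * max (G (r * r')) n := by
  have hU1 : 1 ≤ U := by linarith
  have hm : n ≤ max (G (r * r')) n := le_max_right _ _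
  have hrr := mul_nonneg hr hr'
  have hb : n * U ≤ U ^ 13 * max (G (r * r')) n := by
    rw [mul_comm]
    exact mul_le_mul (le_self_pow₀ hU1 (by norm_num)) hm hn.le (by positivity)
  have h1 : max (M (r / 4)) n * max (G r') n ≤ U ^ 13 * max (G (r * r')) n := by
    rcases le_total (M (r / 4)) n with a | a
    · rw [max_eq_right a]
      exact (mul_le_mul_of_nonneg_left (max_le (h.GU _) (by linarith)) hn.le).trans hb
    · rw [max_eq_left a]
      rcases le_total (G r') n with b | b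
      · rw [max_eq_right b, mul_comm]
        exact (mul_le_mul_of_nonneg_left ((h.M1 _).trans hU1) hn.le).trans hb
      · rw [max_eq_left b, mul_comm]
        refine (h.S' (r / 4) r' (by linarith) hr').trans (mul_le_mul_of_nonneg_left
          (max_le_max_right _ (h.Gm ?_)) (by positivity))
        linarith
  have h2 : max (G r) n * max (G r') n ≤ U ^ 286 * (max (M (r / 4)) n * max (G r') n) := by
    rw [← mul_assoc]
    exact mul_le_mul_of_nonneg_right (h.low hU hn hr) (hn.le.trans (le_max_right _ _))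
  exact chain (a := 286) (b := 13) hU h2 h1

end Pair

theorem pair {A : ℕ} {U s : ℝ} {P : Finset Pt} {X Y : Pt → ℝ} {C : Finset ℕ} {gam κ : ℕ → ℝ}
    {Gd : Pt → ℕ → Prop} {Ω : Finset Pt} {e₀ e₁ : ℕ} {ρ₀ : ℝ} (hb : AnBase A U s P Y C gam κ Gd)
    (ht : AnTwo (1 / U ^ A) U s P X Y C gam κ Gd) (ha : Anch U s P Y C gam κ Gd Ω e₀ e₁ ρ₀)
    {q : Pt} (hq : q ∈ Ω) {c : ℕ} (hc : Gd q c) (h0 : κ e₀ ≤ κ c) (h1 : κ c ≤ κ e₁) :
    Pair U (1 / U ^ A) (fun r => mG2 C gam κ c (r * (κ e₁ - κ e₀)))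
      (fun r => mP2 P Y q (r * ρ₀) / s) := by
  have hU := hb.two_le
  have hs := hb.s_pos
  have hΔ : 0 < κ e₁ - κ e₀ := sub_pos.2 ha.lt
  have hρ := ha.pos
  have hn : 0 < 1 / U ^ A := by positivity
  have hn1 : 1 / U ^ A ≤ 1 := (div_le_one (by positivity)).2 (one_le_pow₀ (by linarith))
  have GU : ∀ w, mG2 C gam κ c w ≤ U := fun w => (mG2_le hb.nonneg c w).trans hb.total
  have M1 : ∀ w, mP2 P Y q w / s ≤ 1 := fun w =>
    (div_le_one hs).2 ((mP2_le P Y q w).trans hb.cardP)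
  have M0 : ∀ w, 0 ≤ mP2 P Y q w / s := fun w => div_nonneg (mP2_nonneg P Y q w) hs.le
  have GM : ∀ w ρ, mG2 C gam κ c w * (mP2 P Y q ρ / s) ≤ U := fun w ρ =>
    (mul_le_of_le_one_right (mG2_nonneg hb.nonneg c w) (M1 ρ)).trans (GU w)
  refine ⟨fun r => mG2_nonneg hb.nonneg c _, fun r => M0 _,
    fun r r' h => mG2_mono hb.nonneg c (mul_le_mul_of_nonneg_right h hΔ.le),
    fun r r' h => div_le_div_of_nonneg_right
      (mP2_mono P Y q (mul_le_mul_of_nonneg_right h hρ.le)) hs.le,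
    fun r => GU _, fun r => M1 _, fun r r' hr hr' => ?_, fun r r' hr hr' => ?_, ?_, ?_⟩
  · refine comb hU hn hn1 (GM _ _) (ht.h1 q c hc _ _ (by positivity) (by positivity))
      (ha.halfG q hq c hc h0 h1) fun hy => ?_
    have := ht.h2 q c hc ((κ e₁ - κ e₀) / 2) (2 * r * r' * ρ₀) (by positivity) (by positivity)
      (ha.halfG q hq c hc h0 h1) hy
    rw [show (κ e₁ - κ e₀) / 2 * (2 * r * r' * ρ₀) = r' * (κ e₁ - κ e₀) * (r * ρ₀) by ring] at this
    linarith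
  · refine comb hU hn hn1 (GM _ _) (ht.h1 q c hc _ _ (by positivity) (by positivity))
      (ha.halfY q hq) fun hy => ?_
    have := ht.h2 q c hc (2 * r * r' * (κ e₁ - κ e₀)) (ρ₀ / 2) (by positivity) (by positivity)
      hy (ha.halfY q hq)
    rw [show 2 * r * r' * (κ e₁ - κ e₀) * (ρ₀ / 2) = r' * (κ e₁ - κ e₀) * (r * ρ₀) by ring] at this
    linarith
  · have := ha.lowY q hq
    rwa [show ρ₀ / 16 = 1 / 16 * ρ₀ by ring] at this
  · refine (ha.wt q hq).trans (Finset.sum_le_sum_of_subset_of_nonneg (fun x hx => ?_)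
      fun x _ _ => hb.nonneg x)
    rw [Finset.mem_filter] at hx ⊢
    refine ⟨hx.1, abs_le.2 ⟨?_, ?_⟩⟩ <;> linarith [hx.2.1, hx.2.2.1]

end ProfileAux

open ProfileAux in
theorem profile : ProfileStmt := by
  intro A U s P X Y C gam κ Gd Ω e₀ e₁ ρ₀ hb ht ha
  have hU := hb.two_le
  have hs := hb.s_pos
  have hn : 0 < 1 / U ^ A := by positivity
  have hn1 : 1 / U ^ A ≤ 1 := (div_le_one (by positivity)).2 (one_le_pow₀ (by linarith))
  have hm : ∀ x : ℝ, 0 ≤ max x (1 / U ^ A) := fun x => hn.le.trans (le_max_right _ _)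
  have p0 := fun q (hq : q ∈ Ω) => pair hb ht ha hq (ha.g0 q hq) le_rfl ha.lt.le
  obtain ⟨q₀, hq₀⟩ : Ω.Nonempty := by
    have : (0 : ℝ) < #Ω := lt_of_lt_of_le (by positivity) ha.big
    exact Finset.card_pos.1 (by exact_mod_cast this)
  exact
    { eq := fun _ => rfl
      dbl := fun r hr => up hU (hm _) (by norm_num) ((p0 q₀ hq₀).dbl hU hn hr)
      sm := fun r r' hr hr' => up hU (hm _) (by norm_num) ((p0 q₀ hq₀).sm hU hn hn1 hr hr')
      upY := fun q hq r hr => up hU (hm _) (by norm_num) ((p0 q hq).upY hU hn hr)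
      loY := fun q hq r hr => up hU (hm _) (by norm_num) ((p0 q hq).loY hU hn hr)
      upG := fun q hq c hc h0 h1 r hr =>
        up hU (hm _) (by norm_num) ((p0 q hq).upG hU hn (pair hb ht ha hq hc h0 h1) hr)
      loG := fun q hq c hc h0 h1 r hr =>
        up hU (hm _) (by norm_num) ((p0 q hq).loG hU hn (pair hb ht ha hq hc h0 h1) hr) }

end Crest.Agent.R51
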