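import Crest.Agent.R51.Analytic
import Crest.Agent.R51.Anchor
import Crest.Agent.R51.Bal
import Crest.Agent.R51.Cover
import Crest.Agent.R51.Expand
import Crest.Agent.R51.Profile
import Crest.Agent.R51.Proj

/-! # Row 51: the analytic theorem -/

set_option autoImplicit false

namespace Crest.Agent.R51

theorem part3 : ∃ C₁, AnStmt C₁ := analytic bal anchor profile (proj cover expand)

end Crest.Agent.R51
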