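import Crest.Agent.R51.Geo

/-!
# Row 51: runs, classes, counting tools
-/

set_option autoImplicit false

noncomputable section

namespace Crest.Agent.R51

open Finset Classical

variable {P : Finset Pt} {v : ℤ → Pt} {I : Finset ℤ} {i j : ℤ}

lemma Seg.mono {i' j' : ℤ} (hs : Seg I i j) (h1 : i ≤ i') (h2 : j' ≤ j) : Seg I i' j' :=
  fun l a b => hs l (by omega) (by omega)

lemma Seg.subset {I' : Finset ℤ} (hs : Seg I i j) (h1 : I ⊆ I') : Seg I' i j :=
  fun l a b => h1 (hs l a b)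

lemma Seg.snoc (hs : Seg I i j) (hj : j ∈ I) : Seg I i (j + 1) := fun l a b => by
  rcases (by omega : l < j ∨ l = j) with c | c
  · exact hs l a c
  · rw [c]; exact hj

lemma Sys.mono (hS : Sys P v I) {I' : Finset ℤ} {P' : Finset Pt} (hI : I' ⊆ I) (hP : P' ⊆ P)
    (hL : ∀ i ∈ I', v i ∈ P') (hR : ∀ i ∈ I', v (i + 1) ∈ P') : Sys P' v I' :=
  ⟨hS.gp.mono hP, hL, hR, fun i a => hS.lt i (hI a), fun i a b => hS.conv i (hI a) (hI b),
   fun i a j b => hS.inj i (hI a) j (hI b),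
   fun i j a b c d => hS.wait i j (hI a) (hI b) (hI c) (hI d)⟩

lemma Sys.sub (hS : Sys P v I) {I' : Finset ℤ} (hI : I' ⊆ I) : Sys P v I' :=
  hS.mono hI Subset.rfl (fun i a => hS.memL i (hI a)) (fun i a => hS.memR i (hI a))

lemma Sys.part {κ : Type} (hS : Sys P v I) (c : Pt → κ) (k : κ) :
    Sys (part c k P) v (inside c k v I) :=
  hS.mono (filter_subset _ _) (filter_subset _ _)
    (fun i a => mem_filter.mpr ⟨hS.memL i (mem_filter.mp a).1, (mem_filter.mp a).2.1⟩)
    (fun i a => mem_filter.mpr ⟨hS.memR i (mem_filter.mp a).1, (mem_filter.mp a).2.2⟩)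

/-- an edge is determined by its two ends -/
lemma Sys.eq_of_ends (hS : Sys P v I) (hi : i ∈ I) (hj : j ∈ I) (h1 : v i = v j)
    (h2 : v (i + 1) = v (j + 1)) : i = j :=
  hS.inj i hi j hj (by unfold sl; rw [h1, h2])

lemma mem_inside {κ : Type} {c : Pt → κ} {k : κ} :
    i ∈ inside c k v I ↔ i ∈ I ∧ c (v i) = k ∧ c (v (i + 1)) = k := mem_filter

lemma mem_cut {κ : Type} {c : Pt → κ} : i ∈ cut c v I ↔ i ∈ I ∧ c (v i) ≠ c (v (i + 1)) :=
  mem_filter

lemma mem_part {κ : Type} {c : Pt → κ} {k : κ} {p : Pt} : p ∈ part c k P ↔ p ∈ P ∧ c p = k :=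
  mem_filter

lemma mem_cher {G : Finset ℤ} {Q : ℤ → ℤ → Prop} {x : ℤ × ℤ} :
    x ∈ cher v G Q ↔ x.1 ∈ G ∧ x.2 ∈ G ∧ v x.1 = v x.2 ∧ Q x.1 x.2 := by
  unfold cher; rw [mem_filter, mem_product, and_assoc]

lemma mem_starts : i ∈ starts I ↔ i ∈ I ∧ i - 1 ∉ I := mem_filter

lemma exists_start (hi : i ∈ I) : ∃ g ∈ starts I, g ≤ i ∧ Seg I g (i + 1) := by
  obtain ⟨g, hg, hmin⟩ := exists_min_image (I.filter fun g => g ≤ i ∧ Seg I g (i + 1)) id
    ⟨i, mem_filter.mpr ⟨hi, le_rfl, fun l a b => by rw [(by omega : l = i)]; exact hi⟩⟩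
  rw [mem_filter] at hg
  refine ⟨g, mem_starts.mpr ⟨hg.1, fun hm => ?_⟩, hg.2⟩
  have := hmin (g - 1) (mem_filter.mpr ⟨hm, by omega, fun l a b => by
    rcases (by omega : l = g - 1 ∨ g ≤ l) with c | c
    · rw [c]; exact hm
    · exact hg.2.2 l c b⟩)
  simp only [id] at this
  omega

lemma root_eq_of_start {g : ℤ} (hg : g ∈ starts I) (h1 : g ≤ i) (hs : Seg I g (i + 1)) :
    root I i = g := by
  have hne : ((starts I).filter fun j => j ≤ i).Nonempty := ⟨g, mem_filter.mpr ⟨hg, h1⟩⟩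
  unfold root
  rw [dif_pos hne]
  refine le_antisymm ?_ (le_max' _ _ (mem_filter.mpr ⟨hg, h1⟩))
  by_contra hc
  have hm := mem_filter.mp (max'_mem _ hne)
  exact (mem_starts.mp hm.1).2 (hs _ (by omega) (by omega))

lemma root_mem_starts (hi : i ∈ I) : root I i ∈ starts I := by
  obtain ⟨g, a, b, c⟩ := exists_start hi
  rw [root_eq_of_start a b c]; exact a

lemma root_le (hi : i ∈ I) : root I i ≤ i := by
  obtain ⟨g, a, b, c⟩ := exists_start hi
  rw [root_eq_of_start a b c]; exact b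

lemma seg_root (hi : i ∈ I) : Seg I (root I i) (i + 1) := by
  obtain ⟨g, a, b, c⟩ := exists_start hi
  rw [root_eq_of_start a b c]; exact c

lemma root_mem (hi : i ∈ I) : root I i ∈ I := (mem_starts.mp (root_mem_starts hi)).1

lemma root_of_mem_starts {g : ℤ} (hg : g ∈ starts I) : root I g = g :=
  root_eq_of_start hg le_rfl fun l a b => by rw [(by omega : l = g)]; exact (mem_starts.mp hg).1

lemma root_eq_of_seg (hij : i ≤ j) (hs : Seg I i (j + 1)) : root I j = root I i := by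
  have hi : i ∈ I := hs i le_rfl (by omega)
  refine root_eq_of_start (root_mem_starts hi) ((root_le hi).trans hij) fun l a b => ?_
  rcases (by omega : l < i + 1 ∨ i ≤ l) with c | c
  · exact seg_root hi l a c
  · exact hs l c b

lemma seg_of_root_eq (hi : i ∈ I) (hj : j ∈ I) (h1 : root I i = root I j) : Seg I i (j + 1) :=
  (seg_root hj).mono (h1 ▸ root_le hi) le_rfl

lemma root_succ (hi : i ∈ I) (hj : i + 1 ∈ I) : root I (i + 1) = root I i :=
  root_eq_of_seg (by omega) fun l a b => by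
    rcases (by omega : l = i ∨ l = i + 1) with c | c <;> rw [c] <;> assumption

/-- counting run by run -/
lemma card_le_nr_mul {S : Finset ℤ} (hS : S ⊆ I) {m : ℝ}
    (hm : ∀ g ∈ starts I, (#(S.filter fun i => root I i = g) : ℝ) ≤ m) : (#S : ℝ) ≤ nr I * m := by
  rw [card_eq_sum_card_fiberwise (f := root I) (t := starts I)
    (fun i hi => root_mem_starts (hS (mem_coe.mp hi)))]
  push_cast
  refine (sum_le_card_nsmul _ _ m hm).trans (le_of_eq ?_)
  rw [nsmul_eq_mul]; rfl

lemma nr_le_card (I : Finset ℤ) : nr I ≤ #I := card_filter_le _ _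

lemma nr_le_sdiff {I' : Finset ℤ} (h1 : I' ⊆ I) : nr I' ≤ nr I + #(I \ I') := by
  unfold nr
  rw [← card_image_of_injective (I \ I') (add_left_injective (1 : ℤ))]
  refine (card_le_card fun i hi => ?_).trans (card_union_le _ _)
  rw [mem_starts] at hi
  rw [mem_union, mem_starts, mem_image]
  by_cases c : i - 1 ∈ I
  · exact Or.inr ⟨i - 1, mem_sdiff.mpr ⟨c, hi.2⟩, by ring⟩
  · exact Or.inl ⟨h1 hi.1, c⟩

/-- the union of the runs with first edge in `T` -/
lemma nr_filter_root (T : Finset ℤ) : nr (I.filter fun i => root I i ∈ T) ≤ #T := by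
  refine card_le_card fun i hi => ?_
  rw [mem_starts, mem_filter, mem_filter] at hi
  have : i ∈ starts I := mem_starts.mpr ⟨hi.1.1, fun hm => hi.2 ⟨hm, by
    have := root_succ hm (by rw [sub_add_cancel]; exact hi.1.1)
    rw [sub_add_cancel] at this
    rw [← this]; exact hi.1.2⟩⟩
  rw [← root_of_mem_starts this]; exact hi.1.2

lemma sum_nr_fiber {κ : Type} [DecidableEq κ] (f : ℤ → κ) (T : Finset κ) :
    ∑ k ∈ T, nr (I.filter fun i => f i = k) ≤
      nr I + #(I.filter fun i => i - 1 ∈ I ∧ f (i - 1) ≠ f i) := by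
  unfold nr
  rw [← card_biUnion]
  · refine (card_le_card fun i hi => ?_).trans (card_union_le _ _)
    obtain ⟨k, -, hi⟩ := mem_biUnion.mp hi
    rw [mem_starts, mem_filter, mem_filter] at hi
    rw [mem_union, mem_starts, mem_filter]
    by_cases c : i - 1 ∈ I
    · exact Or.inr ⟨hi.1.1, c, fun e => hi.2 ⟨c, e.trans hi.1.2⟩⟩
    · exact Or.inl ⟨hi.1.1, c⟩
  · intro a _ b _ hab
    rw [Function.onFun, disjoint_left]
    intro i h1 h2
    rw [mem_starts, mem_filter] at h1 h2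
    exact hab (h1.1.2.symm.trans h2.1.2)

lemma sum_nr_class {cl : ℤ → ℕ} (hL : Link I cl) (T : Finset ℕ) :
    ∑ k ∈ T, nr (I.filter fun i => cl i = k) ≤ nr I := by
  have h1 := sum_nr_fiber (I := I) cl T
  rw [filter_eq_empty_iff.mpr, card_empty, add_zero] at h1
  · exact h1
  · intro i hi ⟨a, b⟩
    have := hL (i - 1) a (by rw [sub_add_cancel]; exact hi)
    rw [sub_add_cancel] at this
    exact b this

/-- a set of edges defined by a property of the class has no more runs -/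
lemma nr_filter_class {cl : ℤ → ℕ} (hL : Link I cl) (Q : ℕ → Prop) :
    nr (I.filter fun i => Q (cl i)) ≤ nr I := by
  refine card_le_card fun i hi => ?_
  rw [mem_starts, mem_filter, mem_filter] at hi
  refine mem_starts.mpr ⟨hi.1.1, fun hm => hi.2 ⟨hm, ?_⟩⟩
  have := hL (i - 1) hm (by rw [sub_add_cancel]; exact hi.1.1)
  rw [sub_add_cancel] at this
  rw [this]; exact hi.1.2

lemma sum_nr_inside {κ : Type} (c : Pt → κ) (T : Finset κ) :
    ∑ k ∈ T, nr (inside c k v I) ≤ nr I + #(cut c v I) := by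
  unfold nr
  rw [← card_biUnion, ← card_image_of_injective (cut c v I) (add_left_injective (1 : ℤ))]
  · refine (card_le_card fun i hi => ?_).trans (card_union_le _ _)
    obtain ⟨k, -, hi⟩ := mem_biUnion.mp hi
    unfold inside at hi
    rw [mem_starts, mem_filter, mem_filter] at hi
    rw [mem_union, mem_starts, mem_image]
    by_cases c1 : i - 1 ∈ I
    · refine Or.inr ⟨i - 1, mem_filter.mpr ⟨c1, fun e => hi.2 ⟨c1, ?_, ?_⟩⟩, by ring⟩
      · rw [e, sub_add_cancel]; exact hi.1.2.1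
      · rw [sub_add_cancel]; exact hi.1.2.1
    · exact Or.inl ⟨hi.1.1, c1⟩
  · intro a _ b _ hab
    rw [Function.onFun, disjoint_left]
    intro i h1 h2
    unfold inside at h1 h2
    rw [mem_starts, mem_filter] at h1 h2
    exact hab (h1.1.2.1.symm.trans h2.1.2.1)

/-- monotonicity along a segment -/
lemma Seg.le_of_step {α : Type*} [Preorder α] (r : ℤ → α) (hij : i ≤ j)
    (hr : ∀ l, i ≤ l → l < j → r l ≤ r (l + 1)) : r i ≤ r j := by
  induction j, hij using Int.leInduction with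
  | base => exact le_rfl
  | succ n hn ih => exact (ih fun l a b => hr l a (by omega)).trans (hr n hn (by omega))

lemma Sys.x_le_of_seg (hS : Sys P v I) (hij : i ≤ j) (hs : Seg I i j) : (v i).1 ≤ (v j).1 :=
  Seg.le_of_step (fun l => (v l).1) hij fun l a b => (hS.lt l (hs l a b)).le

lemma Sys.x_lt_of_seg (hS : Sys P v I) (hij : i < j) (hs : Seg I i j) : (v i).1 < (v j).1 :=
  (hS.lt i (hs i le_rfl hij)).trans_le (hS.x_le_of_seg (by omega) (hs.mono (by omega) le_rfl))

lemma Sys.sl_le_of_seg (hS : Sys P v I) (hij : i ≤ j) (hs : Seg I i (j + 1)) : sl v i ≤ sl v j :=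
  Seg.le_of_step (sl v) hij fun l a b =>
    (hS.conv l (hs l a (by omega)) (hs _ (by omega) (by omega))).le

lemma Sys.sl_lt_of_seg (hS : Sys P v I) (hij : i < j) (hs : Seg I i (j + 1)) : sl v i < sl v j :=
  (hS.conv i (hs i le_rfl (by omega)) (hs _ (by omega) (by omega))).trans_le
    (hS.sl_le_of_seg (by omega) (hs.mono (by omega) le_rfl))

lemma Sys.mem_of_seg (hS : Sys P v I) (hij : i < j) (hs : Seg I i j) {l : ℤ} (h1 : i ≤ l)
    (h2 : l ≤ j) : v l ∈ P := by
  rcases h2.lt_or_eq with c | c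
  · exact hS.memL l (hs l h1 c)
  · have := hS.memR (j - 1) (hs _ (by omega) (by omega))
    rw [sub_add_cancel] at this
    rw [c]; exact this

lemma Sys.h_step (hS : Sys P v I) (hi : i ∈ I) (θ : ℝ) :
    h θ (v (i + 1)) - h θ (v i) = (sl v i - θ) * ((v (i + 1)).1 - (v i).1) :=
  h_sub θ (hS.lt i hi).ne

lemma Sys.h_edge (hS : Sys P v I) (hi : i ∈ I) : h (sl v i) (v (i + 1)) = h (sl v i) (v i) :=
  h_slope (hS.lt i hi).ne

lemma Sys.h_mono_up (hS : Sys P v I) {θ : ℝ} (hij : i ≤ j) (hs : Seg I i j)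
    (hθ : ∀ l, i ≤ l → l < j → θ ≤ sl v l) : h θ (v i) ≤ h θ (v j) :=
  Seg.le_of_step (fun l => h θ (v l)) hij fun l a b => by
    have h1 := hS.h_step (hs l a b) θ
    have h2 := mul_nonneg (sub_nonneg.mpr (hθ l a b)) (sub_nonneg.mpr (hS.lt l (hs l a b)).le)
    linarith

lemma Sys.h_mono_down (hS : Sys P v I) {θ : ℝ} (hij : i ≤ j) (hs : Seg I i j)
    (hθ : ∀ l, i ≤ l → l < j → sl v l ≤ θ) : h θ (v j) ≤ h θ (v i) := by
  have := Seg.le_of_step (fun l => - h θ (v l)) hij fun l a b => by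
    have h1 := hS.h_step (hs l a b) θ
    have h2 := mul_nonneg (sub_nonneg.mpr (hθ l a b)) (sub_nonneg.mpr (hS.lt l (hs l a b)).le)
    nlinarith
  linarith

/-- the slope of a chord lies between the extreme slopes -/
lemma Sys.chord (hS : Sys P v I) {lo hi : ℝ} (hij : i < j) (hs : Seg I i j)
    (hθ : ∀ l, i ≤ l → l < j → lo ≤ sl v l ∧ sl v l ≤ hi) :
    lo ≤ slope (v i) (v j) ∧ slope (v i) (v j) ≤ hi := by
  have hx := hS.x_lt_of_seg hij hs
  have hlh : lo ≤ hi := (hθ i le_rfl hij).1.trans (hθ i le_rfl hij).2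
  exact slope_mem_of_sign hx.ne hlh le_rfl le_rfl hlh
    (hS.h_mono_down hij.le hs fun l a b => (hθ l a b).2)
    (hS.h_mono_up hij.le hs fun l a b => (hθ l a b).1)

lemma Sys.rk_mono_up (hS : Sys P v I) (B : Finset Pt) {θ : ℝ} (hij : i ≤ j) (hs : Seg I i j)
    (hθ : ∀ l, i ≤ l → l < j → θ < sl v l) : rk B θ (v i) ≤ rk B θ (v j) :=
  Seg.le_of_step (fun l => rk B θ (v l)) hij fun l a b =>
    rk_le_of_below ((below_left_iff (hS.lt l (hs l a b))).mpr (hθ l a b))

lemma Sys.rk_mono_down (hS : Sys P v I) (B : Finset Pt) {θ : ℝ} (hij : i ≤ j) (hs : Seg I i j)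
    (hθ : ∀ l, i ≤ l → l < j → sl v l ≤ θ) : rk B θ (v j) ≤ rk B θ (v i) :=
  Seg.le_of_step (α := ℕᵒᵈ) (fun l => OrderDual.toDual (rk B θ (v l))) hij fun l a b =>
    rk_le_of_below (P := B) ((below_right_iff (hS.lt l (hs l a b))).mpr (hθ l a b))

/-- convexity: for `τ` in the waiting interval at `v i`, all vertices of the run are above -/
lemma Sys.h_ge_of_wait (hS : Sys P v I) {τ : ℝ} {l : ℤ} (hup : i ∈ I → τ ≤ sl v i)
    (hdn : i - 1 ∈ I → sl v (i - 1) ≤ τ) (hs : Seg I (min i l) (max i l)) :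
    h τ (v i) ≤ h τ (v l) := by
  rcases le_total i l with c | c
  · rw [min_eq_left c, max_eq_right c] at hs
    exact hS.h_mono_up c hs fun m a b => (hup (hs i le_rfl (by omega))).trans
      (hS.sl_le_of_seg a (hs.mono le_rfl (by omega)))
  · rw [min_eq_right c, max_eq_left c] at hs
    exact hS.h_mono_down c hs fun m a b => (hS.sl_le_of_seg (by omega : m ≤ i - 1)
      (hs.mono a (by omega))).trans (hdn (hs _ (by omega) (by omega)))

/-- convexity: all vertices of a run lie above the line of each of its edges -/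
lemma Sys.h_ge (hS : Sys P v I) (hi : i ∈ I) (hj : j ∈ I) (h1 : root I i = root I j) :
    h (sl v i) (v i) ≤ h (sl v i) (v j) ∧ h (sl v i) (v i) ≤ h (sl v i) (v (j + 1)) := by
  have a := seg_of_root_eq hi hj h1
  have b := seg_of_root_eq hj hi h1.symm
  have hd : i - 1 ∈ I → sl v (i - 1) ≤ sl v i := fun hm => by
    have := hS.conv (i - 1) hm (by rw [sub_add_cancel]; exact hi)
    rw [sub_add_cancel] at this; exact this.le
  constructor <;> refine hS.h_ge_of_wait (fun _ => le_rfl) hd fun m c d => ?_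
  · rcases le_total i j with e | e
    · exact a m (by omega) (by omega)
    · exact b m (by omega) (by omega)
  · rcases le_total i j with e | e
    · exact a m (by omega) (by omega)
    · exact b m (by omega) (by omega)

lemma Link.seg {cl : ℤ → ℕ} (hL : Link I cl) (hij : i ≤ j) (hs : Seg I i (j + 1)) :
    cl i = cl j := by
  induction j, hij using Int.leInduction with
  | base => rfl
  | succ n hn ih =>
    exact (ih (hs.mono le_rfl (by omega))).trans
      (hL n (hs n hn (by omega)) (hs _ (by omega) (by omega)))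

lemma Link.root_eq {cl : ℤ → ℕ} (hL : Link I cl) (hi : i ∈ I) (hj : j ∈ I)
    (h1 : root I i = root I j) : cl i = cl j := by
  rw [← hL.seg (root_le hi) (seg_root hi), ← hL.seg (root_le hj) (seg_root hj), h1]

lemma Link.sub {cl : ℤ → ℕ} (hL : Link I cl) {I' : Finset ℤ} (h1 : I' ⊆ I) : Link I' cl :=
  fun i a b => hL i (h1 a) (h1 b)

lemma Mono.sub {σ : ℤ → ℝ} {cl : ℤ → ℕ} (hM : Mono σ I cl) {I' : Finset ℤ} (h1 : I' ⊆ I) :
    Mono σ I' cl := fun i a j b => hM i (h1 a) j (h1 b)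

lemma Mono.lt {σ : ℤ → ℝ} {cl : ℤ → ℕ} (hM : Mono σ I cl) (hi : i ∈ I) (hj : j ∈ I)
    (h1 : cl i < cl j) : σ i < σ j :=
  not_le.mp fun c => absurd (hM j hj i hi c) (not_le.mpr h1)

lemma Mono.comp {σ : ℤ → ℝ} {cl : ℤ → ℕ} (hM : Mono σ I cl) {g : ℕ → ℕ} (hg : Monotone g) :
    Mono σ I fun i => g (cl i) := fun i a j b c => hg (hM i a j b c)

lemma Link.comp {cl : ℤ → ℕ} (hL : Link I cl) (g : ℕ → ℕ) : Link I fun i => g (cl i) :=
  fun i a b => congrArg g (hL i a b)

lemma exists_hull (σ : ℤ → ℝ) (I : Finset ℤ) (cl : ℤ → ℕ) : ∃ lo hi, Hull σ I cl lo hi := by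
  have h1 : ∀ c : ℕ, ∃ x y : ℝ, ∀ i ∈ I, cl i = c → x ≤ σ i ∧ σ i ≤ y ∧
      (∃ j ∈ I, cl j = c ∧ σ j = x) ∧ ∃ j ∈ I, cl j = c ∧ σ j = y := by
    intro c
    by_cases hne : (I.filter fun i => cl i = c).Nonempty
    · obtain ⟨a, ha, hmin⟩ := exists_min_image _ σ hne
      obtain ⟨b, hb, hmax⟩ := exists_max_image _ σ hne
      rw [mem_filter] at ha hb
      exact ⟨σ a, σ b, fun i hi hc => ⟨hmin i (mem_filter.mpr ⟨hi, hc⟩),
        hmax i (mem_filter.mpr ⟨hi, hc⟩), ⟨a, ha.1, ha.2, rfl⟩, ⟨b, hb.1, hb.2, rfl⟩⟩⟩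
    · exact ⟨0, 0, fun i hi hc => absurd ⟨i, mem_filter.mpr ⟨hi, hc⟩⟩ hne⟩
  choose lo hi hh using h1
  exact ⟨lo, hi, fun i a => (hh _ i a rfl).1, fun i a => (hh _ i a rfl).2.1,
    fun i a => (hh _ i a rfl).2.2.1, fun i a => (hh _ i a rfl).2.2.2⟩

lemma Hull.lo_le_hi {σ : ℤ → ℝ} {cl : ℤ → ℕ} {lo hi : ℕ → ℝ} (hH : Hull σ I cl lo hi) {a : ℕ}
    (ha : a ∈ I.image cl) : lo a ≤ hi a := by
  obtain ⟨i, hi, rfl⟩ := mem_image.mp ha
  exact (hH.lo_le i hi).trans (hH.le_hi i hi)

lemma Hull.lt {σ : ℤ → ℝ} {cl : ℤ → ℕ} {lo hi : ℕ → ℝ} (hH : Hull σ I cl lo hi)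
    (hM : Mono σ I cl) {a b : ℕ} (ha : a ∈ I.image cl) (hb : b ∈ I.image cl) (hab : a < b) :
    hi a < lo b := by
  obtain ⟨i, hi, rfl⟩ := mem_image.mp ha
  obtain ⟨j, hj, rfl⟩ := mem_image.mp hb
  obtain ⟨i', hi', e1, e2⟩ := hH.hi_mem i hi
  obtain ⟨j', hj', e3, e4⟩ := hH.lo_mem j hj
  rw [← e2, ← e4]
  exact hM.lt hi' hj' (by omega)

lemma Hull.sum_nu {σ : ℤ → ℝ} {cl : ℤ → ℕ} {lo hi : ℕ → ℝ} (hH : Hull σ I cl lo hi)
    (hM : Mono σ I cl) (P : Finset Pt) (p : Pt) :
    ∑ a ∈ I.image cl, nu P (lo a) (hi a) p ≤ #P :=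
  sum_nu_le _ lo hi p fun a ha b hb hab => by
    rcases lt_or_gt_of_ne hab with c | c
    · exact Or.inl (hH.lt hM ha hb c)
    · exact Or.inr (hH.lt hM hb ha c)

/-- each point has few classes with large `nu` -/
lemma Hull.card_nu_gt {σ : ℤ → ℝ} {cl : ℤ → ℕ} {lo hi : ℕ → ℝ} (hH : Hull σ I cl lo hi)
    (hM : Mono σ I cl) (P : Finset Pt) (p : Pt) {W : ℝ} (hW : 0 < W) :
    (#((I.image cl).filter fun a => W < (nu P (lo a) (hi a) p : ℝ)) : ℝ) ≤ #P / W := by
  rw [le_div_iff₀ hW, ← nsmul_eq_mul]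
  refine (card_nsmul_le_sum _ (fun a => (nu P (lo a) (hi a) p : ℝ)) W
    fun a ha => (mem_filter.mp ha).2.le).trans ?_
  refine (sum_le_sum_of_subset_of_nonneg (filter_subset _ _) fun _ _ _ => Nat.cast_nonneg _).trans ?_
  exact_mod_cast hH.sum_nu hM P p

/-- a run of another class is monotone in rank at time `lo a` -/
lemma Sys.rk_between (hS : Sys P v I) {cl : ℤ → ℕ} {lo hi : ℕ → ℝ} (hH : Hull (sl v) I cl lo hi)
    (hM : Mono (sl v) I cl) {a c : ℕ} (ha : a ∈ I.image cl) (hne : a ≠ c) (hs : Seg I i j)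
    (hc : ∀ l, i ≤ l → l < j → cl l = c) {l l' : ℤ} (h1 : i ≤ l) (h2 : l ≤ l') (h3 : l' ≤ j) :
    dr P (lo a) (v l) (v l') ≤ dr P (lo a) (v i) (v j) := by
  unfold dr
  rcases lt_or_gt_of_ne hne with c1 | c1
  · have hup : ∀ m, i ≤ m → m < j → lo a < sl v m := fun m x y => by
      have hm := hs m x y
      have := hH.lt hM ha (mem_image_of_mem cl hm) (by rw [hc m x y]; exact c1)
      linarith [hH.lo_le_hi ha, hH.lo_le m hm]
    have a1 := hS.rk_mono_up P h1 (hs.mono le_rfl (by omega)) fun m x y => hup m x (by omega)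
    have a2 := hS.rk_mono_up P h2 (hs.mono h1 h3) fun m x y => hup m (by omega) (by omega)
    have a3 := hS.rk_mono_up P h3 (hs.mono (by omega) le_rfl) fun m x y => hup m (by omega) y
    have b1 : (rk P (lo a) (v i) : ℝ) ≤ rk P (lo a) (v l) := by exact_mod_cast a1
    have b2 : (rk P (lo a) (v l) : ℝ) ≤ rk P (lo a) (v l') := by exact_mod_cast a2
    have b3 : (rk P (lo a) (v l') : ℝ) ≤ rk P (lo a) (v j) := by exact_mod_cast a3
    rw [abs_of_nonneg (by linarith), abs_of_nonneg (by linarith)]; linarith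
  · have hdn : ∀ m, i ≤ m → m < j → sl v m ≤ lo a := fun m x y => by
      have hm := hs m x y
      have := hH.lt hM (mem_image_of_mem cl hm) ha (by rw [hc m x y]; exact c1)
      linarith [hH.le_hi m hm]
    have a1 := hS.rk_mono_down P h1 (hs.mono le_rfl (by omega)) fun m x y => hdn m x (by omega)
    have a2 := hS.rk_mono_down P h2 (hs.mono h1 h3) fun m x y => hdn m (by omega) (by omega)
    have a3 := hS.rk_mono_down P h3 (hs.mono (by omega) le_rfl) fun m x y => hdn m (by omega) y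
    have b1 : (rk P (lo a) (v l) : ℝ) ≤ rk P (lo a) (v i) := by exact_mod_cast a1
    have b2 : (rk P (lo a) (v l') : ℝ) ≤ rk P (lo a) (v l) := by exact_mod_cast a2
    have b3 : (rk P (lo a) (v j) : ℝ) ≤ rk P (lo a) (v l') := by exact_mod_cast a3
    rw [abs_of_nonpos (by linarith), abs_of_nonpos (by linarith)]; linarith

/-- (RD) along a run inside a time interval -/
lemma Sys.dr_le_nu (hS : Sys P v I) {lo hi θ : ℝ} (hij : i ≤ j) (hs : Seg I i j)
    (hθ : ∀ l, i ≤ l → l < j → lo ≤ sl v l ∧ sl v l ≤ hi) (h1 : lo ≤ θ) (h2 : θ ≤ hi) :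
    dr P θ (v i) (v j) ≤ nu P lo hi (v i) + nu P lo hi (v j) + 1 := by
  rcases hij.lt_or_eq with c | c
  · have hx := hS.x_lt_of_seg c hs
    obtain ⟨a, b⟩ := hS.chord c hs hθ
    exact hS.gp.dr_le_nu (hS.mem_of_seg c hs le_rfl hij) (hS.mem_of_seg c hs hij le_rfl)
      (fun e => by rw [e] at hx; exact lt_irrefl _ hx) h1 h2 a b
  · rw [c, dr_self]; positivity

/-- classes of at most `W + 1` consecutive keys -/
lemma exists_quantile (σ : ℤ → ℝ) (I : Finset ℤ) (hσ : ∀ i ∈ I, ∀ j ∈ I, σ i = σ j → i = j)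
    {W : ℝ} (hW : 0 < W) : ∃ q : ℤ → ℕ, Mono σ I q ∧
      (∀ c, (#(I.filter fun i => q i = c) : ℝ) ≤ W + 1) ∧ ∀ i, (q i : ℝ) ≤ #I / W := by
  set n : ℤ → ℕ := fun i => #(I.filter fun j => σ j < σ i) with hn
  have hmono : ∀ i j, σ i ≤ σ j → n i ≤ n j := fun i j c =>
    card_le_card fun l hl => mem_filter.mpr ⟨(mem_filter.mp hl).1, (mem_filter.mp hl).2.trans_le c⟩
  have hlt : ∀ i ∈ I, ∀ j, σ i < σ j → n i < n j := fun i hi j c =>
    card_lt_card ⟨fun l hl => mem_filter.mpr ⟨(mem_filter.mp hl).1, (mem_filter.mp hl).2.trans c⟩,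
      fun hsub => lt_irrefl _ (mem_filter.mp (hsub (mem_filter.mpr ⟨hi, c⟩))).2⟩
  refine ⟨fun i => ⌊(n i : ℝ) / W⌋₊, fun i _ j _ c => Nat.floor_mono
    (div_le_div_of_nonneg_right (by exact_mod_cast hmono i j c) hW.le), fun c => ?_, fun i => ?_⟩
  · have h1 : #(I.filter fun i => ⌊(n i : ℝ) / W⌋₊ = c) ≤
        #(Finset.Icc ⌈(c : ℝ) * W⌉ ⌊((c : ℝ) + 1) * W⌋) := by
      refine card_le_card_of_injOn (fun i => (n i : ℤ)) ?_ ?_
      · intro i hi
        have h2 := (mem_filter.mp (mem_coe.mp hi)).2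
        have h3 := Nat.floor_le (show 0 ≤ (n i : ℝ) / W by positivity)
        have h4 := Nat.lt_floor_add_one ((n i : ℝ) / W)
        rw [h2] at h3 h4
        rw [le_div_iff₀ hW] at h3
        rw [div_lt_iff₀ hW] at h4
        simp only [coe_Icc, Set.mem_Icc]
        rw [Int.ceil_le, Int.le_floor]
        exact ⟨by exact_mod_cast h3, by exact_mod_cast h4.le⟩
      · intro i hi j hj e
        have hi' := (mem_filter.mp (mem_coe.mp hi)).1
        have hj' := (mem_filter.mp (mem_coe.mp hj)).1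
        have e' : n i = n j := Int.natCast_inj.mp e
        rcases lt_trichotomy (σ i) (σ j) with c1 | c1 | c1
        · exact absurd (hlt i hi' j c1) (by omega)
        · exact hσ i hi' j hj' c1
        · exact absurd (hlt j hj' i c1) (by omega)
    rw [Int.card_Icc] at h1
    refine le_trans (Nat.cast_le.mpr h1) ?_
    rcases le_total 0 (⌊((c : ℝ) + 1) * W⌋ + 1 - ⌈(c : ℝ) * W⌉) with h4 | h4
    · have : (((⌊((c : ℝ) + 1) * W⌋ + 1 - ⌈(c : ℝ) * W⌉).toNat : ℤ) : ℝ) =
          ((⌊((c : ℝ) + 1) * W⌋ + 1 - ⌈(c : ℝ) * W⌉ : ℤ) : ℝ) := by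
        rw [Int.toNat_of_nonneg h4]
      push_cast at this
      rw [this]
      linarith [Int.floor_le (((c : ℝ) + 1) * W), Int.le_ceil ((c : ℝ) * W)]
    · rw [Int.toNat_eq_zero.mpr h4]; push_cast; linarith
  · refine (Nat.floor_le (by positivity)).trans (div_le_div_of_nonneg_right ?_ hW.le)
    exact_mod_cast card_filter_le _ _

/-- number of labels bounded by `r` -/
lemma card_image_le_of_bdd {cl : ℤ → ℕ} {r : ℝ} (hr : 0 ≤ r) (h1 : ∀ i ∈ I, (cl i : ℝ) ≤ r) :
    (#(I.image cl) : ℝ) ≤ r + 1 := by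
  have h2 : I.image cl ⊆ range (⌊r⌋₊ + 1) := fun c hc => by
    obtain ⟨i, hi, rfl⟩ := mem_image.mp hc
    exact mem_range.mpr (Nat.lt_succ_of_le (Nat.le_floor (h1 i hi)))
  have h3 := card_le_card h2
  rw [card_range] at h3
  have h4 : (#(I.image cl) : ℝ) ≤ ⌊r⌋₊ + 1 := by exact_mod_cast h3
  linarith [Nat.floor_le hr]

/-- few links change class -/
lemma Sys.class_change (hS : Sys P v I) {cl : ℤ → ℕ} (hM : Mono (sl v) I cl) :
    #(I.filter fun i => i - 1 ∈ I ∧ cl (i - 1) ≠ cl i) ≤ #(I.image cl) * #P := by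
  rw [← card_product]
  have hc : ∀ i ∈ I, i - 1 ∈ I → sl v (i - 1) < sl v i := fun i a b => by
    have := hS.conv (i - 1) b (by rw [sub_add_cancel]; exact a)
    rwa [sub_add_cancel] at this
  refine card_le_card_of_injOn (fun i => (cl i, v i)) ?_ ?_
  · intro i hi
    have := mem_filter.mp (mem_coe.mp hi)
    exact mem_coe.mpr (mem_product.mpr ⟨mem_image_of_mem _ this.1, hS.memL i this.1⟩)
  · intro i hi j hj e
    obtain ⟨a1, a2, a3⟩ := mem_filter.mp (mem_coe.mp hi)
    obtain ⟨b1, b2, b3⟩ := mem_filter.mp (mem_coe.mp hj)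
    simp only [Prod.mk.injEq] at e
    have c1 := hM _ a2 _ a1 (hc i a1 a2).le
    have c2 := hM _ b2 _ b1 (hc j b1 b2).le
    exact hS.wait i j a2 a1 b2 b1 e.2 (hM.lt a2 b1 (by omega)).le (hM.lt b2 a1 (by omega)).le

/-- deleting the class-changing edges -/
lemma link_filter (I : Finset ℤ) (cl : ℤ → ℕ) :
    Link (I.filter fun i => ¬ (i - 1 ∈ I ∧ cl (i - 1) ≠ cl i)) cl := by
  intro i a b
  rw [mem_filter] at a b
  by_contra c
  exact b.2 ⟨by rw [add_sub_cancel_right]; exact a.1, by rw [add_sub_cancel_right]; exact c⟩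

/-- few edges cross the boundaries of rank strips -/
lemma Sys.slab_cut (hS : Sys P v I) (θ : ℝ) {W : ℝ} (hW : 0 < W) :
    (#(I.filter fun i => st P θ W (v i) ≠ st P θ W (v (i + 1))) : ℝ) ≤
      2 * nr I * (#P / W + 1) := by
  set T := Finset.Icc (0 : ℤ) ⌊(#P : ℝ) / W⌋ with hT
  have hTc : (#T : ℝ) ≤ #P / W + 1 := by
    have h0 : 0 ≤ ⌊(#P : ℝ) / W⌋ := Int.floor_nonneg.mpr (by positivity)
    have : ((#T : ℤ) : ℝ) = ((⌊(#P : ℝ) / W⌋ + 1 : ℤ) : ℝ) := by
      rw [hT, Int.card_Icc, Int.toNat_of_nonneg (by omega), sub_zero]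
    push_cast at this
    linarith [Int.floor_le ((#P : ℝ) / W)]
  have hmem : ∀ p, st P θ W p ∈ T := fun p =>
    mem_Icc.mpr ⟨st_nonneg hW p, Int.le_floor.mpr (st_le hW p)⟩
  have h1 : #(I.filter fun i => st P θ W (v i) ≠ st P θ W (v (i + 1))) ≤
      #((starts I) ×ˢ (T ×ˢ (univ : Finset Bool))) := by
    refine card_le_card_of_injOn (fun i => (root I i,
      if θ < sl v i then (st P θ W (v (i + 1)), true) else (st P θ W (v i), false))) ?_ ?_
    · intro i hi
      have := mem_filter.mp (mem_coe.mp hi)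
      refine mem_coe.mpr (mem_product.mpr ⟨root_mem_starts this.1, ?_⟩)
      dsimp only
      split_ifs <;> exact mem_product.mpr ⟨hmem _, mem_univ _⟩
    · have key : ∀ i j, i ∈ I → j ∈ I → st P θ W (v i) ≠ st P θ W (v (i + 1)) →
          st P θ W (v j) ≠ st P θ W (v (j + 1)) → root I i = root I j → i < j →
          (if θ < sl v i then (st P θ W (v (i + 1)), true) else (st P θ W (v i), false)) ≠
          (if θ < sl v j then (st P θ W (v (j + 1)), true) else (st P θ W (v j), false)) := by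
        intro i j a b a' b' e hij
        have hs := seg_of_root_eq a b e
        by_cases c1 : θ < sl v i
        · have hup : ∀ l, i ≤ l → l < j + 1 → θ < sl v l := fun l x y =>
            c1.trans_le (hS.sl_le_of_seg x (hs.mono le_rfl (by omega)))
          rw [if_pos c1, if_pos (hup j hij.le (by omega))]
          have d1 := st_mono (θ := θ) hW (hS.rk_mono_up P (by omega : i + 1 ≤ j)
            (hs.mono (by omega) (by omega)) fun l x y => hup l (by omega) (by omega))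
          have d2 := st_mono (θ := θ) hW (hS.rk_mono_up P (by omega : j ≤ j + 1)
            (hs.mono (by omega) le_rfl) fun l x y => hup l (by omega) (by omega))
          intro e2
          simp only [Prod.mk.injEq] at e2
          omega
        · rw [if_neg c1]
          by_cases c2 : θ < sl v j
          · rw [if_pos c2]; simp
          · rw [if_neg c2]
            have hdn : ∀ l, i ≤ l → l < j + 1 → sl v l ≤ θ := fun l x y =>
              (hS.sl_le_of_seg (by omega) (hs.mono x le_rfl)).trans (not_lt.mp c2)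
            have d1 := st_mono (θ := θ) hW (hS.rk_mono_down P (by omega : i + 1 ≤ j)
              (hs.mono (by omega) (by omega)) fun l x y => hdn l (by omega) (by omega))
            have d2 := st_mono (θ := θ) hW (hS.rk_mono_down P (by omega : i ≤ i + 1)
              (hs.mono le_rfl (by omega)) fun l x y => hdn l (by omega) (by omega))
            intro e2
            simp only [Prod.mk.injEq] at e2
            omega
      intro i hi j hj e
      obtain ⟨a, a'⟩ := mem_filter.mp (mem_coe.mp hi)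
      obtain ⟨b, b'⟩ := mem_filter.mp (mem_coe.mp hj)
      simp only [Prod.mk.injEq] at e
      rcases lt_trichotomy i j with c | c | c
      · exact absurd e.2 (key i j a b a' b' e.1 c)
      · exact c
      · exact absurd e.2.symm (key j i b a b' a' e.1.symm c)
  rw [card_product, card_product, card_univ, Fintype.card_bool] at h1
  have h2 : (#(I.filter fun i => st P θ W (v i) ≠ st P θ W (v (i + 1))) : ℝ) ≤
      nr I * (#T * 2) := by exact_mod_cast h1
  have h3 : (0 : ℝ) ≤ nr I := Nat.cast_nonneg _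
  nlinarith

end Crest.Agent.R51
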