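import Crest.Agent.R51.Tools

/-!
# Row 51: the sweep identity
-/

set_option autoImplicit false

noncomputable section

namespace Crest.Agent.R51

open Finset Classical

lemma sweep_below_iff {P : Finset Pt} (hP : GP P) {p z : Pt} (hp : p ∈ P) (hz : z ∈ P)
    {θ₁ θ₂ : ℝ} (h12 : θ₁ ≤ θ₂) (hn : ¬ (z ≠ p ∧ θ₁ < slope p z ∧ slope p z ≤ θ₂)) :
    below θ₁ z p ↔ below θ₂ z p := by
  by_cases hzp : z = p
  · simp [hzp, below_irrefl]
  have hn' : slope p z ≤ θ₁ ∨ θ₂ < slope p z := by
    by_contra hc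
    push Not at hc
    exact hn ⟨hzp, hc⟩
  rcases lt_or_gt_of_ne (hP.ne_x hz hp hzp) with hx | hx
  · rw [below_left_iff hx, below_left_iff hx, slope_comm z p]
    rcases hn' with h1 | h1 <;> constructor <;> intro <;> linarith
  · rw [below_right_iff hx, below_right_iff hx]
    rcases hn' with h1 | h1 <;> constructor <;> intro <;> linarith

/-- contribution of the event with the point `q` -/
def sweepG (P : Finset Pt) (p : Pt) (j : ℕ) (q : Pt) : ℤ :=
  (if q.1 < p.1 ∧ rk P (slope p q) p = j then 1 else 0) -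
    (if p.1 < q.1 ∧ rk P (slope p q) p = j + 1 then 1 else 0)

lemma sweep_sum {P : Finset Pt} (hP : GP P) {p : Pt} (hp : p ∈ P) (j : ℕ) (θ₂ : ℝ) (n : ℕ) :
    ∀ θ₁ : ℝ, θ₁ ≤ θ₂ → #(P.filter fun q => q ≠ p ∧ θ₁ < slope p q ∧ slope p q ≤ θ₂) = n →
    ((if rk P θ₂ p ≤ j then 1 else 0) - (if rk P θ₁ p ≤ j then 1 else 0) : ℤ) =
      ∑ q ∈ P.filter fun q => q ≠ p ∧ θ₁ < slope p q ∧ slope p q ≤ θ₂, sweepG P p j q := by
  induction n with
  | zero =>
    intro θ₁ h12 hn
    rw [card_eq_zero] at hn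
    have : rk P θ₁ p = rk P θ₂ p := congrArg card (filter_congr fun z hz =>
      sweep_below_iff hP hp hz h12 (filter_eq_empty_iff.mp hn hz))
    rw [hn, this, sub_self, sum_empty]
  | succ n ih =>
    intro θ₁ h12 hn
    obtain ⟨q, hq, hmin⟩ := exists_min_image _ (slope p) (card_pos.mp (n.succ_pos.trans_eq hn.symm))
    obtain ⟨hqP, hqp, hq1, hq2⟩ : q ∈ P ∧ q ≠ p ∧ θ₁ < slope p q ∧ slope p q ≤ θ₂ := by
      simpa only [mem_filter] using hq
    have key : ∀ z ∈ P, z ≠ q → ¬ (z ≠ p ∧ θ₁ < slope p z ∧ slope p z ≤ slope p q) :=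
      fun z hz hzq ⟨h1, h2, h3⟩ => hzq (hP.slope_inj hp hz hqP h1 hqp (le_antisymm h3
        (hmin z (mem_filter.mpr ⟨hz, h1, h2, h3.trans hq2⟩))))
    have he : (P.filter fun z => z ≠ p ∧ slope p q < slope p z ∧ slope p z ≤ θ₂) =
        (P.filter fun z => z ≠ p ∧ θ₁ < slope p z ∧ slope p z ≤ θ₂).erase q := by
      ext z
      simp only [mem_erase, mem_filter]
      constructor
      · rintro ⟨h0, h1, h2, h3⟩
        exact ⟨fun h => (h ▸ h2).false, h0, h1, hq1.trans h2, h3⟩
      · rintro ⟨h, h0, h1, h2, h3⟩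
        exact ⟨h0, h1, not_le.mp fun h4 => key z h0 h ⟨h1, h2, h4⟩, h3⟩
    have h1 := ih (slope p q) hq2 (by rw [he, card_erase_of_mem hq, hn]; rfl)
    have h2 : (P.filter fun z => below θ₁ z p).erase q =
        (P.filter fun z => below (slope p q) z p).erase q := by
      ext z
      simp only [mem_erase, mem_filter]
      exact and_congr_right fun hzq => and_congr_right fun hz =>
        sweep_below_iff hP hp hz hq1.le (key z hz hzq)
    rw [← add_sum_erase _ _ hq, ← he, ← h1, sweepG]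
    rcases lt_or_gt_of_ne (hP.ne_x hqP hp hqp) with hx | hx
    · have a1 : q ∈ P.filter fun z => below θ₁ z p :=
        mem_filter.mpr ⟨hqP, (below_left_iff hx).mpr (slope_comm p q ▸ hq1)⟩
      have a2 : q ∉ P.filter fun z => below (slope p q) z p := fun h =>
        ((below_left_iff hx).mp (mem_filter.mp h).2).ne (slope_comm p q)
      have a3 : rk P θ₁ p = rk P (slope p q) p + 1 := by
        rw [rk, rk, ← card_erase_add_one a1, h2, erase_eq_of_notMem a2]
      simp only [hx, hx.not_gt, true_and, false_and, if_false]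
      split_ifs <;> omega
    · have a1 : q ∉ P.filter fun z => below θ₁ z p := fun h =>
        ((below_right_iff hx).mp (mem_filter.mp h).2).not_gt hq1
      have a2 : q ∈ P.filter fun z => below (slope p q) z p :=
        mem_filter.mpr ⟨hqP, (below_right_iff hx).mpr le_rfl⟩
      have a3 : rk P (slope p q) p = rk P θ₁ p + 1 := by
        rw [rk, rk, ← card_erase_add_one a2, ← h2, erase_eq_of_notMem a1]
      simp only [show p.1 < q.1 from hx, hx.not_gt, true_and, false_and, if_false]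
      split_ifs <;> omega

theorem sweep : SweepStmt := by
  intro P hP p hp j θ₁ θ₂ h12
  rw [sweep_sum hP hp j θ₂ _ θ₁ h12 rfl]
  simp only [sweepG, sum_sub_distrib, sum_boole]
  congr 2
  · refine card_nbij' (fun q => (q, p)) (fun e => e.1) ?_ ?_ (fun _ _ => rfl) ?_
    · intro q hq
      simp only [coe_filter, mem_filter, Set.mem_ofPred_eq, edges, mem_product,
        slope_comm q p] at hq ⊢
      tauto
    · rintro ⟨q, r⟩ he
      simp only [coe_filter, mem_filter, Set.mem_ofPred_eq, edges, mem_product] at he ⊢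
      obtain ⟨⟨⟨h1, -⟩, h2, h3⟩, rfl, h4, h5⟩ := he
      rw [slope_comm r q]
      exact ⟨⟨h1, fun h => h2.ne (congrArg _ h), h4, h5⟩, h2, h3⟩
    · rintro ⟨q, r⟩ he
      simp only [coe_filter, Set.mem_ofPred_eq] at he
      rw [he.2.1]
  · refine card_nbij' (fun q => (p, q)) (fun e => e.2) ?_ ?_ (fun _ _ => rfl) ?_
    · intro q hq
      simp only [coe_filter, mem_filter, Set.mem_ofPred_eq, edges, mem_product] at hq ⊢
      obtain ⟨⟨h1, -, h2, h3⟩, h4, h5⟩ := hq
      rw [hP.rk_left hp h1 h4] at h5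
      exact ⟨⟨⟨hp, h1⟩, h4, by omega⟩, trivial, h2, h3⟩
    · rintro ⟨r, q⟩ he
      simp only [coe_filter, mem_filter, Set.mem_ofPred_eq, edges, mem_product] at he ⊢
      obtain ⟨⟨⟨-, h1⟩, h2, h3⟩, rfl, h4, h5⟩ := he
      exact ⟨⟨h1, fun h => h2.ne' (congrArg _ h), h4, h5⟩, h2, by rw [hP.rk_left hp h1 h2, h3]⟩
    · rintro ⟨q, r⟩ he
      simp only [coe_filter, Set.mem_ofPred_eq] at he
      rw [he.2.1]

end Crest.Agent.R51
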