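import Crest.Agent.R51.Tools

/-!
# Row 51: the `j`-edges form a system of convex chains
-/

set_option autoImplicit false

noncomputable section

namespace Crest.Agent.R51

open Finset Classical

/-- indexing a family of chains along `ℤ` -/
lemma tk_exists_idx {α : Type} (σ : α → ℝ) (Lk : α → α → Prop)
    (hlt : ∀ e e', Lk e e' → σ e < σ e') (E : Finset α) :
    (∀ e ∈ E, ∀ a ∈ E, ∀ b ∈ E, Lk e a → Lk e b → a = b) →
    (∀ e ∈ E, ∀ a ∈ E, ∀ b ∈ E, Lk a e → Lk b e → a = b) →
    ∃ idx : α → ℤ, (∀ e ∈ E, ∀ e' ∈ E, idx e = idx e' → e = e') ∧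
      ∀ e ∈ E, ∀ e' ∈ E, (Lk e e' ↔ idx e' = idx e + 1) := by
  induction E using Finset.induction_on_max_value σ with
  | empty => exact fun _ _ => ⟨fun _ => 0, by simp, by simp⟩
  | insert a s ha hmax ih =>
    intro hf hi
    obtain ⟨idx, h1, h2⟩ := ih
      (fun e he x hx y hy => hf e (mem_insert_of_mem he) x (mem_insert_of_mem hx) y
        (mem_insert_of_mem hy))
      (fun e he x hx y hy => hi e (mem_insert_of_mem he) x (mem_insert_of_mem hx) y
        (mem_insert_of_mem hy))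
    have hne : ∀ e ∈ s, e ≠ a := fun e he h => ha (h ▸ he)
    have hna : ∀ e ∈ s, ¬ Lk a e := fun e he h => absurd (hlt _ _ h) (not_lt.2 (hmax e he))
    have haa : ¬ Lk a a := fun h => lt_irrefl _ (hlt _ _ h)
    by_cases hb : ∃ b ∈ s, Lk b a
    · obtain ⟨b, hbs, hba⟩ := hb
      have hgap : ∀ e ∈ s, idx e ≠ idx b + 1 := fun e he h =>
        hne e he (hf b (mem_insert_of_mem hbs) e (mem_insert_of_mem he) a (mem_insert_self _ _)
          ((h2 b hbs e he).2 h) hba)
      refine ⟨fun e => if e = a then idx b + 1 else if idx e ≤ idx b then idx e else idx e + 1,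
        ?_, ?_⟩
      · intro e he0 e' he0' h
        have he := mem_insert.1 he0
        have he' := mem_insert.1 he0'
        clear he0 he0'
        rcases he with rfl | he <;> rcases he' with rfl | he'
        · rfl
        · have := hgap e' he'
          simp only [if_true, hne e' he', if_false] at h
          split_ifs at h <;> omega
        · have := hgap e he
          simp only [if_true, hne e he, if_false] at h
          split_ifs at h <;> omega
        · simp only [hne e he, hne e' he', if_false] at h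
          refine h1 e he e' he' ?_
          split_ifs at h <;> omega
      · intro e he0 e' he0'
        have he := mem_insert.1 he0
        have he' := mem_insert.1 he0'
        clear he0 he0'
        rcases he with rfl | he <;> rcases he' with rfl | he'
        · simp [haa]
        · have := hgap e' he'
          simp only [if_true, hne e' he', if_false, hna e' he', false_iff]
          split_ifs <;> omega
        · simp only [if_true, hne e he, if_false]
          constructor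
          · intro h
            rw [hi _ (mem_insert_self _ _) e (mem_insert_of_mem he) b (mem_insert_of_mem hbs) h hba]
            simp
          · intro h
            have : idx e = idx b := by split_ifs at h <;> omega
            rw [h1 e he b hbs this]
            exact hba
        · have := hgap e' he'
          simp only [hne e he, hne e' he', if_false, h2 e he e' he']
          split_ifs <;> omega
    · obtain ⟨M, hM⟩ := (s.image idx).bddAbove
      have hM' : ∀ e ∈ s, idx e ≤ M := fun e he => hM (mem_coe.2 (mem_image_of_mem idx he))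
      refine ⟨fun e => if e = a then M + 2 else idx e, ?_, ?_⟩
      · intro e he0 e' he0' h
        have he := mem_insert.1 he0
        have he' := mem_insert.1 he0'
        clear he0 he0'
        rcases he with rfl | he <;> rcases he' with rfl | he'
        · rfl
        · have := hM' e' he'
          simp only [if_true, hne e' he', if_false] at h
          omega
        · have := hM' e he
          simp only [if_true, hne e he, if_false] at h
          omega
        · simp only [hne e he, hne e' he', if_false] at h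
          exact h1 e he e' he' h
      · intro e he0 e' he0'
        have he := mem_insert.1 he0
        have he' := mem_insert.1 he0'
        clear he0 he0'
        rcases he with rfl | he <;> rcases he' with rfl | he'
        · simp [haa]
        · have := hM' e' he'
          simp only [if_true, hne e' he', if_false, hna e' he', false_iff]
          omega
        · have := hM' e he
          have h3 : ¬ Lk e e' := fun h => hb ⟨e, he, h⟩
          simp only [if_true, hne e he, if_false, h3, false_iff]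
          omega
        · simp only [hne e he, hne e' he', if_false, h2 e he e' he']

variable {P : Finset Pt} {j : ℕ}

lemma tk_mem_edges {e : Pt × Pt} : e ∈ edges P j ↔
    e.1 ∈ P ∧ e.2 ∈ P ∧ e.1.1 < e.2.1 ∧ rk P (slope e.1 e.2) e.2 = j := by
  simp only [edges, mem_filter, mem_product, and_assoc]

lemma tk_ne {e : Pt × Pt} (he : e ∈ edges P j) : e.1 ≠ e.2 := fun h => by
  have := (tk_mem_edges.1 he).2.2.1
  rw [h] at this
  exact lt_irrefl _ this

lemma tk_slope_inj (hP : GP P) {e f : Pt × Pt} (he : e ∈ edges P j) (hf : f ∈ edges P j)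
    (h : slope e.1 e.2 = slope f.1 f.2) : e = f := by
  obtain ⟨a1, a2, -, a4⟩ := tk_mem_edges.1 he
  obtain ⟨b1, b2, -, b4⟩ := tk_mem_edges.1 hf
  have h2 : e.2 = f.2 := hP.rk_inj a2 b2 (θ := slope e.1 e.2) (by rw [a4, h, b4])
  refine Prod.ext (hP.slope_inj a2 a1 b1 (tk_ne he) (h2 ▸ tk_ne hf) ?_) h2
  rw [slope_comm e.2 e.1, h, h2, slope_comm]

/-- `e'` continues `e` -/
def TkL (P : Finset Pt) (j : ℕ) (e e' : Pt × Pt) : Prop :=
  e.2 = e'.1 ∧ slope e.1 e.2 < slope e'.1 e'.2 ∧ ∀ g ∈ edges P j, (g.1 = e.2 ∨ g.2 = e.2) →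
    ¬ (slope e.1 e.2 < slope g.1 g.2 ∧ slope g.1 g.2 < slope e'.1 e'.2)

lemma tk_wait (hP : GP P) {e' f f' : Pt × Pt} (he' : e' ∈ edges P j) (hf : f ∈ edges P j)
    (hL : TkL P j f f') (h1 : e'.1 = f'.1) (h2 : slope f.1 f.2 ≤ slope e'.1 e'.2) :
    slope f'.1 f'.2 ≤ slope e'.1 e'.2 := by
  by_contra hlt
  refine hL.2.2 e' he' (Or.inl (h1.trans hL.1.symm)) ⟨lt_of_le_of_ne h2 fun h => ?_, not_le.1 hlt⟩
  have := tk_slope_inj hP hf he' h
  subst this
  exact tk_ne hf (h1.trans hL.1.symm)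

lemma tk_start (hs : SweepStmt) (hP : GP P) {e₁ e₂ : Pt × Pt} (h₁ : e₁ ∈ edges P j)
    (h₂ : e₂ ∈ edges P j) (h : e₁.1 = e₂.1) (hlt : slope e₁.1 e₁.2 < slope e₂.1 e₂.2) :
    ∃ g ∈ edges P j, TkL P j g e₂ := by
  obtain ⟨g, hg, hmax⟩ := exists_max_image ((edges P j).filter fun g =>
    (g.1 = e₂.1 ∨ g.2 = e₂.1) ∧ slope g.1 g.2 < slope e₂.1 e₂.2) (fun g => slope g.1 g.2)
    ⟨e₁, mem_filter.2 ⟨h₁, Or.inl h, hlt⟩⟩
  obtain ⟨hgE, hinc, hgl⟩ := mem_filter.1 hg
  have hmax' : ∀ g' ∈ edges P j, (g'.1 = e₂.1 ∨ g'.2 = e₂.1) →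
      ¬ (slope g.1 g.2 < slope g'.1 g'.2 ∧ slope g'.1 g'.2 < slope e₂.1 e₂.2) :=
    fun g' hg' hi hc => absurd (hmax g' (mem_filter.2 ⟨hg', hi, hc.2⟩)) (not_le.2 hc.1)
  rcases hinc with hinc | hinc
  · exfalso
    obtain ⟨a1, a2, a3, a4⟩ := tk_mem_edges.1 hgE
    obtain ⟨b1, b2, b3, b4⟩ := tk_mem_edges.1 h₂
    have r1 : rk P (slope g.1 g.2) e₂.1 = j + 1 := by rw [← hinc, hP.rk_left a1 a2 a3, a4]
    have r2 : rk P (slope e₂.1 e₂.2) e₂.1 = j + 1 := by rw [hP.rk_left b1 b2 b3, b4]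
    have key := hs P hP e₂.1 b1 j _ _ hgl.le
    rw [r1, r2] at key
    have c1 : 0 < #((edges P j).filter fun e => e.1 = e₂.1 ∧ slope g.1 g.2 < slope e.1 e.2 ∧
        slope e.1 e.2 ≤ slope e₂.1 e₂.2) := card_pos.2 ⟨e₂, mem_filter.2 ⟨h₂, rfl, hgl, le_rfl⟩⟩
    have c2 : 0 < #((edges P j).filter fun e => e.2 = e₂.1 ∧ slope g.1 g.2 < slope e.1 e.2 ∧
        slope e.1 e.2 ≤ slope e₂.1 e₂.2) := by omega
    obtain ⟨g', hg'⟩ := card_pos.1 c2
    obtain ⟨d1, d2, d3, d4⟩ := mem_filter.1 hg'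
    refine hmax' g' d1 (Or.inr d2) ⟨d3, lt_of_le_of_ne d4 fun h' => ?_⟩
    have := tk_slope_inj hP d1 h₂ h'
    subst this
    exact tk_ne d1 d2.symm
  · exact ⟨g, hgE, hinc, hgl, fun g' hg' hi => hmax' g' hg' (hinc ▸ hi)⟩

lemma tk_rk (hP : GP P) {B : Finset Pt} (hB : B ⊆ P) {e : Pt × Pt} (he : e ∈ edges P j)
    (h2 : e.2 ∈ B) : (rk B (slope e.1 e.2) e.2 : ℤ) + 1 =
      ∑ p ∈ B, (if rk P (slope e.1 e.2) p ≤ j then 1 else 0 : ℤ) := by
  obtain ⟨-, a2, -, a4⟩ := tk_mem_edges.1 he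
  have : B.filter (fun p => rk P (slope e.1 e.2) p ≤ j) =
      insert e.2 (B.filter fun q => below (slope e.1 e.2) q e.2) := by
    ext p
    simp only [mem_filter, mem_insert]
    constructor
    · rintro ⟨hp, h⟩
      rcases h.lt_or_eq with h | h
      · exact Or.inr ⟨hp, (hP.below_iff_rk_lt a2 (hB hp)).2 (a4 ▸ h)⟩
      · exact Or.inl (hP.rk_inj (hB hp) a2 (h.trans a4.symm))
    · rintro (rfl | ⟨hp, h⟩)
      · exact ⟨h2, a4.le⟩
      · exact ⟨hp, a4 ▸ ((hP.below_iff_rk_lt a2 (hB hp)).1 h).le⟩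
  rw [sum_boole, this, card_insert_of_notMem (by simp [below_irrefl])]
  simp [rk]

lemma tk_sum_fiber (E : Finset (Pt × Pt)) (B : Finset Pt) (π : Pt × Pt → Pt)
    (R : Pt × Pt → Prop) [DecidablePred R] :
    ∑ p ∈ B, (#(E.filter fun e => π e = p ∧ R e) : ℤ) =
      ∑ e ∈ E, (if π e ∈ B ∧ R e then 1 else 0 : ℤ) := by
  simp only [card_filter, Nat.cast_sum, Nat.cast_ite, Nat.cast_one, Nat.cast_zero]
  rw [sum_comm]
  refine sum_congr rfl fun e _ => ?_
  by_cases hR : R e
  · simp [hR]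
  · simp [hR]

lemma tk_level (hs : SweepStmt) (hP : GP P) {B : Finset Pt} (hB : B ⊆ P) {e f : Pt × Pt}
    (he : e ∈ edges P j) (hf : f ∈ edges P j) (h1 : e.2 ∈ B) (h2 : f.2 ∈ B)
    (hle : slope e.1 e.2 ≤ slope f.1 f.2) :
    |(rk B (slope e.1 e.2) e.2 : ℤ) - rk B (slope f.1 f.2) f.2| ≤
      #((edges P j).filter fun g => slope e.1 e.2 ≤ slope g.1 g.2 ∧
        slope g.1 g.2 ≤ slope f.1 f.2 ∧ ¬ (g.1 ∈ B ↔ g.2 ∈ B)) := by
  have a1 := tk_rk hP hB he h1
  have a2 := tk_rk hP hB hf h2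
  have a3 := sum_congr (rfl : B = B) fun p hp => hs P hP p (hB hp) j _ _ hle
  rw [sum_sub_distrib, sum_sub_distrib, tk_sum_fiber _ _ Prod.snd, tk_sum_fiber _ _ Prod.fst,
    ← a1, ← a2, ← sum_sub_distrib] at a3
  rw [abs_sub_comm, show (rk B (slope f.1 f.2) f.2 : ℤ) - rk B (slope e.1 e.2) e.2 =
    (rk B (slope f.1 f.2) f.2 + 1) - (rk B (slope e.1 e.2) e.2 + 1) by ring, a3, card_filter]
  push_cast
  refine (abs_sum_le_sum_abs _ _).trans (sum_le_sum fun g _ => ?_)
  by_cases c3 : slope e.1 e.2 < slope g.1 g.2 ∧ slope g.1 g.2 ≤ slope f.1 f.2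
  · have c4 := c3.1.le
    have c5 := c3.2
    have c6 := c3.1
    by_cases c1 : g.1 ∈ B <;> by_cases c2 : g.2 ∈ B <;> simp [c1, c2, c4, c5, c6]
  · rw [if_neg fun h => c3 h.2, if_neg fun h => c3 h.2, sub_self, abs_zero]
    split_ifs <;> norm_num

theorem tokens (hs : SweepStmt) : TokensStmt := by
  intro P hP j
  obtain ⟨idx, hinj, hL⟩ := tk_exists_idx (fun e : Pt × Pt => slope e.1 e.2) (TkL P j)
    (fun e e' h => h.2.1) (edges P j)
    (fun e _ a ha b hb h1 h2 => tk_slope_inj hP ha hb (le_antisymm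
      (not_lt.1 fun h => h1.2.2 b hb (Or.inl h2.1.symm) ⟨h2.2.1, h⟩)
      (not_lt.1 fun h => h2.2.2 a ha (Or.inl h1.1.symm) ⟨h1.2.1, h⟩)))
    (fun e _ a ha b hb h1 h2 => tk_slope_inj hP ha hb (le_antisymm
      (not_lt.1 fun h => h2.2.2 a ha (Or.inr (h1.1.trans h2.1.symm)) ⟨h, h1.2.1⟩)
      (not_lt.1 fun h => h1.2.2 b hb (Or.inr (h2.1.trans h1.1.symm)) ⟨h, h2.2.1⟩)))
  have hv : ∃ v : ℤ → Pt, ∀ e ∈ edges P j, v (idx e) = e.1 ∧ v (idx e + 1) = e.2 := by
    refine ⟨fun i => if h : ∃ e ∈ edges P j, idx e = i then h.choose.1 else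
      if h' : ∃ e ∈ edges P j, idx e + 1 = i then h'.choose.2 else 0, fun e he => ⟨?_, ?_⟩⟩
    · have h : ∃ e' ∈ edges P j, idx e' = idx e := ⟨e, he, rfl⟩
      simp only [dif_pos h]
      rw [hinj _ h.choose_spec.1 e he h.choose_spec.2]
    · by_cases h : ∃ e' ∈ edges P j, idx e' = idx e + 1
      · simp only [dif_pos h]
        exact ((hL e he _ h.choose_spec.1).2 h.choose_spec.2).1.symm
      · have h' : ∃ e' ∈ edges P j, idx e' + 1 = idx e + 1 := ⟨e, he, rfl⟩
        simp only [dif_neg h, dif_pos h']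
        rw [hinj _ h'.choose_spec.1 e he (by have := h'.choose_spec.2; omega)]
  obtain ⟨v, hv⟩ := hv
  have hsl : ∀ e ∈ edges P j, sl v (idx e) = slope e.1 e.2 := fun e he => by
    rw [sl, (hv e he).1, (hv e he).2]
  refine ⟨v, (edges P j).image idx, ⟨hP, ?_, ?_, ?_, ?_, ?_, ?_⟩, ?_, ?_, ?_⟩
  · intro i hi
    obtain ⟨e, he, rfl⟩ := mem_image.1 hi
    rw [(hv e he).1]; exact (tk_mem_edges.1 he).1
  · intro i hi
    obtain ⟨e, he, rfl⟩ := mem_image.1 hi
    rw [(hv e he).2]; exact (tk_mem_edges.1 he).2.1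
  · intro i hi
    obtain ⟨e, he, rfl⟩ := mem_image.1 hi
    rw [(hv e he).1, (hv e he).2]; exact (tk_mem_edges.1 he).2.2.1
  · intro i hi hi'
    obtain ⟨e, he, rfl⟩ := mem_image.1 hi
    obtain ⟨e', he', h⟩ := mem_image.1 hi'
    rw [← h, hsl e he, hsl e' he']
    exact ((hL e he e' he').2 h).2.1
  · intro i hi i' hi' h
    obtain ⟨e, he, rfl⟩ := mem_image.1 hi
    obtain ⟨e', he', rfl⟩ := mem_image.1 hi'
    rw [hsl e he, hsl e' he'] at h
    rw [tk_slope_inj hP he he' h]
  · intro i i' h1 h2 h3 h4 h5 h6 h7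
    obtain ⟨e, he, a1⟩ := mem_image.1 h1
    obtain ⟨e', he', rfl⟩ := mem_image.1 h2
    obtain ⟨f, hf, a2⟩ := mem_image.1 h3
    obtain ⟨f', hf', rfl⟩ := mem_image.1 h4
    rw [(hv e' he').1, (hv f' hf').1] at h5
    rw [← a1, hsl e he, hsl f' hf'] at h6
    rw [← a2, hsl f hf, hsl e' he'] at h7
    have l1 := (hL e he e' he').2 (by omega)
    have l2 := (hL f hf f' hf').2 (by omega)
    rw [tk_slope_inj hP he' hf' (le_antisymm (tk_wait hP hf' he l1 h5.symm h6)
      (tk_wait hP he' hf l2 h5 h7))]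
  · exact card_image_of_injOn fun e he e' he' h => hinj e he e' he' h
  · refine card_le_card_of_injOn v (fun i hi => ?_) fun i hi i' hi' h => ?_
    · obtain ⟨e, he, rfl⟩ := mem_image.1 (mem_starts.1 hi).1
      rw [(hv e he).1]; exact (tk_mem_edges.1 he).1
    · obtain ⟨b1, b2⟩ := mem_starts.1 hi
      obtain ⟨c1, c2⟩ := mem_starts.1 hi'
      obtain ⟨e, he, rfl⟩ := mem_image.1 b1
      obtain ⟨e', he', rfl⟩ := mem_image.1 c1
      rw [(hv e he).1, (hv e' he').1] at h
      rcases lt_trichotomy (slope e.1 e.2) (slope e'.1 e'.2) with hlt | heq | hlt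
      · obtain ⟨g, hg, hgl⟩ := tk_start hs hP he he' h hlt
        exact absurd (mem_image.2 ⟨g, hg, by have := (hL g hg e' he').1 hgl; omega⟩) c2
      · rw [tk_slope_inj hP he he' heq]
      · obtain ⟨g, hg, hgl⟩ := tk_start hs hP he' he h.symm hlt
        exact absurd (mem_image.2 ⟨g, hg, by have := (hL g hg e he).1 hgl; omega⟩) b2
  · intro B hB i hi i' hi' _ h2 _ h4 hle
    obtain ⟨e, he, rfl⟩ := mem_image.1 hi
    obtain ⟨f, hf, rfl⟩ := mem_image.1 hi'
    rw [(hv e he).2] at h2 ⊢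
    rw [(hv f hf).2] at h4 ⊢
    rw [hsl e he, hsl f hf] at hle ⊢
    have key := tk_level hs hP hB he hf h2 h4 hle
    have key' : |(rk B (slope e.1 e.2) e.2 : ℝ) - rk B (slope f.1 f.2) f.2| ≤
        #((edges P j).filter fun g => slope e.1 e.2 ≤ slope g.1 g.2 ∧
          slope g.1 g.2 ≤ slope f.1 f.2 ∧ ¬ (g.1 ∈ B ↔ g.2 ∈ B)) := by exact_mod_cast key
    refine key'.trans (Nat.cast_le.2 (card_le_card_of_injOn idx (fun g hg => ?_)
      fun g hg g' hg' h => hinj g (mem_filter.1 hg).1 g' (mem_filter.1 hg').1 h))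
    obtain ⟨d1, d2⟩ := mem_filter.1 hg
    refine mem_coe.2 (mem_filter.2 ⟨mem_image_of_mem idx d1, ?_⟩)
    rw [hsl g d1, (hv g d1).1, (hv g d1).2]
    exact d2

end Crest.Agent.R51
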