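import Crest.Agent.R51.Runs

/-!
# Row 51: the move lemma and counting of cherries
-/

set_option autoImplicit false

noncomputable section

namespace Crest.Agent.R51

open Finset Classical

lemma sum_Ico_tel (r : ℤ → ℝ) {a b : ℤ} (hab : a ≤ b) :
    ∑ m ∈ Ico a b, (r (m + 1) - r m) = r b - r a := by
  induction b, hab using Int.leInduction with
  | base => simp
  | succ n hn ih =>
    rw [← insert_Ico_right_eq_Ico_add_one hn, sum_insert right_notMem_Ico, ih]; ring

/-- The move lemma: `r` increases along the runs, by at most `V` between two elements of `S` on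
one run; then most elements of `S` have `l` edges before and after them on their run, along which
`r` increases by at most `R`. -/
lemma move2 {I S : Finset ℤ} (hS : S ⊆ I) (r : ℤ → ℝ) (hr : ∀ i ∈ I, r i ≤ r (i + 1)) {V R : ℝ}
    (hV0 : 0 ≤ V) (hR : 0 < R) (hV : ∀ i ∈ S, ∀ j ∈ S, i ≤ j → Seg I i j → r j - r i ≤ V) (l : ℕ) :
    (#(S.filter fun i => ¬ (Seg I (i - l) (i + l) ∧ r (i + l) - r (i - l) ≤ R)) : ℝ) ≤
      2 * l * nr I * (1 + V / R) := by
  have hl : (0 : ℝ) ≤ l := Nat.cast_nonneg l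
  refine (card_le_nr_mul ((filter_subset _ _).trans hS) (m := 2 * l * (1 + V / R)) ?_).trans
    (le_of_eq (by ring))
  intro g _
  rcases (S.filter fun i => root I i = g).eq_empty_or_nonempty with he | hne
  · rw [filter_comm, he]; simp only [filter_empty, card_empty, Nat.cast_zero]; positivity
  obtain ⟨a, ha, hmin⟩ := exists_min_image _ id hne
  obtain ⟨b, hb, hmax⟩ := exists_max_image _ id hne
  simp only [id, mem_filter] at ha hb hmin hmax
  have hab : a ≤ b := hmin b hb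
  have hs : Seg I a (b + 1) := seg_of_root_eq (hS ha.1) (hS hb.1) (ha.2.trans hb.2.symm)
  set Mid := (Icc (a + l) (b - l)).filter fun i => R < r (i + l) - r (i - l) with hMid
  have h1 : ((S.filter fun i => ¬ (Seg I (i - l) (i + l) ∧ r (i + l) - r (i - l) ≤ R)).filter
      fun i => root I i = g) ⊆ (Ico a (a + l) ∪ Ioc (b - l) b) ∪ Mid := by
    intro i hi
    simp only [mem_filter] at hi
    have c1 := hmin i ⟨hi.1.1, hi.2⟩
    have c2 := hmax i ⟨hi.1.1, hi.2⟩
    simp only [hMid, mem_union, mem_Ico, mem_Ioc, mem_filter, mem_Icc]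
    by_cases d1 : i < a + l
    · exact Or.inl (Or.inl ⟨c1, d1⟩)
    by_cases d2 : b - l < i
    · exact Or.inl (Or.inr ⟨d2, c2⟩)
    refine Or.inr ⟨⟨by omega, by omega⟩, not_le.mp fun d3 => hi.1.2 ⟨hs.mono (by omega) (by omega), d3⟩⟩
  have h2 := (card_le_card h1).trans ((card_union_le _ _).trans
    (Nat.add_le_add_right (card_union_le _ _) _))
  rw [Int.card_Ico, Int.card_Ioc, add_sub_cancel_left, sub_sub_cancel, Int.toNat_natCast] at h2
  have h3 : (#Mid : ℝ) * R ≤ 2 * l * V := by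
    have e1 : (#Mid : ℝ) * R ≤ ∑ i ∈ Mid, (r (i + l) - r (i - l)) := by
      rw [← nsmul_eq_mul]
      exact card_nsmul_le_sum _ _ _ fun i hi => (mem_filter.mp hi).2.le
    have e2 : ∀ i : ℤ, r (i + l) - r (i - l) =
        ∑ t ∈ range (2 * l), (r (i - l + t + 1) - r (i - l + t)) := fun i => by
      have := sum_range_sub (fun t : ℕ => r (i - l + t)) (2 * l)
      simp only [Nat.cast_add, Nat.cast_one, Nat.cast_mul, Nat.cast_ofNat, Nat.cast_zero,
        add_zero, ← add_assoc] at this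
      rw [this]; congr 2; ring
    have e3 : ∀ t ∈ range (2 * l), ∑ i ∈ Mid, (r (i - l + t + 1) - r (i - l + t)) ≤ V := by
      intro t ht
      rw [mem_range] at ht
      rw [← sum_image (s := Mid) (g := fun i : ℤ => i - l + t) (f := fun m => r (m + 1) - r m)
        (fun x _ y _ e => by simpa using e)]
      refine le_trans (sum_le_sum_of_subset_of_nonneg (t := Ico a b) ?_ ?_) ?_
      · intro m hm
        obtain ⟨i, hi, rfl⟩ := mem_image.mp hm
        have := mem_Icc.mp (mem_filter.mp hi).1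
        rw [mem_Ico]; omega
      · intro m hm _
        rw [mem_Ico] at hm
        exact sub_nonneg.mpr (hr m (hs m hm.1 (by omega)))
      · rw [sum_Ico_tel r hab]
        exact hV a ha.1 b hb.1 hab (hs.mono le_rfl (by omega))
    rw [sum_congr rfl fun i _ => e2 i, sum_comm] at e1
    refine e1.trans ((sum_le_card_nsmul _ _ V e3).trans (le_of_eq ?_))
    rw [card_range, nsmul_eq_mul]; push_cast; ring
  have h4 : (#Mid : ℝ) ≤ 2 * l * (V / R) := by
    rw [← mul_div_assoc, le_div_iff₀ hR]; exact h3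
  have h5 : (#((S.filter fun i => ¬ (Seg I (i - l) (i + l) ∧ r (i + l) - r (i - l) ≤ R)).filter
      fun i => root I i = g) : ℝ) ≤ l + l + #Mid := by exact_mod_cast h2
  linarith

lemma card_filter_prod {α β : Type*} (A : Finset α) (B : Finset β) (Q : α → β → Prop) :
    (#((A ×ˢ B).filter fun x => Q x.1 x.2) : ℝ) = ∑ a ∈ A, (#(B.filter fun b => Q a b) : ℝ) := by
  simp only [card_filter, Nat.cast_sum, Nat.cast_ite, Nat.cast_one, Nat.cast_zero]
  exact sum_product' A B (fun a b => if Q a b then (1 : ℝ) else 0)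

lemma card_filter_prod' {α β : Type*} (A : Finset α) (B : Finset β) (Q : α → β → Prop) :
    (#((A ×ˢ B).filter fun x => Q x.1 x.2) : ℝ) = ∑ b ∈ B, (#(A.filter fun a => Q a b) : ℝ) := by
  simp only [card_filter, Nat.cast_sum, Nat.cast_ite, Nat.cast_one, Nat.cast_zero]
  exact sum_product_right' A B (fun a b => if Q a b then (1 : ℝ) else 0)

/-- Markov's inequality in counting form -/
lemma card_mul_le_sum {α : Type*} (A : Finset α) (f : α → ℝ) (t : ℝ) (hf : ∀ a ∈ A, 0 ≤ f a)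
    (Q : α → Prop) [DecidablePred Q] (hQ : ∀ a ∈ A, Q a → t ≤ f a) :
    (#(A.filter Q) : ℝ) * t ≤ ∑ a ∈ A, f a := by
  rw [← nsmul_eq_mul]
  exact (card_nsmul_le_sum _ f t fun a ha => hQ a (mem_filter.mp ha).1 (mem_filter.mp ha).2).trans
    (sum_le_sum_of_subset_of_nonneg (filter_subset _ _) fun a ha _ => hf a ha)

section cher

variable {v : ℤ → Pt} {G : Finset ℤ}

lemma cher_mono {Q Q' : ℤ → ℤ → Prop} (hQ : ∀ g ∈ G, ∀ e ∈ G, v g = v e → Q g e → Q' g e) :
    (#(cher v G Q) : ℝ) ≤ #(cher v G Q') :=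
  Nat.cast_le.mpr (card_le_card fun x hx => by
    rw [mem_cher] at hx ⊢
    exact ⟨hx.1, hx.2.1, hx.2.2.1, hQ _ hx.1 _ hx.2.1 hx.2.2.1 hx.2.2.2⟩)

lemma cher_or {Q Q₁ Q₂ : ℤ → ℤ → Prop}
    (hQ : ∀ g ∈ G, ∀ e ∈ G, v g = v e → Q g e → Q₁ g e ∨ Q₂ g e) :
    (#(cher v G Q) : ℝ) ≤ #(cher v G Q₁) + #(cher v G Q₂) := by
  have : cher v G Q ⊆ cher v G Q₁ ∪ cher v G Q₂ := fun x hx => by
    rw [mem_union, mem_cher, mem_cher]
    rw [mem_cher] at hx
    rcases hQ _ hx.1 _ hx.2.1 hx.2.2.1 hx.2.2.2 with c | c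
    · exact Or.inl ⟨hx.1, hx.2.1, hx.2.2.1, c⟩
    · exact Or.inr ⟨hx.1, hx.2.1, hx.2.2.1, c⟩
  exact_mod_cast (card_le_card this).trans (card_union_le _ _)

/-- union bound over a finite family -/
lemma cher_exists {ι : Type*} (T : Finset ι) {Q : ℤ → ℤ → Prop} {Q' : ι → ℤ → ℤ → Prop} {b : ℝ}
    (hQ : ∀ g ∈ G, ∀ e ∈ G, v g = v e → Q g e → ∃ t ∈ T, Q' t g e)
    (hb : ∀ t ∈ T, (#(cher v G (Q' t)) : ℝ) ≤ b) : (#(cher v G Q) : ℝ) ≤ #T * b := by
  have : cher v G Q ⊆ T.biUnion fun t => cher v G (Q' t) := fun x hx => by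
    rw [mem_cher] at hx
    obtain ⟨t, ht, c⟩ := hQ _ hx.1 _ hx.2.1 hx.2.2.1 hx.2.2.2
    exact mem_biUnion.mpr ⟨t, ht, mem_cher.mpr ⟨hx.1, hx.2.1, hx.2.2.1, c⟩⟩
  have h1 : (#(cher v G Q) : ℝ) ≤ ∑ t ∈ T, (#(cher v G (Q' t)) : ℝ) := by
    exact_mod_cast (card_le_card this).trans card_biUnion_le
  exact h1.trans ((sum_le_card_nsmul _ _ b hb).trans (nsmul_eq_mul _ _).le)

lemma card_cher_eq (Q : ℤ → ℤ → Prop) :
    (#(cher v G Q) : ℝ) = ∑ e ∈ G, (#(G.filter fun g => v g = v e ∧ Q g e) : ℝ) := by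
  unfold cher
  convert card_filter_prod' G G fun g e => v g = v e ∧ Q g e

lemma card_cher_eq' (Q : ℤ → ℤ → Prop) :
    (#(cher v G Q) : ℝ) = ∑ g ∈ G, (#(G.filter fun e => v g = v e ∧ Q g e) : ℝ) := by
  unfold cher
  convert card_filter_prod G G fun g e => v g = v e ∧ Q g e

/-- at most `b` first edges for each second edge -/
lemma cher_le_of_fst {Q : ℤ → ℤ → Prop} {b : ℝ}
    (hb : ∀ e ∈ G, (#(G.filter fun g => v g = v e ∧ Q g e) : ℝ) ≤ b) :
    (#(cher v G Q) : ℝ) ≤ #G * b := by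
  rw [card_cher_eq]
  exact (sum_le_card_nsmul _ _ b hb).trans (nsmul_eq_mul _ _).le

variable {lam d u η : ℝ} {P : Finset Pt} {I : Finset ℤ} {cl : ℤ → ℕ} {lo hi gam : ℕ → ℝ}

lemma B2.mem_image (hB : B2 lam d u η P v I G cl lo hi gam) {i : ℤ} (hi : i ∈ G) :
    cl i ∈ I.image cl := mem_image_of_mem cl (hB.sub hi)

/-- good out-degree into a set of classes -/
lemma B2.deg_set (hB : B2 lam d u η P v I G cl lo hi gam) (p : Pt) (T : Finset ℕ) :
    (#(G.filter fun i => v i = p ∧ cl i ∈ T) : ℝ) ≤ d * ∑ c ∈ T, gam c := by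
  rw [card_eq_sum_card_fiberwise (f := cl) (t := T)
    (fun i hi => (mem_filter.mp (mem_coe.mp hi)).2.2), mul_sum]
  push_cast
  refine sum_le_sum fun c _ => le_trans (Nat.cast_le.mpr (card_le_card fun i hi => ?_)) (hB.dom p c)
  simp only [mem_filter] at hi ⊢
  exact ⟨hi.1.1, hi.1.2.1, hi.2⟩

lemma B2.deg_le (hB : B2 lam d u η P v I G cl lo hi gam) (hd : 0 ≤ d) (p : Pt) :
    (#(G.filter fun i => v i = p) : ℝ) ≤ u * d := by
  refine le_trans (Nat.cast_le.mpr (card_le_card fun i hi => ?_))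
    ((hB.deg_set p (I.image cl)).trans ?_)
  · rw [mem_filter] at hi ⊢
    exact ⟨hi.1, hi.2, hB.mem_image hi.1⟩
  · rw [mul_comm]; exact mul_le_mul_of_nonneg_right hB.total hd

lemma B2.u_nonneg (hB : B2 lam d u η P v I G cl lo hi gam) : 0 ≤ u :=
  (sum_nonneg fun c _ => hB.nonneg c).trans hB.total

/-- counting good edges point by point -/
lemma B2.card_le_of_pt (hB : B2 lam d u η P v I G cl lo hi gam) (Q : ℤ → Prop) [DecidablePred Q]
    {b : ℝ} (hb0 : 0 ≤ b) (hb : ∀ p ∈ P, (#(G.filter fun i => v i = p ∧ Q i) : ℝ) ≤ b) :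
    (#(G.filter Q) : ℝ) ≤ lam ^ 2 * d * b := by
  rw [card_eq_sum_card_fiberwise (f := v) (t := P)
    (fun i hi => hB.sys.memL i (hB.sub (mem_filter.mp (mem_coe.mp hi)).1))]
  push_cast
  refine (sum_le_card_nsmul _ _ b fun p hp => le_trans (le_of_eq ?_) (hb p hp)).trans ?_
  · rw [filter_filter]; congr 2; ext i; simp only [mem_filter, and_comm]
  · rw [nsmul_eq_mul]; exact mul_le_mul_of_nonneg_right hB.cardP hb0

lemma B2.cardG (hB : B2 lam d u η P v I G cl lo hi gam) (hd : 0 ≤ d) :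
    (#G : ℝ) ≤ u * (lam ^ 2 * d ^ 2) := by
  have := hB.card_le_of_pt (fun _ => True) (mul_nonneg hB.u_nonneg hd) fun p _ => by
    simpa using hB.deg_le hd p
  rw [filter_true] at this
  linarith

/-- a property of the second edge only -/
lemma B2.cher_snd (hB : B2 lam d u η P v I G cl lo hi gam) (hd : 0 ≤ d) (Q : ℤ → Prop)
    [DecidablePred Q] : (#(cher v G fun _ e => Q e) : ℝ) ≤ u * d * #(G.filter Q) := by
  rw [card_cher_eq, ← sum_filter_add_sum_filter_not G Q, mul_comm, ← nsmul_eq_mul]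
  refine le_trans (add_le_add (sum_le_card_nsmul _ _ (u * d) fun e _ => le_trans
    (Nat.cast_le.mpr (card_le_card fun g hg => ?_)) (hB.deg_le hd (v e)))
    (sum_nonpos fun e he => le_of_eq ?_)) (add_zero _).le
  · simp only [mem_filter] at hg ⊢
    exact ⟨hg.1, hg.2.1⟩
  · simp [(mem_filter.mp he).2]

/-- a property of the first edge only -/
lemma B2.cher_fst (hB : B2 lam d u η P v I G cl lo hi gam) (hd : 0 ≤ d) (Q : ℤ → Prop)
    [DecidablePred Q] : (#(cher v G fun g _ => Q g) : ℝ) ≤ u * d * #(G.filter Q) := by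
  rw [card_cher_eq', ← sum_filter_add_sum_filter_not G Q, mul_comm, ← nsmul_eq_mul]
  refine le_trans (add_le_add (sum_le_card_nsmul _ _ (u * d) fun g _ => le_trans
    (Nat.cast_le.mpr (card_le_card fun e he => ?_)) (hB.deg_le hd (v g)))
    (sum_nonpos fun e he => le_of_eq ?_)) (add_zero _).le
  · simp only [mem_filter] at he ⊢
    exact ⟨he.1, he.2.1.symm⟩
  · simp [(mem_filter.mp he).2]

/-- weighted form: a property of the class of the first edge and of the second edge -/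
lemma B2.cher_class_sum (hB : B2 lam d u η P v I G cl lo hi gam) (Q : ℕ → ℤ → Prop) :
    (#(cher v G fun g e => Q (cl g) e) : ℝ) ≤
      ∑ a ∈ I.image cl, d * gam a * #(G.filter fun e => Q a e) := by
  rw [card_cher_eq]
  have h1 : ∀ e ∈ G, (#(G.filter fun g => v g = v e ∧ Q (cl g) e) : ℝ) ≤
      ∑ a ∈ I.image cl, d * gam a * (if Q a e then 1 else 0) := by
    intro e _
    refine le_trans (Nat.cast_le.mpr (card_le_card fun i hi => ?_))
      ((hB.deg_set (v e) ((I.image cl).filter fun a => Q a e)).trans (le_of_eq ?_))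
    · simp only [mem_filter] at hi ⊢
      exact ⟨hi.1, hi.2.1, hB.mem_image hi.1, hi.2.2⟩
    · rw [sum_filter, mul_sum]
      refine sum_congr rfl fun a _ => ?_
      split_ifs <;> simp
  refine le_trans (sum_le_sum fun e he => le_trans (le_of_eq (by congr)) (h1 e he)) (le_of_eq ?_)
  rw [sum_comm]
  refine sum_congr rfl fun a _ => ?_
  rw [← mul_sum, card_filter]; push_cast; rfl

/-- (T1) a property of the class of the first edge and of the second edge -/
lemma B2.cher_class (hB : B2 lam d u η P v I G cl lo hi gam) (hd : 0 ≤ d) (Q : ℕ → ℤ → Prop)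
    {b : ℝ} (hb0 : 0 ≤ b) (hb : ∀ a ∈ I.image cl, (#(G.filter fun e => Q a e) : ℝ) ≤ b) :
    (#(cher v G fun g e => Q (cl g) e) : ℝ) ≤ u * d * b := by
  refine (hB.cher_class_sum Q).trans ((sum_le_sum fun a ha =>
    mul_le_mul_of_nonneg_left (hb a ha) (mul_nonneg hd (hB.nonneg a))).trans ?_)
  rw [← sum_mul, ← mul_sum, mul_comm u]
  exact mul_le_mul_of_nonneg_right (mul_le_mul_of_nonneg_left hB.total hd) hb0

/-- weighted count of good edges by class and left end -/
lemma B2.card_class_pt (hB : B2 lam d u η P v I G cl lo hi gam) (Q : ℕ → Pt → Prop) :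
    (#(G.filter fun e => Q (cl e) (v e)) : ℝ) ≤
      ∑ c ∈ I.image cl, d * gam c * #(P.filter fun p => Q c p) := by
  rw [card_eq_sum_card_fiberwise (f := v) (t := P)
    (fun i hi => hB.sys.memL i (hB.sub (mem_filter.mp (mem_coe.mp hi)).1))]
  push_cast
  have h1 : ∀ p ∈ P, (#((G.filter fun e => Q (cl e) (v e)).filter fun e => v e = p) : ℝ) ≤
      ∑ c ∈ I.image cl, d * gam c * (if Q c p then 1 else 0) := by
    intro p _
    refine le_trans (Nat.cast_le.mpr (card_le_card fun i hi => ?_))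
      ((hB.deg_set p ((I.image cl).filter fun c => Q c p)).trans (le_of_eq ?_))
    · simp only [mem_filter] at hi ⊢
      exact ⟨hi.1.1, hi.2, hB.mem_image hi.1.1, hi.2 ▸ hi.1.2⟩
    · rw [sum_filter, mul_sum]
      refine sum_congr rfl fun a _ => ?_
      split_ifs <;> simp
  refine (sum_le_sum h1).trans (le_of_eq ?_)
  rw [sum_comm]
  refine sum_congr rfl fun a _ => ?_
  rw [← mul_sum, card_filter]; push_cast; rfl

/-- (T3) a property of both classes and of the common point -/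
lemma B2.cher_class2 (hB : B2 lam d u η P v I G cl lo hi gam) (hd : 0 ≤ d)
    (Q : ℕ → ℕ → Pt → Prop) {b : ℝ} (hb0 : 0 ≤ b)
    (hb : ∀ a ∈ I.image cl, ∀ c ∈ I.image cl, (#(P.filter fun p => Q a c p) : ℝ) ≤ b) :
    (#(cher v G fun g e => Q (cl g) (cl e) (v e)) : ℝ) ≤ (u * d) ^ 2 * b := by
  have h1 := hB.cher_class hd (fun a e => Q a (cl e) (v e)) (b := u * d * b)
    (mul_nonneg (mul_nonneg hB.u_nonneg hd) hb0) fun a ha => by
      refine le_trans (le_of_eq (by congr)) ((hB.card_class_pt (Q a)).trans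
        ((sum_le_sum fun c hc => mul_le_mul_of_nonneg_left (hb a ha c hc)
          (mul_nonneg hd (hB.nonneg c))).trans ?_))
      rw [← sum_mul, ← mul_sum, mul_comm u]
      exact mul_le_mul_of_nonneg_right (mul_le_mul_of_nonneg_left hB.total hd) hb0
  linarith

/-- few good edges start at a point with large `nu` in their own class -/
lemma B2.card_nu_gt (hB : B2 lam d u η P v I G cl lo hi gam) (hd : 0 ≤ d) {W : ℝ} (hW : 0 < W) :
    (#(G.filter fun i => W < (nu P (lo (cl i)) (hi (cl i)) (v i) : ℝ)) : ℝ) ≤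
      lam ^ 2 * d * (d * η * (lam ^ 2 * d / W)) := by
  have hη : 0 ≤ η := (hB.nonneg 0).trans (hB.atom 0)
  refine hB.card_le_of_pt _ (by positivity) fun p _ => ?_
  refine le_trans (Nat.cast_le.mpr (card_le_card fun i hi => ?_))
    ((hB.deg_set p ((I.image cl).filter fun a => W < (nu P (lo a) (hi a) p : ℝ))).trans ?_)
  · simp only [mem_filter] at hi ⊢
    exact ⟨hi.1, hi.2.1, hB.mem_image hi.1, hi.2.1 ▸ hi.2.2⟩
  · rw [mul_assoc]
    refine mul_le_mul_of_nonneg_left ((sum_le_card_nsmul _ _ η fun c _ => hB.atom c).trans ?_) hd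
    rw [nsmul_eq_mul, mul_comm]
    exact mul_le_mul_of_nonneg_left ((hB.hull.card_nu_gt hB.mono P p hW).trans
      (div_le_div_of_nonneg_right hB.cardP hW.le)) hη

end cher

end Crest.Agent.R51
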