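import Crest.Agent.R51.Tools

/-!
# Row 51: from the core contradiction to the power saving for one level
-/

set_option autoImplicit false

noncomputable section

namespace Crest.Agent.R51

open Finset Classical

theorem top (ht : TokensStmt) (hi : IStarStmt) (hc : CoreStmt) : LevelStmt := by
  obtain ⟨C, ω₀, hc⟩ := hc
  obtain ⟨w, hw⟩ : ∃ w : ℝ, w = max ω₀ 100 := ⟨_, rfl⟩
  have hw1 : (100 : ℝ) ≤ w := hw ▸ le_max_right _ _
  have hw2 : ω₀ ≤ w := hw ▸ le_max_left _ _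
  have hC0 : (0 : ℝ) ≤ C := Nat.cast_nonneg C
  obtain ⟨ε, hε⟩ : ∃ ε : ℝ, ε = 1 / (3 * (1 + 2 * C)) := ⟨_, rfl⟩
  have hε0 : 0 < ε := by rw [hε]; positivity
  have hε1 : ε * (1 + 2 * C) = 1 / 3 := by rw [hε]; field_simp
  have hwC : 1 ≤ w ^ C := one_le_pow₀ (by linarith)
  refine ⟨ε, hε0, by nlinarith, 100 * w ^ C, by positivity, fun P hP j => ?_⟩
  obtain ⟨v, I, hS, hI, hnr, hLv⟩ := ht P hP j
  rw [← hI]
  by_contra hcon
  rw [not_le] at hcon
  obtain ⟨N, hN⟩ : ∃ N : ℝ, N = (#P : ℝ) := ⟨_, rfl⟩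
  obtain ⟨E, hE⟩ : ∃ E : ℝ, E = (#I : ℝ) := ⟨_, rfl⟩
  rw [← hN, ← hE] at hcon
  have hN0 : 0 ≤ N := hN ▸ Nat.cast_nonneg _
  have hE0 : 0 < E := lt_of_le_of_lt (by positivity) hcon
  have hN1 : 1 ≤ N := by
    obtain ⟨i, hi⟩ := card_pos.mp (show 0 < #I by rw [hE] at hE0; exact_mod_cast hE0)
    rw [hN]; exact_mod_cast card_pos.mpr ⟨_, hS.memL i hi⟩
  have hNp : 0 < N := by linarith
  obtain ⟨d, hd⟩ : ∃ d : ℝ, d = E / N := ⟨_, rfl⟩
  have hEd : E = d * N := by rw [hd]; field_simp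
  -- `t = N ^ (1/3 - ε)`, `x = N ^ (2 ε)`
  obtain ⟨t, ht'⟩ : ∃ t : ℝ, t = N ^ ((1 : ℝ) / 3 - ε) := ⟨_, rfl⟩
  obtain ⟨x, hx⟩ : ∃ x : ℝ, x = N ^ (2 * ε) := ⟨_, rfl⟩
  have ht1 : 1 ≤ t := ht' ▸ Real.one_le_rpow hN1 (by nlinarith)
  have hx1 : 1 ≤ x := hx ▸ Real.one_le_rpow hN1 (by positivity)
  have hsplit : N ^ ((4 : ℝ) / 3 - ε) = t * N := by
    rw [ht', ← Real.rpow_add_one hNp.ne']; congr 1; ring
  have hdt : 100 * w ^ C * t < d := by
    rw [hd, lt_div_iff₀ hNp]; rw [hsplit] at hcon; linarith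
  have hxC : x ^ C = t := by
    rw [hx, ht', ← Real.rpow_natCast, ← Real.rpow_mul hN0]; congr 1; linarith
  have htx : N ≤ t ^ 3 * x ^ 2 := by
    have : t ^ 3 * x ^ 2 = N ^ (1 + ε) := by
      rw [hx, ht', ← Real.rpow_natCast, ← Real.rpow_natCast, ← Real.rpow_mul hN0,
        ← Real.rpow_mul hN0, ← Real.rpow_add hNp]
      congr 1; push_cast; ring
    rw [this]
    calc N = N ^ (1 : ℝ) := (Real.rpow_one N).symm
      _ ≤ N ^ (1 + ε) := Real.rpow_le_rpow_of_exponent_le hN1 (by linarith)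
  have hwt : 1 ≤ w ^ C * t := one_le_mul_of_one_le_of_one_le hwC ht1
  have hwt' : t ≤ w ^ C * t := le_mul_of_one_le_left (by linarith) hwC
  have hd100 : 100 < d := by linarith
  have hdt' : t ≤ d := by linarith
  have hd0 : 0 < d := by linarith
  obtain ⟨lam, hlam⟩ : ∃ lam : ℝ, lam = Real.sqrt (N / d) := ⟨_, rfl⟩
  have hl2 : lam ^ 2 = N / d := hlam ▸ Real.sq_sqrt (by positivity)
  have hl0 : 0 < lam := hlam ▸ Real.sqrt_pos.mpr (by positivity)
  have hl3 : lam ^ 2 * d = N := by rw [hl2]; field_simp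
  obtain ⟨ω, hω⟩ : ∃ ω : ℝ, ω = w * x := ⟨_, rfl⟩
  have hω1 : w ≤ ω := hω ▸ le_mul_of_one_le_right (by linarith) hx1
  have hω2 : x ≤ ω := hω ▸ le_mul_of_one_le_left (by linarith) (by linarith)
  have hω0 : 0 < ω := by linarith
  have h1 : lam ≤ ω * d := by
    refine (pow_le_pow_iff_left₀ hl0.le (by positivity) two_ne_zero).mp ?_
    rw [hl2, div_le_iff₀ hd0]
    calc N ≤ t ^ 3 * x ^ 2 := htx
      _ ≤ d ^ 3 * ω ^ 2 := by gcongr
      _ = (ω * d) ^ 2 * d := by ring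
  have hnr' : (nr I : ℝ) ≤ N := by rw [hN]; exact_mod_cast hnr
  have h2 : d ≤ ω * lam := by
    by_contra h3
    rw [not_le] at h3
    have h4 : 100 * lam < d := lt_of_le_of_lt (mul_le_mul_of_nonneg_right (by linarith) hl0.le) h3
    have h5 : 10000 * N < d ^ 3 := by
      rw [← hl3]
      have : (100 * lam) ^ 2 * d < d ^ 2 * d := by gcongr
      linarith
    have h6 := hi P v I hS I Subset.rfl P P hS.memL hS.memR (#I / 10) (by rw [← hE]; positivity) (by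
      rw [← hE, ← hN]
      have a1 : (nr I : ℝ) ^ 2 ≤ N ^ 2 := by gcongr
      rw [hEd]
      have a2 : (4 * (nr I : ℝ) ^ 2 + 4 * N ^ 2) * N * N ≤ (8 * N ^ 2) * N * N := by
        gcongr; linarith
      have a3 : 10000 * N * N ^ 3 ≤ d ^ 3 * N ^ 3 := by gcongr
      have a4 : 0 ≤ N ^ 4 := by positivity
      linarith)
    rw [← hE, ← hN, hEd] at h6
    have a5 := mul_lt_mul_of_pos_right hd100 hNp
    linarith
  refine hc ω lam d P v I (hw2.trans hω1) ?_ hl0 h1 h2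
    { sys := hS, cardP := by rw [← hN]; exact hl3.ge, runs := ?_, sub := Subset.rfl, big := ?_ } hLv
  · rw [hω, mul_pow, hxC]; linarith
  · calc (nr I : ℝ) ≤ lam * (lam * d) := by rw [← hl3] at hnr'; linarith
      _ ≤ ω * d * (lam * d) := by gcongr
      _ = ω * lam * d ^ 2 := by ring
  · have : lam ^ 2 * d ^ 2 = E := by rw [hEd, ← hl3]; ring
    rw [this, ← hE]
    exact div_le_self hE0.le (by linarith)

end Crest.Agent.R51
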