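import Crest.Agent.R51.Tools

/-!
# Row 51: vertical walls in strips; the incidence bound and the partition lemma
-/

set_option autoImplicit false

noncomputable section

namespace Crest.Agent.R51

open Finset Classical

/-- number of points of `A` to the left of `q` in the strip of `q` -/
def wn (str : Pt → ℤ) (A : Finset Pt) (q : Pt) : ℕ :=
  #(A.filter fun z => str z = str q ∧ z.1 < q.1)

section wn

variable {str : Pt → ℤ} {A : Finset Pt} {p q : Pt}

lemma wn_mono (hs : str p = str q) (hx : p.1 ≤ q.1) : wn str A p ≤ wn str A q :=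
  card_le_card fun z hz => by
    rw [mem_filter] at hz ⊢
    exact ⟨hz.1, hz.2.1.trans hs, hz.2.2.trans_le hx⟩

lemma wn_lt (hp : p ∈ A) (hs : str p = str q) (hx : p.1 < q.1) : wn str A p < wn str A q := by
  refine card_lt_card ⟨fun z hz => ?_, fun hsub => ?_⟩
  · rw [mem_filter] at hz ⊢
    exact ⟨hz.1, hz.2.1.trans hs, hz.2.2.trans hx⟩
  · exact lt_irrefl _ (mem_filter.mp (hsub (mem_filter.mpr ⟨hp, hs, hx⟩))).2.2

lemma wn_le_card (q : Pt) : wn str A q ≤ #(A.filter fun z => str z = str q) :=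
  card_le_card fun z hz => by
    rw [mem_filter] at hz ⊢
    exact ⟨hz.1, hz.2.1⟩

lemma wn_lt_card (hq : q ∈ A) : wn str A q < #(A.filter fun z => str z = str q) := by
  refine card_lt_card ⟨fun z hz => ?_, fun hsub => ?_⟩
  · rw [mem_filter] at hz ⊢
    exact ⟨hz.1, hz.2.1⟩
  · exact lt_irrefl _ (mem_filter.mp (hsub (mem_filter.mpr ⟨hq, rfl⟩))).2.2

lemma wn_inj (hA : GP A) (hp : p ∈ A) (hq : q ∈ A) (hs : str p = str q)
    (h1 : wn str A p = wn str A q) : p = q := by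
  rcases lt_trichotomy p.1 q.1 with c | c | c
  · exact absurd (wn_lt hp hs c) (by omega)
  · exact hA.xinj p hp q hq c
  · exact absurd (wn_lt hq hs.symm c) (by omega)

lemma wn_injOn (hA : GP A) (k : ℤ) :
    Set.InjOn (wn str A) (A.filter fun z => str z = k : Finset Pt) := fun p hp q hq e => by
  have hp' := mem_filter.mp (mem_coe.mp hp)
  have hq' := mem_filter.mp (mem_coe.mp hq)
  exact wn_inj hA hp'.1 hq'.1 (hp'.2.trans hq'.2.symm) e

lemma wn_surj (hA : GP A) (k : ℤ) {t : ℕ} (ht : t < #(A.filter fun z => str z = k)) :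
    ∃ z ∈ A, str z = k ∧ wn str A z = t := by
  have h1 : (A.filter fun z => str z = k).image (wn str A) =
      range #(A.filter fun z => str z = k) := by
    refine eq_of_subset_of_card_le (fun s hs => ?_) ?_
    · obtain ⟨z, hz, rfl⟩ := mem_image.mp hs
      rw [mem_filter] at hz
      rw [mem_range, ← hz.2]
      exact wn_lt_card hz.1
    · rw [card_range, card_image_of_injOn (wn_injOn hA k)]
  have h2 : t ∈ (A.filter fun z => str z = k).image (wn str A) := by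
    rw [h1]; exact mem_range.mpr ht
  obtain ⟨z, hz, e⟩ := mem_image.mp h2
  rw [mem_filter] at hz
  exact ⟨z, hz.1, hz.2, e⟩

/-- two points of a strip in different cells are separated by a wall point -/
lemma exists_wall (hA : GP A) {α : ℕ} (hα : 1 ≤ α) (hs : str p = str q) (hx : p.1 ≤ q.1)
    (hc : wn str A p / α ≠ wn str A q / α) :
    ∃ z ∈ A, α ∣ wn str A z + 1 ∧ str p = str z ∧ p.1 ≤ z.1 ∧ z.1 < q.1 := by
  have h1 : wn str A p / α < wn str A q / α :=
    lt_of_le_of_ne (Nat.div_le_div_right (wn_mono hs hx)) hc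
  have h2 : wn str A p < wn str A q / α * α := (Nat.div_lt_iff_lt_mul hα).mp h1
  have h3 : wn str A q / α * α ≤ wn str A q := Nat.div_mul_le_self _ _
  have h4 := wn_le_card (str := str) (A := A) q
  obtain ⟨z, hz, e1, e2⟩ := wn_surj (str := str) hA (str q) (t := wn str A q / α * α - 1)
    (by omega)
  refine ⟨z, hz, ⟨wn str A q / α, ?_⟩, hs.trans e1.symm, ?_, ?_⟩
  · rw [e2, mul_comm α]; omega
  · by_contra c
    have := wn_lt hz (e1.trans hs.symm) (not_le.mp c)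
    omega
  · by_contra c
    have := wn_mono (A := A) e1.symm (not_lt.mp c)
    omega

lemma card_wall (hA : GP A) (α : ℕ) : α * #(A.filter fun z => α ∣ wn str A z + 1) ≤ #A := by
  rw [card_eq_sum_card_fiberwise (f := str) (t := A.image str) (s := A)
      (fun z hz => mem_coe.mpr (mem_image_of_mem _ (mem_coe.mp hz))),
    card_eq_sum_card_fiberwise (f := str) (t := A.image str)
      (s := A.filter fun z => α ∣ wn str A z + 1)
      (fun z hz => mem_coe.mpr (mem_image_of_mem _ (mem_filter.mp (mem_coe.mp hz)).1)), mul_sum]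
  refine sum_le_sum fun k _ => ?_
  refine le_trans (Nat.mul_le_mul_left α ?_) (Nat.mul_div_le _ α)
  rw [← Nat.card_multiples]
  refine card_le_card_of_injOn (wn str A) (fun z hz => ?_) ((wn_injOn hA k).mono fun z hz => ?_)
  · have hz' := mem_filter.mp (mem_coe.mp hz)
    have hz'' := mem_filter.mp hz'.1
    refine mem_coe.mpr (mem_filter.mpr ⟨mem_range.mpr ?_, hz''.2⟩)
    rw [← hz'.2]
    exact wn_lt_card hz''.1
  · have hz' := mem_filter.mp (mem_coe.mp hz)
    exact mem_coe.mpr (mem_filter.mpr ⟨(mem_filter.mp hz'.1).1, hz'.2⟩)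

lemma card_cell (hA : GP A) {α : ℕ} (hα : 1 ≤ α) (k : ℤ × ℕ) :
    #(part (fun z => (str z, wn str A z / α)) k A) ≤ α := by
  have h1 : #(Ico (k.2 * α) (k.2 * α + α)) = α := by simp
  refine le_trans (card_le_card_of_injOn (wn str A) (fun z hz => ?_)
    ((wn_injOn (str := str) hA k.1).mono fun z hz => ?_)) h1.le
  · have hz' := mem_part.mp (mem_coe.mp hz)
    have e : wn str A z / α = k.2 := congrArg Prod.snd hz'.2
    refine mem_coe.mpr (mem_Ico.mpr ⟨?_, ?_⟩)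
    · rw [← e]; exact Nat.div_mul_le_self _ _
    · rw [← e]; exact Nat.lt_div_mul_add hα
  · have hz' := mem_part.mp (mem_coe.mp hz)
    exact mem_coe.mpr (mem_filter.mpr ⟨hz'.1, congrArg Prod.fst hz'.2⟩)

end wn

/-- the wall lemma -/
lemma wall (hc : CutStmt) {P : Finset Pt} {v : ℤ → Pt} {I : Finset ℤ} (hS : Sys P v I)
    {A : Finset Pt} (hA : A ⊆ P) {α : ℕ} (hα : 1 ≤ α) {Z : ℝ} (hZ : 0 < Z) :
    ∃ c : Pt → ℤ × ℕ, (∀ k, #(part c k A) ≤ α) ∧ (α : ℝ) * #(cut c v I) ≤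
      α * (2 * Z) + ((4 * (nr I : ℝ) ^ 2 + 4 * (#P : ℝ) ^ 2) / Z + 1) * #A := by
  set X : ℝ := 4 * (nr I : ℝ) ^ 2 + 4 * (#P : ℝ) ^ 2 with hX
  have hX0 : 0 ≤ X / Z := by positivity
  obtain ⟨str, Bad, h1, h2, h3⟩ := hc P v I hS (max 1 ⌈X / Z⌉₊) (le_max_left _ _)
  set w : ℕ := max 1 ⌈X / Z⌉₊ with hw
  have hw1 : (1 : ℝ) ≤ w := by exact_mod_cast le_max_left _ _
  have hw2 : X / Z ≤ w := (Nat.le_ceil _).trans (by exact_mod_cast le_max_right _ _)
  have hw3 : (w : ℝ) ≤ X / Z + 1 := by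
    rw [hw]; push_cast
    exact max_le (by linarith) (Nat.ceil_lt_add_one hX0).le
  have hGA := hS.gp.mono hA
  refine ⟨fun z => (str z, wn str A z / α), card_cell hGA hα, ?_⟩
  have hB : (#Bad : ℝ) ≤ 2 * Z := by
    have e1 : (w : ℝ) * #Bad ≤ 2 * X := by rw [hX]; exact_mod_cast h1
    rw [div_le_iff₀ hZ] at hw2
    refine le_of_mul_le_mul_left (e1.trans ?_) (by linarith : (0 : ℝ) < w)
    linarith
  have hsub : cut (fun z => (str z, wn str A z / α)) v I ⊆
      Bad ∪ (A.filter fun z => α ∣ wn str A z + 1).biUnion fun z =>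
        I.filter fun i => i ∉ Bad ∧ str (v i) = str z ∧ (v i).1 ≤ z.1 ∧ z.1 < (v (i + 1)).1 := by
    intro i hi
    rw [mem_cut] at hi
    rw [mem_union]
    by_cases hb : i ∈ Bad
    · exact Or.inl hb
    right
    have e := h2 i hi.1 hb
    obtain ⟨z, hz, a1, a2, a3, a4⟩ := exists_wall (A := A) hGA hα e (hS.lt i hi.1).le
      fun e2 => hi.2 (Prod.ext e e2)
    exact mem_biUnion.mpr ⟨z, mem_filter.mpr ⟨hz, a1⟩, mem_filter.mpr ⟨hi.1, hb, a2, a3, a4⟩⟩
  have h4 := (card_le_card hsub).trans ((card_union_le _ _).trans (Nat.add_le_add_left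
    (card_biUnion_le_card_mul _ _ w fun z _ => h3 (str z) z.1) _))
  have h5 : (#(cut (fun z => (str z, wn str A z / α)) v I) : ℝ) ≤
      #Bad + #(A.filter fun z => α ∣ wn str A z + 1) * w := by exact_mod_cast h4
  have h6 : (α : ℝ) * #(A.filter fun z => α ∣ wn str A z + 1) ≤ #A := by
    exact_mod_cast card_wall hGA α
  calc _ ≤ (α : ℝ) * (#Bad + #(A.filter fun z => α ∣ wn str A z + 1) * w) := by gcongr
    _ = α * #Bad + w * (α * #(A.filter fun z => α ∣ wn str A z + 1)) := by ring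
    _ ≤ _ := by gcongr

theorem pstar (hc : CutStmt) : PStarStmt := by
  intro P v I hS s' Z hs hZ hX
  have hα : 1 ≤ ⌊s'⌋₊ := Nat.le_floor (by exact_mod_cast hs)
  have hα1 : (1 : ℝ) ≤ ⌊s'⌋₊ := by exact_mod_cast hα
  have hα2 : (⌊s'⌋₊ : ℝ) ≤ s' := Nat.floor_le (by linarith)
  have hα3 : s' ≤ 2 * (⌊s'⌋₊ : ℝ) := by linarith [Nat.lt_floor_add_one s']
  obtain ⟨c, h1, h2⟩ := wall hc hS Subset.rfl hα hZ
  refine ⟨c, fun k => le_trans (by exact_mod_cast h1 k) hα2, ?_⟩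
  refine le_of_mul_le_mul_left (h2.trans ?_) (by linarith : (0 : ℝ) < ⌊s'⌋₊)
  have e1 : (4 * (nr I : ℝ) ^ 2 + 4 * (#P : ℝ) ^ 2) / Z * #P ≤ Z * (2 * (⌊s'⌋₊ : ℝ)) := by
    rw [div_mul_eq_mul_div, div_le_iff₀ hZ]
    refine hX.trans ?_
    calc Z ^ 2 * s' ≤ Z ^ 2 * (2 * (⌊s'⌋₊ : ℝ)) := by gcongr
      _ = _ := by ring
  have e2 : (#P : ℝ) ≤ ⌊s'⌋₊ * (2 * #P / s') := by
    rw [← mul_div_assoc, le_div_iff₀ (by linarith)]
    have : (0 : ℝ) ≤ #P := Nat.cast_nonneg _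
    nlinarith
  nlinarith

theorem istar (hc : CutStmt) : IStarStmt := by
  intro P v I hS G hG A B hA hB Z hZ hX
  have ha : (0 : ℝ) ≤ #A := Nat.cast_nonneg _
  rcases B.eq_empty_or_nonempty with rfl | hne
  · have : G = ∅ := eq_empty_of_forall_notMem fun i hi => notMem_empty _ (hB i hi)
    rw [this]; simp only [card_empty, Nat.cast_zero]; linarith
  have hb : (0 : ℝ) < #B := by exact_mod_cast hne.card_pos
  have hα : 1 ≤ ⌈Z / #B⌉₊ := Nat.one_le_ceil_iff.mpr (by positivity)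
  have hα1 : (1 : ℝ) ≤ ⌈Z / #B⌉₊ := by exact_mod_cast hα
  have hα2 : Z / #B ≤ ⌈Z / #B⌉₊ := Nat.le_ceil _
  have hα3 : (⌈Z / #B⌉₊ : ℝ) ≤ Z / #B + 1 := (Nat.ceil_lt_add_one (by positivity)).le
  obtain ⟨c, h1, h2⟩ := wall hc hS (A := A ∩ P) inter_subset_right hα hZ
  set α : ℕ := ⌈Z / #B⌉₊ with hαdef
  have ha' : (#(A ∩ P) : ℝ) ≤ #A := by exact_mod_cast card_le_card inter_subset_left
  have hcut : (#(cut c v I) : ℝ) ≤ 3 * Z + #A := by
    refine le_of_mul_le_mul_left (h2.trans ?_) (by linarith : (0 : ℝ) < α)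
    have e1 : (4 * (nr I : ℝ) ^ 2 + 4 * (#P : ℝ) ^ 2) / Z * #A ≤ Z * α := by
      rw [div_mul_eq_mul_div, div_le_iff₀ hZ]
      refine le_of_mul_le_mul_right (hX.trans ?_) hb
      rw [div_le_iff₀ hb] at hα2
      calc Z ^ 3 = Z ^ 2 * Z := by ring
        _ ≤ Z ^ 2 * (α * #B) := by gcongr
        _ = _ := by ring
    have e2 : ((4 * (nr I : ℝ) ^ 2 + 4 * (#P : ℝ) ^ 2) / Z + 1) * #(A ∩ P) ≤
        ((4 * (nr I : ℝ) ^ 2 + 4 * (#P : ℝ) ^ 2) / Z + 1) * #A := by gcongr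
    nlinarith
  have hsub : G ⊆ cut c v I ∪ B.biUnion fun R =>
      G.filter fun i => v (i + 1) = R ∧ c (v i) = c R := by
    intro i hi
    rw [mem_union, mem_cut]
    by_cases e : c (v i) = c (v (i + 1))
    · exact Or.inr (mem_biUnion.mpr ⟨_, hB i hi, mem_filter.mpr ⟨hi, rfl, e⟩⟩)
    · exact Or.inl ⟨hG hi, e⟩
  have h4 := (card_le_card hsub).trans ((card_union_le _ _).trans (Nat.add_le_add_left
    (card_biUnion_le_card_mul _ _ α fun R _ => le_trans (card_le_card_of_injOn v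
      (fun i hi => ?_) (fun i hi j hj e => ?_)) (h1 (c R))) _))
  · have h5 : (#G : ℝ) ≤ #(cut c v I) + #B * α := by exact_mod_cast h4
    have h6 : (#B : ℝ) * α ≤ Z + #B :=
      calc (#B : ℝ) * α ≤ #B * (Z / #B + 1) := by gcongr
        _ = _ := by field_simp
    linarith
  · have hi' := mem_filter.mp (mem_coe.mp hi)
    exact mem_coe.mpr (mem_part.mpr
      ⟨mem_inter.mpr ⟨hA i hi'.1, hS.memL i (hG hi'.1)⟩, hi'.2.2⟩)
  · have hi' := mem_filter.mp (mem_coe.mp hi)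
    have hj' := mem_filter.mp (mem_coe.mp hj)
    exact hS.eq_of_ends (hG hi'.1) (hG hj'.1) e (hi'.2.1.trans hj'.2.1.symm)

end Crest.Agent.R51
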