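import Crest.Agent.R51.Tools

/-!
# Row 51: from the bound in terms of `#P` to the bound in terms of `k` (time windows)
-/

set_option autoImplicit false

noncomputable section

namespace Crest.Agent.R51

open Finset Classical

variable {P : Finset Pt}

lemma Window_mem_edges {j : ℕ} {e : Pt × Pt} : e ∈ edges P j ↔
    e.1 ∈ P ∧ e.2 ∈ P ∧ e.1.1 < e.2.1 ∧ rk P (slope e.1 e.2) e.2 = j := by
  unfold edges; rw [mem_filter, mem_product, and_assoc]

/-- number of points to the right of `L` seen with a smaller slope than `R` -/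
def Window_m (P : Finset Pt) (L R : Pt) : ℕ :=
  #(P.filter fun z => L.1 < z.1 ∧ slope L z < slope L R)

lemma Window_m_le {L R : Pt} (hx : L.1 < R.1) : Window_m P L R ≤ rk P (slope L R) R := by
  refine card_le_card fun z hz => ?_
  rw [mem_filter] at hz ⊢
  refine ⟨hz.1, below_of_lt ?_⟩
  have h1 := h_sub (slope L R) hz.2.1.ne
  have h2 := mul_neg_of_neg_of_pos (sub_neg.mpr hz.2.2) (sub_pos.mpr hz.2.1)
  rw [h_slope hx.ne]
  linarith

lemma Window_m_lt {L R R' : Pt} (hR : R ∈ P) (hx : L.1 < R.1) (hs : slope L R < slope L R') :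
    Window_m P L R < Window_m P L R' := by
  refine card_lt_card ⟨fun z hz => ?_, fun hsub => ?_⟩
  · rw [mem_filter] at hz ⊢
    exact ⟨hz.1, hz.2.1, hz.2.2.trans hs⟩
  · exact lt_irrefl _ (mem_filter.mp (hsub (mem_filter.mpr ⟨hR, hx, hs⟩))).2.2

lemma Window_sum (hP : GP P) (k : ℕ) : ∑ j ∈ Ico k (2 * k), #(edges P j) ≤ #P * (2 * k) := by
  have h1 := sum_card_fiberwise_eq_card_filter ((P ×ˢ P).filter fun e => e.1.1 < e.2.1)
    (Ico k (2 * k)) (fun e => rk P (slope e.1 e.2) e.2)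
  simp only [filter_filter] at h1
  refine (le_of_eq (Eq.trans (sum_congr rfl fun j _ => ?_) h1)).trans ?_
  · unfold edges; congr
  refine le_trans ?_ (le_of_eq ((card_product P (range (2 * k))).trans (by rw [card_range])))
  refine card_le_card_of_injOn (fun e => (e.1, Window_m P e.1 e.2)) ?_ ?_
  · intro e he
    simp only [coe_filter, mem_product, Set.mem_ofPred_eq, mem_Ico] at he
    simp only [coe_product, Set.mem_prod, mem_coe, mem_range]
    exact ⟨he.1.1, (Window_m_le he.2.1).trans_lt he.2.2.2⟩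
  · rintro ⟨L, R⟩ he ⟨L', R'⟩ he' heq
    simp only [coe_filter, mem_product, Set.mem_ofPred_eq, mem_Ico] at he he'
    simp only [Prod.mk.injEq] at heq
    obtain ⟨rfl, heq⟩ := heq
    congr 1
    rcases lt_trichotomy (slope L R) (slope L R') with c | c | c
    · exact absurd (Window_m_lt he.1.2 he.2.1 c) (by omega)
    · exact hP.slope_inj he.1.1 he.1.2 he'.1.2 (fun a => (a ▸ he.2.1).false)
        (fun a => (a ▸ he'.2.1).false) c
    · exact absurd (Window_m_lt he'.1.2 he'.2.1 c) (by omega)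

lemma Window_level (hP : GP P) {k : ℕ} (hk : 1 ≤ k) :
    ∃ j, k ≤ j ∧ j < 2 * k ∧ #(edges P j) ≤ 2 * #P := by
  have h1 : ∑ j ∈ Ico k (2 * k), #(edges P j) ≤ ∑ _j ∈ Ico k (2 * k), 2 * #P := by
    refine (Window_sum hP k).trans (le_of_eq ?_)
    rw [sum_const, Nat.card_Ico, smul_eq_mul, show 2 * k - k = k by omega]
    ring
  obtain ⟨j, hj, h2⟩ := exists_le_of_sum_le ⟨k, mem_Ico.mpr ⟨le_rfl, by omega⟩⟩ h1
  exact ⟨j, (mem_Ico.mp hj).1, (mem_Ico.mp hj).2, h2⟩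

/-- the points that reach rank `≤ j` during `[θ₁, θ₂]` -/
def Window_V (P : Finset Pt) (j : ℕ) (θ₁ θ₂ : ℝ) : Finset Pt :=
  (P.filter fun p => rk P θ₁ p ≤ j) ∪
    ((edges P j).filter fun f => θ₁ < slope f.1 f.2 ∧ slope f.1 f.2 ≤ θ₂).image Prod.snd

lemma Window_V_sub (j : ℕ) (θ₁ θ₂ : ℝ) : Window_V P j θ₁ θ₂ ⊆ P := by
  intro p hp
  rcases mem_union.mp hp with c | c
  · exact (mem_filter.mp c).1
  · obtain ⟨f, hf, rfl⟩ := mem_image.mp c
    exact (Window_mem_edges.mp (mem_filter.mp hf).1).2.1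

lemma Window_mem_V (hs : SweepStmt) (hP : GP P) {j : ℕ} {θ₁ θ₂ θ : ℝ} (h1 : θ₁ ≤ θ) (h2 : θ ≤ θ₂)
    {p : Pt} (hp : p ∈ P) (hr : rk P θ p ≤ j) : p ∈ Window_V P j θ₁ θ₂ := by
  by_cases h0 : rk P θ₁ p ≤ j
  · exact mem_union_left _ (mem_filter.mpr ⟨hp, h0⟩)
  have h3 := hs P hP p hp j θ₁ θ h1
  rw [if_pos hr, if_neg h0] at h3
  obtain ⟨f, hf⟩ : ((edges P j).filter fun e =>
      e.2 = p ∧ θ₁ < slope e.1 e.2 ∧ slope e.1 e.2 ≤ θ).Nonempty := by
    rw [← card_pos]; omega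
  rw [mem_filter] at hf
  exact mem_union_right _ (mem_image.mpr
    ⟨f, mem_filter.mpr ⟨hf.1, hf.2.2.1, hf.2.2.2.trans h2⟩, hf.2.1⟩)

lemma Window_edge (hs : SweepStmt) (hP : GP P) {k j : ℕ} (hk : 1 ≤ k) (hj : k ≤ j) {θ₁ θ₂ : ℝ}
    {e : Pt × Pt} (he : e ∈ edges P (k - 1)) (h1 : θ₁ ≤ slope e.1 e.2) (h2 : slope e.1 e.2 ≤ θ₂) :
    e ∈ edges (Window_V P j θ₁ θ₂) (k - 1) := by
  obtain ⟨a, b, c, d⟩ := Window_mem_edges.mp he
  have h3 := hP.rk_left a b c
  refine Window_mem_edges.mpr ⟨Window_mem_V hs hP h1 h2 a (by omega),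
    Window_mem_V hs hP h1 h2 b (by omega), c, ?_⟩
  rw [← d]
  unfold rk
  congr 1
  ext q
  simp only [mem_filter]
  refine ⟨fun hq => ⟨Window_V_sub _ _ _ hq.1, hq.2⟩, fun hq => ⟨?_, hq.2⟩⟩
  have h4 := rk_lt_of_below hq.1 hq.2
  exact Window_mem_V hs hP h1 h2 hq.1 (by omega)

/-- the clock: number of `j`-edges up to time `θ` -/
def Window_c (P : Finset Pt) (j : ℕ) (θ : ℝ) : ℕ :=
  #((edges P j).filter fun f => slope f.1 f.2 ≤ θ)

lemma Window_card_V (hP : GP P) (j : ℕ) {θ₁ θ₂ : ℝ} (h12 : θ₁ ≤ θ₂) :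
    #(Window_V P j θ₁ θ₂) + Window_c P j θ₁ ≤ j + 1 + Window_c P j θ₂ := by
  have h1 : #(Window_V P j θ₁ θ₂) ≤ j + 1 +
      #((edges P j).filter fun f => θ₁ < slope f.1 f.2 ∧ slope f.1 f.2 ≤ θ₂) :=
    (card_union_le _ _).trans (add_le_add (hP.card_rk_le θ₁ j) card_image_le)
  have h2 : #((edges P j).filter fun f => θ₁ < slope f.1 f.2 ∧ slope f.1 f.2 ≤ θ₂) +
      Window_c P j θ₁ ≤ Window_c P j θ₂ := by
    unfold Window_c
    rw [← card_union_of_disjoint (disjoint_filter.mpr fun f _ a b => absurd b (not_le.mpr a.1))]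
    refine card_le_card fun f hf => ?_
    simp only [mem_union, mem_filter] at hf ⊢
    rcases hf with c | c
    · exact ⟨c.1, c.2.2⟩
    · exact ⟨c.1, c.2.trans h12⟩
  omega

lemma Window_class (hs : SweepStmt) (hP : GP P) {k j : ℕ} (hk : 1 ≤ k) (hj : k ≤ j)
    (hj' : j < 2 * k) (a : ℕ) : ∃ V ⊆ P, #V ≤ 3 * k ∧
      #((edges P (k - 1)).filter fun e => Window_c P j (slope e.1 e.2) / k = a) ≤
        #(edges V (k - 1)) := by
  rcases ((edges P (k - 1)).filter fun e =>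
    Window_c P j (slope e.1 e.2) / k = a).eq_empty_or_nonempty with he | hne
  · exact ⟨∅, empty_subset _, by simp, by rw [he]; simp⟩
  obtain ⟨e₁, he₁, hmin⟩ := exists_min_image _ (fun e : Pt × Pt => slope e.1 e.2) hne
  obtain ⟨e₂, he₂, hmax⟩ := exists_max_image _ (fun e : Pt × Pt => slope e.1 e.2) hne
  refine ⟨Window_V P j (slope e₁.1 e₁.2) (slope e₂.1 e₂.2), Window_V_sub _ _ _, ?_,
    card_le_card fun e he => Window_edge hs hP hk hj (mem_filter.mp he).1 (hmin e he) (hmax e he)⟩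
  have h1 := Window_card_V hP j (hmin e₂ he₂)
  have h2 := Nat.div_add_mod (Window_c P j (slope e₁.1 e₁.2)) k
  have h3 := Nat.div_add_mod (Window_c P j (slope e₂.1 e₂.2)) k
  have h4 := Nat.mod_lt (Window_c P j (slope e₂.1 e₂.2)) hk
  rw [(mem_filter.mp he₁).2] at h2
  rw [(mem_filter.mp he₂).2] at h3
  omega

theorem window (hs : SweepStmt) (hl : LevelStmt) : EdgeStmt := by
  obtain ⟨ε, hε, hε', C, hC, hL⟩ := hl
  refine ⟨ε, hε, hε', 9 * C * (3 : ℝ) ^ ((1 : ℝ) / 3 - ε), by positivity,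
    fun P hP k hk hkP => ?_⟩
  obtain ⟨j, hj, hj', hE⟩ := Window_level hP hk
  have hk0 : (0 : ℝ) < k := by exact_mod_cast hk
  have h1 := card_eq_sum_card_fiberwise (s := edges P (k - 1)) (t := range (2 * #P / k + 1))
    (f := fun e => Window_c P j (slope e.1 e.2) / k) (fun e _ => by
      rw [mem_coe, mem_range, Nat.lt_succ_iff]
      exact Nat.div_le_div_right ((card_filter_le _ _).trans hE))
  have h2 : ∀ a ∈ range (2 * #P / k + 1),
      (#((edges P (k - 1)).filter fun e => Window_c P j (slope e.1 e.2) / k = a) : ℝ) ≤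
        C * (3 * k * (3 ^ ((1 : ℝ) / 3 - ε) * ((k : ℝ) + 1) ^ ((1 : ℝ) / 3 - ε))) := by
    intro a _
    obtain ⟨V, hV, hc, hle⟩ := Window_class hs hP hk hj hj' a
    refine (Nat.cast_le.mpr hle).trans ((hL V (hP.mono hV) _).trans
      (mul_le_mul_of_nonneg_left ?_ hC))
    have hc' : (#V : ℝ) ≤ 3 * k := by exact_mod_cast hc
    calc (#V : ℝ) ^ ((4 : ℝ) / 3 - ε) ≤ (3 * k : ℝ) ^ ((4 : ℝ) / 3 - ε) :=
          Real.rpow_le_rpow (Nat.cast_nonneg _) hc' (by linarith)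
      _ = 3 * k * (3 * k : ℝ) ^ ((1 : ℝ) / 3 - ε) := by
          rw [show (4 : ℝ) / 3 - ε = 1 + (1 / 3 - ε) by ring, Real.rpow_add (by positivity),
            Real.rpow_one]
      _ ≤ _ := by
          rw [← Real.mul_rpow (by norm_num) (by positivity)]
          exact mul_le_mul_of_nonneg_left
            (Real.rpow_le_rpow (by positivity) (by linarith) (by linarith)) (by positivity)
  have h3 : ((2 * #P / k + 1 : ℕ) : ℝ) * k ≤ 3 * #P := by
    have : (2 * #P / k + 1) * k ≤ 3 * #P := by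
      have := Nat.div_mul_le_self (2 * #P) k
      rw [add_mul]; omega
    exact_mod_cast this
  rw [h1, Nat.cast_sum]
  refine (sum_le_card_nsmul _ _ _ h2).trans ?_
  rw [card_range, nsmul_eq_mul]
  have h4 : 0 ≤ C * (3 * (3 ^ ((1 : ℝ) / 3 - ε) * ((k : ℝ) + 1) ^ ((1 : ℝ) / 3 - ε))) := by
    positivity
  calc _ = ((2 * #P / k + 1 : ℕ) : ℝ) * k *
        (C * (3 * (3 ^ ((1 : ℝ) / 3 - ε) * ((k : ℝ) + 1) ^ ((1 : ℝ) / 3 - ε)))) := by ring
    _ ≤ _ := mul_le_mul_of_nonneg_right h3 h4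
    _ = _ := by ring

end Crest.Agent.R51
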